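import Crest.Agent.Lib.Thorp.Young
import Crest.Agent.Lib.Thorp.AStub

/-!
# Thorp: step B + C + E assembled: the moment of the tuple kernel.

For a nodup list `l` of the `T = |I|` bits, and a finite type `A` with at least one injective tuple,

`tr (M_l(A)^41) ≤ (|A ↪ W| / (2^T)^|A|) * E_x E_a exp (Wsum l a x)`.
-/

set_option autoImplicit false
set_option linter.unusedSectionVars false

namespace Crest.Agent.Thorp

open Finset Matrix

variable {I : Type*} [Fintype I] [DecidableEq I] {A : Type*} [Fintype A] [DecidableEq A]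

/-- The inner sum, step C + E. -/
theorem sum_Ml_rpow_le (l : List I) (hl : l.Nodup) (x : A ↪ (I → Bool)) :
    ∑ y, Ml l A x y ^ (1 + 1 / (40 : ℝ)) ≤
      (((1 / 2 : ℝ) ^ Fintype.card A) ^ (1 / 40 : ℝ)) ^ l.length *
        avg (fun a : Tab I => Real.exp (Wsum l a x / 40)) := by
  classical
  have h1 : ∑ y : A ↪ (I → Bool), Ml l A x y ^ (1 + 1 / (40 : ℝ)) ≤
      ∑ y : A → I → Bool, Pl l x y ^ (1 + 1 / (40 : ℝ)) := by
    have hinj : Function.Injective (fun y : A ↪ (I → Bool) => (y : A → I → Bool)) :=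
      DFunLike.coe_injective
    calc ∑ y : A ↪ (I → Bool), Ml l A x y ^ (1 + 1 / (40 : ℝ))
        = ∑ y ∈ Finset.image (fun y : A ↪ (I → Bool) => (y : A → I → Bool)) univ,
            Pl l x y ^ (1 + 1 / (40 : ℝ)) := by
          rw [Finset.sum_image (fun a _ b _ h => hinj h)]
          rfl
      _ ≤ _ := Finset.sum_le_univ_sum_of_nonneg fun y =>
          Real.rpow_nonneg (Pl_nonneg l _ _) _
  have h2 := power_mean (κ := 1 / 40) (by norm_num) l hl (x : A → I → Bool) (fun _ => 1)
    (fun _ => zero_le_one)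
  simp only [mul_one, one_mul] at h2
  refine h1.trans (h2.trans ?_)
  refine mul_le_mul_of_nonneg_left ?_ (pow_nonneg (Real.rpow_nonneg (by positivity) _) _)
  rw [avg_prod]
  exact avg_mono fun a => avg_WW_le l hl a (x : A → I → Bool) x.injective

/-- Step B + C + E. -/
theorem trace41_le (l : List I) (hl : l.Nodup) (hlen : l.length = Fintype.card I)
    [Nonempty (A ↪ (I → Bool))] :
    Matrix.trace (Ml l A ^ 41) ≤
      ((Fintype.card (A ↪ (I → Bool)) : ℝ) / ((2 : ℝ) ^ Fintype.card I) ^ Fintype.card A) *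
        avg (fun x : A ↪ (I → Bool) => avg (fun a : Tab I => Real.exp (Wsum l a x))) := by
  classical
  set X := A ↪ (I → Bool) with hX
  set M := Ml l A with hM
  have hcard : (0 : ℝ) < (Fintype.card X : ℝ) := by exact_mod_cast Fintype.card_pos
  have h0 : ∀ x y, 0 ≤ M x y := fun x y => Pl_nonneg l _ _
  have hs : ∀ x y, M x y = M y x := fun x y => Pl_symm l _ _
  have hY := trace_pow_le_young_normalized M h0 hs 39
  have e39 : ((39 : ℕ) : ℝ) + 1 = 40 := by norm_num
  rw [e39] at hY
  refine hY.trans ?_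
  set c : ℝ := 1 / ((2 : ℝ) ^ Fintype.card I) ^ Fintype.card A with hc
  have hc0 : 0 ≤ c := by positivity
  have hterm : ∀ x : X, ((Fintype.card X : ℝ) ^ (1 / (40 : ℝ)) *
      ∑ y, M x y ^ (1 + 1 / (40 : ℝ))) ^ (39 + 1) ≤
      (Fintype.card X : ℝ) * c * avg (fun a : Tab I => Real.exp (Wsum l a x)) := by
    intro x
    have hb := sum_Ml_rpow_le l hl x
    have hsum0 : 0 ≤ ∑ y, M x y ^ (1 + 1 / (40 : ℝ)) :=
      Finset.sum_nonneg fun y _ => Real.rpow_nonneg (h0 x y) _
    set E : ℝ := avg (fun a : Tab I => Real.exp (Wsum l a x / 40)) with hE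
    have hE0 : 0 ≤ E := avg_nonneg fun a => (Real.exp_pos _).le
    -- Jensen
    have hJ : E ^ 40 ≤ avg (fun a : Tab I => Real.exp (Wsum l a x)) := by
      have hcardT : (0 : ℝ) < (Fintype.card (Tab I) : ℝ) := by exact_mod_cast Fintype.card_pos
      have := Real.pow_arith_mean_le_arith_mean_pow (univ : Finset (Tab I))
        (fun _ => 1 / (Fintype.card (Tab I) : ℝ))
        (fun a => Real.exp (Wsum l a x / 40)) (fun _ _ => by positivity)
        (by rw [Finset.sum_const, Finset.card_univ, nsmul_eq_mul]; field_simp)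
        (fun _ _ => (Real.exp_pos _).le) 40
      have e1 : ∀ a : Tab I, Real.exp (Wsum l a x / 40) ^ 40 = Real.exp (Wsum l a x) := by
        intro a
        rw [← Real.exp_nat_mul]
        congr 1
        push_cast
        ring
      simp only [e1] at this
      have e2 : E = ∑ a : Tab I, 1 / (Fintype.card (Tab I) : ℝ) * Real.exp (Wsum l a x / 40) := by
        rw [hE, avg, ← Finset.mul_sum]
        ring
      have e3 : avg (fun a : Tab I => Real.exp (Wsum l a x)) =
          ∑ a : Tab I, 1 / (Fintype.card (Tab I) : ℝ) * Real.exp (Wsum l a x) := by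
        rw [avg, ← Finset.mul_sum]
        ring
      rw [e2, e3]
      exact this
    have e4 : (((Fintype.card X : ℝ) ^ (1 / (40 : ℝ))) ^ (39 + 1) = (Fintype.card X : ℝ)) := by
      rw [← Real.rpow_natCast, ← Real.rpow_mul hcard.le]
      norm_num
    have e5 : ((((1 / 2 : ℝ) ^ Fintype.card A) ^ (1 / 40 : ℝ)) ^ l.length) ^ (39 + 1) = c := by
      have hpos : (0 : ℝ) ≤ (1 / 2 : ℝ) ^ Fintype.card A := by positivity
      rw [← pow_mul, mul_comm, pow_mul, ← Real.rpow_natCast (_ ^ _) (39 + 1),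
        ← Real.rpow_mul hpos]
      norm_num
      rw [hlen, hc, ← pow_mul, ← pow_mul, one_div, inv_pow, mul_comm, one_div]
    calc ((Fintype.card X : ℝ) ^ (1 / (40 : ℝ)) * ∑ y, M x y ^ (1 + 1 / (40 : ℝ))) ^ (39 + 1)
        = (Fintype.card X : ℝ) * (∑ y, M x y ^ (1 + 1 / (40 : ℝ))) ^ (39 + 1) := by
          rw [mul_pow, e4]
      _ ≤ (Fintype.card X : ℝ) * ((((1 / 2 : ℝ) ^ Fintype.card A) ^ (1 / 40 : ℝ)) ^ l.length * E) ^ (39 + 1) := by
          refine mul_le_mul_of_nonneg_left ?_ hcard.le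
          exact pow_le_pow_left₀ hsum0 hb _
      _ = (Fintype.card X : ℝ) * (c * E ^ 40) := by
          rw [mul_pow, e5]
      _ ≤ (Fintype.card X : ℝ) * (c * avg (fun a : Tab I => Real.exp (Wsum l a x))) := by
          refine mul_le_mul_of_nonneg_left ?_ hcard.le
          exact mul_le_mul_of_nonneg_left hJ hc0
      _ = _ := by ring
  calc (1 / (Fintype.card X : ℝ)) * ∑ x, ((Fintype.card X : ℝ) ^ (1 / (40 : ℝ)) *
        ∑ y, M x y ^ (1 + 1 / (40 : ℝ))) ^ (39 + 1)
      ≤ (1 / (Fintype.card X : ℝ)) * ∑ x : X, (Fintype.card X : ℝ) * c *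
          avg (fun a : Tab I => Real.exp (Wsum l a x)) := by
        refine mul_le_mul_of_nonneg_left ?_ (by positivity)
        exact Finset.sum_le_sum fun x _ => hterm x
    _ = _ := by
        rw [← Finset.mul_sum, hc]
        have e6 : avg (fun x : X => avg (fun a : Tab I => Real.exp (Wsum l a x))) =
            (∑ x : X, avg (fun a : Tab I => Real.exp (Wsum l a x))) / (Fintype.card X : ℝ) := rfl
        rw [e6]
        field_simp
        exact mul_comm _ _

/-- The falling factorial. -/
theorem descFactorial_div_pow_le (N k : ℕ) (hN : 0 < N) (hk : k ≤ N) :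
    (N.descFactorial k : ℝ) / (N : ℝ) ^ k ≤
      Real.exp (-((k : ℝ) * ((k : ℝ) - 1)) / (2 * N)) := by
  have hN' : (0 : ℝ) < N := by exact_mod_cast hN
  induction k with
  | zero => simp
  | succ k ih =>
    have hk' : k ≤ N := by omega
    have hkN : k < N := by omega
    have h1 := ih hk'
    rw [Nat.descFactorial_succ]
    have e1 : ((N - k) * N.descFactorial k : ℕ) = ((N - k : ℕ) : ℝ) * (N.descFactorial k : ℝ) := by
      push_cast
      ring
    rw [e1, pow_succ]
    have hle : ((N - k : ℕ) : ℝ) / N ≤ Real.exp (-(k : ℝ) / N) := by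
      rw [Nat.cast_sub hk']
      have := Real.add_one_le_exp (-(k : ℝ) / N)
      have e : ((N : ℝ) - k) / N = -(k : ℝ) / N + 1 := by field_simp; ring
      rw [e]
      exact this
    have hnn : 0 ≤ ((N - k : ℕ) : ℝ) / N := by positivity
    have hnn2 : 0 ≤ (N.descFactorial k : ℝ) / (N : ℝ) ^ k := by positivity
    calc ((N - k : ℕ) : ℝ) * (N.descFactorial k : ℝ) / ((N : ℝ) ^ k * N)
        = (((N - k : ℕ) : ℝ) / N) * ((N.descFactorial k : ℝ) / (N : ℝ) ^ k) := by
          field_simp
      _ ≤ Real.exp (-(k : ℝ) / N) * Real.exp (-((k : ℝ) * ((k : ℝ) - 1)) / (2 * N)) :=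
          mul_le_mul hle h1 hnn2 (Real.exp_pos _).le
      _ = _ := by
          rw [← Real.exp_add]
          congr 1
          push_cast
          field_simp
          ring

end Crest.Agent.Thorp
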