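import Crest.Agent.Lib.Thorp.AssembleA

/-!
# Thorp: the spectral facts on the kernel of `K_l` on injective tuples.

`tupMat (lawOf (Kl l)) κ = Ml l κ`; the operator is positive (`K = Q(B)⁻¹ Q(A)`), its eigenvalues are
in `[0,1]`, the level `j = 0` contributes at most `1`, the level `j = 1` contributes `0`.
-/

set_option autoImplicit false
set_option linter.unusedSectionVars false

namespace Crest.Agent.Thorp

open Finset Matrix
open scoped InnerProductSpace

section General

variable {W : Type*} [Fintype W] [DecidableEq W] {κ : Type*} [Fintype κ] [DecidableEq κ]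

theorem sum_lawOf_mul {C G : Type*} [Fintype C] [Group G] [Fintype G] [DecidableEq G] (F : C → G)
    (h : G → ℝ) : ∑ g, lawOf F g * h g = avg (fun c => h (F c)) := by
  simp_rw [lawOf_eq_avg]
  unfold avg
  simp only [Finset.sum_div, Finset.sum_mul]
  rw [Finset.sum_comm]
  refine Finset.sum_congr rfl fun c _ => ?_
  rw [Finset.sum_eq_single (F c)]
  · rw [if_pos rfl]
    ring
  · intro g _ hg
    rw [if_neg (fun e => hg e.symm)]
    ring
  · simp

theorem tupOp_apply_matrix (μ : Equiv.Perm W → ℝ) (f : TupE κ W) (x : κ ↪ W) :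
    tupOp μ κ f x = ∑ y, tupMat μ κ x y * f y := by
  rw [tupOp_eq_toEuclideanLin]
  simp only [Matrix.toLpLin_apply, Matrix.mulVec, dotProduct]

/-- The eigenvalues of a Markov operator. -/
theorem eig_abs_le_one {μ : Equiv.Perm W → ℝ} (h0 : ∀ g, 0 ≤ μ g) (h1 : ∑ g, μ g = 1)
    {ψ : TupE κ W} (hψ : ψ ≠ 0) {c : ℝ} (h : tupOp μ κ ψ = c • ψ) : |c| ≤ 1 := by
  classical
  have hne : ∃ x, ψ x ≠ 0 := by
    by_contra hcon
    push Not at hcon
    apply hψ
    ext x
    simpa using hcon x
  obtain ⟨x₀, hx₀⟩ := hne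
  have hnon : (univ : Finset (κ ↪ W)).Nonempty := ⟨x₀, mem_univ _⟩
  obtain ⟨x, _, hx⟩ := Finset.exists_max_image univ (fun x => |ψ x|) hnon
  have hpos : 0 < |ψ x| := lt_of_lt_of_le (abs_pos.2 hx₀) (hx x₀ (mem_univ _))
  have e : c * ψ x = ∑ g, μ g * ψ (x.trans g.toEmbedding) := by
    have := congrArg (fun f : TupE κ W => f x) h
    simp only [tupOp_apply, PiLp.smul_apply, smul_eq_mul] at this
    exact this.symm
  have hb : |c| * |ψ x| ≤ 1 * |ψ x| := by
    rw [← abs_mul, e, one_mul]
    calc |∑ g, μ g * ψ (x.trans g.toEmbedding)|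
        ≤ ∑ g, |μ g * ψ (x.trans g.toEmbedding)| := Finset.abs_sum_le_sum_abs _ _
      _ ≤ ∑ g, μ g * |ψ x| := by
          refine Finset.sum_le_sum fun g _ => ?_
          rw [abs_mul, abs_of_nonneg (h0 g)]
          exact mul_le_mul_of_nonneg_left (hx _ (mem_univ _)) (h0 g)
      _ = |ψ x| := by rw [← Finset.sum_mul, h1, one_mul]
  exact le_of_mul_le_mul_right hb hpos

/-- The powers of a positive Markov operator have decreasing traces. -/
theorem trace_pow_add_le {μ : Equiv.Perm W → ℝ} (h0 : ∀ g, 0 ≤ μ g) (h1 : ∑ g, μ g = 1)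
    (hA : (tupOp μ κ).IsPositive) (a b : ℕ) :
    Matrix.trace (tupMat μ κ ^ (a + b)) ≤ Matrix.trace (tupMat μ κ ^ a) := by
  obtain ⟨n, v, l, -, hv0, hl, hAv, htr⟩ :=
    exists_spectral_on hA (S := ⊤) (fun _ _ => Submodule.mem_top)
  rw [← trace_tupOp_pow, ← trace_tupOp_pow, ← trOn_top, ← trOn_top, htr, htr]
  refine Finset.sum_le_sum fun i _ => ?_
  have hle : l i ≤ 1 := (le_abs_self _).trans (eig_abs_le_one h0 h1 (hv0 i) (hAv i))
  exact pow_le_pow_of_le_one (hl i) hle (by omega)

/-- The constants are invariant. -/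
theorem trace_pow_ge_one [Nonempty (κ ↪ W)] {μ : Equiv.Perm W → ℝ} (h1 : ∑ g, μ g = 1)
    (hA : (tupOp μ κ).IsPositive) (T : ℕ) :
    1 ≤ Matrix.trace (tupMat μ κ ^ T) := by
  classical
  set A := tupOp μ κ with hAdef
  let e : TupE κ W := WithLp.toLp 2 fun _ => (1 : ℝ)
  have he : A e = (1 : ℝ) • e := by
    ext x
    simp [hAdef, tupOp_apply, e, h1]
  have he0 : e ≠ 0 := by
    intro h
    obtain ⟨x⟩ := ‹Nonempty (κ ↪ W)›
    have := congrArg (fun f : TupE κ W => f x) h
    simp [e] at this
  have hfin : 1 ≤ Module.finrank ℝ (Module.End.eigenspace A 1) := by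
    have hne : Module.End.eigenspace A 1 ≠ ⊥ := by
      intro hb
      have hmem : e ∈ Module.End.eigenspace A 1 := Module.End.mem_eigenspace_iff.2 he
      rw [hb] at hmem
      exact he0 (Submodule.mem_bot ℝ |>.1 hmem)
    exact Submodule.one_le_finrank_iff.2 hne
  rw [← trace_tupOp_pow, ← trOn_top]
  calc (1 : ℝ) ≤ (1 : ℝ) ^ T * Module.finrank ℝ (Module.End.eigenspace A 1) := by
        rw [one_pow, one_mul]
        exact_mod_cast hfin
    _ = trOn (A ^ T) (Module.End.eigenspace A 1) := (trOn_eigenspace A 1 T).symm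
    _ ≤ trOn (A ^ T) ⊤ := trOn_mono (isPositive_pow hA T) le_top

/-- The level `j = 0`. -/
theorem omegaTr_zero_le {μ : Equiv.Perm W → ℝ} (h1 : ∑ g, μ g = 1)
    (hA : ∀ T : ℕ, (tupOp μ (Fin 0) ^ T).IsPositive) (T : ℕ) :
    omegaTr μ (Fin 0) T ≤ 1 := by
  classical
  have hM : tupMat μ (Fin 0) = 1 := by
    ext x y
    have hxy : x = y := Subsingleton.elim _ _
    subst hxy
    simp only [tupMat, Matrix.one_apply_eq]
    refine Eq.trans ?_ h1
    refine Finset.sum_congr rfl fun g _ => ?_
    rw [if_pos (Subsingleton.elim _ _), mul_one]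
  have e1 : omegaTr μ (Fin 0) T ≤ Matrix.trace (tupMat μ (Fin 0) ^ T) := by
    rw [← trace_tupOp_pow, ← trOn_top]
    exact trOn_mono (hA T) le_top
  refine e1.trans ?_
  rw [hM, one_pow, Matrix.trace_one]
  simp

/-- A vanishing operator on an invariant subspace. -/
theorem omegaTr_eq_zero_of_kills {μ : Equiv.Perm W → ℝ} {κ : Type*} [Fintype κ] [DecidableEq κ]
    (h : ∀ φ ∈ W0 κ W, tupOp μ κ φ = 0) (T : ℕ) :
    omegaTr μ κ (T + 1) = 0 := by
  unfold omegaTr trOn
  have : (tupOp μ κ ^ (T + 1)) ∘ₗ prj (W0 κ W) = 0 := by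
    ext1 x
    simp only [LinearMap.comp_apply, LinearMap.zero_apply]
    rw [pow_succ, Module.End.mul_apply, h _ (prj_mem _ x), map_zero]
  rw [this, map_zero]

end General

section Kl

variable {I : Type*} [Fintype I] [DecidableEq I] {κ : Type*} [Fintype κ] [DecidableEq κ]

theorem tupMat_lawOf_Kl (l : List I) : tupMat (lawOf (Kl l)) κ = Ml l κ := by
  classical
  ext x y
  simp only [tupMat, Ml, Pl]
  rw [sum_lawOf_mul (Kl l) (fun g => if x.trans g.toEmbedding = y then (1 : ℝ) else 0)]
  refine avg_congr fun p => ?_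
  have hiff : x.trans (Kl l p).toEmbedding = y ↔ (fun a => Kl l p (x a)) = (y : κ → I → Bool) := by
    constructor
    · rintro rfl
      rfl
    · intro h
      apply DFunLike.coe_injective
      exact h
  by_cases h : x.trans (Kl l p).toEmbedding = y
  · rw [if_pos h, if_pos (hiff.1 h)]
  · rw [if_neg h, if_neg (fun e => h (hiff.2 e))]

theorem tupOp_lawOf_apply (l : List I) (f : TupE κ (I → Bool)) (x : κ ↪ (I → Bool)) :
    tupOp (lawOf (Kl l)) κ f x = avg (fun p : Tab I × Tab I => f (x.trans (Kl l p).toEmbedding)) := by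
  rw [tupOp_apply]
  exact sum_lawOf_mul (Kl l) (fun g => f (x.trans g.toEmbedding))

/-- `⟨M f, f⟩ = ∑_z (E_A f(Q(A)⁻¹ z))²`. -/
theorem inner_tupOp_eq (l : List I) (f : TupE κ (I → Bool)) :
    ⟪tupOp (lawOf (Kl l)) κ f, f⟫_ℝ =
      ∑ z : κ ↪ (I → Bool),
        (avg (fun a : Tab I => f (z.trans (sweepQ a l)⁻¹.toEmbedding))) ^ 2 := by
  classical
  rw [PiLp.inner_apply]
  simp only [RCLike.inner_apply, conj_trivial, tupOp_lawOf_apply]
  -- expand
  have e1 : ∀ x : κ ↪ (I → Bool),
      f x * avg (fun p : Tab I × Tab I => f (x.trans (Kl l p).toEmbedding)) =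
      avg (fun p : Tab I × Tab I => f (x.trans (Kl l p).toEmbedding) * f x) := by
    intro x
    rw [← avg_const_mul]
    exact avg_congr fun p => mul_comm _ _
  simp only [e1]
  rw [sum_avg_comm, avg_prod]
  have e2 : ∀ a b : Tab I, ∑ x : κ ↪ (I → Bool),
      f (x.trans (Kl l (a, b)).toEmbedding) * f x =
      ∑ z : κ ↪ (I → Bool), f (z.trans (sweepQ b l)⁻¹.toEmbedding) *
        f (z.trans (sweepQ a l)⁻¹.toEmbedding) := by
    intro a b
    rw [← Equiv.sum_comp (transEquiv (sweepQ a l) (κ := κ))
      (fun z : κ ↪ (I → Bool) => f (z.trans (sweepQ b l)⁻¹.toEmbedding) *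
        f (z.trans (sweepQ a l)⁻¹.toEmbedding))]
    refine Finset.sum_congr rfl fun x _ => ?_
    have h1 : ((transEquiv (sweepQ a l) (κ := κ)) x).trans (sweepQ a l)⁻¹.toEmbedding = x := by
      ext t
      simp [transEquiv]
    have h2 : x.trans (Kl l (a, b)).toEmbedding =
        ((transEquiv (sweepQ a l) (κ := κ)) x).trans (sweepQ b l)⁻¹.toEmbedding := by
      ext t
      simp [transEquiv, Kl]
    rw [h1, h2]
  simp only [e2]
  have e3 : ∀ a : Tab I, avg (fun b : Tab I => ∑ z : κ ↪ (I → Bool),
      f (z.trans (sweepQ b l)⁻¹.toEmbedding) * f (z.trans (sweepQ a l)⁻¹.toEmbedding)) =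
      ∑ z : κ ↪ (I → Bool), avg (fun b : Tab I => f (z.trans (sweepQ b l)⁻¹.toEmbedding)) *
        f (z.trans (sweepQ a l)⁻¹.toEmbedding) := by
    intro a
    rw [← sum_avg_comm]
    refine Finset.sum_congr rfl fun z _ => ?_
    rw [mul_comm, ← avg_const_mul]
    exact avg_congr fun b => mul_comm _ _
  simp only [e3]
  rw [← sum_avg_comm]
  refine Finset.sum_congr rfl fun z _ => ?_
  rw [avg_const_mul, sq]

theorem tupOp_isPositive (l : List I) : (tupOp (lawOf (Kl l)) κ).IsPositive := by
  rw [LinearMap.IsPositive.eq_1]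
  refine ⟨?_, fun f => ?_⟩
  · rw [tupOp_eq_toEuclideanLin]
    apply Matrix.isHermitian_iff_isSymmetric.1
    rw [tupMat_lawOf_Kl, Matrix.IsHermitian, Matrix.conjTranspose_eq_transpose_of_trivial]
    exact Ml_symm l
  · rw [inner_tupOp_eq]
    exact Finset.sum_nonneg fun z _ => sq_nonneg _

theorem tupOp_pow_isPositive (l : List I) (T : ℕ) : (tupOp (lawOf (Kl l)) κ ^ T).IsPositive :=
  isPositive_pow (tupOp_isPositive l) T

theorem lawOf_Kl_nonneg (l : List I) (g : Equiv.Perm (I → Bool)) : 0 ≤ lawOf (Kl l) g :=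
  lawOf_nonneg _ _

theorem sum_lawOf_Kl (l : List I) : ∑ g, lawOf (Kl l) g = 1 := sum_lawOf _

/-- A table entry is a uniform bit. -/
theorem avg_eval_eq {X : Type*} [Fintype X] [DecidableEq X] (u : X) (c : Bool) :
    avg (fun a : X → Bool => if a u = c then (1 : ℝ) else 0) = 1 / 2 := by
  have h1 := avg_prod_chi (A := Unit) (fun _ => u) ({()} : Finset Unit)
  have h2 : ¬ EvenFor (fun _ : Unit => u) ({()} : Finset Unit) := by
    intro h
    have := h u
    simp at this
  rw [if_neg h2] at h1
  simp only [Finset.prod_singleton] at h1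
  have h3 : ∀ a : X → Bool, (if a u = c then (1 : ℝ) else 0) =
      1 / 2 + (chi c / 2) * chi (a u) := by
    intro a
    rw [← one_add_chi_mul]
    ring
  simp only [h3]
  rw [avg_add, avg_const, avg_const_mul, h1]
  ring

/-- The kernel on a single word. -/
theorem Pl_single (l : List I) (hl : l.Nodup) (x y : Fin 1 → I → Bool) :
    Pl l x y = if (∀ j, j ∉ l → x 0 j = y 0 j) then (1 / 2 : ℝ) ^ l.length else 0 := by
  classical
  induction l generalizing x y with
  | nil =>
    rw [Pl_nil]
    have hiff : x = y ↔ ∀ j, j ∉ ([] : List I) → x 0 j = y 0 j := by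
      constructor
      · rintro rfl j _
        rfl
      · intro h
        funext t j
        have ht : t = 0 := Subsingleton.elim _ _
        subst ht
        exact h j (by simp)
    by_cases h : x = y
    · rw [if_pos h, if_pos (hiff.1 h)]
      simp
    · rw [if_neg h, if_neg (fun e => h (hiff.2 e))]
  | cons i l ih =>
    have hi : i ∉ l := (List.nodup_cons.1 hl).1
    have hl' : l.Nodup := (List.nodup_cons.1 hl).2
    rw [Pl_cons i l hi]
    simp only [ih hl']
    by_cases h : ∀ j, j ∉ i :: l → x 0 j = y 0 j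
    · rw [if_pos h]
      have hinner : ∀ a b : (I → Bool) → Bool,
          (∀ j, j ∉ l → layer i a (x 0) j = layer i b (y 0) j) ↔
            (b (Function.update (y 0) i false) =
              xor (y 0 i) (xor (x 0 i) (a (Function.update (x 0) i false)))) := by
        intro a b
        constructor
        · intro hh
          have := hh i hi
          simp only [layer_apply, layerFun_same] at this
          rw [this]
          cases y 0 i <;> cases b (Function.update (y 0) i false) <;> rfl
        · intro hh j hj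
          by_cases hji : j = i
          · subst hji
            simp only [layer_apply, layerFun_same]
            rw [hh]
            cases y 0 j <;> cases x 0 j <;>
              cases a (Function.update (x 0) j false) <;> rfl
          · simp only [layer_apply]
            rw [layerFun_ne hji, layerFun_ne hji]
            exact h j (by simp [hji, hj])
      have hb : ∀ a : (I → Bool) → Bool,
          avg (fun b : (I → Bool) → Bool =>
            if (∀ j, j ∉ l → layer i a (x 0) j = layer i b (y 0) j)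
              then (1 / 2 : ℝ) ^ l.length else 0) = (1 / 2 : ℝ) ^ (l.length + 1) := by
        intro a
        have e : ∀ b : (I → Bool) → Bool,
            (if (∀ j, j ∉ l → layer i a (x 0) j = layer i b (y 0) j)
              then (1 / 2 : ℝ) ^ l.length else 0) =
            (1 / 2 : ℝ) ^ l.length *
              (if b (Function.update (y 0) i false) =
                xor (y 0 i) (xor (x 0 i) (a (Function.update (x 0) i false))) then 1 else 0) := by
          intro b
          by_cases hc : b (Function.update (y 0) i false) =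
                xor (y 0 i) (xor (x 0 i) (a (Function.update (x 0) i false)))
          · rw [if_pos ((hinner a b).2 hc), if_pos hc, mul_one]
          · rw [if_neg (fun e => hc ((hinner a b).1 e)), if_neg hc, mul_zero]
        simp only [e]
        rw [avg_const_mul, avg_eval_eq, pow_succ]
      simp only [hb]
      rw [avg_const, List.length_cons]
    · rw [if_neg h]
      push Not at h
      obtain ⟨j, hj, hne⟩ := h
      have hji : j ≠ i := fun e => hj (by simp [e])
      have hjl : j ∉ l := fun e => hj (by simp [e])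
      have hz : ∀ a b : (I → Bool) → Bool,
          ¬ (∀ j, j ∉ l → layer i a (x 0) j = layer i b (y 0) j) := by
        intro a b hh
        have := hh j hjl
        simp only [layer_apply] at this
        rw [layerFun_ne hji, layerFun_ne hji] at this
        exact hne this
      simp only [hz, if_false]
      rw [avg_const, avg_const]

theorem length_of_all (l : List I) (hl : l.Nodup) (hall : ∀ i, i ∈ l) :
    l.length = Fintype.card I := by
  classical
  rw [← List.toFinset_card_of_nodup hl, ← Finset.card_univ]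
  congr 1
  ext i
  simp [hall i]

/-- The level `j = 1`: `K` maps a word to a uniform word. -/
theorem omegaTr_one (l : List I) (hl : l.Nodup) (hall : ∀ i, i ∈ l) (T : ℕ) :
    omegaTr (lawOf (Kl l)) (Fin 1) (T + 1) = 0 := by
  refine omegaTr_eq_zero_of_kills (fun φ hφ => ?_) T
  ext x
  rw [tupOp_apply_matrix, tupMat_lawOf_Kl]
  have h1 : ∀ y : Fin 1 ↪ (I → Bool), Ml l (Fin 1) x y = (1 / 2 : ℝ) ^ l.length := by
    intro y
    simp only [Ml]
    rw [Pl_single l hl, if_pos (fun j hj => absurd (hall j) hj)]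
  simp only [h1]
  have h2 := (mem_W0.1 hφ) 0 x
  have h4 : ∑ y, φ y = 0 := by
    rw [← h2]
    refine Finset.sum_congr ?_ fun _ _ => rfl
    ext y
    simp only [mem_filter, mem_univ, true_and, true_iff]
    intro t ht
    exact absurd (Subsingleton.elim t 0) ht
  rw [← Finset.mul_sum, h4, mul_zero]
  rfl

end Kl

end Crest.Agent.Thorp
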