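import Crest.Agent.Lib.Thorp.NumDefs

/-!
# Thorp: the high levels in total.  See the docstring of `NumDefs`.
-/

set_option autoImplicit false

namespace Crest.Agent.Thorp

open Finset Filter Topology

/-- The constant of the full level. -/
noncomputable def Bfull : ℝ := Real.log 2 / 2 + Real.log 3 / 4 + Real.log (21 / 4) / 8 + Wstar / 2

theorem log_three_le : Real.log 3 ≤ 1.1 := by
  rw [Real.log_le_iff_le_exp (by norm_num : (0 : ℝ) < 3)]
  have h1 : (Real.exp 1.1) ^ 10 = (Real.exp 1) ^ 11 := by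
    rw [← Real.exp_nat_mul, ← Real.exp_nat_mul]
    norm_num
  have h2 : (2.7182818283 : ℝ) ^ 11 ≤ (Real.exp 1) ^ 11 :=
    pow_le_pow_left₀ (by norm_num) Real.exp_one_gt_d9.le 11
  have h3 : (3 : ℝ) ^ 10 ≤ (2.7182818283 : ℝ) ^ 11 := by norm_num
  exact (pow_le_pow_iff_left₀ (by norm_num) (Real.exp_pos _).le (by norm_num)).1
    (h3.trans (h2.trans h1.symm.le))

theorem log_21_4_le : Real.log (21 / 4) ≤ 5 / 3 := by
  rw [Real.log_le_iff_le_exp (by norm_num : (0 : ℝ) < 21 / 4)]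
  have h1 : (Real.exp (5 / 3)) ^ 3 = (Real.exp 1) ^ 5 := by
    rw [← Real.exp_nat_mul, ← Real.exp_nat_mul]
    norm_num
  have h2 : (2.7182818283 : ℝ) ^ 5 ≤ (Real.exp 1) ^ 5 :=
    pow_le_pow_left₀ (by norm_num) Real.exp_one_gt_d9.le 5
  have h3 : (21 / 4 : ℝ) ^ 3 ≤ (2.7182818283 : ℝ) ^ 5 := by norm_num
  exact (pow_le_pow_iff_left₀ (by norm_num) (Real.exp_pos _).le (by norm_num)).1
    (h3.trans (h2.trans h1.symm.le))

theorem Bfull_le : Bfull ≤ 1.28 := by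
  have h : Real.log 9 = 2 * Real.log 3 := by
    rw [show (9 : ℝ) = 3 ^ 2 by norm_num, Real.log_pow]; norm_num
  unfold Bfull Wstar
  rw [h]
  have h2 := Real.log_two_lt_d9
  have h3 := log_three_le
  have h4 := log_21_4_le
  norm_num at h2 h3 ⊢
  linarith

/-- `n! ≤ e n (n/e)^n`. -/
theorem factorial_le_exp (n : ℕ) (hn : 1 ≤ n) :
    (n.factorial : ℝ) ≤ Real.exp 1 * n * ((n : ℝ) ^ n * Real.exp (-(n : ℝ))) := by
  induction n, hn using Nat.le_induction with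
  | base =>
    simp only [Nat.factorial_one, Nat.cast_one, pow_one, one_mul, mul_one]
    rw [← Real.exp_add]
    simp
  | succ n hn ih =>
    have hx : (0 : ℝ) < (n : ℝ) := by exact_mod_cast hn
    have hx1 : (0 : ℝ) < (n : ℝ) + 1 := by linarith
    -- the key inequality
    have key : (n : ℝ) ^ (n + 1) * Real.exp 1 ≤ ((n : ℝ) + 1) ^ (n + 1) := by
      have h1 : (n : ℝ) / ((n : ℝ) + 1) ≤ Real.exp (-(1 / ((n : ℝ) + 1))) := by
        have := Real.add_one_le_exp (-(1 / ((n : ℝ) + 1)))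
        have h2 : -(1 / ((n : ℝ) + 1)) + 1 = (n : ℝ) / ((n : ℝ) + 1) := by
          field_simp
          ring
        linarith
      have h2 := pow_le_pow_left₀ (by positivity) h1 (n + 1)
      rw [← Real.exp_nat_mul, div_pow] at h2
      have h3 : ((n + 1 : ℕ) : ℝ) * (-(1 / ((n : ℝ) + 1))) = -1 := by
        push_cast
        field_simp
      rw [h3, Real.exp_neg, div_le_iff₀ (by positivity)] at h2
      have he : 0 < Real.exp 1 := Real.exp_pos 1
      have h4 : (n : ℝ) ^ (n + 1) * Real.exp 1 ≤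
          ((Real.exp 1)⁻¹ * ((n : ℝ) + 1) ^ (n + 1)) * Real.exp 1 :=
        mul_le_mul_of_nonneg_right h2 he.le
      have h5 : ((Real.exp 1)⁻¹ * ((n : ℝ) + 1) ^ (n + 1)) * Real.exp 1 = ((n : ℝ) + 1) ^ (n + 1) := by
        field_simp
      linarith
    rw [Nat.factorial_succ]
    push_cast
    have hexp : Real.exp (-((n : ℝ) + 1)) = Real.exp (-(n : ℝ)) * (Real.exp 1)⁻¹ := by
      rw [← Real.exp_neg, ← Real.exp_add]
      congr 1
      ring
    rw [hexp]
    have he : 0 < Real.exp 1 := Real.exp_pos 1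
    have hen : 0 < Real.exp (-(n : ℝ)) := Real.exp_pos _
    have step : ((n : ℝ) + 1) * (n.factorial : ℝ) ≤
        ((n : ℝ) + 1) * (Real.exp 1 * n * ((n : ℝ) ^ n * Real.exp (-(n : ℝ)))) :=
      mul_le_mul_of_nonneg_left ih hx1.le
    refine step.trans ?_
    have h6 : Real.exp 1 * ((n : ℝ) + 1) * (((n : ℝ) + 1) ^ (n + 1) * (Real.exp (-(n : ℝ)) * (Real.exp 1)⁻¹)) =
        ((n : ℝ) + 1) * (((n : ℝ) + 1) ^ (n + 1) * Real.exp (-(n : ℝ))) := by
      field_simp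
    rw [h6]
    apply mul_le_mul_of_nonneg_left _ hx1.le
    have h7 : Real.exp 1 * n * ((n : ℝ) ^ n * Real.exp (-(n : ℝ))) =
        ((n : ℝ) ^ (n + 1) * Real.exp 1) * Real.exp (-(n : ℝ)) := by
      rw [pow_succ]
      ring
    rw [h7]
    exact mul_le_mul_of_nonneg_right key hen.le

/-- The bound of one term. -/
theorem high_term_le (N u : ℕ) (hu : 1 ≤ u) (hN : N = 64 * u) :
    ((64 * (u : ℝ) + 1) * Real.exp (-(19 * (u : ℝ)))) ^ 23 *
        ((N.factorial : ℝ) / (N : ℝ) ^ N * Real.exp ((N : ℝ) * Bfull)) ^ 24 ≤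
      (65 ^ 23 * (64 * Real.exp 1) ^ 24) * ((u : ℝ) ^ 47 * Real.exp (-(u : ℝ))) := by
  have hu0 : (1 : ℝ) ≤ (u : ℝ) := by exact_mod_cast hu
  have hupos : (0 : ℝ) < (u : ℝ) := by linarith
  have hNr : (N : ℝ) = 64 * (u : ℝ) := by rw [hN]; push_cast; ring
  have hN1 : 1 ≤ N := by omega
  have hNpos : (0 : ℝ) < (N : ℝ) := by rw [hNr]; positivity
  have hNN : (0 : ℝ) < (N : ℝ) ^ N := by positivity
  have he : 0 < Real.exp 1 := Real.exp_pos 1
  -- first factor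
  have h1 : (64 * (u : ℝ) + 1) ≤ 65 * (u : ℝ) := by linarith
  have h2 : ((64 * (u : ℝ) + 1) * Real.exp (-(19 * (u : ℝ)))) ^ 23 ≤
      (65 * (u : ℝ)) ^ 23 * Real.exp (-(437 * (u : ℝ))) := by
    rw [mul_pow, ← Real.exp_nat_mul]
    have : ((23 : ℕ) : ℝ) * (-(19 * (u : ℝ))) = -(437 * (u : ℝ)) := by push_cast; ring
    rw [this]
    apply mul_le_mul_of_nonneg_right _ (Real.exp_pos _).le
    exact pow_le_pow_left₀ (by positivity) h1 23
  -- second factor
  have h3 : (N.factorial : ℝ) / (N : ℝ) ^ N ≤ Real.exp 1 * N * Real.exp (-(N : ℝ)) := by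
    rw [div_le_iff₀ hNN]
    have := factorial_le_exp N hN1
    calc (N.factorial : ℝ) ≤ Real.exp 1 * N * ((N : ℝ) ^ N * Real.exp (-(N : ℝ))) := this
      _ = _ := by ring
  have h4 : (N.factorial : ℝ) / (N : ℝ) ^ N * Real.exp ((N : ℝ) * Bfull) ≤
      Real.exp 1 * N * Real.exp (0.28 * (N : ℝ)) := by
    have h5 : Real.exp ((N : ℝ) * Bfull) ≤ Real.exp ((N : ℝ) * 1.28) := by
      apply Real.exp_le_exp.2
      exact mul_le_mul_of_nonneg_left Bfull_le hNpos.le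
    calc (N.factorial : ℝ) / (N : ℝ) ^ N * Real.exp ((N : ℝ) * Bfull)
        ≤ (Real.exp 1 * N * Real.exp (-(N : ℝ))) * Real.exp ((N : ℝ) * 1.28) :=
          mul_le_mul h3 h5 (Real.exp_pos _).le (by positivity)
      _ = Real.exp 1 * N * Real.exp (0.28 * (N : ℝ)) := by
          rw [mul_assoc, ← Real.exp_add]
          congr 2
          ring
  have h6 : ((N.factorial : ℝ) / (N : ℝ) ^ N * Real.exp ((N : ℝ) * Bfull)) ^ 24 ≤
      (Real.exp 1 * N * Real.exp (0.28 * (N : ℝ))) ^ 24 :=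
    pow_le_pow_left₀ (by positivity) h4 24
  have h7 : (Real.exp 1 * N * Real.exp (0.28 * (N : ℝ))) ^ 24 =
      (64 * Real.exp 1 * (u : ℝ)) ^ 24 * Real.exp (430.08 * (u : ℝ)) := by
    rw [mul_pow, ← Real.exp_nat_mul, hNr]
    congr 1
    · ring
    · congr 1
      push_cast
      ring
  rw [h7] at h6
  refine (mul_le_mul h2 h6 (by positivity) (by positivity)).trans ?_
  have h8 : Real.exp (-(437 * (u : ℝ))) * Real.exp (430.08 * (u : ℝ)) ≤ Real.exp (-(u : ℝ)) := by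
    rw [← Real.exp_add]
    apply Real.exp_le_exp.2
    nlinarith
  calc (65 * (u : ℝ)) ^ 23 * Real.exp (-(437 * (u : ℝ))) *
        ((64 * Real.exp 1 * (u : ℝ)) ^ 24 * Real.exp (430.08 * (u : ℝ)))
      = (65 ^ 23 * (64 * Real.exp 1) ^ 24) * (u : ℝ) ^ 47 *
        (Real.exp (-(437 * (u : ℝ))) * Real.exp (430.08 * (u : ℝ))) := by
        rw [mul_pow, mul_pow]
        ring
    _ ≤ (65 ^ 23 * (64 * Real.exp 1) ^ 24) * (u : ℝ) ^ 47 * Real.exp (-(u : ℝ)) :=
        mul_le_mul_of_nonneg_left h8 (by positivity)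
    _ = _ := by ring

/-- The high levels in total. -/
theorem high_tendsto :
    Tendsto (fun T : ℕ =>
      ((64 * ((2 ^ T / 64 : ℕ) : ℝ) + 1) * Real.exp (-(19 * ((2 ^ T / 64 : ℕ) : ℝ)))) ^ 23 *
        (((2 ^ T).factorial : ℝ) / ((2 ^ T : ℕ) : ℝ) ^ (2 ^ T) * Real.exp ((2 ^ T : ℕ) * Bfull)) ^ 24) atTop (𝓝 0) := by
  have hu : Tendsto (fun T : ℕ => ((2 ^ T / 64 : ℕ) : ℝ)) atTop atTop := by
    apply tendsto_natCast_atTop_atTop.comp
    rw [tendsto_atTop]
    intro b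
    filter_upwards [eventually_ge_atTop (b + 6)] with T hT
    rw [Nat.le_div_iff_mul_le (by norm_num)]
    have h1 : b < 2 ^ b := Nat.lt_two_pow_self
    have h2 : 2 ^ (b + 6) ≤ 2 ^ T := Nat.pow_le_pow_right (by norm_num) hT
    have h3 : 2 ^ (b + 6) = 2 ^ b * 64 := by ring
    nlinarith
  have hg : Tendsto (fun T : ℕ => (65 ^ 23 * (64 * Real.exp 1) ^ 24) *
      (((2 ^ T / 64 : ℕ) : ℝ) ^ 47 * Real.exp (-((2 ^ T / 64 : ℕ) : ℝ)))) atTop (𝓝 0) := by
    have := (Real.tendsto_pow_mul_exp_neg_atTop_nhds_zero 47).comp hu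
    have h2 := this.const_mul (65 ^ 23 * (64 * Real.exp 1) ^ 24)
    simpa using h2
  refine squeeze_zero' (Eventually.of_forall fun T => by positivity) ?_ hg
  filter_upwards [eventually_ge_atTop 6] with T hT
  have h64 : 2 ^ T = 64 * (2 ^ T / 64) := by
    have : 64 ∣ 2 ^ T := by
      have : (2 : ℕ) ^ 6 ∣ 2 ^ T := pow_dvd_pow 2 hT
      simpa using this
    exact (Nat.mul_div_cancel' this).symm
  have h1 : 1 ≤ 2 ^ T / 64 := by
    have : 2 ^ 6 ≤ 2 ^ T := Nat.pow_le_pow_right (by norm_num) hT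
    rw [Nat.le_div_iff_mul_le (by norm_num)]
    omega
  exact high_term_le (2 ^ T) (2 ^ T / 64) h1 h64

end Crest.Agent.Thorp
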