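import Crest.Agent.Lib.Thorp.NumDefs

/-!
# Thorp: the low levels in total.  See the docstring of `NumDefs`.  `choose_mode` (in `NumDefs`) gives `C(3i,2i) ≥ (27/4)^i/(3i+1)`.
-/

set_option autoImplicit false

namespace Crest.Agent.Thorp

open Finset Filter Topology

private theorem numlow_choose_lower : ∀ (j k : ℕ), j ≤ k → ((k : ℝ) / j) ^ j ≤ (k.choose j : ℝ) := by
  intro j
  induction j with
  | zero => intro k _; simp
  | succ j ih =>
    intro k hk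
    obtain ⟨k', rfl⟩ : ∃ k', k = k' + 1 := ⟨k - 1, by omega⟩
    have hjk : j ≤ k' := by omega
    have h1 : ((k' + 1 : ℕ) : ℝ) * (k'.choose j : ℝ) =
        (((k' + 1).choose (j + 1) : ℕ) : ℝ) * ((j + 1 : ℕ) : ℝ) := by
      exact_mod_cast Nat.add_one_mul_choose_eq k' j
    have hj1 : (0 : ℝ) < ((j + 1 : ℕ) : ℝ) := by positivity
    have hk1 : (0 : ℝ) < ((k' + 1 : ℕ) : ℝ) := by positivity
    have h2 : (((k' + 1).choose (j + 1) : ℕ) : ℝ) =
        ((k' + 1 : ℕ) : ℝ) / ((j + 1 : ℕ) : ℝ) * (k'.choose j : ℝ) := by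
      field_simp
      linarith
    rw [h2, pow_succ']
    have ht : (0 : ℝ) < ((k' + 1 : ℕ) : ℝ) / ((j + 1 : ℕ) : ℝ) := by positivity
    apply mul_le_mul_of_nonneg_left _ ht.le
    rcases Nat.eq_zero_or_pos j with rfl | hj
    · simp
    · have hj0 : (0 : ℝ) < (j : ℝ) := by exact_mod_cast hj
      have hle : ((k' + 1 : ℕ) : ℝ) / ((j + 1 : ℕ) : ℝ) ≤ (k' : ℝ) / j := by
        rw [div_le_div_iff₀ hj1 hj0]
        push_cast
        have : (j : ℝ) ≤ k' := by exact_mod_cast hjk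
        nlinarith
      exact le_trans (pow_le_pow_left₀ ht.le hle j) (ih k' hjk)

private theorem numlow_choose_upper (N j : ℕ) (hj : 1 ≤ j) :
    (N.choose j : ℝ) ≤ Real.exp j * ((N : ℝ) / j) ^ j := by
  have h1 : (N.choose j : ℝ) ≤ ((N : ℝ) ^ j) / (j.factorial : ℝ) := Nat.choose_le_pow_div j N
  have h2 : ((j : ℝ)) ^ j / (j.factorial : ℝ) ≤ Real.exp j :=
    Real.pow_div_factorial_le_exp _ (by positivity) j
  have hj0 : (0 : ℝ) < (j : ℝ) := by exact_mod_cast hj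
  have hf : (0 : ℝ) < (j.factorial : ℝ) := by exact_mod_cast Nat.factorial_pos j
  refine le_trans h1 ?_
  have h3 : ((N : ℝ) ^ j) / (j.factorial : ℝ) =
      ((j : ℝ) ^ j / (j.factorial : ℝ)) * ((N : ℝ) / j) ^ j := by
    rw [div_pow]
    field_simp
  rw [h3]
  exact mul_le_mul_of_nonneg_right h2 (by positivity)

private theorem numlow_exp31 : Real.exp 31 ≤ 2 ^ 45 := by
  have h : Real.exp 31 = Real.exp 1 ^ 31 := by
    rw [← Real.exp_nat_mul]; norm_num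
  rw [h]
  have h1 : Real.exp 1 ≤ 2.7182818286 := Real.exp_one_lt_d9.le
  calc Real.exp 1 ^ 31 ≤ (2.7182818286 : ℝ) ^ 31 := pow_le_pow_left₀ (Real.exp_pos 1).le h1 31
    _ ≤ 2 ^ 45 := by norm_num

/-- Final algebra of regime I. -/
private theorem numlow_algI (j : ℕ) (hj2 : 2 ≤ j) (x U E I : ℝ) (hx : 0 < x)
    (hE0 : 0 ≤ E) (hI0 : 0 ≤ I)
    (hU : U ≤ Real.exp j * x⁻¹ ^ j) (hE : E ≤ Real.exp (24 * j + 12))
    (hI : I ≤ (8 * x) ^ (12 * j)) :
    U * (E * I) ≤ (2 ^ 81 * x ^ 11) ^ j := by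
  have h1 : U * (E * I) ≤ (Real.exp j * x⁻¹ ^ j) * (Real.exp (24 * j + 12) * (8 * x) ^ (12 * j)) :=
    mul_le_mul hU (mul_le_mul hE hI hI0 (Real.exp_pos _).le) (mul_nonneg hE0 hI0)
      (mul_nonneg (Real.exp_pos _).le (pow_nonneg (inv_pos.2 hx).le _))
  refine le_trans h1 ?_
  have hj : (2 : ℝ) ≤ (j : ℝ) := by exact_mod_cast hj2
  have h5 : Real.exp (j : ℝ) * Real.exp (24 * j + 12) ≤ (Real.exp 31) ^ j := by
    rw [← Real.exp_add, ← Real.exp_nat_mul]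
    apply Real.exp_le_exp.2
    nlinarith
  have h6 : x ^ (12 * j) = x ^ j * (x ^ 11) ^ j := by
    rw [← pow_mul, ← pow_add]; congr 1; ring
  have h7 : x⁻¹ ^ j * x ^ j = 1 := by
    rw [← mul_pow, inv_mul_cancel₀ hx.ne', one_pow]
  have h8 : (8 * x) ^ (12 * j) = ((8 : ℝ) ^ 12) ^ j * (x ^ j * (x ^ 11) ^ j) := by
    rw [mul_pow, ← pow_mul, h6]
  have h9 : (Real.exp j * x⁻¹ ^ j) * (Real.exp (24 * j + 12) * (8 * x) ^ (12 * j)) =
      (Real.exp j * Real.exp (24 * j + 12)) * (((8 : ℝ) ^ 12) ^ j * (x ^ 11) ^ j) := by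
    rw [h8]
    calc _ = (Real.exp j * Real.exp (24 * j + 12)) * (((8 : ℝ) ^ 12) ^ j * (x ^ 11) ^ j) *
          (x⁻¹ ^ j * x ^ j) := by ring
      _ = _ := by rw [h7, mul_one]
  rw [h9]
  have h10 : (2 ^ 81 * x ^ 11) ^ j = ((2 : ℝ) ^ 45) ^ j * (((8 : ℝ) ^ 12) ^ j * (x ^ 11) ^ j) := by
    rw [← mul_pow, ← mul_pow]
    congr 1
    have : (2 : ℝ) ^ 81 = 2 ^ 45 * 8 ^ 12 := by norm_num
    rw [this]
    ring
  rw [h10]
  apply mul_le_mul_of_nonneg_right _ (by positivity)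
  exact le_trans h5 (pow_le_pow_left₀ (Real.exp_pos _).le numlow_exp31 j)

/-- Arithmetic of the square root in regime I. -/
private theorem numlow_sI (N j s : ℕ) (h8 : 8 ∣ N) (hj2 : 2 ≤ j) (hj : 256 * j ≤ N)
    (h1 : s * s ≤ j * (N / 8)) (h2 : j * (N / 8) < (s + 1) * (s + 1)) :
    s + 1 ≤ N ∧ j ≤ s + 1 ∧ 4 * (((s + 1 : ℕ) : ℝ) * ((s + 1 : ℕ) : ℝ)) ≤ j * N ∧
      (j : ℝ) * N ≤ 8 * (((s + 1 : ℕ) : ℝ) * ((s + 1 : ℕ) : ℝ)) := by
  have hm_real : ((j * (N / 8) : ℕ) : ℝ) = j * N / 8 := by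
    obtain ⟨c, rfl⟩ := h8
    rw [Nat.mul_div_cancel_left _ (by norm_num)]
    push_cast
    ring
  have h1r : (s : ℝ) * s ≤ j * N / 8 := by
    rw [← hm_real]; exact_mod_cast h1
  have h2r : (j : ℝ) * N / 8 < ((s : ℝ) + 1) * (s + 1) := by
    rw [← hm_real]; exact_mod_cast h2
  have hs0 : (0 : ℝ) ≤ (s : ℝ) := by positivity
  have hj2' : (2 : ℝ) ≤ (j : ℝ) := by exact_mod_cast hj2
  have hjN : (256 : ℝ) * j ≤ N := by exact_mod_cast hj
  have hn : (0 : ℝ) < (N : ℝ) := by linarith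
  have hs45 : 45 * (s : ℝ) ≤ N := by
    by_contra hc
    push Not at hc
    have : (N : ℝ) * N < (45 * s) * (45 * s) := by nlinarith
    nlinarith
  have hNbig : (512 : ℝ) ≤ N := by nlinarith
  have hkN : (s : ℝ) + 1 ≤ N := by linarith
  refine ⟨by exact_mod_cast hkN, ?_, ?_, ?_⟩
  · have : (j : ℝ) ≤ (s : ℝ) + 1 := by
      by_contra hc
      push Not at hc
      have h3 : ((s : ℝ) + 1) * (s + 1) < j * j := by nlinarith
      nlinarith
    exact_mod_cast this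
  · push_cast
    nlinarith
  · push_cast
    linarith

/-- Regime I. -/
private theorem numlow_termI (N j : ℕ) (h8 : 8 ∣ N) (hj2 : 2 ≤ j) (hj : 256 * j ≤ N) :
    (N.choose j : ℝ) * (Real.exp (Rk N (kOf N j)) / ((kOf N j).choose j : ℝ)) ^ 24 ≤
      (2 ^ 81 * ((j : ℝ) / N) ^ 11) ^ j := by
  have hNpos : 0 < N := by omega
  have hn : (0 : ℝ) < (N : ℝ) := by exact_mod_cast hNpos
  have hj0 : (0 : ℝ) < (j : ℝ) := by exact_mod_cast (by omega : 0 < j)
  have hj2' : (2 : ℝ) ≤ (j : ℝ) := by exact_mod_cast hj2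
  have hjN : (256 : ℝ) * j ≤ N := by exact_mod_cast hj
  have hk : kOf N j = Nat.sqrt (j * (N / 8)) + 1 := by
    unfold kOf
    rw [if_pos]
    rw [Nat.le_div_iff_mul_le (by norm_num)]
    omega
  rw [hk]
  obtain ⟨hkN, hjk, hkk, hkk'⟩ := numlow_sI N j (Nat.sqrt (j * (N / 8))) h8 hj2 hj
    (Nat.sqrt_le _) (Nat.lt_succ_sqrt _)
  generalize Nat.sqrt (j * (N / 8)) + 1 = k at hkN hjk hkk hkk' ⊢
  have hkpos : (0 : ℝ) < (k : ℝ) := by
    have : 0 < k := by omega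
    exact_mod_cast this
  -- bound on Rk
  have hp0 : 0 ≤ ((k : ℝ) / N) ^ 2 := by positivity
  have hpeq : ((k : ℝ) / N) ^ 2 = (k : ℝ) * k / (N * N) := by
    rw [div_pow]; ring
  have hp1 : ((k : ℝ) / N) ^ 2 ≤ 0.021 := by
    rw [hpeq, div_le_iff₀ (by positivity)]
    nlinarith
  have hR : Rk N k ≤ j + 1 / 2 := by
    have h3 := Rk_le N k (by omega) hkN
    have h4 := Rhat_le_a _ hp0 hp1
    have h5 : (N : ℝ) * Rhat (((k : ℝ) / N) ^ 2) ≤ N * (3.94 * ((k : ℝ) / N) ^ 2) :=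
      mul_le_mul_of_nonneg_left h4 hn.le
    have h6 : (N : ℝ) * (3.94 * ((k : ℝ) / N) ^ 2) ≤ j := by
      rw [hpeq]
      have : (N : ℝ) * (3.94 * ((k : ℝ) * k / (N * N))) = 3.94 * ((k : ℝ) * k) / N := by
        field_simp
      rw [this, div_le_iff₀ hn]
      nlinarith [mul_nonneg hkpos.le hkpos.le]
    linarith
  have hexp : Real.exp (Rk N k) ^ 24 ≤ Real.exp (24 * j + 12) := by
    rw [← Real.exp_nat_mul]
    apply Real.exp_le_exp.2
    push_cast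
    linarith
  -- binomial
  have hC := numlow_choose_lower j k hjk
  have hCpos : (0 : ℝ) < (k.choose j : ℝ) := lt_of_lt_of_le (by positivity) hC
  have hxpos : (0 : ℝ) < (j : ℝ) / N := by positivity
  have hratio : ((j : ℝ) / k) ^ 2 ≤ 8 * ((j : ℝ) / N) := by
    rw [div_pow, div_le_iff₀ (by positivity)]
    have : 8 * ((j : ℝ) / N) * (k : ℝ) ^ 2 = (8 * j * ((k : ℝ) * k)) / N := by ring
    rw [this, le_div_iff₀ hn]
    nlinarith [mul_pos hj0 hj0, mul_pos hj0 hn]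
  have hCinv : ((k.choose j : ℝ)⁻¹) ^ 24 ≤ (8 * ((j : ℝ) / N)) ^ (12 * j) := by
    have h3 : (k.choose j : ℝ)⁻¹ ≤ ((j : ℝ) / k) ^ j := by
      rw [inv_le_comm₀ hCpos (by positivity)]
      refine le_trans (le_of_eq ?_) hC
      rw [← inv_pow, inv_div]
    calc ((k.choose j : ℝ)⁻¹) ^ 24 ≤ (((j : ℝ) / k) ^ j) ^ 24 :=
          pow_le_pow_left₀ (by positivity) h3 24
      _ = (((j : ℝ) / k) ^ 2) ^ (12 * j) := by
          rw [← pow_mul, ← pow_mul]; congr 1; ring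
      _ ≤ (8 * ((j : ℝ) / N)) ^ (12 * j) := pow_le_pow_left₀ (by positivity) hratio _
  have hU := numlow_choose_upper N j (by omega)
  have hnj : (N : ℝ) / j = ((j : ℝ) / N)⁻¹ := by rw [inv_div]
  rw [hnj] at hU
  have h0 : (N.choose j : ℝ) * (Real.exp (Rk N k) / (k.choose j : ℝ)) ^ 24
      = (N.choose j : ℝ) * (Real.exp (Rk N k) ^ 24 * ((k.choose j : ℝ)⁻¹) ^ 24) := by
    rw [div_eq_mul_inv, mul_pow]
  rw [h0]
  exact numlow_algI j hj2 _ _ _ _ hxpos (by positivity) (by positivity) hU hexp hCinv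

private theorem numlow_choose_mono (j : ℕ) :
    (3 * (j / 2)).choose (2 * (j / 2)) ≤ ((3 * j + 1) / 2).choose j := by
  obtain ⟨i, hi | hi⟩ := Nat.even_or_odd' j
  · subst hi
    have h1 : 2 * i / 2 = i := by omega
    have h2 : (3 * (2 * i) + 1) / 2 = 3 * i := by omega
    rw [h1, h2]
  · subst hi
    have h1 : (2 * i + 1) / 2 = i := by omega
    have h2 : (3 * (2 * i + 1) + 1) / 2 = 3 * i + 2 := by omega
    rw [h1, h2]
    have h3 : (3 * i + 2).choose (2 * i + 1) =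
        (3 * i + 1).choose (2 * i) + (3 * i + 1).choose (2 * i + 1) := Nat.choose_succ_succ _ _
    have h4 : (3 * i).choose (2 * i) ≤ (3 * i + 1).choose (2 * i) :=
      Nat.choose_mono _ (by omega)
    omega

private theorem numlow_mode (i : ℕ) (hi : 1 ≤ i) :
    ((27 : ℝ) / 4) ^ i ≤ (3 * (i : ℝ) + 1) * ((3 * i).choose (2 * i) : ℝ) := by
  have h := choose_mode (3 * i) (2 * i) (by omega)
  have e : 3 * i - 2 * i = i := by omega
  rw [e] at h
  push_cast at h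
  have hi0 : (0 : ℝ) < (i : ℝ) := by exact_mod_cast hi
  have h1 : (3 * (i : ℝ)) ^ (3 * i) =
      ((27 : ℝ) / 4) ^ i * ((2 * (i : ℝ)) ^ (2 * i) * (i : ℝ) ^ i) := by
    have h2 : (2 * (i : ℝ)) ^ (2 * i) = (4 : ℝ) ^ i * (i : ℝ) ^ (2 * i) := by
      rw [mul_pow, pow_mul (2 : ℝ) 2 i]; norm_num
    have h3 : (3 * (i : ℝ)) ^ (3 * i) = (27 : ℝ) ^ i * (i : ℝ) ^ (3 * i) := by
      rw [mul_pow, pow_mul (3 : ℝ) 3 i]; norm_num
    have h4 : (i : ℝ) ^ (3 * i) = (i : ℝ) ^ (2 * i) * (i : ℝ) ^ i := by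
      rw [← pow_add]; congr 1; ring
    rw [h2, h3, h4, div_pow]
    have h5 : (4 : ℝ) ^ i ≠ 0 := by positivity
    field_simp
  have hp : (0 : ℝ) < (2 * (i : ℝ)) ^ (2 * i) * (i : ℝ) ^ i := by positivity
  rw [h1] at h
  have h6 : (3 * (i : ℝ) + 1) * ((3 * i).choose (2 * i) : ℝ) * (2 * (i : ℝ)) ^ (2 * i) * (i : ℝ) ^ i =
      (3 * (i : ℝ) + 1) * ((3 * i).choose (2 * i) : ℝ) * ((2 * (i : ℝ)) ^ (2 * i) * (i : ℝ) ^ i) := by
    ring
  rw [h6] at h
  exact le_of_mul_le_mul_right h hp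

/-- The term as one exponential. -/
private theorem numlow_term_exp (N j k i : ℕ) (R : ℝ) (hN : 0 < N) (hj : 1 ≤ j) (hi : 1 ≤ i)
    (hC : (3 * i).choose (2 * i) ≤ k.choose j) :
    (N.choose j : ℝ) * (Real.exp R / (k.choose j : ℝ)) ^ 24 ≤
      Real.exp ((j : ℝ) + (j : ℝ) * Real.log ((N : ℝ) / j) + 24 * R +
        24 * Real.log (3 * (i : ℝ) + 1) - 24 * ((i : ℝ) * Real.log (27 / 4))) := by
  have hn : (0 : ℝ) < (N : ℝ) := by exact_mod_cast hN
  have hj0 : (0 : ℝ) < (j : ℝ) := by exact_mod_cast hj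
  have hU := numlow_choose_upper N j hj
  have hUe : Real.exp j * ((N : ℝ) / j) ^ j = Real.exp ((j : ℝ) + (j : ℝ) * Real.log ((N : ℝ) / j)) := by
    rw [Real.exp_add, mul_comm (j : ℝ), Real.exp_mul, Real.exp_log (by positivity), Real.rpow_natCast]
  rw [hUe] at hU
  have hi0 : (0 : ℝ) < 3 * (i : ℝ) + 1 := by positivity
  have hM := numlow_mode i hi
  have hC' : ((3 * i).choose (2 * i) : ℝ) ≤ (k.choose j : ℝ) := by exact_mod_cast hC
  have hM' : ((27 : ℝ) / 4) ^ i ≤ (3 * (i : ℝ) + 1) * (k.choose j : ℝ) :=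
    le_trans hM (mul_le_mul_of_nonneg_left hC' hi0.le)
  have hp : (0 : ℝ) < ((27 : ℝ) / 4) ^ i := by positivity
  have hCpos : (0 : ℝ) < (k.choose j : ℝ) := by
    by_contra hc
    have h0 : (k.choose j : ℝ) = 0 := le_antisymm (not_lt.1 hc) (by positivity)
    rw [h0, mul_zero] at hM'
    linarith
  have hinv : (k.choose j : ℝ)⁻¹ ≤
      Real.exp (Real.log (3 * (i : ℝ) + 1) - (i : ℝ) * Real.log (27 / 4)) := by
    have he : Real.exp (Real.log (3 * (i : ℝ) + 1) - (i : ℝ) * Real.log (27 / 4)) =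
        (3 * (i : ℝ) + 1) / ((27 : ℝ) / 4) ^ i := by
      rw [Real.exp_sub, Real.exp_log hi0, mul_comm (i : ℝ), Real.exp_mul,
        Real.exp_log (by norm_num), Real.rpow_natCast]
    rw [he, inv_le_comm₀ hCpos (by positivity), inv_div, div_le_iff₀ hi0]
    linarith
  have h24 : ((k.choose j : ℝ)⁻¹) ^ 24 ≤
      Real.exp (24 * (Real.log (3 * (i : ℝ) + 1) - (i : ℝ) * Real.log (27 / 4))) := by
    refine le_trans (pow_le_pow_left₀ (by positivity) hinv 24) (le_of_eq ?_)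
    rw [← Real.exp_nat_mul]
    norm_num
  have hRe : Real.exp R ^ 24 = Real.exp (24 * R) := by
    rw [← Real.exp_nat_mul]
    norm_num
  have h0 : (N.choose j : ℝ) * (Real.exp R / (k.choose j : ℝ)) ^ 24 =
      (N.choose j : ℝ) * (Real.exp (24 * R) * ((k.choose j : ℝ)⁻¹) ^ 24) := by
    rw [div_eq_mul_inv, mul_pow, hRe]
  rw [h0]
  have h1 : (N.choose j : ℝ) * (Real.exp (24 * R) * ((k.choose j : ℝ)⁻¹) ^ 24) ≤
      Real.exp ((j : ℝ) + (j : ℝ) * Real.log ((N : ℝ) / j)) *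
        (Real.exp (24 * R) *
          Real.exp (24 * (Real.log (3 * (i : ℝ) + 1) - (i : ℝ) * Real.log (27 / 4)))) := by
    apply mul_le_mul hU _ (by positivity) (Real.exp_pos _).le
    exact mul_le_mul_of_nonneg_left h24 (Real.exp_pos _).le
  refine le_trans h1 (le_of_eq ?_)
  rw [← Real.exp_add, ← Real.exp_add]
  congr 1
  ring

private theorem numlow_R (N k : ℕ) (a c : ℝ) (hN : 2 ≤ N) (hkN : k ≤ N) (hc : 0 ≤ c) (ha : 0 ≤ a)
    (hk : 2 * (k : ℝ) ≤ 3 * a + 1) (haN : 32 * a ≤ 3 * N)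
    (hRhat : Rhat (((k : ℝ) / N) ^ 2) ≤ c * ((k : ℝ) / N) ^ 2) :
    Rk N k ≤ c * (9 / 4 * (a * a / N) + 1) + 1 / 2 := by
  have h3 := Rk_le N k hN hkN
  have hn : (0 : ℝ) < (N : ℝ) := by
    have : 0 < N := by omega
    exact_mod_cast this
  have hN2 : (2 : ℝ) ≤ (N : ℝ) := by exact_mod_cast hN
  have h5 : (N : ℝ) * Rhat (((k : ℝ) / N) ^ 2) ≤ N * (c * ((k : ℝ) / N) ^ 2) :=
    mul_le_mul_of_nonneg_left hRhat hn.le
  have h6 : (N : ℝ) * (c * ((k : ℝ) / N) ^ 2) = c * ((k : ℝ) * k / N) := by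
    field_simp
  have hk0 : (0 : ℝ) ≤ (k : ℝ) := by positivity
  have h7 : (k : ℝ) * k / N ≤ 9 / 4 * (a * a / N) + 1 := by
    rw [div_le_iff₀ hn]
    have : (9 / 4 * (a * a / N) + 1) * N = 9 / 4 * (a * a) + N := by field_simp
    rw [this]
    nlinarith
  have h8 : c * ((k : ℝ) * k / N) ≤ c * (9 / 4 * (a * a / N) + 1) :=
    mul_le_mul_of_nonneg_left h7 hc
  linarith

private theorem numlow_core (a n L R lt t il y c Lmax θ lo κ : ℝ)
    (hR : R ≤ c * (9 / 4 * y + 1) + 1 / 2) (hlt : lt ≤ t) (hil : 22.9068 * (a - 1) ≤ 24 * il)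
    (hL : a * L ≤ a * Lmax) (hy : y ≤ θ * a) (hc : 0 ≤ c) (hc2 : c ≤ 3.94)
    (ht : (24 * t + 132) * 1000 ≤ n) (hlo : lo * n ≤ a) (hn : 0 ≤ n) (hκ0 : 0 ≤ κ)
    (hcoef : 1 + Lmax + 54 * c * θ - 22.9068 ≤ -κ) (hκ : 0.006 ≤ κ * lo) :
    a + a * L + 24 * R + 24 * lt - 24 * il ≤ -n / 200 := by
  have h1 : c * y ≤ c * (θ * a) := mul_le_mul_of_nonneg_left hy hc
  have h2 : κ * (lo * n) ≤ κ * a := mul_le_mul_of_nonneg_left hlo hκ0
  have h3 : 0.006 * n ≤ κ * lo * n := mul_le_mul_of_nonneg_right hκ hn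
  have ha0 : 0 ≤ a ∨ a < 0 := le_or_gt 0 a
  have h4 : 0 ≤ a := by
    rcases ha0 with h | h
    · exact h
    · exfalso
      have : κ * lo * n = κ * (lo * n) := by ring
      have h5 : κ * a ≤ 0 := mul_nonpos_of_nonneg_of_nonpos hκ0 h.le
      -- then `κ lo n ≤ 0`, so `n = 0`, contradiction with `ht` unless trivial
      by_cases hn0 : n = 0
      · -- `n = 0`: the statement itself is then vacuous only through `ht`
        subst hn0
        have : lo * 0 = 0 := by ring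
        rw [this] at hlo
        linarith
      · have hnpos : 0 < n := lt_of_le_of_ne hn (Ne.symm hn0)
        nlinarith
  have h6 : (1 + Lmax + 54 * c * θ - 22.9068) * a ≤ -κ * a :=
    mul_le_mul_of_nonneg_right hcoef h4
  have h7 : (24 * t + 132) ≤ n * 0.001 := by linarith
  have h8 : κ * lo * n = κ * (lo * n) := by ring
  nlinarith

private theorem numlow_lg : (1.9089 : ℝ) ≤ Real.log (27 / 4) := by
  have h1 : ((2 : ℝ)) ^ 146 ≤ ((27 : ℝ) / 4) ^ 53 := by norm_num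
  have h2 := Real.log_le_log (by positivity) h1
  rw [Real.log_pow, Real.log_pow] at h2
  have := Real.log_two_gt_d9
  push_cast at h2
  linarith

private theorem numlow_log645 : Real.log (64 / 5) ≤ (2.5502 : ℝ) := by
  have h1 : ((64 : ℝ) / 5) ^ 28 ≤ (2 : ℝ) ^ 103 := by norm_num
  have h2 := Real.log_le_log (by positivity) h1
  rw [Real.log_pow, Real.log_pow] at h2
  have := Real.log_two_lt_d9
  push_cast at h2
  linarith

private theorem numlow_T (T : ℕ) (hT : 20 ≤ T) : (24 * T + 132) * 1000 ≤ 2 ^ T := by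
  induction T, hT using Nat.le_induction with
  | base => norm_num
  | succ T hT ih =>
    rw [pow_succ]
    generalize 2 ^ T = x at ih ⊢
    have h : 24 * (T + 1) + 132 ≤ 2 * (24 * T + 132) := by omega
    calc (24 * (T + 1) + 132) * 1000 ≤ (2 * (24 * T + 132)) * 1000 := Nat.mul_le_mul_right _ h
      _ = ((24 * T + 132) * 1000) * 2 := by ring
      _ ≤ x * 2 := Nat.mul_le_mul_right _ ih

private theorem numlow_logle (x : ℝ) (m : ℕ) (hx : 0 < x) (h : x ≤ 2 ^ m) :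
    Real.log x ≤ m * Real.log 2 := by
  have h2 := Real.log_le_log hx h
  rwa [Real.log_pow] at h2

/-- Regime II. -/
private theorem numlow_termII (N T j : ℕ) (hT : 20 ≤ T) (hN : N = 2 ^ T) (h1 : N < 256 * j)
    (h2 : 32 * j ≤ 3 * N) :
    (N.choose j : ℝ) * (Real.exp (Rk N (kOf N j)) / ((kOf N j).choose j : ℝ)) ^ 24 ≤
      Real.exp (-(N : ℝ) / 200) := by
  have hTN : (24 * T + 132) * 1000 ≤ N := hN ▸ numlow_T T hT
  have hNbig : 1048576 ≤ N := by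
    rw [hN]
    calc 1048576 = 2 ^ 20 := by norm_num
      _ ≤ 2 ^ T := Nat.pow_le_pow_right (by norm_num) hT
  have hk : kOf N j = (3 * j + 1) / 2 := by
    unfold kOf
    rw [if_neg]
    rw [Nat.le_div_iff_mul_le (by norm_num)]
    omega
  rw [hk]
  have hk1 : 2 * ((3 * j + 1) / 2) ≤ 3 * j + 1 := by omega
  have hk2 : 3 * j ≤ 2 * ((3 * j + 1) / 2) := by omega
  have hkN : (3 * j + 1) / 2 ≤ N := by omega
  have hi0 : j ≤ 2 * (j / 2) + 1 := by omega
  have hi1 : 1 ≤ j / 2 := by omega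
  have hi2 : 3 * (j / 2) + 1 ≤ N := by omega
  have hE := numlow_term_exp N j ((3 * j + 1) / 2) (j / 2) (Rk N ((3 * j + 1) / 2)) (by omega)
    (by omega) hi1 (numlow_choose_mono j)
  refine le_trans hE (Real.exp_le_exp.2 ?_)
  generalize (3 * j + 1) / 2 = k at hk1 hk2 hkN ⊢
  generalize j / 2 = i at hi0 hi1 hi2 ⊢
  have hn : (0 : ℝ) < (N : ℝ) := by
    have : 0 < N := by omega
    exact_mod_cast this
  have hnbig : (1048576 : ℝ) ≤ (N : ℝ) := by exact_mod_cast hNbig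
  have ha : (0 : ℝ) < (j : ℝ) := by
    have : 0 < j := by omega
    exact_mod_cast this
  have hk1r : 2 * (k : ℝ) ≤ 3 * (j : ℝ) + 1 := by exact_mod_cast hk1
  have hk2r : 3 * (j : ℝ) ≤ 2 * (k : ℝ) := by exact_mod_cast hk2
  have h2r : 32 * (j : ℝ) ≤ 3 * (N : ℝ) := by exact_mod_cast h2
  have h1r : (N : ℝ) ≤ 256 * (j : ℝ) := by exact_mod_cast h1.le
  have hi0r : (j : ℝ) - 1 ≤ 2 * (i : ℝ) := by
    have : (j : ℝ) ≤ 2 * (i : ℝ) + 1 := by exact_mod_cast hi0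
    linarith
  have hit : (0 : ℝ) ≤ (i : ℝ) := by positivity
  have hil : (22.9068 : ℝ) * ((j : ℝ) - 1) ≤ 24 * ((i : ℝ) * Real.log (27 / 4)) := by
    have := numlow_lg
    have h3 : (i : ℝ) * 1.9089 ≤ (i : ℝ) * Real.log (27 / 4) := mul_le_mul_of_nonneg_left this hit
    linarith
  have hlt : Real.log (3 * (i : ℝ) + 1) ≤ (T : ℝ) := by
    have h3 : 3 * (i : ℝ) + 1 ≤ 2 ^ T := by
      have : ((3 * i + 1 : ℕ) : ℝ) ≤ ((2 ^ T : ℕ) : ℝ) := by
        rw [← hN]; exact_mod_cast hi2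
      push_cast at this
      exact this
    have h4 := numlow_logle _ T (by positivity) h3
    have h5 := Real.log_two_lt_d9
    have h6 : (T : ℝ) * Real.log 2 ≤ (T : ℝ) * 1 :=
      mul_le_mul_of_nonneg_left (by linarith) (by positivity)
    linarith
  have ht : (24 * (T : ℝ) + 132) * 1000 ≤ (N : ℝ) := by exact_mod_cast hTN
  have hk141 : (k : ℝ) ≤ 0.141 * N := by linarith
  have hk0 : (0 : ℝ) ≤ (k : ℝ) := by positivity
  have hp0 : 0 ≤ ((k : ℝ) / N) ^ 2 := by positivity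
  have hp1 : ((k : ℝ) / N) ^ 2 ≤ 0.021 := by
    rw [div_pow, div_le_iff₀ (by positivity)]
    nlinarith
  have hRa := numlow_R N k j 3.94 (by omega) hkN (by norm_num) ha.le hk1r h2r
    (Rhat_le_a _ hp0 hp1)
  have hyle : ∀ θ : ℝ, (j : ℝ) ≤ θ * N → (j : ℝ) * j / N ≤ θ * (j : ℝ) := by
    intro θ hθ
    rw [div_le_iff₀ hn]
    have h3 := mul_le_mul_of_nonneg_left hθ ha.le
    linarith
  have hLle : ∀ θ : ℝ, (N : ℝ) ≤ θ * j → Real.log ((N : ℝ) / j) ≤ Real.log θ := by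
    intro θ hθ
    apply Real.log_le_log (by positivity)
    rwa [div_le_iff₀ ha]
  have hl2 := Real.log_two_lt_d9
  have hlog2 : ∀ m : ℕ, Real.log ((2 : ℝ) ^ m) = m * Real.log 2 := fun m => Real.log_pow _ _
  rcases le_or_gt (32 * j) N with hA | hA
  · have hAr : 32 * (j : ℝ) ≤ (N : ℝ) := by exact_mod_cast hA
    have hL : Real.log ((N : ℝ) / j) ≤ 5.5452 := by
      have h3 := hLle (2 ^ 8) (by norm_num; linarith)
      rw [hlog2] at h3
      push_cast at h3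
      linarith
    exact numlow_core j N _ _ _ T _ _ 3.94 5.5452 (1 / 32) (1 / 256) 9.7 hRa hlt hil
      (mul_le_mul_of_nonneg_left hL ha.le) (hyle _ (by linarith)) (by norm_num) (by norm_num) ht
      (by linarith) hn.le (by norm_num) (by norm_num) (by norm_num)
  rcases le_or_gt (16 * j) N with hB | hB
  · have hAr : (N : ℝ) ≤ 32 * (j : ℝ) := by exact_mod_cast hA.le
    have hBr : 16 * (j : ℝ) ≤ (N : ℝ) := by exact_mod_cast hB
    have hL : Real.log ((N : ℝ) / j) ≤ 3.4658 := by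
      have h3 := hLle (2 ^ 5) (by norm_num; linarith)
      rw [hlog2] at h3
      push_cast at h3
      linarith
    exact numlow_core j N _ _ _ T _ _ 3.94 3.4658 (1 / 16) (1 / 32) 5.1 hRa hlt hil
      (mul_le_mul_of_nonneg_left hL ha.le) (hyle _ (by linarith)) (by norm_num) (by norm_num) ht
      (by linarith) hn.le (by norm_num) (by norm_num) (by norm_num)
  have hBr : (N : ℝ) ≤ 16 * (j : ℝ) := by exact_mod_cast hB.le
  rcases le_or_gt (64 * j) (5 * N) with hC | hC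
  · have hCr : 64 * (j : ℝ) ≤ 5 * (N : ℝ) := by exact_mod_cast hC
    have hL : Real.log ((N : ℝ) / j) ≤ 2.7726 := by
      have h3 := hLle (2 ^ 4) (by norm_num; linarith)
      rw [hlog2] at h3
      push_cast at h3
      linarith
    exact numlow_core j N _ _ _ T _ _ 3.94 2.7726 (5 / 64) (1 / 16) 2.5 hRa hlt hil
      (mul_le_mul_of_nonneg_left hL ha.le) (hyle _ (by linarith)) (by norm_num) (by norm_num) ht
      (by linarith) hn.le (by norm_num) (by norm_num) (by norm_num)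
  · have hCr : 5 * (N : ℝ) ≤ 64 * (j : ℝ) := by exact_mod_cast hC.le
    have hL : Real.log ((N : ℝ) / j) ≤ 2.5502 := by
      have h3 := hLle (64 / 5) (by linarith)
      have := numlow_log645
      linarith
    have hp2 : 0.0137 ≤ ((k : ℝ) / N) ^ 2 := by
      rw [div_pow, le_div_iff₀ (by positivity)]
      have : (15 / 128 : ℝ) * N ≤ k := by linarith
      nlinarith
    have hRb := numlow_R N k j 3.8 (by omega) hkN (by norm_num) ha.le hk1r h2r
      (Rhat_le_b _ hp2 hp1)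
    exact numlow_core j N _ _ _ T _ _ 3.8 2.5502 (3 / 32) (5 / 64) 0.119 hRb hlt hil
      (mul_le_mul_of_nonneg_left hL ha.le) (hyle _ (by linarith)) (by norm_num) (by norm_num) ht
      (by linarith) hn.le (by norm_num) (by norm_num) (by norm_num)

/-- The bound for one term at level `j`, at `T ≥ 20`. -/
private theorem numlow_term (N T j : ℕ) (hT : 20 ≤ T) (hN : N = 2 ^ T) (hj2 : 2 ≤ j)
    (h2 : 32 * j ≤ 3 * N) :
    (N.choose j : ℝ) * (Real.exp (Rk N (kOf N j)) / ((kOf N j).choose j : ℝ)) ^ 24 ≤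
      (2 ^ 81 * ((T : ℝ) / N) ^ 11) ^ 2 + (1 / 128 : ℝ) ^ T + Real.exp (-(N : ℝ) / 200) := by
  have hNpos : 0 < N := by
    rw [hN]; positivity
  have hn : (0 : ℝ) < (N : ℝ) := by exact_mod_cast hNpos
  have hT0 : (0 : ℝ) ≤ (T : ℝ) := by positivity
  have he : 0 < Real.exp (-(N : ℝ) / 200) := Real.exp_pos _
  have hb1 : (0 : ℝ) ≤ (2 ^ 81 * ((T : ℝ) / N) ^ 11) ^ 2 := by positivity
  have hb2 : (0 : ℝ) ≤ (1 / 128 : ℝ) ^ T := by positivity
  rcases lt_or_ge N (256 * j) with h1 | h1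
  · have := numlow_termII N T j hT hN h1 h2
    linarith
  · have h8 : 8 ∣ N := by
      rw [hN]
      exact pow_dvd_pow 2 (by omega : 3 ≤ T)
    have hI := numlow_termI N j h8 hj2 h1
    refine le_trans hI ?_
    have hj0 : (0 : ℝ) ≤ (j : ℝ) := by positivity
    have hx0 : (0 : ℝ) ≤ (j : ℝ) / N := by positivity
    have hxle : (j : ℝ) / N ≤ 1 / 256 := by
      rw [div_le_iff₀ hn]
      have : (256 : ℝ) * j ≤ N := by exact_mod_cast h1
      linarith
    have hbase0 : (0 : ℝ) ≤ 2 ^ 81 * ((j : ℝ) / N) ^ 11 := by positivity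
    have hbase : 2 ^ 81 * ((j : ℝ) / N) ^ 11 ≤ 1 / 128 := by
      calc 2 ^ 81 * ((j : ℝ) / N) ^ 11 ≤ 2 ^ 81 * (1 / 256 : ℝ) ^ 11 :=
            mul_le_mul_of_nonneg_left (pow_le_pow_left₀ hx0 hxle 11) (by positivity)
        _ = 1 / 128 := by norm_num
    rcases le_or_gt j T with hjT | hjT
    · have h3 : (2 ^ 81 * ((j : ℝ) / N) ^ 11) ^ j ≤ (2 ^ 81 * ((j : ℝ) / N) ^ 11) ^ 2 :=
        pow_le_pow_of_le_one hbase0 (by linarith) hj2
      have h4 : (j : ℝ) / N ≤ (T : ℝ) / N := by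
        apply div_le_div_of_nonneg_right _ hn.le
        exact_mod_cast hjT
      have h5 : (2 ^ 81 * ((j : ℝ) / N) ^ 11) ^ 2 ≤ (2 ^ 81 * ((T : ℝ) / N) ^ 11) ^ 2 := by
        apply pow_le_pow_left₀ hbase0
        exact mul_le_mul_of_nonneg_left (pow_le_pow_left₀ hx0 h4 11) (by positivity)
      linarith
    · have h3 : (2 ^ 81 * ((j : ℝ) / N) ^ 11) ^ j ≤ (1 / 128 : ℝ) ^ j :=
        pow_le_pow_left₀ hbase0 hbase j
      have h4 : (1 / 128 : ℝ) ^ j ≤ (1 / 128 : ℝ) ^ T :=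
        pow_le_pow_of_le_one (by norm_num) (by norm_num) hjT.le
      linarith

private theorem numlow_V : Tendsto (fun T : ℕ => (2 : ℝ) ^ 162 * ((T : ℝ) ^ 22 / ((2 : ℝ) ^ 21) ^ T) +
    (1 / 64 : ℝ) ^ T + 200 * (((2 : ℝ) ^ T / 200) ^ 1 * Real.exp (-((2 : ℝ) ^ T / 200)))) atTop
    (𝓝 0) := by
  have h1 : Tendsto (fun T : ℕ => (T : ℝ) ^ 22 / ((2 : ℝ) ^ 21) ^ T) atTop (𝓝 0) :=
    tendsto_pow_const_div_const_pow_of_one_lt 22 (by norm_num)
  have h2 : Tendsto (fun T : ℕ => (1 / 64 : ℝ) ^ T) atTop (𝓝 0) :=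
    tendsto_pow_atTop_nhds_zero_of_lt_one (by norm_num) (by norm_num)
  have h3 : Tendsto (fun T : ℕ => (2 : ℝ) ^ T / 200) atTop atTop :=
    (tendsto_pow_atTop_atTop_of_one_lt (by norm_num)).atTop_div_const (by norm_num)
  have h4 := (Real.tendsto_pow_mul_exp_neg_atTop_nhds_zero 1).comp h3
  have h5 := ((h1.const_mul ((2 : ℝ) ^ 162)).add h2).add (h4.const_mul 200)
  simpa [Function.comp_def] using h5

/-- The low levels in total. -/
theorem low_sum_tendsto :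
    Tendsto (fun T : ℕ => ∑ j ∈ Finset.Icc 2 (6 * (2 ^ T / 64)),
      ((2 ^ T : ℕ).choose j : ℝ) *
        (Real.exp (Rk (2 ^ T) (kOf (2 ^ T) j)) / ((kOf (2 ^ T) j).choose j : ℝ)) ^ 24) atTop (𝓝 0) := by
  refine squeeze_zero' ?_ ?_ numlow_V
  · exact Eventually.of_forall (fun T => Finset.sum_nonneg (fun j _ => by positivity))
  · filter_upwards [eventually_ge_atTop 20] with T hT
    obtain ⟨c, hc⟩ : 64 ∣ 2 ^ T := by
      have : (64 : ℕ) = 2 ^ 6 := by norm_num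
      rw [this]
      exact pow_dvd_pow 2 (by omega)
    have hle : ∀ j ∈ Finset.Icc 2 (6 * (2 ^ T / 64)),
        ((2 ^ T : ℕ).choose j : ℝ) *
          (Real.exp (Rk (2 ^ T) (kOf (2 ^ T) j)) / ((kOf (2 ^ T) j).choose j : ℝ)) ^ 24 ≤
        (2 ^ 81 * ((T : ℝ) / ((2 ^ T : ℕ) : ℝ)) ^ 11) ^ 2 + (1 / 128 : ℝ) ^ T +
          Real.exp (-((2 ^ T : ℕ) : ℝ) / 200) := by
      intro j hj
      rw [Finset.mem_Icc] at hj
      refine numlow_term (2 ^ T) T j hT rfl hj.1 ?_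
      have h1 := hj.2
      rw [hc] at h1 ⊢
      omega
    have hsum := Finset.sum_le_card_nsmul _ _ _ hle
    refine le_trans hsum ?_
    have hcard : (Finset.Icc 2 (6 * (2 ^ T / 64))).card ≤ 2 ^ T := by
      rw [Nat.card_Icc, hc]
      omega
    have hN : (((2 ^ T : ℕ) : ℝ)) = (2 : ℝ) ^ T := by push_cast; ring
    rw [hN, nsmul_eq_mul]
    have hU0 : (0 : ℝ) ≤ (2 ^ 81 * ((T : ℝ) / (2 : ℝ) ^ T) ^ 11) ^ 2 + (1 / 128 : ℝ) ^ T +
          Real.exp (-(2 : ℝ) ^ T / 200) := by positivity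
    have hcard' : ((Finset.Icc 2 (6 * (2 ^ T / 64))).card : ℝ) ≤ (2 : ℝ) ^ T := by
      exact_mod_cast hcard
    refine le_trans (mul_le_mul_of_nonneg_right hcard' hU0) (le_of_eq ?_)
    have hp : (0 : ℝ) < (2 : ℝ) ^ T := by positivity
    have e1 : ((2 : ℝ) ^ 21) ^ T = ((2 : ℝ) ^ T) ^ 21 := by
      rw [← pow_mul, ← pow_mul, mul_comm]
    have e2 : (1 / 64 : ℝ) ^ T = (2 : ℝ) ^ T * (1 / 128 : ℝ) ^ T := by
      rw [← mul_pow]; norm_num
    have e3 : -(2 : ℝ) ^ T / 200 = -((2 : ℝ) ^ T / 200) := by ring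
    rw [e1, e2, e3]
    field_simp

end Crest.Agent.Thorp
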