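import Crest.Agent.Lib.Thorp.AssembleB
import Crest.Agent.Lib.Thorp.NumLow
import Crest.Agent.Lib.Thorp.NumHigh

/-!
# Thorp: the final assembly.

* `trace41_low`: `tr (M_l(Fin k)^41) ≤ exp (Rk N k)`;
* `trace41_full`: `tr (M_l(W)^41) ≤ (N!/N^N) exp (N Bfull)`;
* `trace_low_part`, `trace_high_part`: the split of `tr(M^984)` with the juntas on at most `3N/32` coordinates;
* `trace_Ml_tendsto`: the hypothesis of `tendsto_tv_of_trace_Ml`.
-/

set_option autoImplicit false
set_option linter.unusedSectionVars false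

namespace Crest.Agent.Thorp

open Finset Matrix Filter Topology

section Main

variable {I : Type*} [Fintype I] [DecidableEq I]

theorem card_word : Fintype.card (I → Bool) = 2 ^ Fintype.card I := by
  simp

/-- Small tuples. -/
theorem trace41_low (l : List I) (hl : l.Nodup) (hall : ∀ i, i ∈ l) (hT : 3 ≤ l.length) (k : ℕ)
    (hk : k ≤ 2 ^ Fintype.card I) :
    Matrix.trace (Ml l (Fin k) ^ 41) ≤ Real.exp (Rk (2 ^ Fintype.card I) k) := by
  haveI : Nonempty (Fin k ↪ (I → Bool)) :=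
    Function.Embedding.nonempty_of_card_le (by simpa [card_word] using hk)
  have h1 := trace41_le (A := Fin k) l hl (length_of_all l hl hall)
  have hcard : Fintype.card (Fin k ↪ (I → Bool)) = (2 ^ Fintype.card I).descFactorial k := by
    rw [Fintype.card_embedding_eq, card_word, Fintype.card_fin]
  have hN : 0 < 2 ^ Fintype.card I := by positivity
  have h2 := descFactorial_div_pow_le (2 ^ Fintype.card I) k hN hk
  have h3 := mgf_low l hl hall hT k hk
  refine h1.trans ?_
  rw [hcard, Fintype.card_fin, Rk, Real.exp_add]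
  have e : (((2 : ℝ) ^ Fintype.card I) ^ k) = (((2 ^ Fintype.card I : ℕ) : ℝ)) ^ k := by
    push_cast
    rfl
  rw [e]
  exact mul_le_mul h2 h3 (avg_nonneg fun x => avg_nonneg fun a => (Real.exp_pos _).le)
    (Real.exp_pos _).le

/-- The full tuple. -/
theorem trace41_full (l : List I) (hl : l.Nodup) (hall : ∀ i, i ∈ l) (hT : 3 ≤ l.length) :
    Matrix.trace (Ml l (I → Bool) ^ 41) ≤
      ((2 ^ Fintype.card I).factorial : ℝ) / ((2 ^ Fintype.card I : ℕ) : ℝ) ^ (2 ^ Fintype.card I) *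
        Real.exp ((2 ^ Fintype.card I : ℕ) * Bfull) := by
  haveI : Nonempty ((I → Bool) ↪ (I → Bool)) := ⟨Function.Embedding.refl _⟩
  have h1 := trace41_le (A := I → Bool) l hl (length_of_all l hl hall)
  have hcard : Fintype.card ((I → Bool) ↪ (I → Bool)) = (2 ^ Fintype.card I).factorial := by
    rw [Fintype.card_embedding_eq, card_word, Nat.descFactorial_self]
  have h3 : avg (fun x : (I → Bool) ↪ (I → Bool) =>
      avg (fun a : Tab I => Real.exp (Wsum l a (x : (I → Bool) → (I → Bool))))) ≤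
      Real.exp ((2 ^ Fintype.card I : ℕ) * Bfull) := by
    have : ∀ x : (I → Bool) ↪ (I → Bool), avg (fun a : Tab I =>
        Real.exp (Wsum l a (x : (I → Bool) → (I → Bool)))) ≤
        Real.exp ((2 ^ Fintype.card I : ℕ) * Bfull) := by
      intro x
      refine (avg_mono fun a => Real.exp_le_exp.2 (Wsum_full l hl hall hT x a)).trans ?_
      rw [avg_const]
      simp [Bfull]
    refine (avg_mono this).trans ?_
    rw [avg_const]
  refine h1.trans ?_
  rw [hcard, card_word]
  have e : (((2 : ℝ) ^ Fintype.card I) ^ (2 ^ Fintype.card I)) =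
      (((2 ^ Fintype.card I : ℕ) : ℝ)) ^ (2 ^ Fintype.card I) := by
    push_cast
    rfl
  rw [e]
  exact mul_le_mul_of_nonneg_left h3 (by positivity)

theorem le_kOf (N j : ℕ) (hj : 32 * j ≤ 3 * N) : j ≤ kOf N j := by
  unfold kOf
  split_ifs with h
  · have h1 : j ≤ N / 8 := by
      have : N / 256 ≤ N / 8 := Nat.div_le_div_left (by norm_num) (by norm_num)
      omega
    have h2 : j ≤ Nat.sqrt (j * (N / 8)) := by
      rw [Nat.le_sqrt]
      exact Nat.mul_le_mul_left _ h1
    omega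
  · omega

variable (l : List I) (hl : l.Nodup) (hall : ∀ i, i ∈ l)
include hl hall

/-- One low level. -/
theorem level_bound (hT : 3 ≤ l.length) (N j : ℕ) (hNdef : N = 2 ^ Fintype.card I) (hN12 : 2 ^ 12 ≤ N)
    (hj : 32 * j ≤ 3 * N) :
    omegaTr (lawOf (Kl l)) (Fin j) 984 ≤
      (Real.exp (Rk N (kOf N j)) / ((kOf N j).choose j : ℝ)) ^ 24 := by
  subst hNdef
  set N := 2 ^ Fintype.card I with hNN
  set μ := lawOf (Kl l) with hμ
  set k := kOf N j with hk
  have hkj : k + j ≤ N := kOf_add_le N j hN12 hj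
  have hjk : j ≤ k := le_kOf N j hj
  have hpos : ∀ T : ℕ, (tupOp μ (Fin j) ^ T).IsPositive := fun T => tupOp_pow_isPositive l T
  have h1 : omegaTr μ (Fin j) 984 ≤ omegaTr μ (Fin j) 41 ^ 24 := by
    unfold omegaTr
    have hinv : ∀ x ∈ W0 (Fin j) (I → Bool),
        (tupOp μ (Fin j) ^ 41) x ∈ W0 (Fin j) (I → Bool) := fun x hx => tupOp_pow_mem_W0 μ 41 hx
    have := trOn_pow_le (hpos 41) hinv 24 (by norm_num)
    rw [← pow_mul] at this
    exact this
  have h0 : 0 ≤ omegaTr μ (Fin j) 41 := trOn_nonneg (hpos 41) _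
  have h2 : ((Fintype.card (Fin k)).choose j : ℝ) * omegaTr μ (Fin j) 41 ≤
      Matrix.trace (tupMat μ (Fin k) ^ 41) :=
    choose_mul_omegaTr_le μ 41 j (tupOp_pow_isPositive l 41) (by
      rw [Fintype.card_fin, card_word]
      exact hkj)
  rw [Fintype.card_fin, hμ, tupMat_lawOf_Kl] at h2
  have h3 := trace41_low l hl hall hT k (by omega)
  have hch : (0 : ℝ) < (k.choose j : ℝ) := by exact_mod_cast Nat.choose_pos hjk
  have h4 : omegaTr μ (Fin j) 41 ≤ Real.exp (Rk N k) / (k.choose j : ℝ) := by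
    rw [le_div_iff₀ hch, mul_comm]
    exact h2.trans h3
  exact h1.trans (pow_le_pow_left₀ h0 h4 _)

/-- The low part. -/
theorem trace_low_part (hT : 3 ≤ l.length) (N u : ℕ) (hNdef : N = 2 ^ Fintype.card I)
    (hNu : N = 64 * u) (hu : 64 ≤ u) :
    trOn (tupOp (lawOf (Kl l)) (I → Bool) ^ 984) (juntaSub (I → Bool) (I → Bool) (6 * u)) ≤
      1 + ∑ j ∈ Finset.Icc 2 (6 * u), (N.choose j : ℝ) *
        (Real.exp (Rk N (kOf N j)) / ((kOf N j).choose j : ℝ)) ^ 24 := by
  set μ := lawOf (Kl l) with hμ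
  have h1 := trOn_juntaSub_le (ι := I → Bool) (W := I → Bool) μ 984 (6 * u)
    (tupOp_pow_isPositive l 984) le_rfl
  refine h1.trans ?_
  rw [card_word, ← hNdef, Finset.range_eq_Ico, Finset.sum_eq_sum_Ico_succ_bot (by omega),
    Finset.sum_eq_sum_Ico_succ_bot (by omega)]
  have h0 : ((N.choose 0 : ℕ) : ℝ) * omegaTr μ (Fin 0) 984 ≤ 1 := by
    simpa using omegaTr_zero_le (sum_lawOf_Kl l) (fun T => tupOp_pow_isPositive l T) 984
  have h11 : ((N.choose (0 + 1) : ℕ) : ℝ) * omegaTr μ (Fin (0 + 1)) 984 = 0 := by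
    have := omegaTr_one l hl hall 983
    rw [show (0 + 1 : ℕ) = 1 from rfl]
    norm_num at this
    rw [hμ, this, mul_zero]
  have hIco : Finset.Ico (0 + 1 + 1) (6 * u + 1) = Finset.Icc 2 (6 * u) := by
    ext j
    simp only [Finset.mem_Ico, Finset.mem_Icc]
    omega
  rw [hIco, h11]
  have hN12 : 2 ^ 12 ≤ N := by omega
  have h2 : ∑ j ∈ Finset.Icc 2 (6 * u), ((N.choose j : ℕ) : ℝ) * omegaTr μ (Fin j) 984 ≤
      ∑ j ∈ Finset.Icc 2 (6 * u), (N.choose j : ℝ) *
        (Real.exp (Rk N (kOf N j)) / ((kOf N j).choose j : ℝ)) ^ 24 := by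
    refine Finset.sum_le_sum fun j hj => ?_
    have hj' := (Finset.mem_Icc.1 hj).2
    exact mul_le_mul_of_nonneg_left (level_bound l hl hall hT N j hNdef hN12 (by omega))
      (Nat.cast_nonneg _)
  linarith

/-- The high part. -/
theorem trace_high_part (hT : 3 ≤ l.length) (N u : ℕ) (hNdef : N = 2 ^ Fintype.card I)
    (hNu : N = 64 * u) (hu : 64 ≤ u) :
    trOn (tupOp (lawOf (Kl l)) (I → Bool) ^ 984) (juntaSub (I → Bool) (I → Bool) (6 * u))ᗮ ≤
      ((64 * (u : ℝ) + 1) * Real.exp (-(19 * (u : ℝ)))) ^ 23 *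
        ((N.factorial : ℝ) / (N : ℝ) ^ N * Real.exp ((N : ℝ) * Bfull)) ^ 24 := by
  set μ := lawOf (Kl l) with hμ
  set A := tupOp μ (I → Bool) with hA
  have hApos : A.IsPositive := tupOp_isPositive l
  set S := juntaSub (I → Bool) (I → Bool) (6 * u) with hS
  have hinv : ∀ x ∈ S, A x ∈ S := by
    intro x hx
    have := juntaSub_invariant (ι := I → Bool) μ 1 (6 * u) x hx
    simpa using this
  have hinvO : ∀ x ∈ Sᗮ, A x ∈ Sᗮ := orthogonal_invariant hApos.isSymmetric hinv
  have hu0 : (0 : ℝ) < u := by exact_mod_cast (by omega : 0 < u)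
  set D : ℝ := Real.exp (19 * (u : ℝ)) / (64 * (u : ℝ) + 1) with hD
  have hD0 : 0 < D := by positivity
  have hmult : ∀ (c : ℝ) (ψ : TupE (I → Bool) (I → Bool)), 0 < c → ψ ∈ Sᗮ → ψ ≠ 0 → A ψ = c • ψ →
      D ≤ Module.finrank ℝ (Module.End.eigenspace A c) := by
    intro c ψ hc hψS hψ0 heig
    exact high_mult l hl hall u (by omega) (by omega) c hc ψ hψ0 heig hψS
  have h1 := trOn_high_le hApos hinvO hD0 41 23 (by norm_num) hmult
  norm_num at h1
  refine h1.trans ?_
  -- the trace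
  have hZ : LinearMap.trace ℝ (TupE (I → Bool) (I → Bool)) (A ^ 41) =
      Matrix.trace (Ml l (I → Bool) ^ 41) := by
    rw [hA, trace_tupOp_pow, hμ, tupMat_lawOf_Kl]
  rw [hZ]
  have h2 := trace41_full l hl hall hT
  rw [← hNdef] at h2
  set Z' := Matrix.trace (Ml l (I → Bool) ^ 41) with hZ'
  set Z := (N.factorial : ℝ) / (N : ℝ) ^ N * Real.exp ((N : ℝ) * Bfull) with hZdef
  have hZ0 : 0 ≤ Z' := by
    rw [← hZ]
    exact (isPositive_pow hApos 41).trace_nonneg
  have e : (64 * (u : ℝ) + 1) * Real.exp (-(19 * (u : ℝ))) = 1 / D := by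
    rw [hD, Real.exp_neg]
    field_simp
  rw [e]
  calc (Z' / D) ^ 23 * Z' ≤ (Z / D) ^ 23 * Z := by
        have : 0 ≤ Z' / D := by positivity
        exact mul_le_mul (pow_le_pow_left₀ this (div_le_div_of_nonneg_right h2 hD0.le) _) h2 hZ0
          (by positivity)
    _ = (1 / D) ^ 23 * Z ^ 24 := by
        rw [div_pow, one_div, inv_pow]
        ring

/-- The split of the trace. -/
theorem trace_split (hT : 3 ≤ l.length) (N u : ℕ) (hNdef : N = 2 ^ Fintype.card I)
    (hNu : N = 64 * u) (hu : 64 ≤ u) :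
    Matrix.trace (Ml l (I → Bool) ^ 1024) ≤
      1 + ∑ j ∈ Finset.Icc 2 (6 * u), (N.choose j : ℝ) *
        (Real.exp (Rk N (kOf N j)) / ((kOf N j).choose j : ℝ)) ^ 24 +
      ((64 * (u : ℝ) + 1) * Real.exp (-(19 * (u : ℝ)))) ^ 23 *
        ((N.factorial : ℝ) / (N : ℝ) ^ N * Real.exp ((N : ℝ) * Bfull)) ^ 24 := by
  set μ := lawOf (Kl l) with hμ
  set A := tupOp μ (I → Bool) with hA
  have hApos : A.IsPositive := tupOp_isPositive l
  have h1 : Matrix.trace (Ml l (I → Bool) ^ 1024) ≤ Matrix.trace (Ml l (I → Bool) ^ 984) := by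
    rw [← tupMat_lawOf_Kl]
    exact trace_pow_add_le (lawOf_Kl_nonneg l) (sum_lawOf_Kl l) hApos 984 40
  refine h1.trans ?_
  have h2 : Matrix.trace (Ml l (I → Bool) ^ 984) = trOn (A ^ 984) ⊤ := by
    rw [trOn_top, hA, trace_tupOp_pow, hμ, tupMat_lawOf_Kl]
  set S := juntaSub (I → Bool) (I → Bool) (6 * u) with hS
  have h3 : trOn (A ^ 984) ⊤ = trOn (A ^ 984) S + trOn (A ^ 984) Sᗮ := by
    rw [← trOn_sup_of_isOrtho _ (Submodule.isOrtho_orthogonal_right S),
      Submodule.sup_orthogonal_of_hasOrthogonalProjection]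
  rw [h2, h3]
  exact add_le_add (trace_low_part l hl hall hT N u hNdef hNu hu)
    (trace_high_part l hl hall hT N u hNdef hNu hu)

end Main

section Final

theorem sweepList_nodup (d : ℕ) : (sweepList d (d + 1)).Nodup := by
  unfold sweepList
  refine (List.nodup_range).map_on ?_
  intro a ha b hb h
  have ha' := List.mem_range.1 ha
  have hb' := List.mem_range.1 hb
  have := congrArg Fin.val h
  simp only [bitOf] at this
  omega

theorem sweepList_all (d : ℕ) (i : Fin (d + 1)) : i ∈ sweepList d (d + 1) := by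
  unfold sweepList
  refine List.mem_map.2 ⟨d - i.val, List.mem_range.2 (by omega), ?_⟩
  ext
  simp only [bitOf]
  have := i.2
  omega

/-- The hypothesis of `tendsto_tv_of_trace_Ml`. -/
theorem trace_Ml_tendsto :
    Tendsto (fun d => Matrix.trace (Ml (sweepList d (d + 1)) (Word d) ^ (2 ^ 10)))
      atTop (𝓝 1) := by
  have hlow := low_sum_tendsto.comp (tendsto_add_atTop_nat 1)
  have hhigh := high_tendsto.comp (tendsto_add_atTop_nat 1)
  have hsum := (hlow.const_add 1).add hhigh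
  simp only [add_zero] at hsum
  refine tendsto_of_tendsto_of_tendsto_of_le_of_le' tendsto_const_nhds hsum ?_ ?_
  · refine Eventually.of_forall fun d => ?_
    haveI : Nonempty (Word d ↪ Word d) := ⟨Function.Embedding.refl _⟩
    have := trace_pow_ge_one (κ := Word d) (W := Word d) (sum_lawOf_Kl (sweepList d (d + 1)))
      (tupOp_isPositive (sweepList d (d + 1))) (2 ^ 10)
    rwa [tupMat_lawOf_Kl] at this
  · refine (eventually_ge_atTop 12).mono fun d hd => ?_
    have hcard : Fintype.card (Fin (d + 1)) = d + 1 := Fintype.card_fin _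
    have h2 : (2 : ℕ) ^ 6 ∣ 2 ^ (d + 1) := pow_dvd_pow 2 (by omega)
    have hu : 64 * (2 ^ (d + 1) / 64) = 2 ^ (d + 1) := Nat.mul_div_cancel' h2
    have hu2 : 64 ≤ 2 ^ (d + 1) / 64 := by
      have : (2 : ℕ) ^ 12 ≤ 2 ^ (d + 1) := Nat.pow_le_pow_right (by norm_num) (by omega)
      omega
    have hlen : 3 ≤ (sweepList d (d + 1)).length := by
      simp only [sweepList, List.length_map, List.length_range]
      omega
    have := trace_split (sweepList d (d + 1)) (sweepList_nodup d) (sweepList_all d) hlen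
      (2 ^ (d + 1)) (2 ^ (d + 1) / 64) (by rw [hcard]) hu.symm hu2
    have e1024 : (2 : ℕ) ^ 10 = 1024 := by norm_num
    rw [e1024]
    simpa only [Function.comp_apply, Nat.cast_pow, Nat.cast_ofNat] using this

end Final

end Crest.Agent.Thorp
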