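import Mathlib
import Crest.Prelude.Def_Shuffle

/-!
# The Thorp shuffle: basic facts.

`stepPos` and `iterPos` are bijections, so the bit tables are partitioned according to the
resulting permutation; the probabilities of the permutations sum to one.
-/

set_option autoImplicit false

namespace Crest.Agent.Thorp

open Crest.ProbabilityR.Shuffle

variable {m : ℕ}

theorem stepPos_injective (c : Fin m → Bool) : Function.Injective (stepPos m c) := by
  intro x y h
  have hv : (stepPos m c x).val = (stepPos m c y).val := congrArg Fin.val h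
  simp only [stepPos] at hv
  have hx := x.isLt
  have hy := y.isLt
  have hm : 0 < m := by omega
  have hu : x.val % m = y.val % m := by
    split_ifs at hv <;> omega
  have hc : c ⟨x.val % m, Nat.mod_lt _ hm⟩ = c ⟨y.val % m, Nat.mod_lt _ hm⟩ := by
    congr 1
    exact Fin.ext hu
  have hb : decide (m ≤ x.val) = decide (m ≤ y.val) := by
    have h1 : (xor (decide (m ≤ x.val)) (c ⟨x.val % m, Nat.mod_lt _ hm⟩)) =
        (xor (decide (m ≤ y.val)) (c ⟨y.val % m, Nat.mod_lt _ hm⟩)) := by
      by_contra hne
      cases hA : xor (decide (m ≤ x.val)) (c ⟨x.val % m, Nat.mod_lt _ hm⟩) <;>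
      cases hB : xor (decide (m ≤ y.val)) (c ⟨y.val % m, Nat.mod_lt _ hm⟩) <;>
      simp_all
    rw [hc] at h1
    cases hA : decide (m ≤ x.val) <;> cases hB : decide (m ≤ y.val) <;>
      cases hC : c ⟨y.val % m, Nat.mod_lt _ hm⟩ <;> simp_all
  have hxy : x.val = y.val := by
    by_cases h1 : m ≤ x.val
    · have h2 : m ≤ y.val := by simpa [h1] using hb.symm
      have e1 : x.val % m = x.val - m := by
        rw [Nat.mod_eq_sub_mod h1, Nat.mod_eq_of_lt (by omega)]
      have e2 : y.val % m = y.val - m := by
        rw [Nat.mod_eq_sub_mod h2, Nat.mod_eq_of_lt (by omega)]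
      omega
    · have h2 : ¬ m ≤ y.val := by simpa [h1] using hb.symm
      rw [Nat.mod_eq_of_lt (by omega), Nat.mod_eq_of_lt (by omega)] at hu
      exact hu
  exact Fin.ext hxy

theorem stepPos_bijective (c : Fin m → Bool) : Function.Bijective (stepPos m c) :=
  Finite.injective_iff_bijective.1 (stepPos_injective c)

theorem iterPos_bijective (t : ℕ) (cs : Fin t → Fin m → Bool) : Function.Bijective (iterPos m t cs) := by
  induction t with
  | zero => exact Function.bijective_id
  | succ t ih =>
    have h : iterPos m (t + 1) cs =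
        stepPos m (cs (Fin.last t)) ∘ iterPos m t (fun i => cs i.castSucc) := by
      funext x; rfl
    rw [h]
    exact (stepPos_bijective _).comp (ih _)

/-- The permutation attached to a bit table. -/
noncomputable def permOf (t : ℕ) (cs : Fin t → Fin m → Bool) : Equiv.Perm (Fin (2 * m)) :=
  Equiv.ofBijective (iterPos m t cs) (iterPos_bijective t cs)

@[simp] theorem permOf_apply (t : ℕ) (cs : Fin t → Fin m → Bool) (x : Fin (2 * m)) :
    permOf t cs x = iterPos m t cs x := rfl

/-- The probability of a permutation as a ratio of counts. -/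
theorem uniformProb_eq (t : ℕ) (g : Equiv.Perm (Fin (2 * m))) :
    Crest.FinProb.uniformProb {cs : Fin t → Fin m → Bool | iterPos m t cs = ⇑g} =
      ((Finset.univ.filter (fun cs : Fin t → Fin m → Bool => permOf t cs = g)).card : ℝ) /
        (Fintype.card (Fin t → Fin m → Bool) : ℝ) := by
  unfold Crest.FinProb.uniformProb
  congr 2
  refine congrArg Finset.card ?_
  ext cs
  simp only [Finset.mem_filter, Finset.mem_univ, true_and]
  constructor
  · intro h
    have h' : iterPos m t cs = ⇑g := h
    ext x
    rw [permOf_apply, h']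
  · intro h
    change iterPos m t cs = ⇑g
    rw [← h]
    funext x
    rfl

theorem card_tables (t : ℕ) : Fintype.card (Fin t → Fin m → Bool) = 2 ^ (m * t) := by
  simp [Fintype.card_bool, pow_mul]

/-- The probabilities of the permutations sum to one. -/
theorem sum_uniformProb (t : ℕ) :
    ∑ g : Equiv.Perm (Fin (2 * m)),
      Crest.FinProb.uniformProb {cs : Fin t → Fin m → Bool | iterPos m t cs = ⇑g} = 1 := by
  simp only [uniformProb_eq]
  rw [← Finset.sum_div]
  have h1 : ∑ g : Equiv.Perm (Fin (2 * m)),
      ((Finset.univ.filter (fun cs : Fin t → Fin m → Bool => permOf t cs = g)).card : ℝ) =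
      (Fintype.card (Fin t → Fin m → Bool) : ℝ) := by
    rw [← Nat.cast_sum, ← Finset.card_univ (α := Fin t → Fin m → Bool)]
    congr 1
    exact (Finset.card_eq_sum_card_fiberwise (fun x _ => Finset.mem_univ (permOf t x))).symm
  rw [h1]
  exact div_self (by rw [card_tables]; positivity)

/-- The support lower bound for the total variation distance. -/
theorem tv_ge (t : ℕ) :
    1 - (2 : ℝ) ^ (m * t) / ((2 * m).factorial : ℝ) ≤ tvFromUniform m t := by
  classical
  set P : Equiv.Perm (Fin (2 * m)) → ℝ :=
    fun g => Crest.FinProb.uniformProb {cs : Fin t → Fin m → Bool | iterPos m t cs = ⇑g} with hP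
  set N : ℝ := ((2 * m).factorial : ℝ) with hN
  have hNpos : 0 < N := by rw [hN]; exact_mod_cast Nat.factorial_pos _
  set S : Finset (Equiv.Perm (Fin (2 * m))) :=
    Finset.univ.image (fun cs : Fin t → Fin m → Bool => permOf t cs) with hS
  have hScard : (S.card : ℝ) ≤ (2 : ℝ) ^ (m * t) := by
    have h1 : S.card ≤ Fintype.card (Fin t → Fin m → Bool) := by
      rw [← Finset.card_univ]
      exact Finset.card_image_le
    rw [card_tables] at h1
    exact_mod_cast h1
  have hP0 : ∀ g, g ∉ S → P g = 0 := by
    intro g hg
    simp only [hP]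
    rw [uniformProb_eq]
    have : Finset.univ.filter (fun cs : Fin t → Fin m → Bool => permOf t cs = g) = ∅ := by
      apply Finset.filter_eq_empty_iff.2
      intro cs _ h
      exact hg (Finset.mem_image.2 ⟨cs, Finset.mem_univ _, h⟩)
    rw [this]
    simp
  have hterm : ∀ g, (if g ∈ S then P g - 1 / N else 1 / N) ≤ |P g - 1 / N| := by
    intro g
    split_ifs with h
    · exact le_abs_self _
    · rw [hP0 g h, zero_sub, abs_neg]
      exact le_abs_self _
  have hsum : ∑ g, (if g ∈ S then P g - 1 / N else 1 / N) = 2 - 2 * (S.card / N) := by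
    have h1 : ∑ g, (if g ∈ S then P g - 1 / N else 1 / N) =
        ∑ g, P g + ∑ g, (if g ∈ S then - (1 / N) else 1 / N) := by
      rw [← Finset.sum_add_distrib]
      refine Finset.sum_congr rfl fun g _ => ?_
      split_ifs with h
      · ring
      · rw [hP0 g h]; ring
    have h2 : ∑ g, P g = 1 := sum_uniformProb t
    have h3 : ∑ g : Equiv.Perm (Fin (2 * m)), (if g ∈ S then - (1 / N) else 1 / N) =
        (N - S.card) * (1 / N) - S.card * (1 / N) := by
      rw [Finset.sum_ite]
      have h4 : Finset.univ.filter (fun g => g ∈ S) = S := by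
        ext g; simp
      have h5 : (Finset.univ.filter (fun g => g ∉ S)).card = (2 * m).factorial - S.card := by
        rw [Finset.filter_not, h4, Finset.card_sdiff_of_subset (Finset.subset_univ _),
          Finset.card_univ, Fintype.card_perm, Fintype.card_fin]
      have h6 : S.card ≤ (2 * m).factorial := by
        have := Finset.card_le_univ S
        rwa [Fintype.card_perm, Fintype.card_fin] at this
      simp only [Finset.sum_const, h4, nsmul_eq_mul, h5]
      rw [Nat.cast_sub h6]
      ring
    rw [h1, h2, h3]
    field_simp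
    ring
  have h1 : 2 - 2 * (S.card / N) ≤ ∑ g, |P g - 1 / N| := by
    rw [← hsum]
    exact Finset.sum_le_sum fun g _ => hterm g
  have h2 : tvFromUniform m t = (1 / 2) * ∑ g, |P g - 1 / N| := rfl
  rw [h2]
  have h3 : (S.card : ℝ) / N ≤ (2 : ℝ) ^ (m * t) / N := div_le_div_of_nonneg_right hScard hNpos.le
  linarith

end Crest.Agent.Thorp
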