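import Mathlib

/-!
# Hölder's inequality for Schatten norms of dyadic order, by repeated Cauchy-Schwarz.

For real square matrices `A₁, …, A_N`, `N = 2 ^ r`, `r ≥ 1`:
`(tr (A₁ ⋯ A_N)) ^ N ≤ ∏ tr ((A_i A_iᵀ) ^ (N / 2))`.

Consequence (`trace_pow_mul_pow_le`): `tr (A ^ m (A ^ m)ᵀ) ≤ tr ((A Aᵀ) ^ m)` for `m = 2 ^ r`.
-/

set_option autoImplicit false
set_option linter.unusedSectionVars false
set_option linter.unusedVariables false

namespace Crest.Agent.Thorp

open Matrix

variable {ι : Type*} [Fintype ι] [DecidableEq ι]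

/-- Trace of `M Mᵀ` is nonnegative. -/
theorem trace_mul_transpose_nonneg (M : Matrix ι ι ℝ) : 0 ≤ trace (M * Mᵀ) := by
  simp only [trace, diag_apply, mul_apply, transpose_apply]
  exact Finset.sum_nonneg fun i _ => Finset.sum_nonneg fun j _ => mul_self_nonneg _

/-- Cauchy-Schwarz for the trace. -/
theorem trace_mul_sq_le (A B : Matrix ι ι ℝ) :
    (trace (A * B)) ^ 2 ≤ trace (A * Aᵀ) * trace (B * Bᵀ) := by
  have h1 : trace (A * B) = ∑ p : ι × ι, A p.1 p.2 * B p.2 p.1 := by
    simp only [trace, diag_apply, mul_apply]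
    rw [Fintype.sum_prod_type]
  have h2 : trace (A * Aᵀ) = ∑ p : ι × ι, A p.1 p.2 ^ 2 := by
    simp only [trace, diag_apply, mul_apply, transpose_apply]
    rw [Fintype.sum_prod_type]
    exact Finset.sum_congr rfl fun i _ => Finset.sum_congr rfl fun j _ => by ring
  have h3 : trace (B * Bᵀ) = ∑ p : ι × ι, B p.2 p.1 ^ 2 := by
    simp only [trace, diag_apply, mul_apply, transpose_apply]
    rw [Fintype.sum_prod_type, Finset.sum_comm]
    exact Finset.sum_congr rfl fun i _ => Finset.sum_congr rfl fun j _ => by ring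
  rw [h1, h2, h3]
  exact Finset.sum_mul_sq_le_sq_mul_sq _ _ _


/-- Cyclicity: `tr ((B Z)^k) = tr ((Z B)^k)`. -/
theorem trace_pow_comm (B Z : Matrix ι ι ℝ) (k : ℕ) :
    trace ((B * Z) ^ k) = trace ((Z * B) ^ k) := by
  cases k with
  | zero => simp
  | succ k =>
    have e3 : (B * Z) ^ k * B = B * (Z * B) ^ k := by
      induction k with
      | zero => simp
      | succ k ih2 =>
        rw [pow_succ', pow_succ', mul_assoc, ih2]
        simp only [mul_assoc]
    rw [pow_succ, pow_succ', ← mul_assoc, e3, mul_assoc, trace_mul_comm]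
    rw [mul_assoc, ← pow_succ', ← pow_succ]

theorem trace_pow_nonneg (A : Matrix ι ι ℝ) (k : ℕ) : 0 ≤ trace ((A * Aᵀ) ^ k) := by
  rcases Nat.even_or_odd' k with ⟨j, rfl | rfl⟩
  · have h : (A * Aᵀ) ^ (2 * j) = ((A * Aᵀ) ^ j) * ((A * Aᵀ) ^ j)ᵀ := by
      have hs : (A * Aᵀ)ᵀ = A * Aᵀ := by
        rw [transpose_mul, transpose_transpose]
      rw [transpose_pow, hs, two_mul, pow_add]
    rw [h]
    exact trace_mul_transpose_nonneg _
  · have hs : (A * Aᵀ)ᵀ = A * Aᵀ := by
      rw [transpose_mul, transpose_transpose]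
    have h : (A * Aᵀ) ^ (2 * j + 1) = ((A * Aᵀ) ^ j * A) * ((A * Aᵀ) ^ j * A)ᵀ := by
      rw [transpose_mul, transpose_pow, hs]
      have e : 2 * j + 1 = j + 1 + j := by ring
      rw [e, pow_add, pow_succ]
      simp only [mul_assoc]
    rw [h]
    exact trace_mul_transpose_nonneg _

/-- Merge consecutive pairs of a list of matrices. -/
def pairUp : List (Matrix ι ι ℝ) → List (Matrix ι ι ℝ)
  | [] => []
  | [a] => [a]
  | a :: b :: l => (a * b) :: pairUp l

theorem pairUp_prod (L : List (Matrix ι ι ℝ)) : (pairUp L).prod = L.prod := by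
  induction L using pairUp.induct with
  | case1 => rfl
  | case2 a => rfl
  | case3 a b l ih => simp [pairUp, ih, mul_assoc]

theorem pairUp_length (L : List (Matrix ι ι ℝ)) (n : ℕ) (h : L.length = 2 * n) :
    (pairUp L).length = n := by
  induction L using pairUp.induct generalizing n with
  | case1 => simp at h; simp [pairUp]; omega
  | case2 a => simp at h; omega
  | case3 a b l ih =>
    simp only [List.length_cons] at h
    obtain ⟨k, rfl⟩ : ∃ k, n = k + 1 := ⟨n - 1, by omega⟩
    have := ih k (by omega)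
    simp [pairUp, this]

/-- The alternating word. -/
def altWord (X Y : Matrix ι ι ℝ) : ℕ → List (Matrix ι ι ℝ)
  | 0 => []
  | n + 1 => X :: Y :: altWord X Y n

theorem altWord_length (X Y : Matrix ι ι ℝ) (n : ℕ) : (altWord X Y n).length = 2 * n := by
  induction n with
  | zero => rfl
  | succ n ih => simp [altWord, ih]; omega

theorem altWord_prod (X Y : Matrix ι ι ℝ) (n : ℕ) : (altWord X Y n).prod = (X * Y) ^ n := by
  induction n with
  | zero => simp [altWord]
  | succ n ih =>
    simp only [altWord, List.prod_cons, ih]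
    rw [pow_succ', mul_assoc]

theorem altWord_map_prod (f : Matrix ι ι ℝ → ℝ) (X Y : Matrix ι ι ℝ) (n : ℕ) :
    ((altWord X Y n).map f).prod = (f X) ^ n * (f Y) ^ n := by
  induction n with
  | zero => simp [altWord]
  | succ n ih =>
    simp only [altWord, List.map_cons, List.prod_cons, ih]
    ring

/-- The dyadic Hölder inequality. `Hoe r`: for every list of length `2 ^ (r + 1)`. -/
theorem hoelder_dyadic (r : ℕ) (L : List (Matrix ι ι ℝ)) (hL : L.length = 2 ^ (r + 1)) :
    (trace L.prod) ^ (2 ^ (r + 1)) ≤ (L.map fun A => trace ((A * Aᵀ) ^ (2 ^ r))).prod := by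
  induction r generalizing L with
  | zero =>
    -- two matrices
    match L, hL with
    | [A, B], _ =>
      have := trace_mul_sq_le A B
      simpa using this
  | succ r ih =>
    -- set `N = 2 ^ (r + 1)`
    set N := 2 ^ (r + 1) with hN
    have hNpos : 0 < N := by positivity
    have hN2 : N = 2 * 2 ^ r := by rw [hN, pow_succ]; ring
    -- The comparison for a product of two matrices.
    have key : ∀ B C : Matrix ι ι ℝ, (trace (((B * C) * (B * C)ᵀ) ^ (2 ^ r))) ^ 2 ≤
        trace ((B * Bᵀ) ^ N) * trace ((C * Cᵀ) ^ N) := by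
      intro B C
      set X := C * Cᵀ with hX
      set Y := Bᵀ * B with hY
      have hXs : Xᵀ = X := by rw [hX, transpose_mul, transpose_transpose]
      have hYs : Yᵀ = Y := by rw [hY, transpose_mul, transpose_transpose]
      -- cyclicity
      have h1 : trace (((B * C) * (B * C)ᵀ) ^ (2 ^ r)) = trace ((X * Y) ^ (2 ^ r)) := by
        have e1 : (B * C) * (B * C)ᵀ = B * (X * Bᵀ) := by
          rw [transpose_mul, hX]; simp only [mul_assoc]
        have e2 : X * Y = (X * Bᵀ) * B := (mul_assoc X Bᵀ B).symm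
        rw [e1, e2]
        exact trace_pow_comm _ _ _
      have hw := ih (altWord X Y (2 ^ r)) (by rw [altWord_length]; ring)
      rw [altWord_prod, altWord_map_prod] at hw
      -- `hw : tr ((X Y) ^ (2 ^ r)) ^ (2 ^ (r + 1)) ≤ tr((X Xᵀ)^(2^r))^(2^r) * tr((Y Yᵀ)^(2^r))^(2^r)`
      have hXX : trace ((X * Xᵀ) ^ (2 ^ r)) = trace ((C * Cᵀ) ^ N) := by
        rw [hXs, ← pow_two, ← pow_mul, hN2, mul_comm 2]
      have hYY : trace ((Y * Yᵀ) ^ (2 ^ r)) = trace ((B * Bᵀ) ^ N) := by
        rw [hYs, ← pow_two, ← pow_mul]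
        have hN3 : 2 * 2 ^ r = N := hN2.symm
        rw [hN3]
        -- `tr ((Bᵀ B)^N) = tr ((B Bᵀ)^N)`
        rw [hY]
        exact trace_pow_comm _ _ _
      rw [hXX, hYY] at hw
      -- take `2 ^ r`-th roots
      set t := trace (((B * C) * (B * C)ᵀ) ^ (2 ^ r)) with ht
      have ht0 : 0 ≤ t := trace_pow_nonneg _ _
      have ha : 0 ≤ trace ((C * Cᵀ) ^ N) := trace_pow_nonneg _ _
      have hb : 0 ≤ trace ((B * Bᵀ) ^ N) := trace_pow_nonneg _ _
      rw [← h1] at hw
      have h3 : (t ^ 2) ^ (2 ^ r) ≤ (trace ((B * Bᵀ) ^ N) * trace ((C * Cᵀ) ^ N)) ^ (2 ^ r) := by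
        rw [← pow_mul, mul_pow, mul_comm (trace ((B * Bᵀ) ^ N) ^ _)]
        have e : 2 * 2 ^ r = 2 ^ (r + 1) := by rw [pow_succ]; ring
        rw [e]
        exact hw
      exact le_of_pow_le_pow_left₀ (by positivity) (mul_nonneg hb ha) h3
    -- general lemma on lists: apply to the paired list
    have hlen : (pairUp L).length = N := pairUp_length L N (by rw [hL, hN]; ring)
    have h0 := ih (pairUp L) hlen
    rw [pairUp_prod] at h0
    -- square it
    have h1 : (trace L.prod) ^ (2 ^ (r + 1 + 1)) = ((trace L.prod) ^ N) ^ 2 := by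
      rw [← pow_mul, hN, pow_succ 2 (r + 1)]
    rw [h1]
    have hnn : 0 ≤ ((pairUp L).map fun A => trace ((A * Aᵀ) ^ (2 ^ r))).prod := by
      refine List.prod_nonneg ?_
      intro x hx
      obtain ⟨A, _, rfl⟩ := List.mem_map.1 hx
      exact trace_pow_nonneg _ _
    have hsq : ((trace L.prod) ^ N) ^ 2 ≤ (((pairUp L).map fun A => trace ((A * Aᵀ) ^ (2 ^ r))).prod) ^ 2 := by
      apply pow_le_pow_left₀ _ h0
      rw [hN, pow_succ, pow_mul]
      positivity
    refine hsq.trans ?_
    -- the list comparison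
    clear h0 h1 hsq hnn hlen
    have hlist : ∀ (L : List (Matrix ι ι ℝ)) (n : ℕ), L.length = 2 * n →
        (((pairUp L).map fun A => trace ((A * Aᵀ) ^ (2 ^ r))).prod) ^ 2 ≤
        (L.map fun A => trace ((A * Aᵀ) ^ N)).prod := by
      intro L
      induction L using pairUp.induct with
      | case1 => intro n _; simp [pairUp]
      | case2 a => intro n h; simp at h; omega
      | case3 a b l ih2 =>
        intro n h
        simp only [List.length_cons] at h
        obtain ⟨k, rfl⟩ : ∃ k, n = k + 1 := ⟨n - 1, by omega⟩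
        have h4 := ih2 k (by omega)
        simp only [pairUp, List.map_cons, List.prod_cons]
        rw [mul_pow, ← mul_assoc]
        have h5 := key a b
        refine mul_le_mul h5 h4 (by positivity) ?_
        exact mul_nonneg (trace_pow_nonneg _ _) (trace_pow_nonneg _ _)
    exact hlist L N (by rw [hL, hN]; ring)

/-- The word `A ^ m (Aᵀ) ^ m`. -/
theorem trace_pow_mul_pow_le (A : Matrix ι ι ℝ) (r : ℕ) :
    trace (A ^ (2 ^ r) * (A ^ (2 ^ r))ᵀ) ≤ trace ((A * Aᵀ) ^ (2 ^ r)) := by
  set m := 2 ^ r with hm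
  have hmpos : 0 < m := by positivity
  set L : List (Matrix ι ι ℝ) := List.replicate m A ++ List.replicate m Aᵀ with hL
  have hlen : L.length = 2 ^ (r + 1) := by
    simp [hL, List.length_append, List.length_replicate, pow_succ, hm]
    ring
  have h := hoelder_dyadic r L hlen
  have hprod : L.prod = A ^ m * (A ^ m)ᵀ := by
    simp [hL, List.prod_append, List.prod_replicate, transpose_pow]
  have hvals : (L.map fun B => trace ((B * Bᵀ) ^ (2 ^ r))).prod =
      (trace ((A * Aᵀ) ^ m)) ^ (2 * m) := by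
    have e : trace ((Aᵀ * Aᵀᵀ) ^ m) = trace ((A * Aᵀ) ^ m) := by
      rw [transpose_transpose]
      exact trace_pow_comm _ _ _
    simp only [hL, List.map_append, List.map_replicate, List.prod_append, List.prod_replicate]
    rw [← hm, e, two_mul, pow_add]
  rw [hprod, hvals] at h
  have e : 2 ^ (r + 1) = 2 * m := by rw [pow_succ, hm]; ring
  rw [e] at h
  refine le_of_pow_le_pow_left₀ (by omega) (trace_pow_nonneg _ _) h

end Crest.Agent.Thorp
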