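import Mathlib
import Crest.Agent.Lib.Thorp.Basic
import Crest.Agent.Lib.Thorp.Hoelder

/-!
# Convolution powers on a finite group and the `L²` bound for the Thorp shuffle.

* `tvU μ`: total variation distance from the uniform law; `tvU_le_sqrt`: `TV ≤ ½ √(Z - 1)`.
* `convMat μ`: the translation matrix `(g, h) ↦ μ (h g⁻¹)`, with
  `convMat μ * convMat ν = convMat (conv ν μ)`.
* `cpow μ k`: convolution powers; `tvU_cpow_le`: `TV (μ^{*2^r}) ≤ ½ √(tr (M ^ 2 ^ r) - 1)`,
  `M = A Aᵀ`, `A = convMat μ`.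
* `lawOf F`: the law of `F c`, `c` uniform; `lawT m t`: law of `t` Thorp rounds,
  `lawT_add`, `tvFromUniform_eq`, and the final `tvFromUniform_le`.
-/

set_option autoImplicit false
set_option linter.unusedSectionVars false
set_option linter.unusedVariables false

namespace Crest.Agent.Thorp

open Finset Matrix

section Group

variable {G : Type*} [Group G] [Fintype G] [DecidableEq G]

/-- Total variation distance from the uniform law. -/
noncomputable def tvU (μ : G → ℝ) : ℝ := (1 / 2) * ∑ g, |μ g - 1 / (Fintype.card G : ℝ)|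

/-- Convolution: the law of `x * y`, `x ~ μ`, `y ~ ν`. -/
noncomputable def conv (μ ν : G → ℝ) (z : G) : ℝ := ∑ y, μ y * ν (y⁻¹ * z)

/-- `∑ z, f (y * z) = ∑ z, f z`. -/
theorem sum_mul_left' (f : G → ℝ) (y : G) : ∑ z, f (y * z) = ∑ z, f z :=
  Equiv.sum_comp (Equiv.mulLeft y) f

theorem sum_mul_right' (f : G → ℝ) (y : G) : ∑ z, f (z * y) = ∑ z, f z :=
  Equiv.sum_comp (Equiv.mulRight y) f

theorem sum_inv' (f : G → ℝ) : ∑ z, f (z⁻¹) = ∑ z, f z :=
  Equiv.sum_comp (Equiv.inv G) f

theorem sum_conv (μ ν : G → ℝ) : ∑ z, conv μ ν z = (∑ y, μ y) * ∑ z, ν z := by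
  unfold conv
  rw [Finset.sum_comm, Finset.sum_mul]
  refine Finset.sum_congr rfl fun y _ => ?_
  rw [← Finset.mul_sum, sum_mul_left' ν y⁻¹]

theorem conv_nonneg {μ ν : G → ℝ} (h0 : ∀ g, 0 ≤ μ g) (h1 : ∀ g, 0 ≤ ν g) (z : G) :
    0 ≤ conv μ ν z :=
  Finset.sum_nonneg fun y _ => mul_nonneg (h0 y) (h1 _)

theorem tvU_nonneg (μ : G → ℝ) : 0 ≤ tvU μ := by
  unfold tvU
  exact mul_nonneg (by norm_num) (Finset.sum_nonneg fun g _ => abs_nonneg _)

/-- Convolving with a probability law on the left does not increase the distance. -/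
theorem tvU_conv_le_right {μ : G → ℝ} (ν : G → ℝ) (h0 : ∀ g, 0 ≤ μ g) (h1 : ∑ g, μ g = 1) :
    tvU (conv μ ν) ≤ tvU ν := by
  unfold tvU
  refine mul_le_mul_of_nonneg_left ?_ (by norm_num)
  set c : ℝ := 1 / (Fintype.card G : ℝ)
  have hz : ∀ z, |conv μ ν z - c| ≤ ∑ y, μ y * |ν (y⁻¹ * z) - c| := by
    intro z
    have e : conv μ ν z - c = ∑ y, μ y * (ν (y⁻¹ * z) - c) := by
      unfold conv
      simp only [mul_sub, Finset.sum_sub_distrib]
      rw [← Finset.sum_mul, h1, one_mul]
    rw [e]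
    refine (Finset.abs_sum_le_sum_abs _ _).trans (le_of_eq ?_)
    refine Finset.sum_congr rfl fun y _ => ?_
    rw [abs_mul, abs_of_nonneg (h0 y)]
  refine (Finset.sum_le_sum fun z _ => hz z).trans (le_of_eq ?_)
  rw [Finset.sum_comm]
  simp only [← Finset.mul_sum]
  have : ∀ y : G, ∑ z, |ν (y⁻¹ * z) - c| = ∑ z, |ν z - c| := fun y =>
    sum_mul_left' (fun z => |ν z - c|) y⁻¹
  simp only [this]
  rw [← Finset.sum_mul, h1, one_mul]

/-- `L²` bound: `TV ≤ ½ √(|G| ∑ μ² - 1)`. -/
theorem tvU_le_sqrt {μ : G → ℝ} (h1 : ∑ g, μ g = 1) :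
    tvU μ ≤ (1 / 2) * Real.sqrt ((Fintype.card G : ℝ) * ∑ g, μ g ^ 2 - 1) := by
  unfold tvU
  refine mul_le_mul_of_nonneg_left ?_ (by norm_num)
  set n : ℝ := (Fintype.card G : ℝ) with hn
  have hnpos : 0 < n := by
    rw [hn]; exact_mod_cast Fintype.card_pos
  have hcs : (∑ g, |μ g - 1 / n|) ^ 2 ≤ n * ∑ g, (μ g - 1 / n) ^ 2 := by
    have := @sq_sum_le_card_mul_sum_sq G ℝ _ _ _ _ Finset.univ (fun g => |μ g - 1 / n|)
    simpa [sq_abs, hn, Finset.card_univ] using this
  have hsq : n * ∑ g, (μ g - 1 / n) ^ 2 = n * ∑ g, μ g ^ 2 - 1 := by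
    have e : ∑ g, (μ g - 1 / n) ^ 2 = ∑ g, μ g ^ 2 - 2 * (1 / n) * ∑ g, μ g + n * (1 / n) ^ 2 := by
      have : ∀ g, (μ g - 1 / n) ^ 2 = μ g ^ 2 - 2 * (1 / n) * μ g + (1 / n) ^ 2 := fun g => by ring
      rw [Finset.sum_congr rfl fun g _ => this g, Finset.sum_add_distrib, Finset.sum_sub_distrib,
        ← Finset.mul_sum, Finset.sum_const, Finset.card_univ, nsmul_eq_mul]
    rw [e, h1]
    field_simp
    ring
  rw [hsq] at hcs
  exact Real.le_sqrt_of_sq_le hcs

/-- The translation matrix of `μ`. -/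
def convMat (μ : G → ℝ) : Matrix G G ℝ := fun g h => μ (h * g⁻¹)

theorem convMat_mul (μ ν : G → ℝ) : convMat μ * convMat ν = convMat (conv ν μ) := by
  ext g h
  simp only [Matrix.mul_apply, convMat, conv]
  -- `k = x g`
  have e1 : ∑ k, μ (k * g⁻¹) * ν (h * k⁻¹) = ∑ x, μ x * ν (h * (x * g)⁻¹) := by
    rw [← sum_mul_right' (fun k => μ (k * g⁻¹) * ν (h * k⁻¹)) g]
    simp
  rw [e1]
  -- `y = (h g⁻¹) x⁻¹`
  have e2 : ∑ y, ν y * μ (y⁻¹ * (h * g⁻¹)) = ∑ x, ν (h * g⁻¹ * x⁻¹) * μ x := by
    rw [← Equiv.sum_comp ((Equiv.inv G).trans (Equiv.mulLeft (h * g⁻¹)))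
      (fun y => ν y * μ (y⁻¹ * (h * g⁻¹)))]
    refine Finset.sum_congr rfl fun x _ => ?_
    simp only [Equiv.trans_apply, Equiv.inv_apply, Equiv.coe_mulLeft]
    congr 2
    group
  rw [e2]
  refine Finset.sum_congr rfl fun x _ => ?_
  rw [mul_comm]
  congr 2
  group

theorem trace_convMat_mul_transpose (μ : G → ℝ) :
    trace (convMat μ * (convMat μ)ᵀ) = (Fintype.card G : ℝ) * ∑ g, μ g ^ 2 := by
  simp only [trace, diag_apply, mul_apply, transpose_apply, convMat]
  have : ∀ g : G, ∑ h, μ (h * g⁻¹) * μ (h * g⁻¹) = ∑ z, μ z ^ 2 := by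
    intro g
    rw [← sum_mul_right' (fun z => μ z ^ 2) g⁻¹]
    exact Finset.sum_congr rfl fun h _ => by ring
  simp only [this, Finset.sum_const, Finset.card_univ, nsmul_eq_mul]

/-- The point mass at `1`. -/
def delta (z : G) : ℝ := if z = 1 then 1 else 0

theorem convMat_delta : convMat (delta : G → ℝ) = 1 := by
  ext g h
  simp only [convMat, delta, Matrix.one_apply]
  by_cases hh : g = h
  · subst hh; simp
  · have : h * g⁻¹ ≠ 1 := fun e => hh (mul_inv_eq_one.1 e).symm
    simp [this, hh]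

/-- Convolution powers. -/
noncomputable def cpow (μ : G → ℝ) : ℕ → G → ℝ
  | 0 => delta
  | k + 1 => conv μ (cpow μ k)

theorem convMat_cpow (μ : G → ℝ) (k : ℕ) : convMat (cpow μ k) = convMat μ ^ k := by
  induction k with
  | zero => simp [cpow, convMat_delta]
  | succ k ih =>
    rw [pow_succ, ← ih, convMat_mul, cpow]

theorem sum_delta : ∑ z : G, (delta z : ℝ) = 1 := by
  simp [delta]

theorem sum_cpow {μ : G → ℝ} (h1 : ∑ g, μ g = 1) (k : ℕ) : ∑ z, cpow μ k z = 1 := by
  induction k with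
  | zero => exact sum_delta
  | succ k ih => rw [cpow, sum_conv, h1, ih, one_mul]

/-- `TV (μ ^ {* 2 ^ r}) ≤ ½ √(tr ((A Aᵀ) ^ 2 ^ r) - 1)`. -/
theorem tvU_cpow_le {μ : G → ℝ} (h1 : ∑ g, μ g = 1) (r : ℕ) :
    tvU (cpow μ (2 ^ r)) ≤
      (1 / 2) * Real.sqrt (trace ((convMat μ * (convMat μ)ᵀ) ^ (2 ^ r)) - 1) := by
  refine (tvU_le_sqrt (sum_cpow h1 _)).trans ?_
  refine mul_le_mul_of_nonneg_left (Real.sqrt_le_sqrt ?_) (by norm_num)
  have := trace_pow_mul_pow_le (convMat μ) r
  rw [← convMat_cpow, trace_convMat_mul_transpose] at this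
  linarith

end Group

section Law

variable {C G : Type*} [Fintype C] [Group G] [Fintype G] [DecidableEq G]

/-- The law of `F c`, `c` uniform on `C`. -/
noncomputable def lawOf (F : C → G) (g : G) : ℝ :=
  ((Finset.univ.filter (fun c => F c = g)).card : ℝ) / (Fintype.card C : ℝ)

theorem lawOf_nonneg (F : C → G) (g : G) : 0 ≤ lawOf F g := by
  unfold lawOf; positivity

theorem sum_lawOf [Nonempty C] (F : C → G) : ∑ g, lawOf F g = 1 := by
  unfold lawOf
  rw [← Finset.sum_div]
  have h1 : ∑ g : G, ((Finset.univ.filter (fun c => F c = g)).card : ℝ) =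
      (Fintype.card C : ℝ) := by
    rw [← Nat.cast_sum, ← Finset.card_univ (α := C)]
    congr 1
    exact (Finset.card_eq_sum_card_fiberwise (fun x _ => Finset.mem_univ (F x))).symm
  rw [h1]
  exact div_self (by exact_mod_cast Fintype.card_ne_zero)

variable {D : Type*} [Fintype D]

/-- The law of a product of independent random elements. -/
theorem lawOf_mul (F : C → G) (H : D → G) :
    lawOf (fun p : C × D => F p.1 * H p.2) = conv (lawOf F) (lawOf H) := by
  classical
  funext z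
  simp only [lawOf, conv, Fintype.card_prod, Nat.cast_mul]
  have hcount : (Finset.univ.filter (fun p : C × D => F p.1 * H p.2 = z)).card =
      ∑ y, (Finset.univ.filter (fun c => F c = y)).card *
        (Finset.univ.filter (fun d => H d = y⁻¹ * z)).card := by
    rw [Finset.card_eq_sum_card_fiberwise (f := fun p : C × D => F p.1)
      (t := Finset.univ) (fun x _ => Finset.mem_univ _)]
    refine Finset.sum_congr rfl fun y _ => ?_
    rw [← Finset.card_product]
    refine congrArg Finset.card ?_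
    ext ⟨c, d⟩
    simp only [Finset.mem_filter, Finset.mem_univ, true_and, Finset.mem_product]
    constructor
    · rintro ⟨h1, h2⟩
      refine ⟨h2, ?_⟩
      rw [← h2, ← h1]; group
    · rintro ⟨h1, h2⟩
      refine ⟨?_, h1⟩
      rw [h1, h2]; group
  rw [hcount]
  push_cast
  rw [Finset.sum_div]
  refine Finset.sum_congr rfl fun y _ => ?_
  rw [div_mul_div_comm]

/-- Reparametrisation. -/
theorem lawOf_equiv (e : C ≃ D) (F : D → G) : lawOf (fun c => F (e c)) = lawOf F := by
  funext z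
  simp only [lawOf]
  rw [Fintype.card_congr e]
  congr 2
  refine Finset.card_bij (fun c _ => e c) ?_ ?_ ?_
  · intro c hc; simpa using hc
  · intro a _ b _ h; exact e.injective h
  · intro d hd
    exact ⟨e.symm d, by simpa using hd, by simp⟩

end Law

section Tables

open Crest.ProbabilityR.Shuffle

variable {m : ℕ}

/-- The law of `t` Thorp rounds on `2 * m` positions. -/
noncomputable def lawT (m t : ℕ) : Equiv.Perm (Fin (2 * m)) → ℝ :=
  lawOf (permOf t (m := m))

theorem tvFromUniform_eq (m t : ℕ) : tvFromUniform m t = tvU (lawT m t) := by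
  unfold tvFromUniform tvU lawT
  refine congrArg _ ?_
  refine Finset.sum_congr rfl fun g _ => ?_
  rw [uniformProb_eq]
  simp [lawOf, Fintype.card_perm]

theorem iterPos_add (a b : ℕ) (cs : Fin (a + b) → Fin m → Bool) (x : Fin (2 * m)) :
    iterPos m (a + b) cs x =
      iterPos m b (fun i => cs (Fin.natAdd a i)) (iterPos m a (fun i => cs (Fin.castAdd b i)) x) := by
  induction b with
  | zero => rfl
  | succ b ih =>
    have := ih (fun i => cs i.castSucc)
    change stepPos m (cs (Fin.last (a + b))) (iterPos m (a + b) (fun i => cs i.castSucc) x) =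
      stepPos m (cs (Fin.natAdd a (Fin.last b)))
        (iterPos m b (fun i => cs (Fin.natAdd a i.castSucc))
          (iterPos m a (fun i => cs (Fin.castAdd (b + 1) i)) x))
    rw [this]
    rfl

/-- Laws of rounds compose by convolution. -/
theorem lawT_add (a b : ℕ) : lawT m (a + b) = conv (lawT m b) (lawT m a) := by
  unfold lawT
  rw [← lawOf_mul]
  -- the equivalence of tables
  let e : (Fin (a + b) → Fin m → Bool) ≃ ((Fin b → Fin m → Bool) × (Fin a → Fin m → Bool)) :=
    { toFun := fun cs => (fun i => cs (Fin.natAdd a i), fun i => cs (Fin.castAdd b i))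
      invFun := fun p => Fin.append p.2 p.1
      left_inv := fun cs => by
        funext i
        refine Fin.addCases (fun j => ?_) (fun j => ?_) i
        · simp
        · simp
      right_inv := fun p => by
        ext i <;> simp }
  rw [← lawOf_equiv e]
  congr 1
  funext cs
  ext x
  simp only [Equiv.Perm.coe_mul, Function.comp_apply, permOf_apply]
  exact congrArg Fin.val (iterPos_add a b cs x)

theorem lawT_nonneg (t : ℕ) (g) : 0 ≤ lawT m t g := lawOf_nonneg _ _

theorem sum_lawT (t : ℕ) : ∑ g, lawT m t g = 1 := sum_lawOf _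

theorem lawT_zero : lawT m 0 = delta := by
  funext g
  simp only [lawT, lawOf, delta]
  have hc : Fintype.card (Fin 0 → Fin m → Bool) = 1 := by simp
  rw [hc]
  have hp : ∀ cs : Fin 0 → Fin m → Bool, permOf 0 cs = 1 := by
    intro cs; ext x; rfl
  by_cases hg : g = 1
  · simp [hg, hp]
  · have : (g : Equiv.Perm (Fin (2 * m))) ≠ 1 := hg
    have h2 : (1 : Equiv.Perm (Fin (2 * m))) ≠ g := fun e => hg e.symm
    simp [hg, hp, h2]

/-- `k` sweeps of `T` rounds. -/
theorem lawT_mul (T k : ℕ) : lawT m (k * T) = cpow (lawT m T) k := by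
  induction k with
  | zero => simpa [cpow] using lawT_zero
  | succ k ih =>
    have e : (k + 1) * T = k * T + T := Nat.succ_mul k T
    rw [e, lawT_add, ih, cpow]

/-- The main inequality of step A. -/
theorem tvFromUniform_le (T r k : ℕ) :
    tvFromUniform m ((2 ^ r + k) * T) ≤
      (1 / 2) * Real.sqrt
        (trace ((convMat (lawT m T) * (convMat (lawT m T))ᵀ) ^ (2 ^ r)) - 1) := by
  rw [tvFromUniform_eq, add_mul, lawT_add]
  refine (tvU_conv_le_right _ (lawT_nonneg _) (sum_lawT _)).trans ?_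
  rw [lawT_mul]
  exact tvU_cpow_le (sum_lawT _) r

end Tables

end Crest.Agent.Thorp
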