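import Mathlib
import Crest.Agent.Lib.Thorp.Tv

/-!
# Bit encoding of the Thorp shuffle: `d + 1` rounds are one sweep of layers.

Positions `Fin (2 * 2 ^ d)` are identified with `Fin (d + 1) → Bool` by binary digits (`enc`).
One round is `stepPos = rot ∘ layer (Fin.last d) _`; conjugating the rotations away, `d + 1` rounds
are the product of layers on the bits `d, d - 1, ..., 0`, in this order.
-/

set_option autoImplicit false
set_option linter.unusedSectionVars false
set_option linter.unusedVariables false

namespace Crest.Agent.Thorp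

open Crest.ProbabilityR.Shuffle

section Layers

variable {I : Type*} [DecidableEq I]

/-- Flip bit `i` iff `c` holds of the word with bit `i` cleared. -/
def layerFun (i : I) (c : (I → Bool) → Bool) (w : I → Bool) : I → Bool :=
  Function.update w i (xor (w i) (c (Function.update w i false)))

theorem layerFun_same (i : I) (c : (I → Bool) → Bool) (w : I → Bool) :
    layerFun i c w i = xor (w i) (c (Function.update w i false)) := by
  simp [layerFun]

theorem layerFun_ne {i j : I} (h : j ≠ i) (c : (I → Bool) → Bool) (w : I → Bool) :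
    layerFun i c w j = w j := by
  simp [layerFun, Function.update_of_ne h]

theorem layerFun_invol (i : I) (c : (I → Bool) → Bool) (w : I → Bool) :
    layerFun i c (layerFun i c w) = w := by
  have h : Function.update (layerFun i c w) i false = Function.update w i false := by
    funext j
    by_cases hj : j = i
    · subst hj; simp
    · simp [Function.update_of_ne hj, layerFun_ne hj]
  funext j
  by_cases hj : j = i
  · subst hj
    rw [layerFun_same, h, layerFun_same]
    cases w j <;> cases c (Function.update w j false) <;> rfl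
  · rw [layerFun_ne hj, layerFun_ne hj]

/-- The layer as a permutation of the words. -/
def layer (i : I) (c : (I → Bool) → Bool) : Equiv.Perm (I → Bool) where
  toFun := layerFun i c
  invFun := layerFun i c
  left_inv := layerFun_invol i c
  right_inv := layerFun_invol i c

@[simp] theorem layer_apply (i : I) (c : (I → Bool) → Bool) (w : I → Bool) :
    layer i c w = layerFun i c w := rfl

/-- Moving bits by a permutation `s`: the bit at `j` goes to `s j`. -/
def permBits (s : Equiv.Perm I) : Equiv.Perm (I → Bool) where
  toFun w := w ∘ s.symm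
  invFun w := w ∘ s
  left_inv w := by funext j; simp
  right_inv w := by funext j; simp

@[simp] theorem permBits_apply (s : Equiv.Perm I) (w : I → Bool) (j : I) :
    permBits s w j = w (s.symm j) := rfl

@[simp] theorem permBits_symm_apply (s : Equiv.Perm I) (w : I → Bool) (j : I) :
    (permBits s).symm w j = w (s j) := rfl

/-- Conjugating a layer by a permutation of the bits. -/
theorem layerFun_permBits (s : Equiv.Perm I) (i : I) (c : (I → Bool) → Bool) (w : I → Bool) :
    layerFun i c (permBits s w) = permBits s (layerFun (s.symm i) (c ∘ permBits s) w) := by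
  funext j
  rw [permBits_apply]
  by_cases hj : j = i
  · subst hj
    rw [layerFun_same, layerFun_same, permBits_apply]
    congr 2
    funext k
    by_cases hk : k = j
    · subst hk; simp
    · have : s.symm k ≠ s.symm j := fun e => hk (s.symm.injective e)
      simp [Function.update_of_ne hk, Function.update_of_ne this]
  · have : s.symm j ≠ s.symm i := fun e => hj (s.symm.injective e)
    rw [layerFun_ne hj, layerFun_ne this, permBits_apply]

/-- The sweep: `Q C (i :: l) = Q C l * L_i (C i)`, `i` acts first. -/
def sweepQ (C : I → (I → Bool) → Bool) : List I → Equiv.Perm (I → Bool)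
  | [] => 1
  | i :: l => sweepQ C l * layer i (C i)

theorem sweepQ_append_singleton (C : I → (I → Bool) → Bool) (l : List I) (i : I) :
    sweepQ C (l ++ [i]) = layer i (C i) * sweepQ C l := by
  induction l with
  | nil => simp [sweepQ]
  | cons a l ih => simp only [List.cons_append, sweepQ, ih, mul_assoc]

end Layers

section Enc

variable (d : ℕ)

theorem two_mul_two_pow : 2 * 2 ^ d = 2 ^ (d + 1) := by rw [pow_succ]; ring

/-- Binary digits. -/
def enc (x : Fin (2 * 2 ^ d)) : Fin (d + 1) → Bool := fun j => x.val.testBit j

/-- From binary digits. -/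
def decW (w : Fin (d + 1) → Bool) : Fin (2 * 2 ^ d) :=
  ⟨Nat.ofBits w, by rw [two_mul_two_pow]; exact Nat.ofBits_lt_two_pow w⟩

/-- The identification of positions with words. -/
def encE : Fin (2 * 2 ^ d) ≃ (Fin (d + 1) → Bool) where
  toFun := enc d
  invFun := decW d
  left_inv x := by
    apply Fin.ext
    apply Nat.eq_of_testBit_eq
    intro i
    simp only [decW]
    by_cases hi : i < d + 1
    · rw [Nat.testBit_ofBits_lt _ _ hi]
      rfl
    · rw [Nat.testBit_ofBits_ge _ _ (by omega)]
      symm
      apply Nat.testBit_lt_two_pow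
      have h1 : x.val < 2 * 2 ^ d := x.isLt
      have h2 := two_mul_two_pow d
      have h3 : 2 ^ (d + 1) ≤ 2 ^ i := Nat.pow_le_pow_right (by norm_num) (by omega)
      omega
  right_inv w := by
    funext j
    simp only [decW, enc]
    rw [Nat.testBit_ofBits_lt _ _ j.isLt]

/-- The lower `d` bits of a word as an index of the table of one round. -/
def low (w : Fin (d + 1) → Bool) : Fin (2 ^ d) :=
  ⟨Nat.ofBits (w ∘ Fin.castSucc), Nat.ofBits_lt_two_pow _⟩

/-- Rotation of the bits by one. -/
def rot : Equiv.Perm (Fin (d + 1) → Bool) := permBits (finRotate (d + 1))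

theorem low_update_last (w : Fin (d + 1) → Bool) (b : Bool) :
    low d (Function.update w (Fin.last d) b) = low d w := by
  apply Fin.ext
  simp only [low]
  congr 1
  funext j
  simp [ne_of_lt (Fin.castSucc_lt_last j)]

theorem low_enc (x : Fin (2 * 2 ^ d)) (hm : 0 < 2 ^ d) :
    low d (enc d x) = ⟨x.val % 2 ^ d, Nat.mod_lt _ hm⟩ := by
  apply Fin.ext
  apply Nat.eq_of_testBit_eq
  intro i
  simp only [low]
  rw [Nat.testBit_mod_two_pow]
  by_cases hi : i < d
  · rw [Nat.testBit_ofBits_lt _ _ hi]
    simp [hi, enc]
  · rw [Nat.testBit_ofBits_ge _ _ (by omega)]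
    simp [hi]

theorem testBit_top (x : Fin (2 * 2 ^ d)) : x.val.testBit d = decide (2 ^ d ≤ x.val) := by
  rw [Nat.testBit_eq_decide_div_mod_eq]
  have hx := x.isLt
  have hpos : 0 < 2 ^ d := by positivity
  by_cases h : 2 ^ d ≤ x.val
  · have h1 : x.val / 2 ^ d = 1 := by
      apply Nat.div_eq_of_lt_le <;> omega
    simp [h, h1]
  · have h1 : x.val / 2 ^ d = 0 := Nat.div_eq_of_lt (by omega)
    simp [h, h1]

/-- The table read by the top layer. -/
def liftTab (c : Fin (2 ^ d) → Bool) : (Fin (d + 1) → Bool) → Bool := fun w => c (low d w)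

/-- One round in the bit encoding. -/
theorem enc_stepPos (c : Fin (2 ^ d) → Bool) (x : Fin (2 * 2 ^ d)) :
    enc d (stepPos (2 ^ d) c x) = rot d (layerFun (Fin.last d) (liftTab d c) (enc d x)) := by
  have hm : 0 < 2 ^ d := by positivity
  funext j
  refine Fin.cases ?_ (fun j' => ?_) j
  · -- bit `0`
    have e0 : (finRotate (d + 1)).symm 0 = Fin.last d := by
      rw [Equiv.symm_apply_eq, finRotate_last]
    simp only [rot, permBits_apply, e0]
    rw [layerFun_same]
    simp only [liftTab, low_update_last]
    rw [low_enc d x hm]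
    simp only [enc, Fin.val_zero, Fin.val_last, stepPos]
    rw [testBit_top]
    rw [Nat.testBit_zero]
    generalize (decide (2 ^ d ≤ x.val) ^^ c ⟨x.val % 2 ^ d, Nat.mod_lt _ (by have hx := x.isLt; omega)⟩) = b
    cases b <;> simp
  · -- bit `j' + 1`
    have e0 : (finRotate (d + 1)).symm j'.succ = j'.castSucc := by
      rw [Equiv.symm_apply_eq]
      apply Fin.ext
      rw [coe_finRotate_of_ne_last (ne_of_lt (Fin.castSucc_lt_last j'))]
      simp
    simp only [rot, permBits_apply, e0]
    rw [layerFun_ne (ne_of_lt (Fin.castSucc_lt_last j'))]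
    simp only [enc, Fin.val_succ, Fin.val_castSucc, stepPos]
    rw [Nat.testBit_succ]
    have : (2 * (x.val % 2 ^ d) + (if (decide (2 ^ d ≤ x.val) ^^ c ⟨x.val % 2 ^ d, Nat.mod_lt _ (by have hx := x.isLt; omega)⟩) = true then 1 else 0)) / 2 = x.val % 2 ^ d := by
      split <;> omega
    rw [this, Nat.testBit_mod_two_pow]
    simp [j'.isLt]


theorem permBits_mul (s t : Equiv.Perm (Fin (d + 1))) :
    permBits (s * t) = permBits s * permBits t := by
  ext w j
  simp [permBits_apply, Equiv.Perm.mul_def]

theorem permBits_one : permBits (1 : Equiv.Perm (Fin (d + 1))) = 1 := by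
  ext w j
  rfl

theorem rot_pow (t : ℕ) : rot d ^ t = permBits (finRotate (d + 1) ^ t) := by
  induction t with
  | zero =>
    rw [pow_zero, pow_zero, permBits_one]
  | succ t ih =>
    rw [pow_succ, pow_succ, ih, permBits_mul]
    rfl

theorem finRotate_pow_val (t : ℕ) (j : Fin (d + 1)) :
    ((finRotate (d + 1) ^ t) j).val = (j.val + t) % (d + 1) := by
  induction t with
  | zero => simp [Nat.mod_eq_of_lt j.isLt]
  | succ t ih =>
    rw [pow_succ', Equiv.Perm.mul_apply, coe_finRotate]
    split_ifs with h
    · have h1 : ((finRotate (d + 1) ^ t) j).val = d := by rw [h]; rfl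
      rw [ih] at h1
      rw [← add_assoc]
      have : j.val + t + 1 = (j.val + t) % (d + 1) + 1 + (d + 1) * ((j.val + t) / (d + 1)) := by
        have := Nat.mod_add_div (j.val + t) (d + 1)
        omega
      rw [this, h1, Nat.add_mul_mod_self_left, Nat.mod_self]
    · have h1 : ((finRotate (d + 1) ^ t) j).val ≠ d := fun e => h (Fin.ext e)
      rw [ih] at h1 ⊢
      have hlt : (j.val + t) % (d + 1) < d + 1 := Nat.mod_lt _ (by omega)
      rw [Nat.mod_eq_of_lt (show (j.val + t) % (d + 1) + 1 < d + 1 by omega) |>.symm]
      rw [← add_assoc, Nat.add_mod (j.val + t) 1]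
      rw [Nat.mod_eq_of_lt (show 1 < d + 1 by omega)]

/-- The bit processed by round `s`. -/
def bitOf (s : ℕ) : Fin (d + 1) := ⟨d - s, by omega⟩

theorem finRotate_pow_bitOf {t : ℕ} (ht : t ≤ d) :
    (finRotate (d + 1) ^ t) (bitOf d t) = Fin.last d := by
  apply Fin.ext
  rw [finRotate_pow_val]
  simp only [bitOf, Fin.val_last]
  have : d - t + t = d := by omega
  rw [this, Nat.mod_eq_of_lt (by omega)]

theorem finRotate_pow_card : finRotate (d + 1) ^ (d + 1) = 1 := by
  ext j
  rw [finRotate_pow_val]
  simp [Nat.mod_eq_of_lt j.isLt]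

theorem rot_pow_card : rot d ^ (d + 1) = 1 := by
  rw [rot_pow, finRotate_pow_card, permBits_one]

/-- The list of bits in the order in which they are processed. -/
def sweepList (t : ℕ) : List (Fin (d + 1)) := (List.range t).map (bitOf d)

/-- The layer tables attached to the rows of a bit table. -/
def tabOf (f : ℕ → Fin (2 ^ d) → Bool) (i : Fin (d + 1)) (w : Fin (d + 1) → Bool) : Bool :=
  liftTab d (f (d - i.val)) ((rot d ^ (d - i.val)) w)

theorem enc_iterPos (f : ℕ → Fin (2 ^ d) → Bool) (t : ℕ) (ht : t ≤ d + 1) (x : Fin (2 * 2 ^ d)) :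
    enc d (iterPos (2 ^ d) t (fun i => f i.val) x) =
      (rot d ^ t) (sweepQ (tabOf d f) (sweepList d t) (enc d x)) := by
  induction t with
  | zero =>
    simp [sweepList, sweepQ]
    rfl
  | succ t ih =>
    have htd : t ≤ d := by omega
    have e1 : iterPos (2 ^ d) (t + 1) (fun i => f i.val) x =
        stepPos (2 ^ d) (f t) (iterPos (2 ^ d) t (fun i => f i.val) x) := rfl
    rw [e1, enc_stepPos, ih (by omega)]
    -- commute the layer past the rotations
    have e2 : layerFun (Fin.last d) (liftTab d (f t))
        ((rot d ^ t) (sweepQ (tabOf d f) (sweepList d t) (enc d x))) =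
        (rot d ^ t) (layerFun (bitOf d t) (tabOf d f (bitOf d t))
          (sweepQ (tabOf d f) (sweepList d t) (enc d x))) := by
      rw [rot_pow]
      rw [layerFun_permBits]
      have e3 : (finRotate (d + 1) ^ t).symm (Fin.last d) = bitOf d t := by
        rw [Equiv.symm_apply_eq, finRotate_pow_bitOf d htd]
      rw [e3]
      congr 2
      funext w
      simp only [Function.comp_apply, tabOf, bitOf]
      have e4 : d - (d - t) = t := by omega
      rw [e4, rot_pow]
    rw [e2]
    have e5 : sweepList d (t + 1) = sweepList d t ++ [bitOf d t] := by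
      simp [sweepList, List.range_succ]
    rw [e5, sweepQ_append_singleton, pow_succ']
    rfl

/-- Extension of the rows to all of `ℕ`. -/
def extRows (cs : Fin (d + 1) → Fin (2 ^ d) → Bool) (n : ℕ) : Fin (2 ^ d) → Bool :=
  cs ⟨n % (d + 1), Nat.mod_lt _ (by omega)⟩

theorem extRows_val (cs : Fin (d + 1) → Fin (2 ^ d) → Bool) :
    (fun i : Fin (d + 1) => extRows d cs i.val) = cs := by
  funext i
  simp [extRows, Nat.mod_eq_of_lt i.isLt]

theorem extRows_of_lt (cs : Fin (d + 1) → Fin (2 ^ d) → Bool) {n : ℕ} (hn : n < d + 1) :
    extRows d cs n = cs ⟨n, hn⟩ := by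
  simp [extRows, Nat.mod_eq_of_lt hn]

/-- The word permutation of `d + 1` rounds. -/
theorem enc_iterPos_sweep (cs : Fin (d + 1) → Fin (2 ^ d) → Bool) (x : Fin (2 * 2 ^ d)) :
    enc d (iterPos (2 ^ d) (d + 1) cs x) =
      sweepQ (tabOf d (extRows d cs)) (sweepList d (d + 1)) (enc d x) := by
  have h := enc_iterPos d (extRows d cs) (d + 1) le_rfl x
  rw [extRows_val, rot_pow_card] at h
  exact h

end Enc

section Fibres

variable {A B H : Type*} [Fintype A] [Fintype B] [DecidableEq B] [Group H] [Fintype H]
  [DecidableEq H]

/-- If all the fibres of `π` have the same size then `π` pushes the uniform law to the uniform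
law. -/
theorem lawOf_comp_of_card_fibre [Nonempty A] (π : A → B) (G : B → H)
    (h : ∀ r r' : B, (Finset.univ.filter (fun a => π a = r)).card =
      (Finset.univ.filter (fun a => π a = r')).card) :
    lawOf (fun a => G (π a)) = lawOf G := by
  classical
  funext g
  simp only [lawOf]
  have hB : Nonempty B := ⟨π (Classical.arbitrary A)⟩
  set r0 : B := π (Classical.arbitrary A) with hr0
  set κ := (Finset.univ.filter (fun a => π a = r0)).card with hκ
  have hcardA : Fintype.card A = Fintype.card B * κ := by
    have h1 := Finset.card_eq_sum_card_fiberwise (s := (Finset.univ : Finset A)) (f := π)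
      (t := Finset.univ) (fun x _ => Finset.mem_univ _)
    rw [Finset.card_univ] at h1
    rw [h1, Finset.sum_congr rfl (fun r _ => h r r0), Finset.sum_const, Finset.card_univ,
      smul_eq_mul]
  have hκpos : 0 < κ := by
    apply Finset.card_pos.2
    exact ⟨Classical.arbitrary A, by simp [hr0]⟩
  have hcount : (Finset.univ.filter (fun a => G (π a) = g)).card =
      (Finset.univ.filter (fun r => G r = g)).card * κ := by
    have h1 := Finset.card_eq_sum_card_fiberwise (s := Finset.univ.filter (fun a => G (π a) = g))
      (f := π) (t := Finset.univ.filter (fun r => G r = g))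
      (fun x hx => by simpa using hx)
    rw [h1]
    have h2 : ∀ r ∈ Finset.univ.filter (fun r => G r = g),
        ((Finset.univ.filter (fun a => G (π a) = g)).filter (fun a => π a = r)).card = κ := by
      intro r hr
      have hr' : G r = g := by simpa using hr
      have e : (Finset.univ.filter (fun a => G (π a) = g)).filter (fun a => π a = r) =
          Finset.univ.filter (fun a => π a = r) := by
        ext a
        simp only [Finset.mem_filter, Finset.mem_univ, true_and]
        constructor
        · exact fun h => h.2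
        · intro ha
          exact ⟨by rw [ha, hr'], ha⟩
      rw [e]
      exact h r r0
    rw [Finset.sum_congr rfl h2]
    simp
  rw [hcount, hcardA]
  push_cast
  have : (κ : ℝ) ≠ 0 := by exact_mod_cast hκpos.ne'
  rw [mul_div_mul_right _ _ this]

end Fibres

section Word

variable (d : ℕ)

/-- Words. -/
abbrev Word := Fin (d + 1) → Bool

/-- Rows of a bit table for one sweep. -/
abbrev Rows := Fin (d + 1) → Fin (2 ^ d) → Bool

/-- Full layer tables. -/
abbrev FullTab := Fin (d + 1) → Word d → Bool

/-- The word of a lower index: top bit false. -/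
def snocW (u : Fin (2 ^ d)) : Word d := fun j => u.val.testBit j.val

theorem low_snocW (u : Fin (2 ^ d)) : low d (snocW d u) = u := by
  apply Fin.ext
  apply Nat.eq_of_testBit_eq
  intro i
  simp only [low]
  by_cases hi : i < d
  · rw [Nat.testBit_ofBits_lt _ _ hi]
    rfl
  · rw [Nat.testBit_ofBits_ge _ _ (by omega)]
    symm
    apply Nat.testBit_lt_two_pow
    exact lt_of_lt_of_le u.isLt (Nat.pow_le_pow_right (by norm_num) (by omega))

theorem snocW_low (v : Word d) (hv : v (Fin.last d) = false) : snocW d (low d v) = v := by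
  funext j
  simp only [snocW, low]
  by_cases hj : j.val < d
  · rw [Nat.testBit_ofBits_lt _ _ hj]
    rfl
  · have hj' : j = Fin.last d := Fin.ext (by have := j.isLt; simp; omega)
    rw [hj', hv, Nat.testBit_ofBits_ge _ _ (by simp)]

/-- The section of `low`, moved back by the rotation. -/
def iotaW (n : Fin (d + 1)) (u : Fin (2 ^ d)) : Word d := (rot d ^ n.val).symm (snocW d u)

/-- Read the rows off full tables: row `n` acts on the bit `rev n`. -/
def rowsOf (C : FullTab d) : Rows d := fun n u => C n.rev (iotaW d n u)

/-- Rows to full tables. -/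
def tabOfRows (cs : Rows d) : FullTab d := tabOf d (extRows d cs)

theorem rowsOf_tabOfRows (cs : Rows d) : rowsOf d (tabOfRows d cs) = cs := by
  funext n u
  simp only [rowsOf, tabOfRows, tabOf, iotaW, liftTab, Fin.val_rev]
  have e1 : d - (d + 1 - (n.val + 1)) = n.val := by
    have := n.isLt; omega
  rw [e1, Equiv.apply_symm_apply, low_snocW, extRows_of_lt d cs n.isLt]

theorem tabOfRows_rowsOf (C : FullTab d) (i : Fin (d + 1)) (w : Word d) (hw : w i = false) :
    tabOfRows d (rowsOf d C) i w = C i w := by
  have hlt : d - i.val < d + 1 := by omega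
  simp only [tabOfRows, tabOf, liftTab]
  rw [extRows_of_lt d _ hlt]
  simp only [rowsOf, iotaW]
  have e1 : (⟨d - i.val, hlt⟩ : Fin (d + 1)).rev = i := by
    apply Fin.ext
    simp only [Fin.val_rev]
    have := i.isLt; omega
  rw [e1]
  have hlast : ((rot d ^ (d - i.val)) w) (Fin.last d) = false := by
    rw [rot_pow, permBits_apply]
    have e2 : (finRotate (d + 1) ^ (d - i.val)).symm (Fin.last d) = i := by
      rw [Equiv.symm_apply_eq, ← finRotate_pow_bitOf d (show d - i.val ≤ d by omega)]
      congr 1
      apply Fin.ext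
      simp only [bitOf]
      have := i.isLt; omega
    rw [e2, hw]
  rw [snocW_low d _ hlast, Equiv.symm_apply_apply]

variable {d}

theorem layerFun_congr {I : Type*} [DecidableEq I] (i : I) {c c' : (I → Bool) → Bool}
    (h : ∀ w : I → Bool, w i = false → c w = c' w) : layerFun i c = layerFun i c' := by
  funext w
  simp only [layerFun]
  rw [h (Function.update w i false) (by simp)]

theorem layer_congr {I : Type*} [DecidableEq I] (i : I) {c c' : (I → Bool) → Bool}
    (h : ∀ w : I → Bool, w i = false → c w = c' w) : layer i c = layer i c' := by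
  ext w j
  simp only [layer_apply, layerFun_congr i h]

theorem sweepQ_congr {I : Type*} [DecidableEq I] {C C' : I → (I → Bool) → Bool}
    (h : ∀ i, ∀ w : I → Bool, w i = false → C i w = C' i w) (l : List I) :
    sweepQ C l = sweepQ C' l := by
  induction l with
  | nil => rfl
  | cons i l ih => simp only [sweepQ, ih, layer_congr i (h i)]

variable (d)

/-- One sweep. -/
def Qd (C : FullTab d) : Equiv.Perm (Word d) := sweepQ C (sweepList d (d + 1))

/-- The law of one sweep with uniform full tables. -/
noncomputable def muD : Equiv.Perm (Word d) → ℝ := lawOf (Qd d)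

instance : Nonempty (FullTab d) := ⟨fun _ _ => false⟩

/-- The fibres of `rowsOf` have the same size, by translation. -/
theorem card_fibre_rowsOf (r r' : Rows d) :
    (Finset.univ.filter (fun C : FullTab d => rowsOf d C = r)).card =
      (Finset.univ.filter (fun C : FullTab d => rowsOf d C = r')).card := by
  classical
  set C0 : FullTab d := tabOfRows d (fun n u => xor (r n u) (r' n u)) with hC0
  have hC0r : rowsOf d C0 = (fun n u => xor (r n u) (r' n u)) := rowsOf_tabOfRows d _
  have hx : ∀ C : FullTab d, rowsOf d (fun i w => xor (C i w) (C0 i w)) =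
      fun n u => xor (rowsOf d C n u) (rowsOf d C0 n u) := fun C => rfl
  refine Finset.card_nbij' (fun C i w => xor (C i w) (C0 i w)) (fun C i w => xor (C i w) (C0 i w))
    ?_ ?_ ?_ ?_
  · intro C hC
    have hC' : rowsOf d C = r := by simpa using hC
    have : rowsOf d (fun i w => xor (C i w) (C0 i w)) = r' := by
      rw [hx, hC', hC0r]
      funext n u
      show xor (r n u) (xor (r n u) (r' n u)) = r' n u
      cases r n u <;> cases r' n u <;> rfl
    simpa using this
  · intro C hC
    have hC' : rowsOf d C = r' := by simpa using hC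
    have : rowsOf d (fun i w => xor (C i w) (C0 i w)) = r := by
      rw [hx, hC', hC0r]
      funext n u
      show xor (r' n u) (xor (r n u) (r' n u)) = r n u
      cases r n u <;> cases r' n u <;> rfl
    simpa using this
  · intro C _
    funext i w
    show xor (xor (C i w) (C0 i w)) (C0 i w) = C i w
    cases C i w <;> cases C0 i w <;> rfl
  · intro C _
    funext i w
    show xor (xor (C i w) (C0 i w)) (C0 i w) = C i w
    cases C i w <;> cases C0 i w <;> rfl

/-- The law of one sweep in terms of the rows. -/
theorem lawOf_rows : lawOf (fun cs : Rows d => Qd d (tabOfRows d cs)) = muD d := by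
  have h1 : muD d = lawOf (fun C : FullTab d => Qd d (tabOfRows d (rowsOf d C))) := by
    unfold muD
    congr 1
    funext C
    exact sweepQ_congr (fun i w hw => (tabOfRows_rowsOf d C i w hw).symm) _
  rw [h1]
  exact (lawOf_comp_of_card_fibre (rowsOf d) (fun cs => Qd d (tabOfRows d cs))
    (card_fibre_rowsOf d)).symm

end Word

section Transport

variable {G G' : Type*} [Group G] [Fintype G] [DecidableEq G] [Group G'] [Fintype G']
  [DecidableEq G']

open Matrix

theorem convMat_transport (φ : G ≃* G') {μ : G → ℝ} {μ' : G' → ℝ} (h : ∀ g, μ g = μ' (φ g)) :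
    convMat μ = (convMat μ').submatrix φ φ := by
  ext g k
  simp only [convMat, submatrix_apply, h, map_mul, map_inv]

theorem trace_convMat_transport (φ : G ≃* G') {μ : G → ℝ} {μ' : G' → ℝ}
    (h : ∀ g, μ g = μ' (φ g)) (r : ℕ) :
    trace ((convMat μ * (convMat μ)ᵀ) ^ r) = trace ((convMat μ' * (convMat μ')ᵀ) ^ r) := by
  set e : G ≃ G' := φ.toEquiv with he
  have h0 : convMat μ = (convMat μ').submatrix e e := convMat_transport φ h
  have h1 : ∀ M : Matrix G' G' ℝ, ∀ r : ℕ, (M.submatrix e e) ^ r = (M ^ r).submatrix e e := by
    intro M r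
    induction r with
    | zero => simp
    | succ r ih => rw [pow_succ, pow_succ, ih, submatrix_mul_equiv]
  have h2 : (convMat μ)ᵀ = ((convMat μ')ᵀ).submatrix e e := by
    rw [h0]; rfl
  rw [h2, h0, submatrix_mul_equiv, h1]
  simp only [trace, diag_apply, submatrix_apply]
  exact Equiv.sum_comp e (fun x => ((convMat μ' * (convMat μ')ᵀ) ^ r) x x)

/-- `A Aᵀ` for the law of `F` is the translation matrix of the law of `F(B)⁻¹ F(A)`. -/
theorem convMat_mul_transpose_lawOf {C : Type*} [Fintype C] (F : C → G) :
    convMat (lawOf F) * (convMat (lawOf F))ᵀ =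
      convMat (lawOf (fun p : C × C => (F p.2)⁻¹ * F p.1)) := by
  have hinv : ∀ y, lawOf (fun c => (F c)⁻¹) y = lawOf F y⁻¹ := by
    intro y
    simp only [lawOf]
    congr 2
    refine congrArg Finset.card (Finset.filter_congr fun c _ => ?_)
    exact inv_eq_iff_eq_inv
  have hK : lawOf (fun p : C × C => (F p.2)⁻¹ * F p.1) =
      conv (lawOf (fun c => (F c)⁻¹)) (lawOf F) := by
    rw [← lawOf_mul (fun c => (F c)⁻¹) F]
    exact lawOf_equiv (Equiv.prodComm C C) (fun p : C × C => (F p.1)⁻¹ * F p.2)
  rw [hK]
  ext g h
  simp only [mul_apply, transpose_apply, convMat, conv, hinv]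
  rw [← Equiv.sum_comp ((Equiv.inv G).trans (Equiv.mulLeft h))
    (fun y => lawOf F y⁻¹ * lawOf F (y⁻¹ * (h * g⁻¹)))]
  refine Finset.sum_congr rfl fun k _ => ?_
  simp only [Equiv.trans_apply, Equiv.inv_apply, Equiv.coe_mulLeft]
  rw [mul_comm]
  congr 2
  · group
  · group

end Transport

section Final

open Crest.ProbabilityR.Shuffle Matrix

variable (d : ℕ)

/-- The law of `K = Q(B)⁻¹ Q(A)`, the Beneš word. -/
noncomputable def lawK : Equiv.Perm (Word d) → ℝ :=
  lawOf (fun p : FullTab d × FullTab d => (Qd d p.2)⁻¹ * Qd d p.1)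

/-- The sweep as the transported permutation. -/
theorem permCongr_permOf (cs : Rows d) :
    (encE d).permCongrHom (permOf (d + 1) cs) = Qd d (tabOfRows d cs) := by
  ext1 w
  obtain ⟨x, rfl⟩ := (encE d).surjective w
  have h := enc_iterPos_sweep d cs x
  show (encE d) ((permOf (d + 1) cs) ((encE d).symm (encE d x))) = _
  rw [Equiv.symm_apply_apply]
  exact h

theorem lawT_eq_muD (g : Equiv.Perm (Fin (2 * 2 ^ d))) :
    lawT (2 ^ d) (d + 1) g = muD d ((encE d).permCongrHom g) := by
  rw [← lawOf_rows]
  simp only [lawT, lawOf]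
  congr 2
  refine congrArg Finset.card (Finset.filter_congr fun c _ => ?_)
  rw [← permCongr_permOf]
  exact ((encE d).permCongrHom.injective.eq_iff).symm

/-- Final interface of the translation: the distance after `(2 ^ r + k) (d + 1)` rounds is bounded
by the return probability of the Beneš word `K`. -/
theorem tvFromUniform_sweep_le (r k : ℕ) :
    tvFromUniform (2 ^ d) ((2 ^ r + k) * (d + 1)) ≤
      (1 / 2) * Real.sqrt (trace (convMat (lawK d) ^ (2 ^ r)) - 1) := by
  refine (tvFromUniform_le (d + 1) r k).trans (le_of_eq ?_)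
  rw [trace_convMat_transport (encE d).permCongrHom (lawT_eq_muD d) (2 ^ r)]
  have : convMat (muD d) * (convMat (muD d))ᵀ = convMat (lawK d) :=
    convMat_mul_transpose_lawOf (Qd d)
  rw [this]

/-- Reduction of the statement `S0222`: it suffices that the trace of the `1024`-th power of the
translation matrix of the Beneš word tends to `1`. -/
theorem tendsto_tv_of_trace
    (h : Filter.Tendsto (fun d => trace (convMat (lawK d) ^ (2 ^ 10)))
      Filter.atTop (nhds 1)) :
    Filter.Tendsto (fun d : ℕ => tvFromUniform (2 ^ d) (1600 * (d + 1)))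
      Filter.atTop (nhds 0) := by
  have h0 : Filter.Tendsto (fun d => (1 / 2 : ℝ) *
      Real.sqrt (trace (convMat (lawK d) ^ (2 ^ 10)) - 1)) Filter.atTop (nhds 0) := by
    have h1 := (h.sub_const 1).sqrt.const_mul (1 / 2 : ℝ)
    simpa using h1
  refine squeeze_zero (fun d => ?_) (fun d => ?_) h0
  · rw [tvFromUniform_eq]; exact tvU_nonneg _
  · have := tvFromUniform_sweep_le d 10 576
    norm_num at this ⊢
    exact this

end Final

end Crest.Agent.Thorp
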