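import Mathlib
import Crest.Agent.Lib.Thorp.Bits

/-!
# The kernel of the Beneš word on tuples.

`Kl l (A, B) = Q_l(B)⁻¹ Q_l(A)`. `avg` is the uniform average on a finite type. For `i ∉ l`,
averaging over the tables splits off the layer `i` (`avg_Kl_cons`). The tuple kernel
`Pl l x y = P[K_l ∘ x = y]` satisfies `Pl_cons`, is symmetric (`Pl_symm`) and stochastic
on embeddings (`Ml`, `sum_Ml`). For `A = W` the matrix `Ml` is the translation matrix of the law of
`K_l` (`trace_convMat_eq_trace_Ml`), whence the reduction `tendsto_tv_of_trace_Ml`.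
-/

set_option autoImplicit false
set_option linter.unusedSectionVars false
set_option linter.unusedVariables false

namespace Crest.Agent.Thorp

open Finset Matrix

section Avg

variable {C D : Type*} [Fintype C] [Fintype D]

/-- The uniform average. -/
noncomputable def avg (F : C → ℝ) : ℝ := (∑ c, F c) / (Fintype.card C : ℝ)

theorem avg_nonneg {F : C → ℝ} (h : ∀ c, 0 ≤ F c) : 0 ≤ avg F :=
  div_nonneg (Finset.sum_nonneg fun c _ => h c) (Nat.cast_nonneg _)

theorem avg_const [Nonempty C] (a : ℝ) : avg (fun _ : C => a) = a := by
  unfold avg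
  have : (Fintype.card C : ℝ) ≠ 0 := by exact_mod_cast Fintype.card_ne_zero
  simp [Finset.card_univ, this]

theorem avg_congr {F G : C → ℝ} (h : ∀ c, F c = G c) : avg F = avg G := by
  unfold avg; simp only [h]

theorem avg_mono {F G : C → ℝ} (h : ∀ c, F c ≤ G c) : avg F ≤ avg G :=
  div_le_div_of_nonneg_right (Finset.sum_le_sum fun c _ => h c) (Nat.cast_nonneg _)

theorem avg_add (F G : C → ℝ) : avg (fun c => F c + G c) = avg F + avg G := by
  unfold avg; rw [Finset.sum_add_distrib, add_div]

theorem avg_const_mul (a : ℝ) (F : C → ℝ) : avg (fun c => a * F c) = a * avg F := by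
  unfold avg; rw [← Finset.mul_sum, mul_div_assoc]

theorem avg_comm (F : C → D → ℝ) :
    avg (fun c => avg (fun d => F c d)) = avg (fun d => avg (fun c => F c d)) := by
  unfold avg
  simp only [← Finset.sum_div]
  rw [Finset.sum_comm, div_right_comm]

theorem avg_prod (F : C × D → ℝ) :
    avg F = avg (fun c => avg (fun d => F (c, d))) := by
  unfold avg
  rw [Fintype.sum_prod_type, Fintype.card_prod]
  simp only [← Finset.sum_div]
  push_cast
  rw [div_div, mul_comm]

/-- Change of variables. -/
theorem avg_equiv (e : C ≃ D) (F : D → ℝ) : avg (fun c => F (e c)) = avg F := by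
  unfold avg
  rw [Equiv.sum_comp e F, Fintype.card_congr e]

/-- The law in terms of averages. -/
theorem lawOf_eq_avg {G : Type*} [Group G] [Fintype G] [DecidableEq G] (F : C → G) (g : G) :
    lawOf F g = avg (fun c => if F c = g then (1 : ℝ) else 0) := by
  unfold lawOf avg
  congr 1
  rw [Finset.sum_boole]

end Avg

section Update

variable {I X : Type*} [Fintype I] [DecidableEq I] [Fintype X] [DecidableEq X] [Nonempty X]

/-- Averaging over a coordinate of a function space: if `H x C` does not depend on `C i`, then the
average of `H (C i) C` is the average over an independent `x`. -/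
theorem avg_update (H : X → (I → X) → ℝ) (i : I)
    (hH : ∀ x C y, H x (Function.update C i y) = H x C) :
    avg (fun C : I → X => H (C i) C) = avg (fun x => avg (fun C : I → X => H x C)) := by
  classical
  -- the involution `(x, C) ↦ (C i, update C i x)`
  let Φ : X × (I → X) ≃ X × (I → X) :=
    { toFun := fun p => (p.2 i, Function.update p.2 i p.1)
      invFun := fun p => (p.2 i, Function.update p.2 i p.1)
      left_inv := fun p => by
        ext <;> simp
      right_inv := fun p => by
        ext <;> simp }
  have e1 : avg (fun x => avg (fun C : I → X => H x C)) =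
      avg (fun p : X × (I → X) => H p.1 p.2) :=
    (avg_prod (fun p : X × (I → X) => H p.1 p.2)).symm
  rw [e1, ← avg_equiv Φ]
  have h1 : ∀ p : X × (I → X), H (Φ p).1 (Φ p).2 = H (p.2 i) p.2 := by
    intro p
    exact hH _ _ _
  simp only [h1]
  rw [avg_prod (fun p : X × (I → X) => H (p.2 i) p.2)]
  exact (avg_const _).symm

end Update

section Kernel

variable {I : Type*} [Fintype I] [DecidableEq I]

/-- Full tables. -/
abbrev Tab (I : Type*) := I → (I → Bool) → Bool

theorem layer_mul_self (i : I) (c : (I → Bool) → Bool) : layer i c * layer i c = 1 := by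
  ext1 w
  exact layerFun_invol i c w

theorem layer_inv (i : I) (c : (I → Bool) → Bool) : (layer i c)⁻¹ = layer i c :=
  inv_eq_of_mul_eq_one_left (layer_mul_self i c)

/-- The Beneš word along a list of bits. -/
def Kl (l : List I) (p : Tab I × Tab I) : Equiv.Perm (I → Bool) :=
  (sweepQ p.2 l)⁻¹ * sweepQ p.1 l

theorem Kl_nil (p : Tab I × Tab I) : Kl [] p = 1 := by
  simp [Kl, sweepQ]

theorem Kl_cons (i : I) (l : List I) (p : Tab I × Tab I) :
    Kl (i :: l) p = layer i (p.2 i) * Kl l p * layer i (p.1 i) := by
  simp only [Kl, sweepQ, _root_.mul_inv_rev, layer_inv, mul_assoc]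

theorem Kl_swap (l : List I) (p : Tab I × Tab I) : Kl l p.swap = (Kl l p)⁻¹ := by
  simp [Kl]

theorem sweepQ_update (C : Tab I) (i : I) (c : (I → Bool) → Bool) (l : List I) (hi : i ∉ l) :
    sweepQ (Function.update C i c) l = sweepQ C l := by
  induction l with
  | nil => rfl
  | cons j l ih =>
    have hj : j ≠ i := fun e => hi (by simp [e])
    have hl : i ∉ l := fun e => hi (by simp [e])
    simp only [sweepQ, ih hl, Function.update_of_ne hj]

/-- Splitting off a layer from the average over the tables. -/
theorem avg_Kl_cons (h : Equiv.Perm (I → Bool) → ℝ) (i : I) (l : List I) (hi : i ∉ l) :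
    avg (fun p : Tab I × Tab I => h (Kl (i :: l) p)) =
      avg (fun a : (I → Bool) → Bool => avg (fun b : (I → Bool) → Bool =>
        avg (fun p : Tab I × Tab I => h (layer i b * Kl l p * layer i a)))) := by
  simp only [Kl_cons]
  -- first the table `A`
  have e1 : ∀ B : Tab I, avg (fun A : Tab I => h (layer i (B i) * Kl l (A, B) * layer i (A i))) =
      avg (fun a : (I → Bool) → Bool =>
        avg (fun A : Tab I => h (layer i (B i) * Kl l (A, B) * layer i a))) := by
    intro B
    refine avg_update (fun a A => h (layer i (B i) * Kl l (A, B) * layer i a)) i ?_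
    intro x C y
    simp only [Kl, sweepQ_update _ _ _ _ hi]
  -- then the table `B`
  have e2 : ∀ (a : (I → Bool) → Bool),
      avg (fun B : Tab I => avg (fun A : Tab I => h (layer i (B i) * Kl l (A, B) * layer i a))) =
      avg (fun b : (I → Bool) → Bool => avg (fun B : Tab I =>
        avg (fun A : Tab I => h (layer i b * Kl l (A, B) * layer i a)))) := by
    intro a
    refine avg_update (fun b B => avg (fun A : Tab I => h (layer i b * Kl l (A, B) * layer i a)))
      i ?_
    intro x C y
    simp only [Kl, sweepQ_update _ _ _ _ hi]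
  have e3 : ∀ (F : Tab I × Tab I → ℝ), avg F = avg (fun B : Tab I => avg (fun A : Tab I => F (A, B))) := by
    intro F
    rw [avg_prod F, avg_comm]
  rw [e3]
  simp only [e1]
  rw [avg_comm]
  simp only [e2]
  refine avg_congr fun a => avg_congr fun b => ?_
  rw [e3 (fun p => h (layer i b * Kl l p * layer i a))]

open Classical in
/-- The tuple kernel: `P[K_l ∘ x = y]`. -/
noncomputable def Pl {A : Type*} (l : List I) (x y : A → I → Bool) : ℝ :=
  avg (fun p : Tab I × Tab I => if (fun a => Kl l p (x a)) = y then (1 : ℝ) else 0)

variable {A : Type*}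

open Classical in
theorem Pl_nil (x y : A → I → Bool) :
    Pl [] x y = if x = y then 1 else 0 := by
  classical
  unfold Pl
  simp only [Kl_nil, Equiv.Perm.coe_one, id_eq]
  exact avg_const _

theorem Pl_nonneg (l : List I) (x y : A → I → Bool) : 0 ≤ Pl l x y :=
  avg_nonneg fun p => by split_ifs <;> norm_num

/-- Recursion of the tuple kernel. -/
theorem Pl_cons (i : I) (l : List I) (hi : i ∉ l) (x y : A → I → Bool) :
    Pl (i :: l) x y = avg (fun a : (I → Bool) → Bool => avg (fun b : (I → Bool) → Bool =>
      Pl l (fun t => layer i a (x t)) (fun t => layer i b (y t)))) := by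
  classical
  unfold Pl
  have := avg_Kl_cons (fun g : Equiv.Perm (I → Bool) =>
    if (fun t => g (x t)) = y then (1 : ℝ) else 0) i l hi
  refine this.trans ?_
  refine avg_congr fun a => avg_congr fun b => avg_congr fun p => ?_
  have hiff : (fun t => (layer i b * Kl l p * layer i a) (x t)) = y ↔
      (fun t => Kl l p (layer i a (x t))) = fun t => layer i b (y t) := by
    constructor
    · intro h
      funext t
      have h2 := congrFun h t
      simp only [Equiv.Perm.mul_apply] at h2
      rw [← h2]
      exact (layerFun_invol i b _).symm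
    · intro h
      funext t
      have h2 := congrFun h t
      simp only [Equiv.Perm.mul_apply]
      rw [h2]
      exact layerFun_invol i b _
  simp only [hiff]

/-- Symmetry of the tuple kernel. -/
theorem Pl_symm (l : List I) (x y : A → I → Bool) : Pl l x y = Pl l y x := by
  classical
  unfold Pl
  rw [← avg_equiv (Equiv.prodComm (Tab I) (Tab I))
    (fun p => if (fun a => Kl l p (y a)) = x then (1 : ℝ) else 0)]
  refine avg_congr fun p => ?_
  have hp : (Equiv.prodComm (Tab I) (Tab I)) p = p.swap := rfl
  rw [hp, Kl_swap]
  have hiff : (fun a => (Kl l p)⁻¹ (y a)) = x ↔ (fun a => Kl l p (x a)) = y := by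
    constructor
    · intro h
      funext a
      rw [← h]
      simp
    · intro h
      funext a
      rw [← h]
      simp
  simp only [hiff]

/-- The matrix of the kernel on injective tuples. -/
noncomputable def Ml (l : List I) (A : Type*) [Fintype A] [DecidableEq A] :
    Matrix (A ↪ (I → Bool)) (A ↪ (I → Bool)) ℝ := fun x y => Pl l x y

variable [Fintype A] [DecidableEq A]

theorem Ml_symm (l : List I) : (Ml l A)ᵀ = Ml l A := by
  ext x y
  exact Pl_symm l _ _

/-- The kernel is stochastic. -/
theorem sum_Ml (l : List I) (x : A ↪ (I → Bool)) : ∑ y, Ml l A x y = 1 := by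
  classical
  simp only [Ml, Pl, avg]
  rw [← Finset.sum_div, Finset.sum_comm]
  have h1 : ∀ p : Tab I × Tab I, ∑ y : A ↪ (I → Bool),
      (@ite ℝ ((fun a => Kl l p (x a)) = (y : A → I → Bool)) (Classical.propDecidable _) 1 0) = 1 := by
    intro p
    -- the unique `y` is `K ∘ x`
    rw [Finset.sum_eq_single (x.trans (Kl l p).toEmbedding)]
    · rw [if_pos]
      rfl
    · intro y _ hy
      rw [if_neg]
      intro e
      apply hy
      apply DFunLike.coe_injective
      exact e.symm
    · simp
  simp only [h1]
  simp [Finset.card_univ]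

/-- The reindexing of permutations by embeddings. -/
noncomputable def permToEmb (I : Type*) [Fintype I] [DecidableEq I] :
    Equiv.Perm (I → Bool) ≃ ((I → Bool) ↪ (I → Bool)) :=
  (Equiv.embeddingEquivOfFinite (I → Bool)).symm

@[simp] theorem permToEmb_apply (g : Equiv.Perm (I → Bool)) (w : I → Bool) :
    permToEmb I g w = g w := rfl

/-- For the full tuple, the kernel matrix is the translation matrix of the law of `K_l`. -/
theorem convMat_lawOf_Kl (l : List I) :
    convMat (lawOf (Kl l)) = (Ml l (I → Bool)).submatrix (permToEmb I) (permToEmb I) := by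
  ext g h
  simp only [convMat, submatrix_apply, Ml, Pl]
  rw [lawOf_eq_avg]
  refine avg_congr fun p => ?_
  have hiff : Kl l p = h * g⁻¹ ↔ (fun a => Kl l p (permToEmb I g a)) = permToEmb I h := by
    constructor
    · intro e
      funext a
      simp [e]
    · intro e
      ext1 w
      have := congrFun e (g⁻¹ w)
      simpa using this
  by_cases hk : Kl l p = h * g⁻¹
  · rw [if_pos hk, if_pos (hiff.1 hk)]
  · rw [if_neg hk, if_neg (fun e => hk (hiff.2 e))]

/-- The trace of powers agree. -/
theorem trace_convMat_eq_trace_Ml (l : List I) (T : ℕ) :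
    trace (convMat (lawOf (Kl l)) ^ T) = trace (Ml l (I → Bool) ^ T) := by
  have h1 : ∀ M : Matrix ((I → Bool) ↪ (I → Bool)) ((I → Bool) ↪ (I → Bool)) ℝ, ∀ r : ℕ,
      (M.submatrix (permToEmb I) (permToEmb I)) ^ r = (M ^ r).submatrix (permToEmb I) (permToEmb I) := by
    intro M r
    induction r with
    | zero => simp
    | succ r ih => rw [pow_succ, pow_succ, ih, submatrix_mul_equiv]
  rw [convMat_lawOf_Kl, h1]
  simp only [trace, diag_apply, submatrix_apply]
  exact Equiv.sum_comp (permToEmb I) (fun x => (Ml l (I → Bool) ^ T) x x)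

end Kernel

section Final

open Crest.ProbabilityR.Shuffle

theorem lawK_eq (d : ℕ) : lawK d = lawOf (Kl (sweepList d (d + 1))) := rfl

/-- The reduction of `S0222` in terms of the kernel on full tuples. -/
theorem tendsto_tv_of_trace_Ml
    (h : Filter.Tendsto (fun d => trace (Ml (sweepList d (d + 1)) (Word d) ^ (2 ^ 10)))
      Filter.atTop (nhds 1)) :
    Filter.Tendsto (fun d : ℕ => tvFromUniform (2 ^ d) (1600 * (d + 1)))
      Filter.atTop (nhds 0) := by
  refine tendsto_tv_of_trace ?_
  simpa only [lawK_eq, trace_convMat_eq_trace_Ml] using h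

end Final

end Crest.Agent.Thorp
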