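import Mathlib

/-!
# A Young-type inequality for traces of powers of symmetric nonnegative matrices

For a symmetric matrix `M` with nonnegative entries on a finite type `X`, and `T = n + 2 ≥ 2`,
`κ = 1 / (T - 1)`:
`tr (M ^ T) ≤ ∑ x, (∑ y, M x y ^ (1 + κ)) ^ (T - 1)`.

Steps: (1) closed-walk formula plus pointwise AM-GM reduces the trace to the number of open walks
of the entrywise power `G = M ^ (1 + κ)`; (2) `1ᵀ G ^ k 1 ≤ ∑ x, (∑ y, G x y) ^ k` for a symmetric
nonnegative `G` (walks versus degree powers), by an induction over real exponents.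
-/

set_option autoImplicit false
set_option linter.unusedSectionVars false

namespace Crest.Agent.Thorp

open Finset Matrix

section Analysis

variable {ι : Type*} [Fintype ι]

/-- Homogeneous Jensen. -/
theorem rpow_sum_mul_le (w z : ι → ℝ) (hw : ∀ i, 0 ≤ w i) (hz : ∀ i, 0 ≤ z i) {s : ℝ}
    (hs : 1 ≤ s) :
    (∑ i, w i * z i) ^ s ≤ (∑ i, w i) ^ (s - 1) * ∑ i, w i * z i ^ s := by
  set D := ∑ i, w i with hDdef
  have hD : 0 ≤ D := sum_nonneg fun i _ => hw i
  have hs0 : s ≠ 0 := by linarith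
  rcases hD.eq_or_lt with h0 | hpos
  · have hw0 : ∀ i, w i = 0 := fun i =>
      (Finset.sum_eq_zero_iff_of_nonneg (fun j _ => hw j)).1 h0.symm i (mem_univ _)
    simp [hw0, Real.zero_rpow hs0]
  · have key := Real.rpow_arith_mean_le_arith_mean_rpow univ (fun i => w i / D) z
      (fun i _ => div_nonneg (hw i) hD)
      (by rw [← sum_div]; exact div_self hpos.ne') (fun i _ => hz i) hs
    have e1 : ∑ i, w i / D * z i = (∑ i, w i * z i) / D := by
      rw [sum_div]; exact sum_congr rfl fun i _ => by ring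
    have e2 : ∑ i, w i / D * z i ^ s = (∑ i, w i * z i ^ s) / D := by
      rw [sum_div]; exact sum_congr rfl fun i _ => by ring
    have hA : 0 ≤ ∑ i, w i * z i := sum_nonneg fun i _ => mul_nonneg (hw i) (hz i)
    rw [e1, e2, Real.div_rpow hA hD] at key
    have hDs : D ^ s = D ^ (s - 1) * D := by
      rw [← Real.rpow_add_one hpos.ne']; simp
    have hDspos : 0 < D ^ s := Real.rpow_pos_of_pos hpos s
    rw [div_le_div_iff₀ hDspos hpos, hDs, ← mul_assoc] at key
    have h3 := le_of_mul_le_mul_right key hpos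
    linarith [h3, mul_comm (∑ i, w i * z i ^ s) (D ^ (s - 1))]

/-- One Hölder step of the induction. -/
theorem holder_step (d h u : ι → ℝ) (hd : ∀ x, 0 ≤ d x) (hh : ∀ x, 0 ≤ h x) (hu : ∀ x, 0 ≤ u x)
    {r θ A : ℝ} (hr : 1 ≤ r) (hθ0 : 0 < θ) (hθ1 : θ < 1)
    (hpt : ∀ x, u x ^ (r / θ) ≤ d x ^ (r / θ - 1) * h x)
    (hsum : ∑ x, h x ≤ A) (hA : ∑ x, d x ^ (1 + r / (1 - θ)) = A) :
    ∑ x, d x * u x ^ r ≤ A := by
  have h1θ : 0 < 1 - θ := by linarith
  have hr0 : 0 < r := by linarith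
  have hA0 : 0 ≤ A := hsum.trans' (sum_nonneg fun x _ => hh x)
  -- pointwise
  have hterm : ∀ x, d x * u x ^ r ≤ d x ^ (1 - θ + r) * h x ^ θ := by
    intro x
    have h1 : u x ^ r = (u x ^ (r / θ)) ^ θ := by
      rw [← Real.rpow_mul (hu x)]; congr 1; field_simp
    have h2 : (u x ^ (r / θ)) ^ θ ≤ (d x ^ (r / θ - 1) * h x) ^ θ :=
      Real.rpow_le_rpow (Real.rpow_nonneg (hu x) _) (hpt x) hθ0.le
    have h3 : (d x ^ (r / θ - 1) * h x) ^ θ = d x ^ (r - θ) * h x ^ θ := by
      rw [Real.mul_rpow (Real.rpow_nonneg (hd x) _) (hh x), ← Real.rpow_mul (hd x)]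
      congr 2; field_simp
    have h4 : d x ^ (1 - θ + r) = d x * d x ^ (r - θ) := by
      rw [show 1 - θ + r = 1 + (r - θ) by ring, Real.rpow_one_add' (hd x) (by linarith)]
    rw [h4, mul_assoc, h1]
    exact mul_le_mul_of_nonneg_left (h2.trans_eq h3) (hd x)
  have hpq : (1 / (1 - θ)).HolderConjugate (1 / θ) := by
    rw [Real.holderConjugate_iff]
    constructor
    · rw [lt_div_iff₀ h1θ]; linarith
    · simp
  have hol := Real.inner_le_Lp_mul_Lq_of_nonneg univ (f := fun x => d x ^ (1 - θ + r))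
    (g := fun x => h x ^ θ) hpq (fun x _ => Real.rpow_nonneg (hd x) _)
    (fun x _ => Real.rpow_nonneg (hh x) _)
  have e1 : ∑ x, (d x ^ (1 - θ + r)) ^ (1 / (1 - θ)) = A := by
    rw [← hA]
    refine sum_congr rfl fun x _ => ?_
    rw [← Real.rpow_mul (hd x)]
    congr 1; field_simp
  have e2 : ∑ x, (h x ^ θ) ^ (1 / θ) = ∑ x, h x := by
    refine sum_congr rfl fun x _ => ?_
    rw [← Real.rpow_mul (hh x), show θ * (1 / θ) = 1 by field_simp, Real.rpow_one]
  rw [e1, e2] at hol
  simp only [one_div, inv_inv] at hol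
  calc ∑ x, d x * u x ^ r ≤ ∑ x, d x ^ (1 - θ + r) * h x ^ θ := sum_le_sum fun x _ => hterm x
    _ ≤ A ^ (1 - θ) * (∑ x, h x) ^ θ := by simpa using hol
    _ ≤ A ^ (1 - θ) * A ^ θ := by
        refine mul_le_mul_of_nonneg_left ?_ (Real.rpow_nonneg hA0 _)
        exact Real.rpow_le_rpow (sum_nonneg fun x _ => hh x) hsum hθ0.le
    _ = A := by
        rw [← Real.rpow_add' hA0 (by simp)]; simp

end Analysis

section Walks

variable {X : Type*} [Fintype X] [DecidableEq X]

/-- Weighted degree. -/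
noncomputable def wdeg (G : Matrix X X ℝ) (x : X) : ℝ := ∑ y, G x y

/-- `G ^ j` applied to the constant vector `1`. -/
noncomputable def gw (G : Matrix X X ℝ) : ℕ → X → ℝ
  | 0, _ => 1
  | j + 1, x => ∑ y, G x y * gw G j y

theorem wdeg_nonneg {G : Matrix X X ℝ} (h0 : ∀ x y, 0 ≤ G x y) (x : X) : 0 ≤ wdeg G x :=
  sum_nonneg fun y _ => h0 x y

theorem gw_nonneg {G : Matrix X X ℝ} (h0 : ∀ x y, 0 ≤ G x y) (j : ℕ) (x : X) : 0 ≤ gw G j x := by
  induction j generalizing x with
  | zero => simp [gw]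
  | succ j ih => exact sum_nonneg fun y _ => mul_nonneg (h0 x y) (ih y)

/-- The weighted moment inequality behind `walks ≤ degree powers`. -/
theorem walk_moment {G : Matrix X X ℝ} (h0 : ∀ x y, 0 ≤ G x y) (hs : ∀ x y, G x y = G y x) (j : ℕ) :
    ∀ r : ℝ, 1 ≤ r → ∑ x, wdeg G x * gw G j x ^ r ≤ ∑ x, wdeg G x ^ (1 + (j : ℝ) * r) := by
  induction j with
  | zero => intro r _; simp [gw]
  | succ j ih =>
    intro r hr
    rcases Nat.eq_zero_or_pos j with rfl | hj
    · -- first step: `g₁ = d`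
      have hg : ∀ x, gw G 1 x = wdeg G x := by
        intro x; simp [gw, wdeg]
      refine le_of_eq (sum_congr rfl fun x _ => ?_)
      rw [hg x, show (1 : ℝ) + ((0 + 1 : ℕ) : ℝ) * r = 1 + r by simp]
      rw [Real.rpow_one_add' (wdeg_nonneg h0 x) (by linarith)]
    · have hj' : (0 : ℝ) < j := by exact_mod_cast hj
      set θ : ℝ := j / (j + 1) with hθ
      have hθ0 : 0 < θ := by positivity
      have hθ1 : θ < 1 := by rw [hθ, div_lt_one (by positivity)]; linarith
      have h1θ : 1 - θ = 1 / ((j : ℝ) + 1) := by rw [hθ]; field_simp; ring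
      have hs1 : 1 ≤ r / θ := by
        rw [le_div_iff₀ hθ0]; nlinarith
      refine holder_step (wdeg G) (fun x => ∑ y, G x y * gw G j y ^ (r / θ)) (gw G (j + 1))
        (wdeg_nonneg h0)
        (fun x => sum_nonneg fun y _ => mul_nonneg (h0 x y) (Real.rpow_nonneg (gw_nonneg h0 j y) _))
        (gw_nonneg h0 (j + 1)) hr hθ0 hθ1 ?_ ?_ ?_
      · intro x
        exact rpow_sum_mul_le (fun y => G x y) (gw G j) (h0 x) (gw_nonneg h0 j) hs1
      · have e : ∑ x, ∑ y, G x y * gw G j y ^ (r / θ) = ∑ y, wdeg G y * gw G j y ^ (r / θ) := by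
          rw [sum_comm]
          refine sum_congr rfl fun y _ => ?_
          rw [wdeg, sum_mul]
          exact sum_congr rfl fun x _ => by rw [hs x y]
        rw [e]
        refine (ih _ hs1).trans_eq (sum_congr rfl fun x _ => ?_)
        congr 2
        rw [hθ]; push_cast; field_simp
      · refine sum_congr rfl fun x _ => ?_
        congr 2
        rw [h1θ]; push_cast; field_simp

theorem gw_eq_sum_pow (G : Matrix X X ℝ) (j : ℕ) (x : X) : gw G j x = ∑ y, (G ^ j) x y := by
  induction j generalizing x with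
  | zero => simp [gw, Matrix.one_apply]
  | succ j ih =>
    simp only [gw, pow_succ', Matrix.mul_apply]
    rw [sum_comm]
    exact sum_congr rfl fun z _ => by rw [ih z, mul_sum]

/-- Walks versus degree powers, for weighted symmetric nonnegative matrices. -/
theorem walks_le_deg_pow {G : Matrix X X ℝ} (h0 : ∀ x y, 0 ≤ G x y) (hs : ∀ x y, G x y = G y x)
    (n : ℕ) : ∑ a, ∑ b, (G ^ (n + 1)) a b ≤ ∑ x, wdeg G x ^ (n + 1) := by
  have hsymm : (G ^ n)ᵀ = G ^ n := by
    rw [Matrix.transpose_pow]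
    congr 1
    ext x y; simp [hs y x]
  have hsym : ∀ x y, (G ^ n) x y = (G ^ n) y x := fun x y => by
    conv_lhs => rw [← hsymm]
    rfl
  have e : ∑ a, ∑ b, (G ^ (n + 1)) a b = ∑ c, wdeg G c * gw G n c ^ (1 : ℝ) := by
    simp only [pow_succ, Matrix.mul_apply, Real.rpow_one, gw_eq_sum_pow, wdeg]
    calc ∑ a, ∑ b, ∑ c, (G ^ n) a c * G c b = ∑ a, ∑ c, ∑ b, (G ^ n) a c * G c b :=
          sum_congr rfl fun a _ => sum_comm
      _ = ∑ c, ∑ a, ∑ b, (G ^ n) a c * G c b := sum_comm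
      _ = ∑ c, (∑ y, G c y) * ∑ y, (G ^ n) c y := by
          refine sum_congr rfl fun c _ => ?_
          rw [mul_comm, sum_mul]
          refine sum_congr rfl fun a _ => ?_
          rw [mul_sum, hsym a c]
  rw [e]
  refine (walk_moment h0 hs n 1 le_rfl).trans_eq (sum_congr rfl fun x _ => ?_)
  rw [mul_one, add_comm, ← Nat.cast_add_one, Real.rpow_natCast]

/-- Open walks as a sum over tuples, with a weight depending on the two endpoints. -/
theorem path_tuple_sum (G : Matrix X X ℝ) (n : ℕ) (F : X → X → ℝ) :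
    ∑ z : Fin (n + 1) → X,
        (∏ i : Fin n, G (z i.castSucc) (z i.succ)) * F (z 0) (z (Fin.last n)) =
      ∑ a, ∑ b, (G ^ n) a b * F a b := by
  induction n generalizing F with
  | zero =>
    rw [← (Equiv.funUnique (Fin 1) X).symm.sum_comp]
    simp [Matrix.one_apply]
  | succ n ih =>
    rw [← (Fin.consEquiv (fun _ : Fin (n + 2) => X)).sum_comp, Fintype.sum_prod_type]
    have h1 : ∀ (x : X) (z : Fin (n + 1) → X),
        (∏ i : Fin (n + 1), G ((Fin.consEquiv (fun _ : Fin (n + 2) => X) (x, z)) i.castSucc)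
            ((Fin.consEquiv (fun _ : Fin (n + 2) => X) (x, z)) i.succ)) *
          F ((Fin.consEquiv (fun _ : Fin (n + 2) => X) (x, z)) 0)
            ((Fin.consEquiv (fun _ : Fin (n + 2) => X) (x, z)) (Fin.last (n + 1))) =
        (∏ i : Fin n, G (z i.castSucc) (z i.succ)) * (G x (z 0) * F x (z (Fin.last n))) := by
      intro x z
      rw [Fin.prod_univ_succ]
      simp only [Fin.consEquiv, Equiv.coe_fn_mk]
      have e0 : (Fin.last (n + 1)) = (Fin.last n).succ := by simp
      rw [e0]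
      simp only [Fin.cons_succ, Fin.cons_zero, Fin.castSucc_zero, ← Fin.succ_castSucc]
      ring
    refine (sum_congr rfl fun x _ => sum_congr rfl fun z _ => h1 x z).trans ?_
    refine (sum_congr rfl fun x _ => ih (fun u v => G x u * F x v)).trans ?_
    simp only [pow_succ', Matrix.mul_apply]
    calc ∑ x, ∑ a, ∑ b, (G ^ n) a b * (G x a * F x b)
        = ∑ x, ∑ b, ∑ a, (G ^ n) a b * (G x a * F x b) := sum_congr rfl fun x _ => sum_comm
      _ = ∑ a, ∑ b, (∑ c, G a c * (G ^ n) c b) * F a b := by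
          refine sum_congr rfl fun x _ => sum_congr rfl fun b _ => ?_
          rw [sum_mul]
          exact sum_congr rfl fun a _ => by ring

/-- The closed-walk formula for the trace, with the cyclic successor of `Fin (n + 1)`. -/
theorem trace_pow_eq_sum_tuple (M : Matrix X X ℝ) (n : ℕ) :
    trace (M ^ (n + 1)) = ∑ z : Fin (n + 1) → X, ∏ i, M (z i) (z (i + 1)) := by
  have h1 : ∀ z : Fin (n + 1) → X, ∏ i, M (z i) (z (i + 1)) =
      (∏ i : Fin n, M (z i.castSucc) (z i.succ)) * M (z (Fin.last n)) (z 0) := by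
    intro z
    rw [Fin.prod_univ_castSucc]
    simp [Fin.coeSucc_eq_succ, Fin.last_add_one]
  simp only [h1]
  rw [path_tuple_sum M n (fun a b => M b a)]
  simp only [trace, diag_apply, pow_succ, Matrix.mul_apply]

omit [Fintype X] [DecidableEq X] in
theorem prod_erase_last {n : ℕ} (g : Fin (n + 1) → ℝ) :
    ∏ i ∈ univ.erase (Fin.last n), g i = ∏ i : Fin n, g i.castSucc := by
  rw [Fin.univ_castSuccEmb, Finset.erase_cons, Finset.prod_map]
  simp

/-- Path sum over tuples with one edge removed from the cycle. -/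
theorem erase_tuple_sum (G : Matrix X X ℝ) (n : ℕ) (j : Fin (n + 1)) :
    ∑ z : Fin (n + 1) → X, ∏ i ∈ univ.erase j, G (z i) (z (i + 1)) = ∑ a, ∑ b, (G ^ n) a b := by
  set c : Fin (n + 1) := j - Fin.last n with hc
  have hjc : Fin.last n + c = j := by rw [hc]; abel
  -- rotate the tuple
  let e : (Fin (n + 1) → X) ≃ (Fin (n + 1) → X) :=
    Equiv.arrowCongr (Equiv.addRight c).symm (Equiv.refl X)
  have he : ∀ z i, e z i = z (i + c) := fun z i => rfl
  have hpt : ∀ z : Fin (n + 1) → X,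
      ∏ i ∈ univ.erase j, G (z i) (z (i + 1)) =
        ∏ i : Fin n, G (e z i.castSucc) (e z i.succ) := by
    intro z
    have h1 : ∏ i ∈ univ.erase (Fin.last n), G (e z i) (e z (i + 1)) =
        ∏ i ∈ univ.erase j, G (z i) (z (i + 1)) := by
      refine Finset.prod_equiv (Equiv.addRight c) ?_ ?_
      · intro i
        simp only [mem_erase, mem_univ, and_true, ne_eq, Equiv.coe_addRight]
        rw [← hjc]
        simp
      · intro i _
        simp only [Equiv.coe_addRight, he]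
        rw [show i + 1 + c = i + c + 1 by abel]
    rw [← h1, prod_erase_last]
    refine prod_congr rfl fun i _ => ?_
    rw [Fin.coeSucc_eq_succ]
  have h2 := path_tuple_sum G n (fun _ _ => 1)
  simp only [mul_one] at h2
  rw [← h2, ← e.sum_comp (fun z => ∏ i : Fin n, G (z i.castSucc) (z i.succ))]
  exact sum_congr rfl fun z _ => hpt z

end Walks

section Young

/-- AM-GM in the shape used for the cycle. -/
theorem prod_pow_le_avg (n : ℕ) (b : Fin (n + 2) → ℝ) (hb : ∀ i, 0 ≤ b i) :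
    ∏ i, b i ^ (n + 1) ≤ (1 / ((n : ℝ) + 2)) * ∑ j, ∏ i ∈ univ.erase j, b i ^ (n + 2) := by
  set c : Fin (n + 2) → ℝ := fun j => ∏ i ∈ univ.erase j, b i with hc
  have hc0 : ∀ j, 0 ≤ c j := fun j => prod_nonneg fun i _ => hb i
  have hn : (0 : ℝ) < (n : ℝ) + 2 := by positivity
  have hprod : ∏ j, c j = ∏ i, b i ^ (n + 1) := by
    simp only [hc]
    have := Finset.prod_comm' (s := (univ : Finset (Fin (n + 2))))
      (t := fun j => univ.erase j) (t' := univ) (s' := fun i => univ.erase i)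
      (f := fun _ i => b i) (by
        intro x y; simp [mem_erase, ne_comm])
    rw [this]
    refine prod_congr rfl fun i _ => ?_
    rw [prod_const, card_erase_of_mem (mem_univ _), card_univ, Fintype.card_fin]
    rfl
  have key := Real.geom_mean_le_arith_mean_weighted univ (fun _ : Fin (n + 2) => 1 / ((n : ℝ) + 2))
    (fun j => c j ^ (n + 2)) (fun _ _ => by positivity)
    (by simp; field_simp) (fun j _ => pow_nonneg (hc0 j) _)
  have e1 : ∀ j, (c j ^ (n + 2)) ^ (1 / ((n : ℝ) + 2)) = c j := by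
    intro j
    have h := Real.pow_rpow_inv_natCast (hc0 j) (n := n + 2) (by omega)
    have h' : ((n + 2 : ℕ) : ℝ) = (n : ℝ) + 2 := by push_cast; ring
    rw [h'] at h
    rw [one_div]; exact h
  simp only [e1] at key
  rw [hprod] at key
  rw [mul_sum]
  refine key.trans_eq (sum_congr rfl fun j _ => ?_)
  simp only [hc, prod_pow]

variable {X : Type*} [Fintype X] [DecidableEq X]

/-- **Young-type trace inequality.** `M` symmetric with nonnegative entries, `T = n + 2`,
`κ = 1 / (n + 1)`. -/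
theorem trace_pow_le_young (M : Matrix X X ℝ) (h0 : ∀ x y, 0 ≤ M x y) (hs : ∀ x y, M x y = M y x)
    (n : ℕ) :
    trace (M ^ (n + 2)) ≤ ∑ x, (∑ y, M x y ^ (1 + 1 / ((n : ℝ) + 1))) ^ (n + 1) := by
  set κ : ℝ := 1 / ((n : ℝ) + 1) with hκ
  have hn1 : (0 : ℝ) < (n : ℝ) + 1 := by positivity
  let G : Matrix X X ℝ := fun x y => M x y ^ (1 + κ)
  have hG0 : ∀ x y, 0 ≤ G x y := fun x y => Real.rpow_nonneg (h0 x y) _
  have hGs : ∀ x y, G x y = G y x := fun x y => by simp only [G, hs x y]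
  -- pointwise bound
  have hpt : ∀ z : Fin (n + 2) → X, ∏ i, M (z i) (z (i + 1)) ≤
      (1 / ((n : ℝ) + 2)) * ∑ j, ∏ i ∈ univ.erase j, G (z i) (z (i + 1)) := by
    intro z
    have h := prod_pow_le_avg n (fun i => M (z i) (z (i + 1)) ^ κ)
      (fun i => Real.rpow_nonneg (h0 _ _) _)
    have e1 : ∀ a : ℝ, 0 ≤ a → (a ^ κ) ^ (n + 1) = a := by
      intro a ha
      have := Real.rpow_inv_natCast_pow ha (n := n + 1) (by omega)
      simpa [hκ, one_div] using this
    have e2 : ∀ a : ℝ, 0 ≤ a → (a ^ κ) ^ (n + 2) = a ^ (1 + κ) := by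
      intro a ha
      rw [pow_succ, e1 a ha, Real.rpow_one_add' ha (by positivity)]
    have e3 : ∏ i, (M (z i) (z (i + 1)) ^ κ) ^ (n + 1) = ∏ i, M (z i) (z (i + 1)) :=
      prod_congr rfl fun i _ => e1 _ (h0 _ _)
    have e4 : ∀ j, ∏ i ∈ univ.erase j, (M (z i) (z (i + 1)) ^ κ) ^ (n + 2) =
        ∏ i ∈ univ.erase j, G (z i) (z (i + 1)) :=
      fun j => prod_congr rfl fun i _ => e2 _ (h0 _ _)
    rw [e3] at h
    simp only [e4] at h
    exact h
  have hn2 : ((n : ℝ) + 2) ≠ 0 := by positivity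
  calc trace (M ^ (n + 2)) = ∑ z : Fin (n + 2) → X, ∏ i, M (z i) (z (i + 1)) :=
        trace_pow_eq_sum_tuple M (n + 1)
    _ ≤ ∑ z : Fin (n + 2) → X,
          (1 / ((n : ℝ) + 2)) * ∑ j, ∏ i ∈ univ.erase j, G (z i) (z (i + 1)) :=
        sum_le_sum fun z _ => hpt z
    _ = (1 / ((n : ℝ) + 2)) * ∑ j : Fin (n + 2), ∑ z : Fin (n + 2) → X,
          ∏ i ∈ univ.erase j, G (z i) (z (i + 1)) := by
        rw [← mul_sum, sum_comm]
    _ = ∑ a, ∑ b, (G ^ (n + 1)) a b := by
        simp only [erase_tuple_sum G (n + 1)]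
        simp only [sum_const, card_univ, Fintype.card_fin, nsmul_eq_mul]
        push_cast
        field_simp
    _ ≤ ∑ x, wdeg G x ^ (n + 1) := walks_le_deg_pow hG0 hGs n
    _ = _ := rfl

/-- The same inequality in normalised form. -/
theorem trace_pow_le_young_normalized [Nonempty X] (M : Matrix X X ℝ) (h0 : ∀ x y, 0 ≤ M x y)
    (hs : ∀ x y, M x y = M y x) (n : ℕ) :
    trace (M ^ (n + 2)) ≤ (1 / (Fintype.card X : ℝ)) *
      ∑ x, ((Fintype.card X : ℝ) ^ (1 / ((n : ℝ) + 1)) *
        ∑ y, M x y ^ (1 + 1 / ((n : ℝ) + 1))) ^ (n + 1) := by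
  refine (trace_pow_le_young M h0 hs n).trans_eq ?_
  have hN : (0 : ℝ) < (Fintype.card X : ℝ) := by exact_mod_cast Fintype.card_pos
  have e : ((Fintype.card X : ℝ) ^ (1 / ((n : ℝ) + 1))) ^ (n + 1) = (Fintype.card X : ℝ) := by
    have := Real.rpow_inv_natCast_pow hN.le (n := n + 1) (by omega)
    simpa [one_div] using this
  rw [mul_sum]
  refine sum_congr rfl fun x _ => ?_
  rw [mul_pow, e, ← mul_assoc, one_div_mul_cancel hN.ne', one_mul]

end Young

end Crest.Agent.Thorp
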