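import Mathlib
import Crest.Agent.Lib.Thorp.Kernel
import Crest.Agent.Lib.Thorp.Young

/-!
# Step C: the power mean inequality for the tuple kernel.

For tuples `x y : A → W`, `k = |A|`, `i ∉ l`:

* `compat i x y a b`: the bits `i` of `L_i(a) x` and `L_i(b) y` agree coordinatewise;
  `piI i x y` is its probability.
* Hölder: `P_{i::l}(x,y)^{1+κ} ≤ π_i(x,y)^κ E_{a,b} P_l(a x, b y)^{1+κ}` (`Pl_cons_rpow_le`).
* Fourier: `π_i(x,y) ≤ 2^{-k} Inv_i(x,y)` (`piI_le`), where `Inv_i x y` counts the subsets `R` of `A`
  in which every cleared word has even multiplicity, for `x` and for `y`.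
* Result (`power_mean`):
  `∑ y, P_l(x,y)^{1+κ} h(y) ≤ 2^{-κ k |l|} E_p [h (K_l(p) x) WW(l,p,x)^κ]`.
-/

set_option autoImplicit false
set_option linter.unusedSectionVars false
set_option linter.unusedVariables false

namespace Crest.Agent.Thorp

open Finset

section Chi

/-- The sign character of a bit. -/
def chi (b : Bool) : ℝ := if b then -1 else 1

theorem chi_xor (a b : Bool) : chi (xor a b) = chi a * chi b := by
  cases a <;> cases b <;> norm_num [chi]

theorem chi_mul_self (a : Bool) : chi a * chi a = 1 := by
  cases a <;> norm_num [chi]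

theorem chi_not (a : Bool) : chi (!a) = - chi a := by
  cases a <;> norm_num [chi]

theorem chi_abs (a : Bool) : |chi a| = 1 := by
  cases a <;> norm_num [chi]

/-- The factor of the indicator of equality. -/
theorem one_add_chi_mul (a b : Bool) : (1 + chi a * chi b) / 2 = if a = b then 1 else 0 := by
  cases a <;> cases b <;> norm_num [chi]

variable {A : Type*} [Fintype A] [DecidableEq A]

/-- Fourier expansion of the indicator of coordinatewise equality. -/
theorem indicator_eq_sum (α β : A → Bool) :
    (if ∀ t, α t = β t then (1 : ℝ) else 0) =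
      ((1 : ℝ) / 2) ^ Fintype.card A *
        ∑ R ∈ (Finset.univ : Finset A).powerset, ∏ t ∈ R, (chi (α t) * chi (β t)) := by
  rw [← Finset.prod_one_add, Finset.card_univ.symm, ← Finset.prod_const, ← Finset.prod_mul_distrib]
  have : ∀ t ∈ (Finset.univ : Finset A), (1 / 2 : ℝ) * (1 + chi (α t) * chi (β t)) =
      if α t = β t then 1 else 0 := by
    intro t _
    rw [← one_add_chi_mul]; ring
  rw [Finset.prod_congr rfl this, Finset.prod_ite_zero]
  simp

end Chi

section EvenSets

variable {A X : Type*} [Fintype A] [DecidableEq A] [Fintype X] [DecidableEq X]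

/-- Every fibre of `c` inside `R` has even size. -/
def EvenFor (c : A → X) (R : Finset A) : Prop := ∀ w, Even (R.filter (fun t => c t = w)).card

instance (c : A → X) (R : Finset A) : Decidable (EvenFor c R) := by
  unfold EvenFor; infer_instance

/-- The product of signs along the fibres. -/
theorem prod_chi_fibres (a : X → Bool) (c : A → X) (R : Finset A) :
    ∏ t ∈ R, chi (a (c t)) = ∏ w : X, chi (a w) ^ (R.filter (fun t => c t = w)).card := by
  rw [← Finset.prod_fiberwise_of_maps_to (g := c) (t := Finset.univ) (fun _ _ => Finset.mem_univ _)]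
  refine Finset.prod_congr rfl fun w _ => ?_
  rw [← Finset.prod_const]
  refine Finset.prod_congr rfl fun t ht => ?_
  rw [(Finset.mem_filter.1 ht).2]

/-- The average of a product of signs of a random function. -/
theorem avg_prod_chi (c : A → X) (R : Finset A) :
    avg (fun a : X → Bool => ∏ t ∈ R, chi (a (c t))) = if EvenFor c R then 1 else 0 := by
  classical
  split_ifs with h
  · have : ∀ a : X → Bool, ∏ t ∈ R, chi (a (c t)) = 1 := by
      intro a
      rw [prod_chi_fibres]
      refine Finset.prod_eq_one fun w _ => ?_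
      obtain ⟨m, hm⟩ := h w
      rw [hm, ← two_mul, pow_mul, pow_two, chi_mul_self, one_pow]
    simp only [this]
    exact avg_const 1
  · -- a flip of the bit at the odd fibre changes the sign
    obtain ⟨w0, hw0⟩ : ∃ w, ¬ Even (R.filter (fun t => c t = w)).card := by
      by_contra hcon
      push Not at hcon
      exact h hcon
    let e : (X → Bool) ≃ (X → Bool) :=
      { toFun := fun a => Function.update a w0 (!a w0)
        invFun := fun a => Function.update a w0 (!a w0)
        left_inv := fun a => by
          funext x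
          by_cases hx : x = w0
          · subst hx; simp
          · simp [Function.update_of_ne hx]
        right_inv := fun a => by
          funext x
          by_cases hx : x = w0
          · subst hx; simp
          · simp [Function.update_of_ne hx] }
    have hflip : ∀ a : X → Bool, ∏ t ∈ R, chi ((e a) (c t)) = - ∏ t ∈ R, chi (a (c t)) := by
      intro a
      rw [prod_chi_fibres, prod_chi_fibres]
      rw [← Finset.mul_prod_erase _ _ (Finset.mem_univ w0),
        ← Finset.mul_prod_erase _ _ (Finset.mem_univ w0)]
      have e1 : (e a) w0 = !a w0 := by simp [e]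
      have e2 : ∀ x ∈ (Finset.univ : Finset X).erase w0, chi ((e a) x) ^ (R.filter (fun t => c t = x)).card =
          chi (a x) ^ (R.filter (fun t => c t = x)).card := by
        intro x hx
        have hx' : x ≠ w0 := Finset.ne_of_mem_erase hx
        simp [e, Function.update_of_ne hx']
      rw [Finset.prod_congr rfl e2, e1, chi_not]
      have hodd : Odd (R.filter (fun t => c t = w0)).card := Nat.not_even_iff_odd.1 hw0
      rw [hodd.neg_pow]
      ring
    have h1 := avg_equiv e (fun a : X → Bool => ∏ t ∈ R, chi (a (c t)))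
    simp only [hflip] at h1
    have h2 : avg (fun a : X → Bool => - ∏ t ∈ R, chi (a (c t))) =
        - avg (fun a : X → Bool => ∏ t ∈ R, chi (a (c t))) := by
      have := avg_const_mul (-1) (fun a : X → Bool => ∏ t ∈ R, chi (a (c t)))
      simpa using this
    rw [h2] at h1
    linarith

end EvenSets

section Compat

variable {I A : Type*} [Fintype I] [DecidableEq I] [Fintype A] [DecidableEq A]

/-- The word with bit `i` cleared. -/
def clr (i : I) (w : I → Bool) : I → Bool := Function.update w i false

theorem clr_layerFun (i : I) (c : (I → Bool) → Bool) (w : I → Bool) :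
    clr i (layerFun i c w) = clr i w := by
  funext j
  by_cases hj : j = i
  · subst hj; simp [clr]
  · simp [clr, Function.update_of_ne hj, layerFun_ne hj]

/-- The bit `i` of a layer. -/
theorem layerFun_bit (i : I) (c : (I → Bool) → Bool) (w : I → Bool) :
    layerFun i c w i = xor (w i) (c (clr i w)) := layerFun_same i c w

/-- The number of subsets which are even for both tuples. -/
def invI (i : I) (x y : A → I → Bool) : ℕ :=
  ((Finset.univ : Finset (Finset A)).filter
    (fun R => EvenFor (fun t => clr i (x t)) R ∧ EvenFor (fun t => clr i (y t)) R)).card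

/-- The probability of compatibility. -/
noncomputable def piI (i : I) (x y : A → I → Bool) : ℝ :=
  avg (fun a : (I → Bool) → Bool => avg (fun b : (I → Bool) → Bool =>
    if ∀ t, layer i a (x t) i = layer i b (y t) i then (1 : ℝ) else 0))

theorem piI_nonneg (i : I) (x y : A → I → Bool) : 0 ≤ piI i x y :=
  avg_nonneg fun a => avg_nonneg fun b => by split_ifs <;> norm_num

theorem invI_layer_right (i : I) (x y : A → I → Bool) (c : (I → Bool) → Bool) :
    invI i x (fun t => layer i c (y t)) = invI i x y := by
  unfold invI
  simp only [layer_apply, clr_layerFun]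

/-- Fourier bound on the compatibility probability. -/
theorem piI_le (i : I) (x y : A → I → Bool) :
    piI i x y ≤ ((1 : ℝ) / 2) ^ Fintype.card A * (invI i x y : ℝ) := by
  classical
  unfold piI
  simp only [indicator_eq_sum]
  -- interchange
  have e1 : ∀ (a b : (I → Bool) → Bool) (R : Finset A),
      ∏ t ∈ R, (chi (layer i a (x t) i) * chi (layer i b (y t) i)) =
        (∏ t ∈ R, (chi (x t i) * chi (y t i))) *
        (∏ t ∈ R, chi (a (clr i (x t)))) * (∏ t ∈ R, chi (b (clr i (y t)))) := by
    intro a b R
    rw [← Finset.prod_mul_distrib, ← Finset.prod_mul_distrib]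
    refine Finset.prod_congr rfl fun t _ => ?_
    simp only [layer_apply, layerFun_bit, chi_xor]
    ring
  simp only [e1]
  have e2 : ∀ a : (I → Bool) → Bool, avg (fun b : (I → Bool) → Bool =>
      ((1 : ℝ) / 2) ^ Fintype.card A * ∑ R ∈ (Finset.univ : Finset A).powerset,
        (∏ t ∈ R, (chi (x t i) * chi (y t i))) *
        (∏ t ∈ R, chi (a (clr i (x t)))) * (∏ t ∈ R, chi (b (clr i (y t))))) =
      ((1 : ℝ) / 2) ^ Fintype.card A * ∑ R ∈ (Finset.univ : Finset A).powerset,
        (∏ t ∈ R, (chi (x t i) * chi (y t i))) *
        (∏ t ∈ R, chi (a (clr i (x t)))) * (if EvenFor (fun t => clr i (y t)) R then 1 else 0) := by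
    intro a
    rw [avg_const_mul]
    congr 1
    unfold avg
    rw [Finset.sum_comm, Finset.sum_div]
    refine Finset.sum_congr rfl fun R _ => ?_
    rw [← avg_prod_chi]
    unfold avg
    rw [← Finset.mul_sum, mul_div_assoc]
  simp only [e2]
  rw [avg_const_mul]
  refine mul_le_mul_of_nonneg_left ?_ (by positivity)
  unfold avg
  rw [Finset.sum_comm, Finset.sum_div]
  -- each term
  have e3 : ∀ R : Finset A, (∑ a : (I → Bool) → Bool,
      (∏ t ∈ R, (chi (x t i) * chi (y t i))) *
        (∏ t ∈ R, chi (a (clr i (x t)))) * (if EvenFor (fun t => clr i (y t)) R then 1 else 0)) /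
        (Fintype.card ((I → Bool) → Bool) : ℝ) =
      (∏ t ∈ R, (chi (x t i) * chi (y t i))) *
        (if EvenFor (fun t => clr i (x t)) R then 1 else 0) *
        (if EvenFor (fun t => clr i (y t)) R then 1 else 0) := by
    intro R
    rw [← avg_prod_chi (fun t => clr i (x t)) R]
    unfold avg
    rw [← Finset.sum_mul, ← Finset.mul_sum]
    ring
  simp only [e3]
  -- the bound by the count
  have hs : ∀ R : Finset A, (∏ t ∈ R, (chi (x t i) * chi (y t i))) *
        (if EvenFor (fun t => clr i (x t)) R then (1 : ℝ) else 0) *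
        (if EvenFor (fun t => clr i (y t)) R then (1 : ℝ) else 0) ≤
      if (EvenFor (fun t => clr i (x t)) R ∧ EvenFor (fun t => clr i (y t)) R) then 1 else 0 := by
    intro R
    have hprod : (∏ t ∈ R, (chi (x t i) * chi (y t i))) ≤ 1 := by
      have : |∏ t ∈ R, (chi (x t i) * chi (y t i))| = 1 := by
        rw [Finset.abs_prod]
        refine Finset.prod_eq_one fun t _ => ?_
        rw [abs_mul, chi_abs, chi_abs, one_mul]
      exact (le_abs_self _).trans this.le
    by_cases h1 : EvenFor (fun t => clr i (x t)) R <;> by_cases h2 : EvenFor (fun t => clr i (y t)) R <;>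
      simp [h1, h2, hprod]
  have hcount : (invI i x y : ℝ) = ∑ R ∈ (Finset.univ : Finset A).powerset,
      if (EvenFor (fun t => clr i (x t)) R ∧ EvenFor (fun t => clr i (y t)) R) then (1 : ℝ) else 0 := by
    rw [Finset.powerset_univ, Finset.sum_boole]
    rfl
  rw [hcount]
  exact Finset.sum_le_sum fun R _ => hs R

end Compat

section Main

theorem sum_avg_comm {Y C : Type*} [Fintype Y] [Fintype C] (F : Y → C → ℝ) :
    ∑ y, avg (fun c => F y c) = avg (fun c => ∑ y, F y c) := by
  unfold avg
  rw [← Finset.sum_div, Finset.sum_comm]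

variable {I A : Type*} [Fintype I] [DecidableEq I] [Fintype A] [DecidableEq A]

theorem sweepQ_bit (C : Tab I) (l : List I) (i : I) (hi : i ∉ l) (w : I → Bool) :
    sweepQ C l w i = w i := by
  induction l generalizing w with
  | nil => rfl
  | cons j l ih =>
    have hj : i ≠ j := fun e => hi (by simp [e])
    have hl : i ∉ l := fun e => hi (by simp [e])
    simp only [sweepQ, Equiv.Perm.mul_apply, layer_apply]
    rw [ih hl, layerFun_ne hj]

theorem Kl_bit (l : List I) (p : Tab I × Tab I) (i : I) (hi : i ∉ l) (w : I → Bool) :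
    Kl l p w i = w i := by
  simp only [Kl, Equiv.Perm.mul_apply]
  have h1 := sweepQ_bit p.1 l i hi w
  have h2 := sweepQ_bit p.2 l i hi ((sweepQ p.2 l)⁻¹ (sweepQ p.1 l w))
  have e : (sweepQ p.2 l) ((sweepQ p.2 l)⁻¹ (sweepQ p.1 l w)) = sweepQ p.1 l w := by simp
  rw [e] at h2
  rw [← h2, h1]

/-- The kernel vanishes unless the bits `i` agree. -/
theorem Pl_eq_zero (l : List I) (i : I) (hi : i ∉ l) (x y : A → I → Bool)
    (h : ¬ ∀ t, x t i = y t i) : Pl l x y = 0 := by
  unfold Pl
  calc _ = avg (fun _ : Tab I × Tab I => (0 : ℝ)) := avg_congr fun p => if_neg fun e =>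
        h fun t => by rw [← e]; exact (Kl_bit l p i hi (x t)).symm
    _ = 0 := by unfold avg; simp

/-- Hölder for averages. -/
theorem rpow_avg_mul_le {C : Type*} [Fintype C] [Nonempty C] (w z : C → ℝ) (hw : ∀ c, 0 ≤ w c)
    (hz : ∀ c, 0 ≤ z c) {s : ℝ} (hs : 1 ≤ s) :
    (avg (fun c => w c * z c)) ^ s ≤ (avg w) ^ (s - 1) * avg (fun c => w c * z c ^ s) := by
  have h := rpow_sum_mul_le w z hw hz hs
  unfold avg
  set n : ℝ := (Fintype.card C : ℝ) with hn
  have hnpos : 0 < n := by rw [hn]; exact_mod_cast Fintype.card_pos
  have hA : 0 ≤ ∑ c, w c * z c := Finset.sum_nonneg fun c _ => mul_nonneg (hw c) (hz c)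
  have hB : 0 ≤ ∑ c, w c := Finset.sum_nonneg fun c _ => hw c
  rw [Real.div_rpow hA hnpos.le, Real.div_rpow hB hnpos.le]
  have hns : n ^ s = n ^ (s - 1) * n := by
    rw [← Real.rpow_add_one hnpos.ne']; simp
  have hns1 : 0 < n ^ (s - 1) := Real.rpow_pos_of_pos hnpos _
  rw [hns, div_mul_div_comm]
  exact div_le_div_of_nonneg_right h (by positivity)

/-- The Hölder step: only the compatible pairs `(a, b)` contribute. -/
theorem Pl_cons_rpow_le (i : I) (l : List I) (hi : i ∉ l) {κ : ℝ} (hκ : 0 ≤ κ)
    (x y : A → I → Bool) :
    (Pl (i :: l) x y) ^ (1 + κ) ≤ (piI i x y) ^ κ *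
      avg (fun a : (I → Bool) → Bool => avg (fun b : (I → Bool) → Bool =>
        (Pl l (fun t => layer i a (x t)) (fun t => layer i b (y t))) ^ (1 + κ))) := by
  classical
  rw [Pl_cons i l hi]
  unfold piI
  -- pass to the product
  have hprod : ∀ F : ((I → Bool) → Bool) × ((I → Bool) → Bool) → ℝ,
      avg (fun a : (I → Bool) → Bool => avg (fun b : (I → Bool) → Bool => F (a, b))) = avg F :=
    fun F => (avg_prod F).symm
  set w : ((I → Bool) → Bool) × ((I → Bool) → Bool) → ℝ := fun q =>
    if ∀ t, layer i q.1 (x t) i = layer i q.2 (y t) i then (1 : ℝ) else 0 with hw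
  set z : ((I → Bool) → Bool) × ((I → Bool) → Bool) → ℝ := fun q =>
    Pl l (fun t => layer i q.1 (x t)) (fun t => layer i q.2 (y t)) with hz
  have e0 : avg (fun a : (I → Bool) → Bool => avg (fun b : (I → Bool) → Bool =>
      Pl l (fun t => layer i a (x t)) (fun t => layer i b (y t)))) = avg (fun q => w q * z q) := by
    rw [hprod (fun q => Pl l (fun t => layer i q.1 (x t)) (fun t => layer i q.2 (y t)))]
    refine avg_congr fun q => ?_
    simp only [hw, hz]
    split_ifs with hc
    · ring
    · rw [zero_mul]
      exact Pl_eq_zero l i hi _ _ hc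
  have e1 : avg (fun a : (I → Bool) → Bool => avg (fun b : (I → Bool) → Bool =>
      if ∀ t, layer i a (x t) i = layer i b (y t) i then (1 : ℝ) else 0)) = avg w := hprod w
  have e2 : avg (fun a : (I → Bool) → Bool => avg (fun b : (I → Bool) → Bool =>
      (Pl l (fun t => layer i a (x t)) (fun t => layer i b (y t))) ^ (1 + κ))) =
      avg (fun q => z q ^ (1 + κ)) :=
    hprod (fun q => (z q) ^ (1 + κ))
  rw [e0, e1, e2]
  have hw0 : ∀ q, 0 ≤ w q := fun q => by simp only [hw]; split_ifs <;> norm_num
  have hw1 : ∀ q, w q ≤ 1 := fun q => by simp only [hw]; split_ifs <;> norm_num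
  have hz0 : ∀ q, 0 ≤ z q := fun q => Pl_nonneg _ _ _
  have h := rpow_avg_mul_le w z hw0 hz0 (s := 1 + κ) (by linarith)
  have hk : (1 + κ) - 1 = κ := by ring
  rw [hk] at h
  refine h.trans ?_
  refine mul_le_mul_of_nonneg_left ?_ (Real.rpow_nonneg (avg_nonneg hw0) _)
  refine avg_mono fun q => ?_
  have hzk : 0 ≤ z q ^ (1 + κ) := Real.rpow_nonneg (hz0 q) _
  nlinarith [hw1 q]

/-- The weight of a path of the tables. -/
noncomputable def WW : List I → Tab I × Tab I → (A → I → Bool) → ℝ
  | [], _, _ => 1
  | i :: l, p, x => (invI i x (fun t => Kl l p (layer i (p.1 i) (x t))) : ℝ) *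
      WW l p (fun t => layer i (p.1 i) (x t))

theorem WW_nonneg (l : List I) (p : Tab I × Tab I) (x : A → I → Bool) : 0 ≤ WW l p x := by
  induction l generalizing x with
  | nil => simp [WW]
  | cons i l ih =>
    simp only [WW]
    exact mul_nonneg (Nat.cast_nonneg _) (ih _)

theorem Kl_update_left (l : List I) (i : I) (hi : i ∉ l) (A' B : Tab I) (c : (I → Bool) → Bool) :
    Kl l (Function.update A' i c, B) = Kl l (A', B) := by
  simp only [Kl, sweepQ_update _ _ _ _ hi]

theorem Kl_update_right (l : List I) (i : I) (hi : i ∉ l) (A' B : Tab I) (c : (I → Bool) → Bool) :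
    Kl l (A', Function.update B i c) = Kl l (A', B) := by
  simp only [Kl, sweepQ_update _ _ _ _ hi]

theorem WW_update_left (l : List I) (i : I) (hi : i ∉ l) (A' B : Tab I) (c : (I → Bool) → Bool)
    (x : A → I → Bool) : WW l (Function.update A' i c, B) x = WW l (A', B) x := by
  induction l generalizing x with
  | nil => rfl
  | cons j l ih =>
    have hj : j ≠ i := fun e => hi (by simp [e])
    have hl : i ∉ l := fun e => hi (by simp [e])
    simp only [WW, Function.update_of_ne hj, Kl_update_left l i hl, ih hl]

theorem WW_update_right (l : List I) (i : I) (hi : i ∉ l) (A' B : Tab I) (c : (I → Bool) → Bool)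
    (x : A → I → Bool) : WW l (A', Function.update B i c) x = WW l (A', B) x := by
  induction l generalizing x with
  | nil => rfl
  | cons j l ih =>
    have hl : i ∉ l := fun e => hi (by simp [e])
    simp only [WW, Kl_update_right l i hl, ih hl]

/-- Splitting a layer off from the average over the tables. -/
theorem avg_split (F : ((I → Bool) → Bool) → ((I → Bool) → Bool) → Tab I × Tab I → ℝ) (i : I)
    (h1 : ∀ a b A' B c, F a b (Function.update A' i c, B) = F a b (A', B))
    (h2 : ∀ a b A' B c, F a b (A', Function.update B i c) = F a b (A', B)) :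
    avg (fun p : Tab I × Tab I => F (p.1 i) (p.2 i) p) =
      avg (fun a : (I → Bool) → Bool => avg (fun b : (I → Bool) → Bool =>
        avg (fun p : Tab I × Tab I => F a b p))) := by
  have e1 : ∀ (B : Tab I), avg (fun A' : Tab I => F (A' i) (B i) (A', B)) =
      avg (fun a : (I → Bool) → Bool => avg (fun A' : Tab I => F a (B i) (A', B))) := by
    intro B
    exact avg_update (fun a A' => F a (B i) (A', B)) i (fun x C y => h1 _ _ _ _ _)
  have e2 : ∀ (a : (I → Bool) → Bool),
      avg (fun B : Tab I => avg (fun A' : Tab I => F a (B i) (A', B))) =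
      avg (fun b : (I → Bool) → Bool => avg (fun B : Tab I => avg (fun A' : Tab I => F a b (A', B)))) := by
    intro a
    exact avg_update (fun b B => avg (fun A' : Tab I => F a b (A', B))) i
      (fun x C y => avg_congr fun A' => h2 _ _ _ _ _)
  have e3 : ∀ (G : Tab I × Tab I → ℝ),
      avg G = avg (fun B : Tab I => avg (fun A' : Tab I => G (A', B))) := by
    intro G
    rw [avg_prod G, avg_comm]
  rw [e3]
  simp only [e1]
  rw [avg_comm]
  simp only [e2]
  refine avg_congr fun a => avg_congr fun b => ?_
  rw [e3 (fun p => F a b p)]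

/-- Post-composition by a permutation. -/
def postE (g : Equiv.Perm (I → Bool)) : (A → I → Bool) ≃ (A → I → Bool) where
  toFun y := fun t => g (y t)
  invFun y := fun t => g⁻¹ (y t)
  left_inv y := by funext t; simp
  right_inv y := by funext t; simp

/-- **Step C**, the power mean inequality. -/
theorem power_mean {κ : ℝ} (hκ : 0 ≤ κ) (l : List I) (hl : l.Nodup) (x : A → I → Bool)
    (h : (A → I → Bool) → ℝ) (hh : ∀ y, 0 ≤ h y) :
    ∑ y : A → I → Bool, (Pl l x y) ^ (1 + κ) * h y ≤
      (((1 / 2 : ℝ) ^ Fintype.card A) ^ κ) ^ l.length *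
        avg (fun p : Tab I × Tab I => h (fun t => Kl l p (x t)) * (WW l p x) ^ κ) := by
  classical
  have hκ1 : 1 + κ ≠ 0 := by linarith
  induction l generalizing x h with
  | nil =>
    simp only [List.length_nil, pow_zero, one_mul, WW, Real.one_rpow, mul_one, Kl_nil,
      Equiv.Perm.coe_one, id_eq]
    rw [avg_const, Finset.sum_eq_single x]
    · rw [Pl_nil, if_pos rfl, Real.one_rpow, one_mul]
    · intro y _ hy
      rw [Pl_nil, if_neg (fun e => hy e.symm), Real.zero_rpow hκ1, zero_mul]
    · simp
  | cons i l ih =>
    have hi : i ∉ l := (List.nodup_cons.1 hl).1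
    have hl' : l.Nodup := (List.nodup_cons.1 hl).2
    set c : ℝ := ((1 / 2 : ℝ) ^ Fintype.card A) ^ κ with hc
    have hc0 : 0 ≤ c := Real.rpow_nonneg (by positivity) _
    -- first step: pointwise
    have step1 : ∀ y : A → I → Bool, (Pl (i :: l) x y) ^ (1 + κ) * h y ≤
        c * (((invI i x y : ℝ)) ^ κ * avg (fun a : (I → Bool) → Bool =>
          avg (fun b : (I → Bool) → Bool =>
          (Pl l (fun t => layer i a (x t)) (fun t => layer i b (y t))) ^ (1 + κ))) * h y) := by
      intro y
      have h1 := Pl_cons_rpow_le i l hi hκ x y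
      have h2 : (piI i x y) ^ κ ≤ c * (invI i x y : ℝ) ^ κ := by
        rw [hc, ← Real.mul_rpow (by positivity) (Nat.cast_nonneg _)]
        exact Real.rpow_le_rpow (piI_nonneg _ _ _) (piI_le i x y) hκ
      have h3 : 0 ≤ avg (fun a : (I → Bool) → Bool => avg (fun b : (I → Bool) → Bool =>
          (Pl l (fun t => layer i a (x t)) (fun t => layer i b (y t))) ^ (1 + κ))) :=
        avg_nonneg fun a => avg_nonneg fun b => Real.rpow_nonneg (Pl_nonneg _ _ _) _
      calc _ ≤ ((piI i x y) ^ κ * avg (fun a : (I → Bool) → Bool =>
              avg (fun b : (I → Bool) → Bool =>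
              (Pl l (fun t => layer i a (x t)) (fun t => layer i b (y t))) ^ (1 + κ)))) * h y :=
            mul_le_mul_of_nonneg_right h1 (hh y)
        _ ≤ (c * (invI i x y : ℝ) ^ κ * avg (fun a : (I → Bool) → Bool =>
              avg (fun b : (I → Bool) → Bool =>
              (Pl l (fun t => layer i a (x t)) (fun t => layer i b (y t))) ^ (1 + κ)))) * h y :=
            mul_le_mul_of_nonneg_right (mul_le_mul_of_nonneg_right h2 h3) (hh y)
        _ = _ := by ring
    -- the sum over `y`, for fixed `a b`
    have step2 : ∀ a b : (I → Bool) → Bool,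
        ∑ y : A → I → Bool, (invI i x y : ℝ) ^ κ *
          (Pl l (fun t => layer i a (x t)) (fun t => layer i b (y t))) ^ (1 + κ) * h y ≤
        c ^ l.length * avg (fun p : Tab I × Tab I =>
          (invI i x (fun t => Kl l p (layer i a (x t))) : ℝ) ^ κ *
            h (fun t => layer i b (Kl l p (layer i a (x t)))) *
            (WW l p (fun t => layer i a (x t))) ^ κ) := by
      intro a b
      have e := Equiv.sum_comp (postE (A := A) (layer i b)) (fun y : A → I → Bool =>
        (invI i x y : ℝ) ^ κ *
          (Pl l (fun t => layer i a (x t)) (fun t => layer i b (y t))) ^ (1 + κ) * h y)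
      rw [← e]
      have e2 : ∀ y : A → I → Bool, (invI i x (postE (A := A) (layer i b) y) : ℝ) ^ κ *
          (Pl l (fun t => layer i a (x t))
            (fun t => layer i b (postE (A := A) (layer i b) y t))) ^ (1 + κ) *
            h (postE (A := A) (layer i b) y) =
          (Pl l (fun t => layer i a (x t)) y) ^ (1 + κ) *
            ((invI i x y : ℝ) ^ κ * h (fun t => layer i b (y t))) := by
        intro y
        have e3 : (invI i x (postE (A := A) (layer i b) y) : ℝ) = (invI i x y : ℝ) := by
          exact_mod_cast invI_layer_right i x y b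
        have e4 : (fun t => layer i b (postE (A := A) (layer i b) y t)) = y := by
          funext t
          exact layerFun_invol i b (y t)
        rw [e3, e4]
        have e5 : h (postE (A := A) (layer i b) y) = h (fun t => layer i b (y t)) := rfl
        rw [e5]
        ring
      simp only [e2]
      have := ih hl' (fun t => layer i a (x t))
        (fun y => (invI i x y : ℝ) ^ κ * h (fun t => layer i b (y t)))
        (fun y => mul_nonneg (Real.rpow_nonneg (Nat.cast_nonneg _) _) (hh _))
      exact this
    -- assemble
    have hsum : ∑ y : A → I → Bool, (Pl (i :: l) x y) ^ (1 + κ) * h y ≤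
        c * avg (fun a : (I → Bool) → Bool => avg (fun b : (I → Bool) → Bool =>
          ∑ y : A → I → Bool, (invI i x y : ℝ) ^ κ *
          (Pl l (fun t => layer i a (x t)) (fun t => layer i b (y t))) ^ (1 + κ) * h y)) := by
      refine (Finset.sum_le_sum fun y _ => step1 y).trans (le_of_eq ?_)
      rw [← Finset.mul_sum]
      congr 1
      -- interchange `∑` and `avg`
      have e1 : ∀ y : A → I → Bool, (invI i x y : ℝ) ^ κ * avg (fun a : (I → Bool) → Bool =>
          avg (fun b : (I → Bool) → Bool =>
          (Pl l (fun t => layer i a (x t)) (fun t => layer i b (y t))) ^ (1 + κ))) * h y =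
          avg (fun a : (I → Bool) → Bool => avg (fun b : (I → Bool) → Bool =>
            (invI i x y : ℝ) ^ κ *
          (Pl l (fun t => layer i a (x t)) (fun t => layer i b (y t))) ^ (1 + κ) * h y)) := by
        intro y
        unfold avg
        simp only [Finset.sum_div, Finset.mul_sum, Finset.sum_mul]
        refine Finset.sum_congr rfl fun a _ => Finset.sum_congr rfl fun b _ => ?_
        ring
      simp only [e1]
      rw [sum_avg_comm]
      refine avg_congr fun a => ?_
      rw [sum_avg_comm]
    refine hsum.trans ?_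
    have hstep3 : avg (fun a : (I → Bool) → Bool => avg (fun b : (I → Bool) → Bool =>
          ∑ y : A → I → Bool, (invI i x y : ℝ) ^ κ *
          (Pl l (fun t => layer i a (x t)) (fun t => layer i b (y t))) ^ (1 + κ) * h y)) ≤
        c ^ l.length * avg (fun a : (I → Bool) → Bool => avg (fun b : (I → Bool) → Bool =>
          avg (fun p : Tab I × Tab I =>
          (invI i x (fun t => Kl l p (layer i a (x t))) : ℝ) ^ κ *
            h (fun t => layer i b (Kl l p (layer i a (x t)))) *
            (WW l p (fun t => layer i a (x t))) ^ κ))) := by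
      have : ∀ a : (I → Bool) → Bool, avg (fun b : (I → Bool) → Bool =>
          ∑ y : A → I → Bool, (invI i x y : ℝ) ^ κ *
          (Pl l (fun t => layer i a (x t)) (fun t => layer i b (y t))) ^ (1 + κ) * h y) ≤
          c ^ l.length * avg (fun b : (I → Bool) → Bool =>
          avg (fun p : Tab I × Tab I =>
          (invI i x (fun t => Kl l p (layer i a (x t))) : ℝ) ^ κ *
            h (fun t => layer i b (Kl l p (layer i a (x t)))) *
            (WW l p (fun t => layer i a (x t))) ^ κ)) := by
        intro a
        rw [← avg_const_mul]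
        exact avg_mono fun b => step2 a b
      rw [← avg_const_mul]
      exact avg_mono this
    refine (mul_le_mul_of_nonneg_left hstep3 hc0).trans (le_of_eq ?_)
    -- the tables
    have hsplit := avg_split (fun a b p =>
      (invI i x (fun t => Kl l p (layer i a (x t))) : ℝ) ^ κ *
            h (fun t => layer i b (Kl l p (layer i a (x t)))) *
            (WW l p (fun t => layer i a (x t))) ^ κ) i
      (fun a b A' B c' => by
        simp only [Kl_update_left l i hi, WW_update_left l i hi])
      (fun a b A' B c' => by
        simp only [Kl_update_right l i hi, WW_update_right l i hi])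
    rw [← hsplit]
    rw [List.length_cons, pow_succ', mul_assoc]
    congr 2
    refine avg_congr fun p => ?_
    have e6 : (fun t => Kl (i :: l) p (x t)) =
        fun t => layer i (p.2 i) (Kl l p (layer i (p.1 i) (x t))) := by
      funext t
      rw [Kl_cons]
      rfl
    rw [e6]
    simp only [WW]
    rw [Real.mul_rpow (Nat.cast_nonneg _) (WW_nonneg _ _ _)]
    ring

end Main

end Crest.Agent.Thorp
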