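import Mathlib
import Crest.Agent.Lib.Thorp.PowerMean

/-!
# Step D: colourings.

`wt c0 x d`: the weight of a colouring `d : U → C`, `YK c0 K x`: the sum of the weights of the
`K`-invariant colourings. The core: partial traces of Gram kernels (`gram_partial_trace`), the
Schur test, and the injection on cycles (`margin_le`).
-/

set_option autoImplicit false
set_option linter.unusedSectionVars false
set_option linter.unusedVariables false

namespace Crest.Agent.Thorp

open Finset

section Gram

variable {P R H : Type*} [Fintype P] [Fintype R] [Fintype H]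

/-- The partial trace inequality. -/
theorem gram_partial_trace (wP : P → ℝ) (wR : R → ℝ) (hwP : ∀ p, 0 ≤ wP p)
    (v : P → R → H → ℝ) (τ : ℝ) (T : R → R → ℝ)
    (hT : ∀ r r', T r r' = ∑ p, wP p * ∑ h, v p r h * v p r' h)
    (hτ : ∀ z : R → ℝ, ∑ r, ∑ r', z r * z r' * T r r' ≤ τ * ∑ r, (z r) ^ 2) :
    ∑ r, ∑ r', wR r * wR r' * T r r' ^ 2 ≤
      τ * ∑ p, ∑ r, wP p * wR r ^ 2 * ∑ h, (v p r h) ^ 2 := by
  have e1 : ∑ r, ∑ r', wR r * wR r' * T r r' ^ 2 =
      ∑ p, wP p * ∑ h, ∑ r, ∑ r', (wR r * v p r h) * (wR r' * v p r' h) * T r r' := by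
    have : ∀ r r', wR r * wR r' * T r r' ^ 2 =
        ∑ p, wP p * ∑ h, (wR r * v p r h) * (wR r' * v p r' h) * T r r' := by
      intro r r'
      rw [pow_two]
      nth_rewrite 2 [hT r r']
      rw [← mul_assoc, Finset.mul_sum]
      refine Finset.sum_congr rfl fun p _ => ?_
      rw [Finset.mul_sum, Finset.mul_sum, Finset.mul_sum]
      refine Finset.sum_congr rfl fun h _ => ?_
      ring
    simp only [this]
    simp only [Finset.mul_sum]
    -- `∑ r ∑ r' ∑ p ∑ h = ∑ p ∑ h ∑ r ∑ r'`
    calc ∑ r, ∑ r', ∑ p, ∑ h, wP p * ((wR r * v p r h) * (wR r' * v p r' h) * T r r')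
        = ∑ r, ∑ p, ∑ r', ∑ h, wP p * ((wR r * v p r h) * (wR r' * v p r' h) * T r r') :=
          Finset.sum_congr rfl fun r _ => Finset.sum_comm
      _ = ∑ p, ∑ r, ∑ r', ∑ h, wP p * ((wR r * v p r h) * (wR r' * v p r' h) * T r r') :=
          Finset.sum_comm
      _ = ∑ p, ∑ r, ∑ h, ∑ r', wP p * ((wR r * v p r h) * (wR r' * v p r' h) * T r r') :=
          Finset.sum_congr rfl fun p _ => Finset.sum_congr rfl fun r _ => Finset.sum_comm
      _ = ∑ p, ∑ h, ∑ r, ∑ r', wP p * ((wR r * v p r h) * (wR r' * v p r' h) * T r r') :=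
          Finset.sum_congr rfl fun p _ => Finset.sum_comm
  rw [e1, Finset.mul_sum]
  refine Finset.sum_le_sum fun p _ => ?_
  have h1 : ∀ h, ∑ r, ∑ r', (wR r * v p r h) * (wR r' * v p r' h) * T r r' ≤
      τ * ∑ r, (wR r * v p r h) ^ 2 := fun h => hτ (fun r => wR r * v p r h)
  have h2 : ∑ r, wP p * wR r ^ 2 * ∑ h, (v p r h) ^ 2 =
      wP p * ∑ h, ∑ r, (wR r * v p r h) ^ 2 := by
    rw [Finset.mul_sum]
    simp only [Finset.mul_sum]
    rw [Finset.sum_comm]
    refine Finset.sum_congr rfl fun r _ => Finset.sum_congr rfl fun h _ => ?_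
    ring
  rw [h2, ← mul_assoc, mul_comm τ, mul_assoc]
  refine mul_le_mul_of_nonneg_left ?_ (hwP p)
  rw [Finset.mul_sum]
  exact Finset.sum_le_sum fun h _ => h1 h

/-- The Schur test. -/
theorem schur_test (T : R → R → ℝ) (τ : ℝ) (hT : ∀ r r', 0 ≤ T r r')
    (h1 : ∀ r, ∑ r', T r r' ≤ τ) (h2 : ∀ r', ∑ r, T r r' ≤ τ) (z : R → ℝ) :
    ∑ r, ∑ r', z r * z r' * T r r' ≤ τ * ∑ r, (z r) ^ 2 := by
  have hpt : ∀ r r', z r * z r' * T r r' ≤ (z r) ^ 2 / 2 * T r r' + (z r') ^ 2 / 2 * T r r' := by
    intro r r'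
    nlinarith [hT r r', sq_nonneg (z r - z r'), mul_nonneg (hT r r') (sq_nonneg (z r - z r'))]
  have h3 : ∑ r, ∑ r', ((z r) ^ 2 / 2 * T r r') ≤ τ / 2 * ∑ r, (z r) ^ 2 := by
    rw [Finset.mul_sum]
    refine Finset.sum_le_sum fun r _ => ?_
    rw [← Finset.mul_sum]
    nlinarith [h1 r, sq_nonneg (z r)]
  have h4 : ∑ r, ∑ r', ((z r') ^ 2 / 2 * T r r') ≤ τ / 2 * ∑ r, (z r) ^ 2 := by
    rw [Finset.sum_comm, Finset.mul_sum]
    refine Finset.sum_le_sum fun r' _ => ?_
    rw [← Finset.mul_sum]
    nlinarith [h2 r', sq_nonneg (z r')]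
  calc _ ≤ ∑ r, ∑ r', ((z r) ^ 2 / 2 * T r r' + (z r') ^ 2 / 2 * T r r') :=
        Finset.sum_le_sum fun r _ => Finset.sum_le_sum fun r' _ => hpt r r'
    _ = ∑ r, ∑ r', ((z r) ^ 2 / 2 * T r r') + ∑ r, ∑ r', ((z r') ^ 2 / 2 * T r r') := by
        simp only [Finset.sum_add_distrib]
    _ ≤ _ := by linarith

end Gram

section ColorBasic

variable {U C : Type*} [Fintype U] [DecidableEq U] [Fintype C] [DecidableEq C] (c0 : C)

/-- The weight of a colouring. -/
def wt (x : U → ℝ) (d : U → C) : ℝ := ∏ w, if d w = c0 then 1 else x w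

theorem wt_nonneg {x : U → ℝ} (hx : ∀ w, 0 ≤ x w) (d : U → C) : 0 ≤ wt c0 x d :=
  Finset.prod_nonneg fun w _ => by split_ifs <;> first | exact zero_le_one | exact hx w

open Classical in
/-- The sum of the weights of the invariant colourings. -/
noncomputable def YK (K : Equiv.Perm U) (x : U → ℝ) : ℝ :=
  ∑ d : U → C, if (∀ w, d (K w) = d w) then wt c0 x d else 0

theorem YK_nonneg (K : Equiv.Perm U) {x : U → ℝ} (hx : ∀ w, 0 ≤ x w) : 0 ≤ YK c0 K x :=
  Finset.sum_nonneg fun d _ => by
    split_ifs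
    · exact wt_nonneg c0 hx d
    · exact le_rfl

/-- Invariance for the inverse permutation. -/
theorem invariant_inv_iff (K : Equiv.Perm U) (d : U → C) :
    (∀ w, d (K⁻¹ w) = d w) ↔ (∀ w, d (K w) = d w) := by
  constructor
  · intro h w
    have := h (K w)
    simpa using this.symm
  · intro h w
    have := h (K⁻¹ w)
    simpa using this.symm

theorem YK_inv (K : Equiv.Perm U) (x : U → ℝ) : YK c0 K⁻¹ x = YK c0 K x := by
  unfold YK
  refine Finset.sum_congr rfl fun d _ => ?_
  by_cases h : ∀ w, d (K w) = d w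
  · rw [if_pos h, if_pos ((invariant_inv_iff K d).2 h)]
  · rw [if_neg h, if_neg (fun e => h ((invariant_inv_iff K d).1 e))]

end ColorBasic

section Margin

variable {U C : Type*} [Fintype U] [DecidableEq U] [Fintype C] [DecidableEq C] (c0 : C)

/-- Points whose forward orbit avoids `F`. -/
def freePt (K : Equiv.Perm U) (F : U → Prop) (u : U) : Prop := ∀ n : ℕ, ¬ F ((K ^ n) u)

theorem freePt_self {K : Equiv.Perm U} {F : U → Prop} {u : U} (h : freePt K F u) : ¬ F u := by
  simpa using h 0

theorem freePt_apply {K : Equiv.Perm U} {F : U → Prop} {u : U} :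
    freePt K F (K u) ↔ freePt K F u := by
  constructor
  · intro h n
    -- `K ^ n u = K ^ (n + m - 1) (K u)`, `m` the order
    have hm : 0 < orderOf K := orderOf_pos K
    have e : (K ^ n) u = (K ^ (n + orderOf K - 1)) (K u) := by
      rw [← Equiv.Perm.mul_apply, ← pow_succ]
      have : n + orderOf K - 1 + 1 = n + orderOf K := by omega
      rw [this, pow_add, pow_orderOf_eq_one, mul_one]
    rw [e]
    exact h _
  · intro h n
    have e : (K ^ n) (K u) = (K ^ (n + 1)) u := by
      rw [pow_succ, Equiv.Perm.mul_apply]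
    rw [e]
    exact h _

/-- Merging the two parts of a colouring. -/
def mergeC (F : U → Prop) [DecidablePred F] (p : {u // ¬ F u} → C) (r : {u // F u} → C) (u : U) : C :=
  if h : F u then r ⟨u, h⟩ else p ⟨u, h⟩

variable {F : U → Prop} [DecidablePred F]

theorem mergeC_pos (p : {u // ¬ F u} → C) (r : {u // F u} → C) {u : U} (h : F u) :
    mergeC F p r u = r ⟨u, h⟩ := by
  simp [mergeC, h]

theorem mergeC_neg (p : {u // ¬ F u} → C) (r : {u // F u} → C) {u : U} (h : ¬ F u) :
    mergeC F p r u = p ⟨u, h⟩ := by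
  simp [mergeC, h]

/-- `p` is compatible with `r` under `K`. -/
def CompatC (K : Equiv.Perm U) (F : U → Prop) [DecidablePred F] (p : {u // ¬ F u} → C) (r : {u // F u} → C) : Prop :=
  ∀ u : {u // ¬ F u}, mergeC F p r (K u) = p u

/-- The truncated weight of the `p` part. -/
noncomputable def wtP (F : U → Prop) [DecidablePred F] (y : U → ℝ) (p : {u // ¬ F u} → C) : ℝ :=
  ∏ u : {u // ¬ F u}, if p u = c0 then 1 else y u

open Classical in
/-- The invariant colouring attached to `p`. -/
noncomputable def cycC (K : Equiv.Perm U) (F : U → Prop) (p : {u // ¬ F u} → C) (u : U) : C :=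
  if h : freePt K F u then p ⟨u, freePt_self h⟩ else c0

theorem cycC_invariant {K : Equiv.Perm U} {p : {u // ¬ F u} → C}
    {r : {u // F u} → C} (h : CompatC K F p r) (u : U) :
    cycC c0 K F p (K u) = cycC c0 K F p u := by
  by_cases hu : freePt K F u
  · have hK : freePt K F (K u) := freePt_apply.2 hu
    simp only [cycC, hu, hK, dif_pos]
    have h1 := h ⟨u, freePt_self hu⟩
    rw [mergeC_neg p r (freePt_self hK)] at h1
    exact h1
  · have hK : ¬ freePt K F (K u) := fun e => hu (freePt_apply.1 e)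
    simp only [cycC, hu, hK, dif_neg, not_false_iff]

/-- Values of compatible `p` off the free points are determined by `r`. -/
theorem compat_eq_of_cyc {K : Equiv.Perm U} {p p' : {u // ¬ F u} → C}
    {r : {u // F u} → C} (h : CompatC K F p r) (h' : CompatC K F p' r)
    (he : cycC c0 K F p = cycC c0 K F p') : p = p' := by
  classical
  funext ⟨u, hu⟩
  by_cases hfree : freePt K F u
  · have := congrFun he u
    simpa [cycC, hfree] using this
  · -- find the first return to `F`
    have hex : ∃ n : ℕ, F ((K ^ n) u) := by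
      by_contra hcon
      exact hfree (fun n hn => hcon ⟨n, hn⟩)
    -- induction on the distance to `F`
    have key : ∀ n : ℕ, ∀ v : U, (hv : ¬ F v) → F ((K ^ n) v) → p ⟨v, hv⟩ = p' ⟨v, hv⟩ := by
      intro n
      induction n with
      | zero =>
        intro v hv hF
        exact absurd (by simpa using hF) hv
      | succ n ih =>
        intro v hv hF
        have e1 := h ⟨v, hv⟩
        have e2 := h' ⟨v, hv⟩
        rw [← e1, ← e2]
        by_cases hKv : F (K v)
        · rw [mergeC_pos _ _ hKv, mergeC_pos _ _ hKv]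
        · rw [mergeC_neg _ _ hKv, mergeC_neg _ _ hKv]
          apply ih (K v) hKv
          rwa [← Equiv.Perm.mul_apply, ← pow_succ]
    obtain ⟨n, hn⟩ := hex
    exact key n u hu hn

/-- The weight comparison. -/
theorem wtP_le_wt_cyc {K : Equiv.Perm U} (p : {u // ¬ F u} → C) {y : U → ℝ}
    (hy0 : ∀ u, 0 ≤ y u) (hy1 : ∀ u, y u ≤ 1) :
    wtP c0 F y p ≤ wt c0 (fun u => if F u then 0 else y u) (cycC c0 K F p) := by
  classical
  unfold wtP wt
  -- write the right side as a product over the non-`F` points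
  have e1 : ∏ w, (if cycC c0 K F p w = c0 then (1 : ℝ) else if F w then 0 else y w) =
      ∏ w : {u // ¬ F u}, (if cycC c0 K F p w = c0 then (1 : ℝ) else y w) := by
    rw [← Fintype.prod_subtype_mul_prod_subtype (fun u => ¬ F u)]
    have e2 : ∀ w : {u // ¬ ¬ F u}, (if cycC c0 K F p w = c0 then (1 : ℝ) else if F w then 0 else y w) = 1 := by
      rintro ⟨w, hw⟩
      have hF : F w := not_not.1 hw
      have : ¬ freePt K F w := fun e => freePt_self e hF
      simp [cycC, this]
    have e3 : ∀ w : {u // ¬ F u}, (if cycC c0 K F p w = c0 then (1 : ℝ) else if F w then 0 else y w) =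
        (if cycC c0 K F p w = c0 then (1 : ℝ) else y w) := by
      rintro ⟨w, hw⟩
      simp [hw]
    simp only [e2, e3, Finset.prod_const_one, mul_one]
  rw [e1]
  refine Finset.prod_le_prod (s := Finset.univ) (f := fun u : {u // ¬ F u} => if p u = c0 then (1 : ℝ) else y u)
    (g := fun u : {u // ¬ F u} => if cycC c0 K F p u = c0 then (1 : ℝ) else y u) (fun u _ => ?_) (fun u _ => ?_)
  · split_ifs
    · exact zero_le_one
    · exact hy0 u
  · by_cases hfree : freePt K F u
    · have : cycC c0 K F p u = p u := by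
        simp only [cycC, hfree, dif_pos]
      rw [this]
    · have : cycC c0 K F p u = c0 := by
        simp only [cycC, hfree, dif_neg, not_false_iff]
      rw [this, if_pos rfl]
      split_ifs
      · exact le_rfl
      · exact hy1 u

/-- **Injection on cycles**: the weight of the compatible `p` is at most the weighted number of
`K`-invariant colourings vanishing on `F`. -/
theorem margin_le (K : Equiv.Perm U) (F : U → Prop) [DecidablePred F] (r : {u // F u} → C)
    {y : U → ℝ} (hy0 : ∀ u, 0 ≤ y u) (hy1 : ∀ u, y u ≤ 1) [∀ p, Decidable (CompatC (C := C) K F p r)] :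
    ∑ p : {u // ¬ F u} → C, (if CompatC K F p r then wtP c0 F y p else 0) ≤
      YK c0 K (fun u => if F u then 0 else y u) := by
  classical
  set x : U → ℝ := fun u => if F u then 0 else y u with hx
  have hx0 : ∀ u, 0 ≤ x u := fun u => by
    simp only [hx]; split_ifs
    · exact le_rfl
    · exact hy0 u
  rw [← Finset.sum_filter]
  set A := (Finset.univ : Finset ({u // ¬ F u} → C)).filter (fun p => CompatC K F p r) with hA
  have hinj : Set.InjOn (cycC c0 K F) (A : Set ({u // ¬ F u} → C)) := by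
    intro p hp p' hp' he
    exact compat_eq_of_cyc c0 (by simpa [hA] using hp) (by simpa [hA] using hp') he
  calc ∑ p ∈ A, wtP c0 F y p ≤ ∑ p ∈ A, wt c0 x (cycC c0 K F p) :=
        Finset.sum_le_sum fun p _ => wtP_le_wt_cyc c0 p hy0 hy1
    _ = ∑ d ∈ A.image (cycC c0 K F), wt c0 x d := (Finset.sum_image hinj).symm
    _ ≤ YK c0 K x := by
        unfold YK
        rw [← Finset.sum_filter]
        refine Finset.sum_le_sum_of_subset_of_nonneg ?_ (fun d _ _ => wt_nonneg c0 hx0 d)
        intro d hd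
        obtain ⟨p, hp, rfl⟩ := Finset.mem_image.1 hd
        have hp' : CompatC K F p r := by simpa [hA] using hp
        simp only [Finset.mem_filter, Finset.mem_univ, true_and]
        exact fun w => cycC_invariant c0 hp' w

end Margin

section Abstract

theorem avg_const_mul' {C : Type*} [Fintype C] (a : ℝ) (F : C → ℝ) :
    avg (fun c => F c * a) = avg F * a := by
  rw [mul_comm, ← avg_const_mul]
  exact avg_congr fun c => mul_comm _ _

theorem sum_avg_comm' {Y C : Type*} [Fintype Y] [Fintype C] (F : C → Y → ℝ) :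
    avg (fun c => ∑ y, F c y) = ∑ y, avg (fun c => F c y) :=
  (sum_avg_comm (fun y c => F c y)).symm

variable {U C Ω : Type*} [Fintype U] [DecidableEq U] [Fintype C] [DecidableEq C] [Fintype Ω]
  [Nonempty Ω] (c0 : C) (Q : Ω → Equiv.Perm U)

/-- The word `Q(B)⁻¹ Q(A)`. -/
def wordK (ω : Ω × Ω) : Equiv.Perm U := (Q ω.2)⁻¹ * Q ω.1

open Classical in
/-- The kernel on colourings. -/
noncomputable def GU (f g : U → C) : ℝ :=
  avg (fun ω : Ω × Ω => if ∀ w, f (wordK Q ω w) = g w then (1 : ℝ) else 0)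

open Classical in
/-- The Gram vectors. -/
noncomputable def vU (f h : U → C) : ℝ :=
  avg (fun A : Ω => if ∀ w, f ((Q A)⁻¹ w) = h w then (1 : ℝ) else 0)

/-- The average of `YK`. -/
noncomputable def YU (x : U → ℝ) : ℝ := avg (fun ω : Ω × Ω => YK c0 (wordK Q ω) x)

theorem GU_eq_sum (f g : U → C) : GU Q f g = ∑ h, vU Q f h * vU Q g h := by
  classical
  unfold GU vU
  -- pointwise identity
  have hpt : ∀ ω : Ω × Ω, (if ∀ w, f (wordK Q ω w) = g w then (1 : ℝ) else 0) =
      ∑ h : U → C, (if ∀ w, f ((Q ω.2)⁻¹ w) = h w then (1 : ℝ) else 0) *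
        (if ∀ w, g ((Q ω.1)⁻¹ w) = h w then (1 : ℝ) else 0) := by
    intro ω
    rw [Finset.sum_eq_single (fun w => f ((Q ω.2)⁻¹ w))]
    · rw [if_pos (fun _ => rfl), one_mul]
      have hiff : (∀ w, f (wordK Q ω w) = g w) ↔ ∀ w, g ((Q ω.1)⁻¹ w) = f ((Q ω.2)⁻¹ w) := by
        constructor
        · intro h w
          have := h ((Q ω.1)⁻¹ w)
          simp only [wordK, Equiv.Perm.mul_apply] at this
          simpa using this.symm
        · intro h w
          have := h (Q ω.1 w)
          simp only [wordK, Equiv.Perm.mul_apply]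
          simpa using this.symm
      by_cases h : ∀ w, f (wordK Q ω w) = g w
      · rw [if_pos h, if_pos (hiff.1 h)]
      · rw [if_neg h, if_neg (fun e => h (hiff.2 e))]
    · intro h _ hne
      rw [if_neg, zero_mul]
      intro e
      exact hne (funext fun w => (e w).symm)
    · simp
  simp only [hpt]
  -- separate
  have hsep : ∀ (a : Ω → ℝ) (b : Ω → ℝ),
      avg (fun A : Ω => avg (fun B : Ω => a B * b A)) = avg a * avg b := by
    intro a b
    have : ∀ A : Ω, avg (fun B : Ω => a B * b A) = b A * avg a := by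
      intro A
      rw [← avg_const_mul]
      exact avg_congr fun B => mul_comm _ _
    simp only [this]
    rw [avg_const_mul', mul_comm]
  have e0 : avg (fun ω : Ω × Ω => ∑ h : U → C, (if ∀ w, f ((Q ω.2)⁻¹ w) = h w then (1 : ℝ) else 0) *
        (if ∀ w, g ((Q ω.1)⁻¹ w) = h w then (1 : ℝ) else 0)) =
      ∑ h : U → C, avg (fun ω : Ω × Ω => (if ∀ w, f ((Q ω.2)⁻¹ w) = h w then (1 : ℝ) else 0) *
        (if ∀ w, g ((Q ω.1)⁻¹ w) = h w then (1 : ℝ) else 0)) := sum_avg_comm' _
  rw [e0]
  refine Finset.sum_congr rfl fun h _ => ?_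
  rw [avg_prod]
  exact hsep (fun B => if ∀ w, f ((Q B)⁻¹ w) = h w then (1 : ℝ) else 0)
    (fun A => if ∀ w, g ((Q A)⁻¹ w) = h w then (1 : ℝ) else 0)

theorem GU_symm (f g : U → C) : GU Q f g = GU Q g f := by
  rw [GU_eq_sum, GU_eq_sum]
  exact Finset.sum_congr rfl fun h _ => mul_comm _ _

theorem GU_nonneg (f g : U → C) : 0 ≤ GU Q f g :=
  avg_nonneg fun ω => by split_ifs <;> norm_num

/-- `YU` in terms of the kernel. -/
theorem YU_eq (x : U → ℝ) : YU c0 Q x = ∑ d : U → C, wt c0 x d * GU Q d d := by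
  classical
  unfold YU YK GU
  rw [sum_avg_comm']
  refine Finset.sum_congr rfl fun d _ => ?_
  rw [← avg_const_mul]
  refine avg_congr fun ω => ?_
  split_ifs with h
  · ring
  · ring

variable {F : U → Prop} [DecidablePred F]

/-- Mixing two colourings. -/
def mixC (F : U → Prop) [DecidablePred F] (f g : U → C) (u : U) : C := if F u then g u else f u

/-- Sums over colourings as sums over the two parts. -/
theorem sum_merge (G : (U → C) → ℝ) :
    ∑ f : U → C, G f =
      ∑ p : {u // ¬ F u} → C, ∑ r : {u // F u} → C, G (mergeC F p r) := by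
  classical
  let e : ({u // ¬ F u} → C) × ({u // F u} → C) ≃ (U → C) :=
    (Equiv.prodComm _ _).trans (Equiv.piEquivPiSubtypeProd F (fun _ => C)).symm
  rw [← Equiv.sum_comp e G, Fintype.sum_prod_type]
  rfl

theorem mixC_merge (p p' : {u // ¬ F u} → C) (r r' : {u // F u} → C) :
    mixC F (mergeC F p r) (mergeC F p' r') = mergeC F p r' := by
  funext u
  by_cases h : F u
  · simp [mixC, h, mergeC_pos]
  · simp [mixC, h, mergeC_neg]

/-- The truncated weight of the `r` part. -/
noncomputable def wtR (F : U → Prop) [DecidablePred F] (y : U → ℝ) (r : {u // F u} → C) : ℝ :=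
  ∏ u : {u // F u}, if r u = c0 then 1 else y u

theorem wt_merge (y : U → ℝ) (p : {u // ¬ F u} → C) (r : {u // F u} → C) :
    wt c0 y (mergeC F p r) = wtP c0 F y p * wtR c0 F y r := by
  unfold wt wtP wtR
  rw [← Fintype.prod_subtype_mul_prod_subtype (fun u => F u), mul_comm]
  congr 1
  · refine Finset.prod_congr rfl fun u _ => ?_
    rw [mergeC_neg _ _ u.2]
  · refine Finset.prod_congr rfl fun u _ => ?_
    rw [mergeC_pos _ _ u.2]

theorem wt_merge_sq (y : U → ℝ) (p : {u // ¬ F u} → C) (r : {u // F u} → C) :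
    wt c0 (fun u => if F u then y u ^ 2 else y u) (mergeC F p r) =
      wtP c0 F y p * wtR c0 F y r ^ 2 := by
  rw [wt_merge]
  congr 1
  · unfold wtP
    refine Finset.prod_congr rfl fun u _ => ?_
    simp [u.2]
  · unfold wtR
    rw [← Finset.prod_pow]
    refine Finset.prod_congr rfl fun u _ => ?_
    simp only [u.2, if_true]
    split_ifs <;> simp

/-- The partial trace of the kernel. -/
noncomputable def TU (F : U → Prop) [DecidablePred F] (y : U → ℝ) (r r' : {u // F u} → C) : ℝ :=
  ∑ p : {u // ¬ F u} → C, wtP c0 F y p * GU Q (mergeC F p r) (mergeC F p r')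

theorem TU_symm (y : U → ℝ) (r r' : {u // F u} → C) : TU c0 Q F y r r' = TU c0 Q F y r' r := by
  unfold TU
  refine Finset.sum_congr rfl fun p _ => ?_
  rw [GU_symm]

/-- The double sum equals the sum of squares of the partial trace. -/
theorem double_sum_eq (y : U → ℝ) :
    ∑ f₀ : U → C, ∑ f₁ : U → C, wt c0 y f₀ * wt c0 y f₁ * GU Q f₀ (mixC F f₀ f₁) *
        GU Q f₁ (mixC F f₁ f₀) =
      ∑ r : {u // F u} → C, ∑ r' : {u // F u} → C,
        wtR c0 F y r * wtR c0 F y r' * TU c0 Q F y r r' ^ 2 := by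
  simp only [sum_merge (F := F)]
  have hterm : ∀ (p p' : {u // ¬ F u} → C) (r r' : {u // F u} → C),
      wt c0 y (mergeC F p r) * wt c0 y (mergeC F p' r') *
        GU Q (mergeC F p r) (mixC F (mergeC F p r) (mergeC F p' r')) *
        GU Q (mergeC F p' r') (mixC F (mergeC F p' r') (mergeC F p r)) =
      wtR c0 F y r * wtR c0 F y r' * ((wtP c0 F y p * GU Q (mergeC F p r) (mergeC F p r')) *
        (wtP c0 F y p' * GU Q (mergeC F p' r') (mergeC F p' r))) := by
    intro p p' r r'
    rw [mixC_merge, mixC_merge, wt_merge, wt_merge]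
    ring
  simp only [hterm]
  have hsq : ∀ r r' : {u // F u} → C, wtR c0 F y r * wtR c0 F y r' * TU c0 Q F y r r' ^ 2 =
      ∑ p : {u // ¬ F u} → C, ∑ p' : {u // ¬ F u} → C, wtR c0 F y r * wtR c0 F y r' *
        ((wtP c0 F y p * GU Q (mergeC F p r) (mergeC F p r')) *
        (wtP c0 F y p' * GU Q (mergeC F p' r') (mergeC F p' r))) := by
    intro r r'
    rw [pow_two]
    nth_rewrite 2 [TU_symm]
    unfold TU
    rw [Finset.sum_mul_sum, Finset.mul_sum]
    refine Finset.sum_congr rfl fun p _ => ?_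
    rw [Finset.mul_sum]
  simp only [hsq]
  -- order of summation
  calc _ = ∑ p : {u // ¬ F u} → C, ∑ p' : {u // ¬ F u} → C, ∑ r : {u // F u} → C, ∑ r' : {u // F u} → C,
        wtR c0 F y r * wtR c0 F y r' * ((wtP c0 F y p * GU Q (mergeC F p r) (mergeC F p r')) *
        (wtP c0 F y p' * GU Q (mergeC F p' r') (mergeC F p' r))) :=
        Finset.sum_congr rfl fun p _ => Finset.sum_comm
    _ = ∑ p : {u // ¬ F u} → C, ∑ r : {u // F u} → C, ∑ p' : {u // ¬ F u} → C, ∑ r' : {u // F u} → C,
        wtR c0 F y r * wtR c0 F y r' * ((wtP c0 F y p * GU Q (mergeC F p r) (mergeC F p r')) *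
        (wtP c0 F y p' * GU Q (mergeC F p' r') (mergeC F p' r))) :=
        Finset.sum_congr rfl fun p _ => Finset.sum_comm
    _ = ∑ r : {u // F u} → C, ∑ p : {u // ¬ F u} → C, ∑ p' : {u // ¬ F u} → C, ∑ r' : {u // F u} → C,
        wtR c0 F y r * wtR c0 F y r' * ((wtP c0 F y p * GU Q (mergeC F p r) (mergeC F p r')) *
        (wtP c0 F y p' * GU Q (mergeC F p' r') (mergeC F p' r))) := Finset.sum_comm
    _ = ∑ r : {u // F u} → C, ∑ p : {u // ¬ F u} → C, ∑ r' : {u // F u} → C, ∑ p' : {u // ¬ F u} → C,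
        wtR c0 F y r * wtR c0 F y r' * ((wtP c0 F y p * GU Q (mergeC F p r) (mergeC F p r')) *
        (wtP c0 F y p' * GU Q (mergeC F p' r') (mergeC F p' r))) :=
        Finset.sum_congr rfl fun r _ => Finset.sum_congr rfl fun p _ => Finset.sum_comm
    _ = _ := Finset.sum_congr rfl fun r _ => Finset.sum_comm

/-- The first margin. -/
theorem margin1 (K : Equiv.Perm U) (r : {u // F u} → C) {y : U → ℝ} (hy0 : ∀ u, 0 ≤ y u)
    (hy1 : ∀ u, y u ≤ 1) :
    ∑ r' : {u // F u} → C, ∑ p : {u // ¬ F u} → C, wtP c0 F y p *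
      (if ∀ w, mergeC F p r (K w) = mergeC F p r' w then (1 : ℝ) else 0) ≤
      YK c0 K (fun u => if F u then 0 else y u) := by
  classical
  refine le_trans (le_of_eq Finset.sum_comm) ?_
  refine le_trans ?_ (margin_le c0 K F r hy0 hy1)
  refine Finset.sum_le_sum fun p _ => ?_
  rw [← Finset.mul_sum]
  have hwP : 0 ≤ wtP c0 F y p :=
    Finset.prod_nonneg fun u _ => by split_ifs <;> first | exact zero_le_one | exact hy0 _
  by_cases hc : CompatC K F p r
  · rw [if_pos hc]
    -- at most one `r'`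
    have hle : ∑ r' : {u // F u} → C,
        (if ∀ w, mergeC F p r (K w) = mergeC F p r' w then (1 : ℝ) else 0) ≤ 1 := by
      rw [Finset.sum_eq_single (fun v : {u // F u} => mergeC F p r (K v))]
      · split_ifs <;> norm_num
      · intro r' _ hne
        rw [if_neg]
        intro e
        apply hne
        funext v
        have := e v
        rw [mergeC_pos _ _ v.2] at this
        exact this.symm
      · simp
    nlinarith
  · rw [if_neg hc]
    have : ∀ r' : {u // F u} → C,
        (if ∀ w, mergeC F p r (K w) = mergeC F p r' w then (1 : ℝ) else 0) = 0 := by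
      intro r'
      rw [if_neg]
      intro e
      apply hc
      intro u
      have := e u
      rw [mergeC_neg _ _ u.2] at this
      exact this
    simp [this]

/-- The second margin. -/
theorem margin2 (K : Equiv.Perm U) (r' : {u // F u} → C) {y : U → ℝ} (hy0 : ∀ u, 0 ≤ y u)
    (hy1 : ∀ u, y u ≤ 1) :
    ∑ r : {u // F u} → C, ∑ p : {u // ¬ F u} → C, wtP c0 F y p *
      (if ∀ w, mergeC F p r (K w) = mergeC F p r' w then (1 : ℝ) else 0) ≤
      YK c0 K (fun u => if F u then 0 else y u) := by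
  classical
  rw [← YK_inv]
  refine le_trans (le_of_eq ?_) (margin1 c0 K⁻¹ r' hy0 hy1)
  refine Finset.sum_congr rfl fun r _ => Finset.sum_congr rfl fun p _ => ?_
  congr 1
  have hiff : (∀ w, mergeC F p r (K w) = mergeC F p r' w) ↔
      (∀ w, mergeC F p r' (K⁻¹ w) = mergeC F p r w) := by
    constructor
    · intro h w
      have := h (K⁻¹ w)
      simpa using this.symm
    · intro h w
      have := h (K w)
      simpa using this.symm
  by_cases h : ∀ w, mergeC F p r (K w) = mergeC F p r' w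
  · rw [if_pos h, if_pos (hiff.1 h)]
  · rw [if_neg h, if_neg (fun e => h (hiff.2 e))]

/-- The quadratic form bound of the partial trace. -/
theorem TU_quad {y : U → ℝ} (hy0 : ∀ u, 0 ≤ y u) (hy1 : ∀ u, y u ≤ 1) (z : ({u // F u} → C) → ℝ) :
    ∑ r, ∑ r', z r * z r' * TU c0 Q F y r r' ≤
      YU c0 Q (fun u => if F u then 0 else y u) * ∑ r, (z r) ^ 2 := by
  classical
  have hwP : ∀ p, 0 ≤ wtP c0 F y p := fun p =>
    Finset.prod_nonneg fun u _ => by split_ifs <;> first | exact zero_le_one | exact hy0 _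
  -- the partial trace as an average
  set Tω : Ω × Ω → ({u // F u} → C) → ({u // F u} → C) → ℝ := fun ω r r' =>
    ∑ p : {u // ¬ F u} → C, wtP c0 F y p *
      (if ∀ w, mergeC F p r (wordK Q ω w) = mergeC F p r' w then (1 : ℝ) else 0) with hTω
  have hT : ∀ r r', TU c0 Q F y r r' = avg (fun ω => Tω ω r r') := by
    intro r r'
    unfold TU GU
    simp only [hTω]
    rw [sum_avg_comm']
    refine Finset.sum_congr rfl fun p _ => ?_
    rw [avg_const_mul]
  have h1 : ∑ r, ∑ r', z r * z r' * TU c0 Q F y r r' =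
      avg (fun ω => ∑ r, ∑ r', z r * z r' * Tω ω r r') := by
    simp only [hT]
    rw [sum_avg_comm']
    refine Finset.sum_congr rfl fun r _ => ?_
    rw [sum_avg_comm']
    refine Finset.sum_congr rfl fun r' _ => ?_
    rw [avg_const_mul]
  rw [h1]
  unfold YU
  rw [← avg_const_mul']
  refine avg_mono fun ω => ?_
  refine schur_test (Tω ω) _ ?_ ?_ ?_ z
  · intro r r'
    exact Finset.sum_nonneg fun p _ => mul_nonneg (hwP p) (by split_ifs <;> norm_num)
  · intro r
    exact margin1 c0 (wordK Q ω) r hy0 hy1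
  · intro r'
    exact margin2 c0 (wordK Q ω) r' hy0 hy1

/-- **The abstract recursion.** -/
theorem double_sum_le {y : U → ℝ} (hy0 : ∀ u, 0 ≤ y u) (hy1 : ∀ u, y u ≤ 1) :
    ∑ f₀ : U → C, ∑ f₁ : U → C, wt c0 y f₀ * wt c0 y f₁ * GU Q f₀ (mixC F f₀ f₁) *
        GU Q f₁ (mixC F f₁ f₀) ≤
      YU c0 Q (fun u => if F u then 0 else y u) *
        YU c0 Q (fun u => if F u then y u ^ 2 else y u) := by
  have hwP : ∀ p, 0 ≤ wtP c0 F y p := fun p =>
    Finset.prod_nonneg fun u _ => by split_ifs <;> first | exact zero_le_one | exact hy0 _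
  rw [double_sum_eq]
  have h := gram_partial_trace (wtP c0 F y) (wtR c0 F y) hwP
    (fun p r h => vU Q (mergeC F p r) h)
    (YU c0 Q (fun u => if F u then 0 else y u)) (TU c0 Q F y)
    (fun r r' => by
      unfold TU
      refine Finset.sum_congr rfl fun p _ => ?_
      rw [GU_eq_sum])
    (fun z => TU_quad c0 Q hy0 hy1 z)
  refine h.trans (le_of_eq ?_)
  congr 1
  rw [YU_eq, sum_merge (F := F)]
  refine Finset.sum_congr rfl fun p _ => Finset.sum_congr rfl fun r _ => ?_
  rw [wt_merge_sq, GU_eq_sum]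
  congr 1
  refine Finset.sum_congr rfl fun h _ => ?_
  rw [pow_two]

end Abstract

end Crest.Agent.Thorp
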