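import Mathlib
import Crest.Agent.Lib.Thorp.Color

/-!
# Step D, second part: the recursion for `Yl`.

`Yl c0 l x = avg_p YK c0 (Kl l p) x`, `Gl l f g = P[f ∘ K_l = g]`.

* `Gl_cons`: `G_{i::l}(f,g) = E_{a,b} G_l(f ∘ L(b), g ∘ L(a))`.
* `Gl_factor`: the factorisation of `G_l` along the bit `i ∉ l`.
* `Yl_cons_le`: the recursion.
-/

set_option autoImplicit false
set_option linter.unusedSectionVars false
set_option linter.unusedVariables false

namespace Crest.Agent.Thorp

open Finset

section Bridge

variable {I C : Type*} [Fintype I] [DecidableEq I] [Fintype C] [DecidableEq C] (c0 : C)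

/-- The sweep as a function of the tables. -/
abbrev QQ (l : List I) : Tab I → Equiv.Perm (I → Bool) := fun A => sweepQ A l

theorem wordK_QQ (l : List I) (p : Tab I × Tab I) : wordK (QQ l) p = Kl l p := rfl

/-- The colour kernel. -/
noncomputable def Gl (l : List I) (f g : (I → Bool) → C) : ℝ := GU (QQ l) f g

/-- The colouring sum. -/
noncomputable def Yl (l : List I) (x : (I → Bool) → ℝ) : ℝ := YU c0 (QQ l) x

theorem Yl_eq (l : List I) (x : (I → Bool) → ℝ) :
    Yl c0 l x = ∑ d : (I → Bool) → C, wt c0 x d * Gl l d d := YU_eq c0 (QQ l) x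

theorem Gl_nonneg (l : List I) (f g : (I → Bool) → C) : 0 ≤ Gl l f g := GU_nonneg _ _ _

theorem Gl_symm (l : List I) (f g : (I → Bool) → C) : Gl l f g = Gl l g f := GU_symm _ _ _

/-- The indicator form of the kernel. -/
theorem Gl_def (l : List I) (f g : (I → Bool) → C) :
    Gl l f g = avg (fun p : Tab I × Tab I => if ∀ w, f (Kl l p w) = g w then (1 : ℝ) else 0) := rfl

theorem Gl_cons (i : I) (l : List I) (hi : i ∉ l) (f g : (I → Bool) → C) :
    Gl (i :: l) f g = avg (fun a : (I → Bool) → Bool => avg (fun b : (I → Bool) → Bool =>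
      Gl l (fun w => f (layer i b w)) (fun w => g (layer i a w)))) := by
  classical
  rw [Gl_def]
  have h := avg_Kl_cons (fun K : Equiv.Perm (I → Bool) =>
    if ∀ w, f (K w) = g w then (1 : ℝ) else 0) i l hi
  refine h.trans ?_
  refine avg_congr fun a => avg_congr fun b => ?_
  rw [Gl_def]
  refine avg_congr fun p => ?_
  have hiff : (∀ w, f ((layer i b * Kl l p * layer i a) w) = g w) ↔
      ∀ w, f (layer i b (Kl l p w)) = g (layer i a w) := by
    constructor
    · intro h w
      have := h (layer i a w)
      simp only [Equiv.Perm.mul_apply] at this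
      rwa [show layer i a (layer i a w) = w from layerFun_invol i a w] at this
    · intro h w
      have := h (layer i a w)
      simp only [Equiv.Perm.mul_apply]
      rwa [show layer i a (layer i a w) = w from layerFun_invol i a w] at this
  by_cases h : ∀ w, f ((layer i b * Kl l p * layer i a) w) = g w
  · rw [if_pos h, if_pos (hiff.1 h)]
  · rw [if_neg h, if_neg (fun e => h (hiff.2 e))]

end Bridge

section Phi

variable {I : Type*} [Fintype I] [DecidableEq I] (i : I)

/-- The flip of the bit `i`. -/
def phi : Equiv.Perm (I → Bool) := layer i (fun _ => true)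

theorem phi_same (w : I → Bool) : phi i w i = !(w i) := by
  simp [phi, layerFun_same]

theorem phi_ne {j : I} (h : j ≠ i) (w : I → Bool) : phi i w j = w j := by
  simp [phi, layerFun_ne h]

theorem phi_phi (w : I → Bool) : phi i (phi i w) = w := layerFun_invol i (fun _ => true) w

theorem phi_mul_self : phi i * phi i = 1 := layer_mul_self i _

theorem update_phi {j : I} (h : j ≠ i) (w : I → Bool) (b : Bool) :
    Function.update (phi i w) j b = phi i (Function.update w j b) := by
  funext k
  by_cases hk : k = j
  · subst hk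
    simp [phi_ne i h]
  · by_cases hk2 : k = i
    · subst hk2
      rw [Function.update_of_ne hk, phi_same, phi_same, Function.update_of_ne hk]
    · rw [Function.update_of_ne hk, phi_ne i hk2, phi_ne i hk2, Function.update_of_ne hk]

/-- Conjugating a layer by the flip of another bit. -/
theorem layer_tau {j : I} (h : j ≠ i) (c : (I → Bool) → Bool) :
    layer j (fun w => c (phi i w)) = phi i * layer j c * phi i := by
  ext1 w
  simp only [Equiv.Perm.mul_apply, layer_apply]
  funext k
  by_cases hk : k = j
  · subst hk
    rw [layerFun_same, phi_ne i h, layerFun_same, phi_ne i h, update_phi i h]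
  · by_cases hk2 : k = i
    · subst hk2
      rw [layerFun_ne hk, phi_same, layerFun_ne hk, phi_same, Bool.not_not]
    · rw [layerFun_ne hk, phi_ne i hk2, layerFun_ne hk, phi_ne i hk2]

/-- The change of tables by the flip. -/
def tau (C : Tab I) : Tab I := fun j w => C j (phi i w)

theorem tau_tau (C : Tab I) : tau i (tau i C) = C := by
  funext j w
  simp [tau, phi_phi]

theorem sweepQ_tau (C : Tab I) (l : List I) (hi : i ∉ l) :
    sweepQ (tau i C) l = phi i * sweepQ C l * phi i := by
  induction l with
  | nil =>
    simp only [sweepQ, mul_one]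
    exact (phi_mul_self i).symm
  | cons j l ih =>
    have hj : j ≠ i := fun e => hi (by simp [e])
    have hl : i ∉ l := fun e => hi (by simp [e])
    simp only [sweepQ]
    rw [ih hl]
    have : tau i C j = fun w => C j (phi i w) := rfl
    rw [this, layer_tau i hj]
    have e : phi i * sweepQ C l * phi i * (phi i * layer j (C j) * phi i) =
        phi i * sweepQ C l * (phi i * phi i) * layer j (C j) * phi i := by
      simp only [mul_assoc]
    rw [e, phi_mul_self, mul_one]
    simp only [mul_assoc]

theorem Kl_tau (l : List I) (hi : i ∉ l) (p : Tab I × Tab I) :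
    Kl l (tau i p.1, tau i p.2) = phi i * Kl l p * phi i := by
  simp only [Kl, sweepQ_tau i _ l hi]
  have hphi : (phi i)⁻¹ = phi i := layer_inv i _
  simp only [_root_.mul_inv_rev, hphi]
  have e : phi i * (sweepQ p.2 l)⁻¹ * phi i * (phi i * sweepQ p.1 l * phi i) =
      phi i * (sweepQ p.2 l)⁻¹ * (phi i * phi i) * sweepQ p.1 l * phi i := by
    simp only [mul_assoc]
  simp only [mul_assoc] at e ⊢
  have e2 : phi i * (phi i * (sweepQ p.1 l * phi i)) = sweepQ p.1 l * phi i := by
    rw [← mul_assoc, phi_mul_self, one_mul]
  rw [e2]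

/-- The equivalence of pairs of tables. -/
def tauE : (Tab I × Tab I) ≃ (Tab I × Tab I) where
  toFun p := (tau i p.1, tau i p.2)
  invFun p := (tau i p.1, tau i p.2)
  left_inv p := by simp [tau_tau]
  right_inv p := by simp [tau_tau]

/-- Mixing tables along the bit `i`. -/
def mixTab (A A' : Tab I) : Tab I := fun j w => if w i = false then A j w else A' j w

theorem sweepQ_side (C C' : Tab I) (l : List I) (hi : i ∉ l) (s : Bool)
    (h : ∀ j w, w i = s → C j w = C' j w) (w : I → Bool) (hw : w i = s) :
    sweepQ C l w = sweepQ C' l w := by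
  induction l generalizing w with
  | nil => rfl
  | cons j l ih =>
    have hj : j ≠ i := fun e => hi (by simp [e])
    have hl : i ∉ l := fun e => hi (by simp [e])
    simp only [sweepQ, Equiv.Perm.mul_apply, layer_apply]
    have e1 : layerFun j (C j) w = layerFun j (C' j) w := by
      simp only [layerFun]
      rw [h j (Function.update w j false) (by rw [Function.update_of_ne hj.symm]; exact hw)]
    rw [e1]
    exact ih hl _ (by rw [layerFun_ne hj.symm]; exact hw)

theorem sweepQ_side_inv (C C' : Tab I) (l : List I) (hi : i ∉ l) (s : Bool)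
    (h : ∀ j w, w i = s → C j w = C' j w) (w : I → Bool) (hw : w i = s) :
    (sweepQ C l)⁻¹ w = (sweepQ C' l)⁻¹ w := by
  set v := (sweepQ C l)⁻¹ w with hv
  have hvs : v i = s := by
    have := sweepQ_bit C l i hi v
    rw [hv, show (sweepQ C l) ((sweepQ C l)⁻¹ w) = w by simp] at this
    rw [← hv] at this
    rw [← this, hw]
  have h1 : sweepQ C l v = w := by simp [hv]
  have h2 : sweepQ C' l v = w := by rw [← sweepQ_side i C C' l hi s h v hvs, h1]
  rw [← h2]
  simp

theorem Kl_side (p p' : Tab I × Tab I) (l : List I) (hi : i ∉ l) (s : Bool)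
    (h1 : ∀ j w, w i = s → p.1 j w = p'.1 j w) (h2 : ∀ j w, w i = s → p.2 j w = p'.2 j w)
    (w : I → Bool) (hw : w i = s) : Kl l p w = Kl l p' w := by
  simp only [Kl, Equiv.Perm.mul_apply]
  rw [sweepQ_side i p.1 p'.1 l hi s h1 w hw]
  exact sweepQ_side_inv i p.2 p'.2 l hi s h2 _ (by rw [sweepQ_bit _ _ _ hi]; exact hw)

/-- The independence of the two sides. -/
theorem avg_indep (Φ₀ Φ₁ : Tab I × Tab I → ℝ)
    (h0 : ∀ p p' : Tab I × Tab I, (∀ j w, w i = false → p.1 j w = p'.1 j w) →
      (∀ j w, w i = false → p.2 j w = p'.2 j w) → Φ₀ p = Φ₀ p')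
    (h1 : ∀ p p' : Tab I × Tab I, (∀ j w, w i = true → p.1 j w = p'.1 j w) →
      (∀ j w, w i = true → p.2 j w = p'.2 j w) → Φ₁ p = Φ₁ p') :
    avg (fun p => Φ₀ p * Φ₁ p) = avg Φ₀ * avg Φ₁ := by
  -- the involution
  let mx : Tab I × Tab I → Tab I × Tab I → Tab I × Tab I :=
    fun p p' => (mixTab i p.1 p'.1, mixTab i p.2 p'.2)
  let e : (Tab I × Tab I) × (Tab I × Tab I) ≃ (Tab I × Tab I) × (Tab I × Tab I) :=
    { toFun := fun q => (mx q.1 q.2, mx q.2 q.1)
      invFun := fun q => (mx q.1 q.2, mx q.2 q.1)
      left_inv := fun q => by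
        ext <;> simp only [mx, mixTab] <;> split_ifs <;> rfl
      right_inv := fun q => by
        ext <;> simp only [mx, mixTab] <;> split_ifs <;> rfl }
  have hm0 : ∀ p p', Φ₀ (mx p p') = Φ₀ p := by
    intro p p'
    refine h0 _ _ (fun j w hw => ?_) (fun j w hw => ?_) <;> simp [mx, mixTab, hw]
  have hm1 : ∀ p p', Φ₁ (mx p p') = Φ₁ p' := by
    intro p p'
    refine h1 _ _ (fun j w hw => ?_) (fun j w hw => ?_) <;> simp [mx, mixTab, hw]
  have e1 : avg (fun p => Φ₀ p * Φ₁ p) =
      avg (fun q : (Tab I × Tab I) × (Tab I × Tab I) => Φ₀ q.1 * Φ₁ q.1) := by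
    rw [avg_prod (fun q : (Tab I × Tab I) × (Tab I × Tab I) => Φ₀ q.1 * Φ₁ q.1)]
    exact avg_congr fun p => (avg_const _).symm
  have e2 := avg_equiv e (fun q : (Tab I × Tab I) × (Tab I × Tab I) => Φ₀ q.1 * Φ₁ q.1)
  have e3 : ∀ q, Φ₀ (e q).1 * Φ₁ (e q).1 = Φ₀ q.1 * Φ₁ q.2 := fun q => by
    show Φ₀ (mx q.1 q.2) * Φ₁ (mx q.1 q.2) = _
    rw [hm0, hm1]
  simp only [e3] at e2
  rw [e1, ← e2]
  rw [avg_prod (fun q : (Tab I × Tab I) × (Tab I × Tab I) => Φ₀ q.1 * Φ₁ q.2)]
  have : ∀ p : Tab I × Tab I, avg (fun p' : Tab I × Tab I => Φ₀ p * Φ₁ p') = Φ₀ p * avg Φ₁ :=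
    fun p => avg_const_mul _ _
  simp only [this]
  exact avg_const_mul' _ _

end Phi

section Factor

variable {I C : Type*} [Fintype I] [DecidableEq I] [Fintype C] [DecidableEq C] (c0 : C) (i : I)

/-- The part of a colouring on the side `false`, extended by `c0`. -/
def up (f : (I → Bool) → C) : (I → Bool) → C := fun w => if w i = false then f w else c0

/-- The factorisation of the kernel. -/
theorem Gl_factor (l : List I) (hi : i ∉ l) (f g : (I → Bool) → C) :
    Gl l f g = Gl l (up c0 i f) (up c0 i g) *
      Gl l (up c0 i (fun w => f (phi i w))) (up c0 i (fun w => g (phi i w))) := by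
  classical
  -- the two events
  set Φ₀ : Tab I × Tab I → ℝ := fun p =>
    if ∀ w, w i = false → f (Kl l p w) = g w then 1 else 0 with hΦ₀
  set Φ₁ : Tab I × Tab I → ℝ := fun p =>
    if ∀ w, w i = true → f (Kl l p w) = g w then 1 else 0 with hΦ₁
  have hbit : ∀ (p : Tab I × Tab I) w, Kl l p w i = w i := fun p w => Kl_bit l p i hi w
  have e1 : Gl l f g = avg (fun p => Φ₀ p * Φ₁ p) := by
    rw [Gl_def]
    refine avg_congr fun p => ?_
    simp only [hΦ₀, hΦ₁]
    by_cases h : ∀ w, f (Kl l p w) = g w
    · rw [if_pos h, if_pos (fun w _ => h w), if_pos (fun w _ => h w), one_mul]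
    · rw [if_neg h]
      obtain ⟨w, hw⟩ := not_forall.1 h
      cases hs : w i
      · rw [if_neg (fun e => hw (e w hs)), zero_mul]
      · rw [if_neg (fun e : ∀ w, w i = true → f (Kl l p w) = g w => hw (e w hs)), mul_zero]
  have e2 : avg Φ₀ = Gl l (up c0 i f) (up c0 i g) := by
    rw [Gl_def]
    refine avg_congr fun p => ?_
    simp only [hΦ₀]
    have hiff : (∀ w, w i = false → f (Kl l p w) = g w) ↔
        ∀ w, up c0 i f (Kl l p w) = up c0 i g w := by
      constructor
      · intro h w
        simp only [up, hbit]
        split_ifs with hw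
        · exact h w hw
        · rfl
      · intro h w hw
        have := h w
        simpa only [up, hbit, hw, if_true] using this
    by_cases h : ∀ w, w i = false → f (Kl l p w) = g w
    · rw [if_pos h, if_pos (hiff.1 h)]
    · rw [if_neg h, if_neg (fun e => h (hiff.2 e))]
  have e3 : avg Φ₁ = Gl l (up c0 i (fun w => f (phi i w))) (up c0 i (fun w => g (phi i w))) := by
    rw [Gl_def, ← avg_equiv (tauE i) (fun p =>
      if ∀ w, up c0 i (fun w => f (phi i w)) (Kl l p w) = up c0 i (fun w => g (phi i w)) w
        then (1 : ℝ) else 0)]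
    refine avg_congr fun p => ?_
    simp only [hΦ₁]
    have hK : ∀ w, Kl l (tauE i p) w = phi i (Kl l p (phi i w)) := by
      intro w
      have := Kl_tau i l hi p
      show Kl l (tau i p.1, tau i p.2) w = _
      rw [this]
      rfl
    have hiff : (∀ w, w i = true → f (Kl l p w) = g w) ↔
        ∀ w, up c0 i (fun w => f (phi i w)) (Kl l (tauE i p) w) =
          up c0 i (fun w => g (phi i w)) w := by
      constructor
      · intro h w
        simp only [up, hbit]
        split_ifs with hw
        · rw [hK, phi_phi]
          exact h _ (by rw [phi_same, hw]; rfl)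
        · rfl
      · intro h w hw
        have hh := h (phi i w)
        have hw2 : (phi i w) i = false := by rw [phi_same, hw]; rfl
        simp only [up, hbit, hw2, if_true] at hh
        rw [hK, phi_phi, phi_phi] at hh
        exact hh
    by_cases h : ∀ w, w i = true → f (Kl l p w) = g w
    · rw [if_pos h, if_pos (hiff.1 h)]
    · rw [if_neg h, if_neg (fun e => h (hiff.2 e))]
  rw [e1, ← e2, ← e3]
  refine avg_indep i Φ₀ Φ₁ ?_ ?_
  · intro p p' h1 h2
    simp only [hΦ₀]
    have hiff : (∀ w, w i = false → f (Kl l p w) = g w) ↔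
        ∀ w, w i = false → f (Kl l p' w) = g w := by
      constructor
      · intro h w hw
        rw [← Kl_side i p p' l hi false h1 h2 w hw]
        exact h w hw
      · intro h w hw
        rw [Kl_side i p p' l hi false h1 h2 w hw]
        exact h w hw
    by_cases h : ∀ w, w i = false → f (Kl l p w) = g w
    · rw [if_pos h, if_pos (hiff.1 h)]
    · rw [if_neg h, if_neg (fun e => h (hiff.2 e))]
  · intro p p' h1 h2
    simp only [hΦ₁]
    have hiff : (∀ w, w i = true → f (Kl l p w) = g w) ↔
        ∀ w, w i = true → f (Kl l p' w) = g w := by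
      constructor
      · intro h w hw
        rw [← Kl_side i p p' l hi true h1 h2 w hw]
        exact h w hw
      · intro h w hw
        rw [Kl_side i p p' l hi true h1 h2 w hw]
        exact h w hw
    by_cases h : ∀ w, w i = true → f (Kl l p w) = g w
    · rw [if_pos h, if_pos (hiff.1 h)]
    · rw [if_neg h, if_neg (fun e => h (hiff.2 e))]

end Factor

section Recursion

variable {I C : Type*} [Fintype I] [DecidableEq I] [Fintype C] [DecidableEq C] (c0 : C) (i : I)

/-- The weights on the side `false`. -/
def onSide (y : (I → Bool) → ℝ) : (I → Bool) → ℝ := fun w => if w i = false then y w else 0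

/-- The set of pairs switched by `e`. -/
def Fe (e : (I → Bool) → Bool) (w : I → Bool) : Prop := w i = false ∧ e w = true

instance (e : (I → Bool) → Bool) : DecidablePred (Fe i e) := fun w => by
  unfold Fe; infer_instance

theorem update_false_of (w : I → Bool) (hw : w i = false) : Function.update w i false = w := by
  funext k
  by_cases hk : k = i
  · subst hk; simp [hw]
  · simp [Function.update_of_ne hk]

theorem layer_eq_of_false (e : (I → Bool) → Bool) (w : I → Bool) (hw : w i = false) :
    layer i e w = if e w then phi i w else w := by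
  funext k
  by_cases hk : k = i
  · subst hk
    simp only [layer_apply, layerFun_same, update_false_of k w hw, hw]
    cases he : e w
    · simp [hw]
    · simp [phi_same, hw]
  · simp only [layer_apply, layerFun_ne hk]
    split_ifs
    · rw [phi_ne i hk]
    · rfl

theorem update_false_phi (w : I → Bool) :
    Function.update (phi i w) i false = Function.update w i false := by
  funext k
  by_cases hk : k = i
  · subst hk; simp
  · simp [Function.update_of_ne hk, phi_ne i hk]

theorem layer_phi_of_false (e : (I → Bool) → Bool) (w : I → Bool) (hw : w i = false) :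
    layer i e (phi i w) = if e w then w else phi i w := by
  funext k
  by_cases hk : k = i
  · subst hk
    simp only [layer_apply, layerFun_same, update_false_phi, update_false_of k w hw, phi_same, hw]
    cases he : e w
    · simp [phi_same, hw]
    · simp [hw]
  · simp only [layer_apply, layerFun_ne hk]
    split_ifs
    · rw [phi_ne i hk]
    · rfl

theorem phi_eq_true (w : I → Bool) (hw : w i = false) : (phi i w) i = true := by
  rw [phi_same, hw]; rfl

theorem up_layer (f : (I → Bool) → C) (e : (I → Bool) → Bool) :
    up c0 i (fun w => f (layer i e w)) =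
      mixC (Fe i e) (up c0 i f) (up c0 i (fun w => f (phi i w))) := by
  funext w
  simp only [up, mixC, Fe]
  cases hw : w i
  · simp only [true_and, if_true]
    rw [layer_eq_of_false i e w hw]
    cases he : e w <;> simp
  · simp

theorem up_layer_phi (f : (I → Bool) → C) (e : (I → Bool) → Bool) :
    up c0 i (fun w => f (layer i e (phi i w))) =
      mixC (Fe i e) (up c0 i (fun w => f (phi i w))) (up c0 i f) := by
  funext w
  simp only [up, mixC, Fe]
  cases hw : w i
  · simp only [true_and, if_true]
    rw [layer_phi_of_false i e w hw]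
    cases he : e w <;> simp
  · simp

theorem prod_split_side (g : (I → Bool) → ℝ) :
    ∏ w, g w = (∏ w, if w i = false then g w else 1) *
      ∏ w, if w i = false then g (phi i w) else 1 := by
  have h2 : ∏ w, (if w i = false then g (phi i w) else 1) =
      ∏ w, (if w i = true then g w else 1) := by
    rw [← Equiv.prod_comp (phi i) (fun w => if w i = true then g w else 1)]
    refine Finset.prod_congr rfl fun w _ => ?_
    rw [phi_same]
    cases hw : w i <;> simp
  rw [h2, ← Finset.prod_mul_distrib]
  refine Finset.prod_congr rfl fun w _ => ?_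
  cases hw : w i <;> simp

theorem wt_split (y : (I → Bool) → ℝ) (hy : ∀ w, y (phi i w) = y w) (f : (I → Bool) → C) :
    wt c0 y f = wt c0 (onSide i y) (up c0 i f) *
      wt c0 (onSide i y) (up c0 i (fun w => f (phi i w))) := by
  unfold wt
  rw [prod_split_side i]
  congr 1
  · refine Finset.prod_congr rfl fun w _ => ?_
    simp only [up, onSide]
    by_cases hw : w i = false <;> simp [hw]
  · refine Finset.prod_congr rfl fun w _ => ?_
    simp only [up, onSide]
    by_cases hw : w i = false
    · simp [hw, hy]
    · simp [hw]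

theorem wt_onSide_eq_zero (y : (I → Bool) → ℝ) (a : (I → Bool) → C)
    (h : ¬ ∀ w, w i = true → a w = c0) : wt c0 (onSide i y) a = 0 := by
  obtain ⟨w, hw⟩ := not_forall.1 h
  obtain ⟨hw1, hw2⟩ := Classical.not_imp.1 hw
  unfold wt
  refine Finset.prod_eq_zero (Finset.mem_univ w) ?_
  simp [hw2, onSide, hw1]

/-- Summing over a colouring is summing over its two parts. -/
theorem sum_up (Ψ : ((I → Bool) → C) → ((I → Bool) → C) → ℝ)
    (h1 : ∀ a b, (¬ ∀ w, w i = true → a w = c0) → Ψ a b = 0)
    (h2 : ∀ a b, (¬ ∀ w, w i = true → b w = c0) → Ψ a b = 0) :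
    ∑ f : (I → Bool) → C, Ψ (up c0 i f) (up c0 i (fun w => f (phi i w))) =
      ∑ a : (I → Bool) → C, ∑ b : (I → Bool) → C, Ψ a b := by
  classical
  set S : Finset ((I → Bool) → C) := Finset.univ.filter (fun a => ∀ w, w i = true → a w = c0) with hS
  have e1 : ∑ a : (I → Bool) → C, ∑ b : (I → Bool) → C, Ψ a b =
      ∑ q ∈ S ×ˢ S, Ψ q.1 q.2 := by
    symm
    rw [Finset.sum_product]
    calc ∑ a ∈ S, ∑ b ∈ S, Ψ a b = ∑ a ∈ S, ∑ b, Ψ a b := by
          refine Finset.sum_congr rfl fun a _ => ?_
          refine Finset.sum_subset (Finset.subset_univ S) ?_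
          intro b _ hb
          exact h2 a b (fun e => hb (Finset.mem_filter.2 ⟨Finset.mem_univ _, e⟩))
      _ = ∑ a, ∑ b, Ψ a b := by
          refine Finset.sum_subset (Finset.subset_univ S) ?_
          intro a _ ha
          refine Finset.sum_eq_zero fun b _ => ?_
          exact h1 a b (fun e => ha (Finset.mem_filter.2 ⟨Finset.mem_univ _, e⟩))
  rw [e1]
  refine Finset.sum_nbij' (fun f => (up c0 i f, up c0 i (fun w => f (phi i w))))
    (fun q w => if w i = false then q.1 w else q.2 (phi i w)) ?_ ?_ ?_ ?_ ?_
  · intro f _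
    simp only [Finset.mem_product, hS, Finset.mem_filter, Finset.mem_univ, true_and]
    constructor <;> intro w hw <;> simp [up, hw]
  · intro _ _
    exact Finset.mem_univ _
  · intro f _
    funext w
    cases hw : w i
    · simp [up, hw]
    · have : (phi i w) i = false := by rw [phi_same, hw]; rfl
      simp [up, this, phi_phi]
  · rintro ⟨a, b⟩ hq
    simp only [Finset.mem_product, hS, Finset.mem_filter, Finset.mem_univ, true_and] at hq
    obtain ⟨ha, hb⟩ := hq
    refine Prod.ext ?_ ?_
    · funext w
      cases hw : w i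
      · simp [up, hw]
      · simp [up, hw, ha w hw]
    · funext w
      cases hw : w i
      · have : (phi i w) i = true := by rw [phi_same, hw]; rfl
        simp [up, hw, this, phi_phi]
      · simp [up, hw, hb w hw]
  · intro f _
    rfl

/-- Xor of tables. -/
def xorTab (a b : (I → Bool) → Bool) : (I → Bool) → Bool := fun w => xor (a w) (b w)

theorem layer_layer (a b : (I → Bool) → Bool) (w : I → Bool) :
    layer i b (layer i a w) = layer i (xorTab a b) w := by
  funext k
  by_cases hk : k = i
  · subst hk
    simp only [layer_apply]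
    rw [layerFun_same, layerFun_same, layerFun_same]
    have : Function.update (layerFun k a w) k false = Function.update w k false := by
      funext j
      by_cases hj : j = k
      · subst hj; simp
      · simp [Function.update_of_ne hj, layerFun_ne hj]
    rw [this]
    simp [xorTab]
  · simp only [layer_apply, layerFun_ne hk]

/-- The bijection of tables given by xor. -/
def xorE (b : (I → Bool) → Bool) : ((I → Bool) → Bool) ≃ ((I → Bool) → Bool) where
  toFun a := xorTab a b
  invFun a := xorTab a b
  left_inv a := by
    funext w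
    show xor (xor (a w) (b w)) (b w) = a w
    cases a w <;> cases b w <;> rfl
  right_inv a := by
    funext w
    show xor (xor (a w) (b w)) (b w) = a w
    cases a w <;> cases b w <;> rfl

/-- Composition of colourings with a permutation. -/
def precompE (g : Equiv.Perm (I → Bool)) :
    ((I → Bool) → C) ≃ ((I → Bool) → C) where
  toFun f := fun w => f (g w)
  invFun f := fun w => f (g⁻¹ w)
  left_inv f := by funext w; simp
  right_inv f := by funext w; simp

theorem wt_layer (y : (I → Bool) → ℝ) (hy : ∀ w, y (phi i w) = y w) (b : (I → Bool) → Bool)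
    (f : (I → Bool) → C) : wt c0 y (fun w => f (layer i b w)) = wt c0 y f := by
  unfold wt
  rw [← Equiv.prod_comp (layer i b) (fun w => if f w = c0 then (1 : ℝ) else y w)]
  refine Finset.prod_congr rfl fun w _ => ?_
  have : y (layer i b w) = y w := by
    simp only [layer_apply]
    cases hc : b (Function.update w i false)
    · have : layerFun i b w = w := by
        funext k
        by_cases hk : k = i
        · subst hk; simp [layerFun_same, hc]
        · exact layerFun_ne hk _ _
      rw [this]
    · have : layerFun i b w = phi i w := by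
        funext k
        by_cases hk : k = i
        · subst hk; simp [layerFun_same, hc, phi_same]
        · rw [layerFun_ne hk, phi_ne i hk]
      rw [this, hy]
  rw [this]

/-- The exact formula for the kernel at `i :: l`. -/
theorem Yl_cons_eq (l : List I) (hi : i ∉ l) (y : (I → Bool) → ℝ) (hy : ∀ w, y (phi i w) = y w) :
    Yl c0 (i :: l) y = avg (fun e : (I → Bool) → Bool =>
      ∑ f : (I → Bool) → C, wt c0 y f * Gl l f (fun w => f (layer i e w))) := by
  rw [Yl_eq]
  simp only [Gl_cons i l hi]
  -- fixed `a b`
  have h1 : ∀ a b : (I → Bool) → Bool, ∑ d : (I → Bool) → C, wt c0 y d *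
      Gl l (fun w => d (layer i b w)) (fun w => d (layer i a w)) =
      ∑ f : (I → Bool) → C, wt c0 y f * Gl l f (fun w => f (layer i (xorTab a b) w)) := by
    intro a b
    rw [← Equiv.sum_comp (precompE (C := C) (layer i b))]
    refine Finset.sum_congr rfl fun f _ => ?_
    have e1 : (fun w => (precompE (C := C) (layer i b)) f (layer i b w)) = f := by
      funext w
      show f (layer i b (layer i b w)) = f w
      rw [show layer i b (layer i b w) = w from layerFun_invol i b w]
    have e2 : (fun w => (precompE (C := C) (layer i b)) f (layer i a w)) =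
        fun w => f (layer i (xorTab a b) w) := by
      funext w
      show f (layer i b (layer i a w)) = _
      rw [layer_layer]
    rw [e1, e2]
    congr 1
    exact wt_layer c0 i y hy b f
  -- interchange
  have h2 : ∑ d : (I → Bool) → C, wt c0 y d * avg (fun a : (I → Bool) → Bool =>
      avg (fun b : (I → Bool) → Bool =>
      Gl l (fun w => d (layer i b w)) (fun w => d (layer i a w)))) =
      avg (fun a : (I → Bool) → Bool => avg (fun b : (I → Bool) → Bool =>
        ∑ d : (I → Bool) → C, wt c0 y d *
          Gl l (fun w => d (layer i b w)) (fun w => d (layer i a w)))) := by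
    have h0 : ∀ d : (I → Bool) → C, wt c0 y d * avg (fun a : (I → Bool) → Bool =>
        avg (fun b : (I → Bool) → Bool =>
        Gl l (fun w => d (layer i b w)) (fun w => d (layer i a w)))) =
        avg (fun a : (I → Bool) → Bool => avg (fun b : (I → Bool) → Bool => wt c0 y d *
        Gl l (fun w => d (layer i b w)) (fun w => d (layer i a w)))) := by
      intro d
      rw [← avg_const_mul]
      refine avg_congr fun a => ?_
      rw [← avg_const_mul]
    simp only [h0]
    rw [sum_avg_comm]
    refine avg_congr fun a => ?_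
    rw [sum_avg_comm]
  rw [h2]
  simp only [h1]
  rw [avg_comm]
  have h3 : ∀ b : (I → Bool) → Bool, avg (fun a : (I → Bool) → Bool =>
      ∑ f : (I → Bool) → C, wt c0 y f * Gl l f (fun w => f (layer i (xorTab a b) w))) =
      avg (fun e : (I → Bool) → Bool =>
      ∑ f : (I → Bool) → C, wt c0 y f * Gl l f (fun w => f (layer i e w))) := fun b =>
    avg_equiv (xorE b) (fun e : (I → Bool) → Bool =>
      ∑ f : (I → Bool) → C, wt c0 y f * Gl l f (fun w => f (layer i e w)))
  simp only [h3]
  exact avg_const _

/-- **The recursion for `Y`** (`y` invariant under the flip of the bit `i`). -/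
theorem Yl_cons_le (l : List I) (hi : i ∉ l) {y : (I → Bool) → ℝ} (hy : ∀ w, y (phi i w) = y w)
    (hy0 : ∀ w, 0 ≤ y w) (hy1 : ∀ w, y w ≤ 1) :
    Yl c0 (i :: l) y ≤ avg (fun e : (I → Bool) → Bool =>
      Yl c0 l (fun w => if Fe i e w then 0 else onSide i y w) *
      Yl c0 l (fun w => if Fe i e w then (onSide i y w) ^ 2 else onSide i y w)) := by
  rw [Yl_cons_eq c0 i l hi y hy]
  refine avg_mono fun e => ?_
  have hs0 : ∀ w, 0 ≤ onSide i y w := fun w => by
    simp only [onSide]; split_ifs
    · exact hy0 w
    · exact le_rfl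
  have hs1 : ∀ w, onSide i y w ≤ 1 := fun w => by
    simp only [onSide]; split_ifs
    · exact hy1 w
    · exact zero_le_one
  have hmain := double_sum_le (F := Fe i e) c0 (QQ l) hs0 hs1
  refine le_trans (le_of_eq ?_) hmain
  -- reorganise the sum
  have hterm : ∀ f : (I → Bool) → C, wt c0 y f * Gl l f (fun w => f (layer i e w)) =
      (fun a b => wt c0 (onSide i y) a * wt c0 (onSide i y) b * GU (QQ l) a (mixC (Fe i e) a b) *
        GU (QQ l) b (mixC (Fe i e) b a)) (up c0 i f) (up c0 i (fun w => f (phi i w))) := by
    intro f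
    rw [wt_split c0 i y hy f, Gl_factor c0 i l hi f, up_layer c0 i f e]
    have : up c0 i (fun w => (fun w => f (layer i e w)) (phi i w)) =
        mixC (Fe i e) (up c0 i (fun w => f (phi i w))) (up c0 i f) := up_layer_phi c0 i f e
    rw [this]
    simp only [Gl]
    ring
  rw [Finset.sum_congr rfl (fun f _ => hterm f)]
  exact sum_up c0 i (fun a b => wt c0 (onSide i y) a * wt c0 (onSide i y) b *
      GU (QQ l) a (mixC (Fe i e) a b) * GU (QQ l) b (mixC (Fe i e) b a))
    (fun a b h => by simp [wt_onSide_eq_zero c0 i y a h])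
    (fun a b h => by simp [wt_onSide_eq_zero c0 i y b h])

end Recursion

end Crest.Agent.Thorp
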