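import Mathlib
import Crest.Agent.Lib.Thorp.Color2

/-!
# Step D, third part: homogenisation, side factorisation, PASCAL and the bound `(3/4)^t`.

* `avg_pi`: the average of a product over independent bits.
* `Yl_factor`: `Y_l[x] = Y_l[x⁰] Y_l[(x ∘ φ)⁰]`, for `i ∉ l`, `x⁰ = onSide i x`.
* `Yl_homog`: `Y_{i::l}[y] ≤ Y_{i::l}[ȳ]`, `ȳ = (y + y ∘ φ) / 2`.
* `avg_Yl_Fe`: `E_e Y_l[y⁰ 1_{F_e^c}] = Y_l[y⁰ / 2]`.
* `Yl_pascal`: `Y_{i::l}[y] ≤ Y_l[ȳ⁰ / 2] Y_l[ȳ⁰]`.
* `Yl_le_exp`: `Y_l[x] ≤ exp ((q - 1) (3/4)^{|l|} ∑ x)`.
-/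

set_option autoImplicit false
set_option linter.unusedSectionVars false
set_option linter.unusedVariables false

namespace Crest.Agent.Thorp

open Finset

section AvgPi

variable {X : Type*} [Fintype X] [DecidableEq X]

/-- The average over independent bits of a product. -/
theorem avg_pi (G : X → Bool → ℝ) :
    avg (fun e : X → Bool => ∏ x, G x (e x)) = ∏ x, ((G x true + G x false) / 2) := by
  unfold avg
  have h1 : ∑ e : X → Bool, ∏ x, G x (e x) = ∏ x, ∑ b : Bool, G x b := by
    rw [Finset.prod_univ_sum, Fintype.piFinset_univ]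
  rw [h1, Finset.prod_div_distrib]
  congr 1
  · refine Finset.prod_congr rfl fun x _ => ?_
    simp [add_comm]
  · simp [Fintype.card_bool]

end AvgPi

section Sides

variable {I C : Type*} [Fintype I] [DecidableEq I] [Fintype C] [DecidableEq C] (c0 : C) (i : I)

theorem wt_split' (x : (I → Bool) → ℝ) (f : (I → Bool) → C) :
    wt c0 x f = wt c0 (onSide i x) (up c0 i f) *
      wt c0 (onSide i (fun w => x (phi i w))) (up c0 i (fun w => f (phi i w))) := by
  unfold wt
  rw [prod_split_side i]
  congr 1
  · refine Finset.prod_congr rfl fun w _ => ?_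
    simp only [up, onSide]
    by_cases hw : w i = false <;> simp [hw]
  · refine Finset.prod_congr rfl fun w _ => ?_
    simp only [up, onSide]
    by_cases hw : w i = false <;> simp [hw]

/-- The factorisation of `Y` along the bit `i`. -/
theorem Yl_factor (l : List I) (hi : i ∉ l) (x : (I → Bool) → ℝ) :
    Yl c0 l x = Yl c0 l (onSide i x) * Yl c0 l (onSide i (fun w => x (phi i w))) := by
  rw [Yl_eq, Yl_eq, Yl_eq, Finset.sum_mul_sum]
  have hterm : ∀ d : (I → Bool) → C, wt c0 x d * Gl l d d =
      (fun a b => (wt c0 (onSide i x) a * Gl l a a) *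
        (wt c0 (onSide i (fun w => x (phi i w))) b * Gl l b b))
        (up c0 i d) (up c0 i (fun w => d (phi i w))) := by
    intro d
    rw [wt_split' c0 i x d, Gl_factor c0 i l hi d d]
    ring
  rw [Finset.sum_congr rfl (fun d _ => hterm d)]
  exact sum_up c0 i (fun a b => (wt c0 (onSide i x) a * Gl l a a) *
        (wt c0 (onSide i (fun w => x (phi i w))) b * Gl l b b))
    (fun a b h => by simp [wt_onSide_eq_zero c0 i x a h])
    (fun a b h => by simp [wt_onSide_eq_zero c0 i (fun w => x (phi i w)) b h])

theorem wt_mono {x x' : (I → Bool) → ℝ} (h0 : ∀ w, 0 ≤ x w) (h : ∀ w, x w ≤ x' w)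
    (d : (I → Bool) → C) : wt c0 x d ≤ wt c0 x' d := by
  unfold wt
  refine Finset.prod_le_prod (fun w _ => ?_) (fun w _ => ?_)
  · split_ifs
    · exact zero_le_one
    · exact h0 w
  · split_ifs
    · exact le_rfl
    · exact h w

theorem Yl_mono (l : List I) {x x' : (I → Bool) → ℝ} (h0 : ∀ w, 0 ≤ x w) (h : ∀ w, x w ≤ x' w) :
    Yl c0 l x ≤ Yl c0 l x' := by
  rw [Yl_eq, Yl_eq]
  exact Finset.sum_le_sum fun d _ =>
    mul_le_mul_of_nonneg_right (wt_mono c0 h0 h d) (Gl_nonneg l d d)

theorem Yl_nonneg (l : List I) {x : (I → Bool) → ℝ} (h0 : ∀ w, 0 ≤ x w) : 0 ≤ Yl c0 l x := by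
  rw [Yl_eq]
  exact Finset.sum_nonneg fun d _ => mul_nonneg (wt_nonneg c0 h0 d) (Gl_nonneg l d d)

/-- The kernel at `i :: l` is invariant under layers. -/
theorem Gl_cons_layer (l : List I) (hi : i ∉ l) (d : (I → Bool) → C) (e : (I → Bool) → Bool) :
    Gl (i :: l) (fun w => d (layer i e w)) (fun w => d (layer i e w)) = Gl (i :: l) d d := by
  rw [Gl_cons i l hi, Gl_cons i l hi]
  have h1 : ∀ a b : (I → Bool) → Bool,
      Gl l (fun w => d (layer i e (layer i b w))) (fun w => d (layer i e (layer i a w))) =
      Gl l (fun w => d (layer i (xorTab b e) w)) (fun w => d (layer i (xorTab a e) w)) := by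
    intro a b
    simp only [layer_layer]
  simp only [h1]
  have h2 : ∀ a : (I → Bool) → Bool,
      avg (fun b : (I → Bool) → Bool =>
        Gl l (fun w => d (layer i (xorTab b e) w)) (fun w => d (layer i (xorTab a e) w))) =
      avg (fun b : (I → Bool) → Bool =>
        Gl l (fun w => d (layer i b w)) (fun w => d (layer i (xorTab a e) w))) := fun a =>
    avg_equiv (xorE e) (fun b : (I → Bool) → Bool =>
        Gl l (fun w => d (layer i b w)) (fun w => d (layer i (xorTab a e) w)))
  simp only [h2]
  exact avg_equiv (xorE e) (fun a : (I → Bool) → Bool => avg (fun b : (I → Bool) → Bool =>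
        Gl l (fun w => d (layer i b w)) (fun w => d (layer i a w))))

/-- The pair factor. -/
def pairG (y : (I → Bool) → ℝ) (d : (I → Bool) → C) (w : I → Bool) (b : Bool) : ℝ :=
  if w i = false then
    (if d (if b then phi i w else w) = c0 then 1 else y w) *
    (if d (if b then w else phi i w) = c0 then 1 else y (phi i w)) else 1

/-- The pair product of a weight composed with a layer. -/
theorem wt_layer_prod (y : (I → Bool) → ℝ) (d : (I → Bool) → C) (e : (I → Bool) → Bool) :
    wt c0 y (fun w => d (layer i e w)) = ∏ w, pairG c0 i y d w (e w) := by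
  unfold wt
  rw [prod_split_side i, ← Finset.prod_mul_distrib]
  refine Finset.prod_congr rfl fun w _ => ?_
  by_cases hw : w i = false
  · simp only [pairG, hw, if_true]
    simp only [layer_eq_of_false i e w hw, layer_phi_of_false i e w hw]
  · simp [pairG, hw]

/-- The homogenised weights. -/
noncomputable def homog (y : (I → Bool) → ℝ) : (I → Bool) → ℝ := fun w => (y w + y (phi i w)) / 2

theorem homog_phi (y : (I → Bool) → ℝ) (w : I → Bool) : homog i y (phi i w) = homog i y w := by
  simp only [homog, phi_phi]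
  ring

theorem avg_wt_layer_le {y : (I → Bool) → ℝ} (hy0 : ∀ w, 0 ≤ y w) (d : (I → Bool) → C) :
    avg (fun e : (I → Bool) → Bool => wt c0 y (fun w => d (layer i e w))) ≤
      wt c0 (homog i y) d := by
  simp only [wt_layer_prod]
  rw [avg_pi (pairG c0 i y d)]
  have e1 : wt c0 (homog i y) d = ∏ w, if w i = false then
      (if d w = c0 then 1 else homog i y w) * (if d (phi i w) = c0 then 1 else homog i y w) else 1 := by
    unfold wt
    rw [prod_split_side i, ← Finset.prod_mul_distrib]
    refine Finset.prod_congr rfl fun w _ => ?_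
    by_cases hw : w i = false
    · simp [hw, homog_phi]
    · simp [hw]
  rw [e1]
  refine Finset.prod_le_prod (fun w _ => ?_) (fun w _ => ?_)
  · by_cases hw : w i = false
    · simp only [pairG, hw, if_true, if_false, Bool.false_eq_true]
      have h1 := hy0 w
      have h2 := hy0 (phi i w)
      by_cases hA : d w = c0 <;> by_cases hB : d (phi i w) = c0 <;> simp [hA, hB] <;> positivity
    · simp [pairG, hw]
  · by_cases hw : w i = false
    · simp only [pairG, hw, if_true, if_false, Bool.false_eq_true, homog]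
      have h1 := hy0 w
      have h2 := hy0 (phi i w)
      by_cases hA : d w = c0 <;> by_cases hB : d (phi i w) = c0 <;> simp [hA, hB]
      all_goals first | linarith | nlinarith [sq_nonneg (y w - y (phi i w))]
    · simp [pairG, hw]

/-- **Homogenisation.** -/
theorem Yl_homog (l : List I) (hi : i ∉ l) {y : (I → Bool) → ℝ} (hy0 : ∀ w, 0 ≤ y w) :
    Yl c0 (i :: l) y ≤ Yl c0 (i :: l) (homog i y) := by
  rw [Yl_eq, Yl_eq]
  -- average over the reindexing
  have h1 : ∑ d : (I → Bool) → C, wt c0 y d * Gl (i :: l) d d =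
      avg (fun e : (I → Bool) → Bool => ∑ d : (I → Bool) → C,
        wt c0 y (fun w => d (layer i e w)) * Gl (i :: l) d d) := by
    have : ∀ e : (I → Bool) → Bool, ∑ d : (I → Bool) → C,
        wt c0 y (fun w => d (layer i e w)) * Gl (i :: l) d d =
        ∑ d : (I → Bool) → C, wt c0 y d * Gl (i :: l) d d := by
      intro e
      rw [← Equiv.sum_comp (precompE (C := C) (layer i e))
        (fun d => wt c0 y d * Gl (i :: l) d d)]
      refine Finset.sum_congr rfl fun d _ => ?_
      congr 1
      exact (Gl_cons_layer i l hi d e).symm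
    simp only [this]
    exact (avg_const _).symm
  rw [h1]
  have h2 : avg (fun e : (I → Bool) → Bool => ∑ d : (I → Bool) → C,
        wt c0 y (fun w => d (layer i e w)) * Gl (i :: l) d d) =
      ∑ d : (I → Bool) → C, avg (fun e : (I → Bool) → Bool =>
        wt c0 y (fun w => d (layer i e w)) * Gl (i :: l) d d) := sum_avg_comm' _
  rw [h2]
  refine Finset.sum_le_sum fun d _ => ?_
  rw [avg_const_mul']
  exact mul_le_mul_of_nonneg_right (avg_wt_layer_le c0 i hy0 d) (Gl_nonneg _ _ _)

/-- The weights with the pairs of `F_e` removed average to the halved weights. -/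
theorem avg_Yl_Fe (l : List I) (y : (I → Bool) → ℝ) :
    avg (fun e : (I → Bool) → Bool => Yl c0 l (fun w => if Fe i e w then 0 else onSide i y w)) =
      Yl c0 l (fun w => onSide i y w / 2) := by
  simp only [Yl_eq]
  have h2 : avg (fun e : (I → Bool) → Bool => ∑ d : (I → Bool) → C,
        wt c0 (fun w => if Fe i e w then 0 else onSide i y w) d * Gl l d d) =
      ∑ d : (I → Bool) → C, avg (fun e : (I → Bool) → Bool =>
        wt c0 (fun w => if Fe i e w then 0 else onSide i y w) d * Gl l d d) := sum_avg_comm' _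
  rw [h2]
  refine Finset.sum_congr rfl fun d _ => ?_
  rw [avg_const_mul']
  congr 1
  have hG : ∀ e : (I → Bool) → Bool, wt c0 (fun w => if Fe i e w then 0 else onSide i y w) d =
      ∏ w, (fun w (b : Bool) => if d w = c0 then (1 : ℝ) else
        if (w i = false ∧ b = true) then 0 else onSide i y w) w (e w) := by
    intro e
    rfl
  simp only [hG]
  rw [avg_pi (fun w (b : Bool) => if d w = c0 then (1 : ℝ) else
        if (w i = false ∧ b = true) then 0 else onSide i y w)]
  unfold wt
  refine Finset.prod_congr rfl fun w _ => ?_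
  by_cases hd : d w = c0
  · simp [hd]
  · by_cases hw : w i = false
    · simp [hd, hw, onSide]
    · simp [hd, hw, onSide]

/-- **PASCAL** for invariant weights. -/
theorem Yl_pascal_inv (l : List I) (hi : i ∉ l) {y : (I → Bool) → ℝ} (hy : ∀ w, y (phi i w) = y w)
    (hy0 : ∀ w, 0 ≤ y w) (hy1 : ∀ w, y w ≤ 1) :
    Yl c0 (i :: l) y ≤
      Yl c0 l (fun w => onSide i y w / 2) * Yl c0 l (onSide i y) := by
  refine (Yl_cons_le c0 i l hi hy hy0 hy1).trans ?_
  rw [← avg_Yl_Fe, ← avg_const_mul']
  refine avg_mono fun e => ?_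
  have hs0 : ∀ w, 0 ≤ onSide i y w := fun w => by
    simp only [onSide]; split_ifs
    · exact hy0 w
    · exact le_rfl
  have hs1 : ∀ w, onSide i y w ≤ 1 := fun w => by
    simp only [onSide]; split_ifs
    · exact hy1 w
    · exact zero_le_one
  refine mul_le_mul_of_nonneg_left ?_ (Yl_nonneg c0 l ?_)
  · refine Yl_mono c0 l ?_ ?_
    · intro w
      split_ifs
      · positivity
      · exact hs0 w
    · intro w
      split_ifs
      · nlinarith [hs0 w, hs1 w]
      · exact le_rfl
  · intro w
    split_ifs
    · exact le_rfl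
    · exact hs0 w

/-- **PASCAL**, general weights. -/
theorem Yl_pascal (l : List I) (hi : i ∉ l) {y : (I → Bool) → ℝ}
    (hy0 : ∀ w, 0 ≤ y w) (hy1 : ∀ w, y w ≤ 1) :
    Yl c0 (i :: l) y ≤
      Yl c0 l (fun w => onSide i (homog i y) w / 2) * Yl c0 l (onSide i (homog i y)) := by
  refine (Yl_homog c0 i l hi hy0).trans ?_
  refine Yl_pascal_inv c0 i l hi (homog_phi i y) ?_ ?_
  · intro w
    simp only [homog]
    have := hy0 w
    have := hy0 (phi i w)
    linarith
  · intro w
    simp only [homog]
    have := hy1 w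
    have := hy1 (phi i w)
    linarith

/-- The sum of the homogenised weights over the side. -/
theorem sum_onSide_homog (y : (I → Bool) → ℝ) :
    ∑ w, onSide i (homog i y) w = (∑ w, y w) / 2 := by
  have h1 : ∑ w, y w = ∑ w, y (phi i w) := (Equiv.sum_comp (phi i) y).symm
  have h2 : ∑ w, onSide i (homog i y) w = ∑ w, (if w i = false then (y w + y (phi i w)) / 2 else 0) :=
    rfl
  -- sum over the side
  have h3 : ∑ w, y w = ∑ w, (if w i = false then y w + y (phi i w) else 0) := by
    have e1 : ∑ w, (if w i = false then y w + y (phi i w) else 0) =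
        ∑ w, (if w i = false then y w else 0) + ∑ w, (if w i = false then y (phi i w) else 0) := by
      rw [← Finset.sum_add_distrib]
      refine Finset.sum_congr rfl fun w _ => ?_
      split_ifs <;> simp
    have e2 : ∑ w, (if w i = false then y (phi i w) else 0) = ∑ w, (if w i = true then y w else 0) := by
      rw [← Equiv.sum_comp (phi i) (fun w => if w i = true then y w else 0)]
      refine Finset.sum_congr rfl fun w _ => ?_
      rw [phi_same]
      cases hw : w i <;> simp
    rw [e1, e2, ← Finset.sum_add_distrib]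
    refine Finset.sum_congr rfl fun w _ => ?_
    cases hw : w i <;> simp
  rw [h2, h3, Finset.sum_div]
  refine Finset.sum_congr rfl fun w _ => ?_
  split_ifs <;> simp

end Sides

section Exp

variable {I C : Type*} [Fintype I] [DecidableEq I] [Fintype C] [DecidableEq C] (c0 : C)

/-- The empty list: all the colourings are invariant. -/
theorem Yl_nil (x : (I → Bool) → ℝ) :
    Yl c0 ([] : List I) x = ∏ w, (1 + ((Fintype.card C : ℝ) - 1) * x w) := by
  classical
  have hG : ∀ d : (I → Bool) → C, Gl [] d d = 1 := by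
    intro d
    rw [Gl_def]
    simp only [Kl_nil, Equiv.Perm.coe_one, id_eq, implies_true, if_true]
    exact avg_const 1
  rw [Yl_eq]
  simp only [hG, mul_one]
  unfold wt
  have h1 := (Finset.prod_univ_sum (fun _ : (I → Bool) => (Finset.univ : Finset C))
    (fun w c => if c = c0 then (1 : ℝ) else x w)).symm
  rw [Fintype.piFinset_univ] at h1
  rw [h1]
  refine Finset.prod_congr rfl fun w _ => ?_
  rw [Finset.sum_ite, Finset.sum_const, Finset.sum_const]
  have hc : (Finset.univ.filter (fun c => c = c0)).card = 1 := by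
    rw [Finset.filter_eq' Finset.univ c0]; simp
  have hc2 : (Finset.univ.filter (fun c => ¬ c = c0)).card = Fintype.card C - 1 := by
    rw [show (Finset.univ.filter (fun c => ¬ c = c0)) = Finset.univ.erase c0 from by ext c; simp]
    rw [Finset.card_erase_of_mem (Finset.mem_univ _), Finset.card_univ]
  rw [hc, hc2]
  have hpos : 1 ≤ Fintype.card C := Fintype.card_pos_iff.2 ⟨c0⟩
  simp only [nsmul_eq_mul, Nat.cast_one, mul_one]
  rw [Nat.cast_sub hpos]
  simp

/-- The bound of `Y_l` by the total weight. -/
theorem Yl_le_exp (l : List I) (hl : l.Nodup) {x : (I → Bool) → ℝ} (h0 : ∀ w, 0 ≤ x w)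
    (h1 : ∀ w, x w ≤ 1) :
    Yl c0 l x ≤ Real.exp (((Fintype.card C : ℝ) - 1) * (3 / 4) ^ l.length * ∑ w, x w) := by
  have hq : (0 : ℝ) ≤ (Fintype.card C : ℝ) - 1 := by
    have : 1 ≤ Fintype.card C := Fintype.card_pos_iff.2 ⟨c0⟩
    have : (1 : ℝ) ≤ (Fintype.card C : ℝ) := by exact_mod_cast this
    linarith
  induction l generalizing x with
  | nil =>
    rw [Yl_nil, List.length_nil, pow_zero, mul_one, Finset.mul_sum, Real.exp_sum]
    refine Finset.prod_le_prod (fun w _ => ?_) (fun w _ => ?_)
    · have := h0 w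
      positivity
    · have := Real.add_one_le_exp (((Fintype.card C : ℝ) - 1) * x w)
      linarith
  | cons i l ih =>
    have hi : i ∉ l := (List.nodup_cons.1 hl).1
    have hl' : l.Nodup := (List.nodup_cons.1 hl).2
    set z := onSide i (homog i x) with hz
    have hz0 : ∀ w, 0 ≤ z w := fun w => by
      simp only [hz, onSide, homog]; split_ifs
      · have := h0 w
        have := h0 (phi i w)
        linarith
      · exact le_rfl
    have hz1 : ∀ w, z w ≤ 1 := fun w => by
      simp only [hz, onSide, homog]; split_ifs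
      · have := h1 w
        have := h1 (phi i w)
        linarith
      · exact zero_le_one
    have hA := ih hl' (x := fun w => z w / 2) (fun w => by have := hz0 w; positivity)
      (fun w => by have := hz0 w; have := hz1 w; linarith)
    have hB := ih hl' (x := z) hz0 hz1
    have hP := Yl_pascal c0 i l hi h0 h1
    refine hP.trans ?_
    have hAn : 0 ≤ Yl c0 l (fun w => z w / 2) := Yl_nonneg c0 l (fun w => by have := hz0 w; positivity)
    refine (mul_le_mul hA hB (Yl_nonneg c0 l hz0) (Real.exp_pos _).le).trans (le_of_eq ?_)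
    rw [← Real.exp_add]
    congr 1
    rw [← Finset.sum_div] at *
    have hs : ∑ w, z w = (∑ w, x w) / 2 := sum_onSide_homog i x
    rw [hs, List.length_cons, pow_succ]
    ring

end Exp

end Crest.Agent.Thorp
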