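import Mathlib
import Crest.Agent.Lib.Thorp.Color3

/-!
# Step D, fourth part: the refined recursion PAS+ for two colours.

`Yl_pas_plus`: for `y` invariant under the flip of the bit `i ∉ l`, `0 ≤ y ≤ 1`:
`Y_{i::l}[y] ≤ Y_l[b(y)⁰] Y_l[a'(y)⁰]`, `b(y) = y (1 + y) / 2`, `a'(y) = (y / 2) (1 + y (1 - y) / 2)`.
-/

set_option autoImplicit false
set_option linter.unusedSectionVars false
set_option linter.unusedVariables false

namespace Crest.Agent.Thorp

open Finset

section PasPlus

variable {I : Type*} [Fintype I] [DecidableEq I] (i : I)

/-- The kernel on subsets. -/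
noncomputable abbrev kap (l : List I) (d : (I → Bool) → Bool) : ℝ := Gl l d d

/-- Lemma C, pointwise: invariant colourings containing `t`. -/
theorem sum_ge_le_YK (K : Equiv.Perm (I → Bool)) (t : (I → Bool) → Bool) {b : (I → Bool) → ℝ}
    (hb0 : ∀ w, 0 ≤ b w) (hb1 : ∀ w, b w ≤ 1) :
    ∑ d : (I → Bool) → Bool, (if (∀ w, d (K w) = d w) ∧ (∀ w, t w = true → d w = true)
      then ∏ w, (if d w = true ∧ t w = false then b w else 1) else 0) ≤ YK false K b := by
  classical
  set F : (I → Bool) → Prop := fun w => t w = true with hF
  rw [← Finset.sum_filter]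
  set S := (Finset.univ : Finset ((I → Bool) → Bool)).filter
    (fun d => (∀ w, d (K w) = d w) ∧ (∀ w, t w = true → d w = true)) with hS
  -- the map
  let φ : ((I → Bool) → Bool) → ((I → Bool) → Bool) := fun d w => d w && decide (freePt K F w)
  have hinv : ∀ d ∈ S, ∀ w, d w = true ∨ freePt K F w → True := fun _ _ _ _ => trivial
  have hnf : ∀ d ∈ S, ∀ w, ¬ freePt K F w → d w = true := by
    intro d hd w hw
    have hd' := (Finset.mem_filter.1 hd).2
    have hex : ∃ n : ℕ, t ((K ^ n) w) = true := by
      by_contra hcon
      exact hw (fun n hn => hcon ⟨n, hn⟩)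
    obtain ⟨n, hn⟩ := hex
    have h1 := hd'.2 _ hn
    have h2 : ∀ n : ℕ, d ((K ^ n) w) = d w := by
      intro n
      induction n with
      | zero => simp
      | succ n ih =>
        rw [pow_succ', Equiv.Perm.mul_apply, hd'.1, ih]
    rw [← h2 n, h1]
  have hφinj : Set.InjOn φ (S : Set ((I → Bool) → Bool)) := by
    intro d hd d' hd' he
    funext w
    by_cases hw : freePt K F w
    · have := congrFun he w
      simpa [φ, hw] using this
    · rw [hnf d hd w hw, hnf d' hd' w hw]
  have hweight : ∀ d, ∏ w, (if d w = true ∧ t w = false then b w else 1) ≤ wt false b (φ d) := by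
    intro d
    unfold wt
    refine Finset.prod_le_prod (fun w _ => ?_) (fun w _ => ?_)
    · split_ifs
      · exact hb0 w
      · exact zero_le_one
    · by_cases hd : d w = true
      · by_cases hw : freePt K F w
        · have htw : t w = false := by
            have := hw 0
            simp only [pow_zero, Equiv.Perm.coe_one, id_eq, hF] at this
            simpa using this
          simp [φ, hd, hw, htw]
        · have h1 : φ d w = false := by simp [φ, hw]
          rw [h1, if_pos rfl]
          split_ifs
          · exact hb1 w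
          · exact le_rfl
      · have h1 : φ d w = false := by
          simp [φ] at hd ⊢
          simp [hd]
        rw [h1, if_pos rfl, if_neg]
        simp [hd]
  calc ∑ d ∈ S, ∏ w, (if d w = true ∧ t w = false then b w else 1)
      ≤ ∑ d ∈ S, wt false b (φ d) := Finset.sum_le_sum fun d _ => hweight d
    _ = ∑ d ∈ S.image φ, wt false b d := (Finset.sum_image hφinj).symm
    _ ≤ YK false K b := by
        unfold YK
        rw [← Finset.sum_filter]
        refine Finset.sum_le_sum_of_subset_of_nonneg ?_ (fun d _ _ => wt_nonneg false hb0 d)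
        intro d hd
        obtain ⟨d', hd', rfl⟩ := Finset.mem_image.1 hd
        simp only [Finset.mem_filter, Finset.mem_univ, true_and]
        intro w
        have h1 := (Finset.mem_filter.1 hd').2.1 w
        simp only [φ]
        rw [h1]
        have h2 : freePt K F (K w) ↔ freePt K F w := freePt_apply
        simp [h2]

/-- Lemma C, averaged. -/
theorem sum_ge_le_Yl (l : List I) (t : (I → Bool) → Bool) {b : (I → Bool) → ℝ}
    (hb0 : ∀ w, 0 ≤ b w) (hb1 : ∀ w, b w ≤ 1) :
    ∑ d : (I → Bool) → Bool, (if (∀ w, t w = true → d w = true)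
      then kap l d * ∏ w, (if d w = true ∧ t w = false then b w else 1) else 0) ≤ Yl false l b := by
  classical
  have e1 : ∀ d : (I → Bool) → Bool, (if (∀ w, t w = true → d w = true)
      then kap l d * ∏ w, (if d w = true ∧ t w = false then b w else 1) else 0) =
      avg (fun p : Tab I × Tab I => if (∀ w, d (Kl l p w) = d w) ∧ (∀ w, t w = true → d w = true)
      then ∏ w, (if d w = true ∧ t w = false then b w else 1) else 0) := by
    intro d
    by_cases ht : ∀ w, t w = true → d w = true
    · rw [if_pos ht, kap, Gl_def, mul_comm, ← avg_const_mul]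
      refine avg_congr fun p => ?_
      by_cases h : ∀ w, d (Kl l p w) = d w
      · rw [if_pos h, if_pos ⟨h, ht⟩, mul_one]
      · rw [if_neg h, if_neg (fun e => h e.1), mul_zero]
    · rw [if_neg ht]
      symm
      calc _ = avg (fun _ : Tab I × Tab I => (0 : ℝ)) := avg_congr fun p => if_neg (fun e => ht e.2)
        _ = 0 := avg_const 0
  simp only [e1]
  rw [sum_avg_comm]
  show _ ≤ YU false (QQ l) b
  unfold YU
  exact avg_mono fun p => sum_ge_le_YK (Kl l p) t hb0 hb1

/-- The pair factor of the average. -/
noncomputable def factorT (z : ℝ) (δ δ' : Bool) : ℝ :=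
  (if δ then z / 2 else 1) * (if δ' then z * (1 + z) / 2 else 1) +
    (if δ && δ' then (z / 2) * (z * (1 - z) / 2) else 0)

/-- The average over `e` of the product of the two weights. -/
theorem avg_wt_wt (z : (I → Bool) → ℝ) (hz : ∀ w, w i = true → z w = 0)
    (d d' : (I → Bool) → Bool) :
    avg (fun e : (I → Bool) → Bool =>
      wt false (fun w => if Fe i e w then 0 else z w) d *
      wt false (fun w => if Fe i e w then (z w) ^ 2 else z w) d') =
      ∏ w, factorT (z w) (d w) (d' w) := by
  have hG : ∀ e : (I → Bool) → Bool,
      wt false (fun w => if Fe i e w then 0 else z w) d *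
      wt false (fun w => if Fe i e w then (z w) ^ 2 else z w) d' =
      ∏ w, (fun w (β : Bool) =>
        (if d w = false then (1 : ℝ) else if (w i = false ∧ β = true) then 0 else z w) *
        (if d' w = false then (1 : ℝ) else if (w i = false ∧ β = true) then (z w) ^ 2 else z w))
        w (e w) := by
    intro e
    unfold wt
    rw [← Finset.prod_mul_distrib]
    rfl
  simp only [hG]
  rw [avg_pi (fun w (β : Bool) =>
        (if d w = false then (1 : ℝ) else if (w i = false ∧ β = true) then 0 else z w) *
        (if d' w = false then (1 : ℝ) else if (w i = false ∧ β = true) then (z w) ^ 2 else z w))]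
  refine Finset.prod_congr rfl fun w _ => ?_
  by_cases hw : w i = false
  · cases d w <;> cases d' w <;> simp [factorT, hw] <;> ring
  · have hw' : w i = true := by simpa using hw
    have hz0 := hz w hw'
    cases d w <;> cases d' w <;> simp [factorT, hw, hz0]

/-- The term with a third colouring. -/
noncomputable def factorU (z : ℝ) (δ δ' τ : Bool) : ℝ :=
  if τ then (if δ && δ' then (z / 2) * (z * (1 - z) / 2) else 0)
  else (if δ then z / 2 else 1) * (if δ' then z * (1 + z) / 2 else 1)

theorem factorT_eq (z : ℝ) (δ δ' : Bool) :
    factorT z δ δ' = factorU z δ δ' true + factorU z δ δ' false := by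
  simp only [factorT, factorU, if_true, Bool.false_eq_true, if_false]
  ring

/-- The expansion in the third colouring. -/
theorem prod_factorT (z : (I → Bool) → ℝ) (d d' : (I → Bool) → Bool) :
    ∏ w, factorT (z w) (d w) (d' w) =
      ∑ t : (I → Bool) → Bool, ∏ w, factorU (z w) (d w) (d' w) (t w) := by
  have h := Finset.prod_univ_sum (fun _ : (I → Bool) => (Finset.univ : Finset Bool))
    (fun w τ => factorU (z w) (d w) (d' w) τ)
  rw [Fintype.piFinset_univ] at h
  rw [← h]
  refine Finset.prod_congr rfl fun w _ => ?_
  rw [factorT_eq]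
  simp [add_comm]

/-- Factorisation of the term with the third colouring. -/
theorem prod_factorU (z : (I → Bool) → ℝ) (d d' t : (I → Bool) → Bool) :
    ∏ w, factorU (z w) (d w) (d' w) (t w) =
      (∏ w, if t w = true then z w * (1 - z w) / 2 else 1) *
      (if ∀ w, t w = true → d w = true then wt false (fun w => z w / 2) d else 0) *
      (if ∀ w, t w = true → d' w = true then
        ∏ w, (if d' w = true ∧ t w = false then z w * (1 + z w) / 2 else 1) else 0) := by
  classical
  by_cases h1 : ∀ w, t w = true → d w = true
  · by_cases h2 : ∀ w, t w = true → d' w = true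
    · rw [if_pos h1, if_pos h2]
      unfold wt
      rw [← Finset.prod_mul_distrib, ← Finset.prod_mul_distrib]
      refine Finset.prod_congr rfl fun w _ => ?_
      cases ht : t w
      · cases d w <;> cases d' w <;> simp [factorU, ht]
      · have hd := h1 w ht
        have hd' := h2 w ht
        simp [factorU, ht, hd, hd']
        ring
    · rw [if_neg h2, mul_zero]
      obtain ⟨w, hw⟩ := not_forall.1 h2
      obtain ⟨hw1, hw2⟩ := Classical.not_imp.1 hw
      refine Finset.prod_eq_zero (Finset.mem_univ w) ?_
      simp [factorU, hw1, hw2]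
  · rw [if_neg h1, mul_zero, zero_mul]
    obtain ⟨w, hw⟩ := not_forall.1 h1
    obtain ⟨hw1, hw2⟩ := Classical.not_imp.1 hw
    refine Finset.prod_eq_zero (Finset.mem_univ w) ?_
    simp [factorU, hw1, hw2]

/-- Lemma D: summing over the subsets of `d`. -/
theorem sum_t_le (c a : (I → Bool) → ℝ) (d : (I → Bool) → Bool) :
    ∑ t : (I → Bool) → Bool, (∏ w, if t w = true then c w else 1) *
      (if ∀ w, t w = true → d w = true then wt false a d else 0) =
      wt false (fun w => a w * (1 + c w)) d := by
  classical
  have h := Finset.prod_univ_sum (fun _ : (I → Bool) => (Finset.univ : Finset Bool))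
    (fun w τ => if τ = true then (if d w = true then c w else 0) else 1)
  rw [Fintype.piFinset_univ] at h
  have e1 : ∀ t : (I → Bool) → Bool, (∏ w, if t w = true then c w else 1) *
      (if ∀ w, t w = true → d w = true then wt false a d else 0) =
      wt false a d * ∏ w, (if t w = true then (if d w = true then c w else 0) else 1) := by
    intro t
    by_cases h1 : ∀ w, t w = true → d w = true
    · rw [if_pos h1, mul_comm]
      congr 1
      refine Finset.prod_congr rfl fun w _ => ?_
      by_cases ht : t w = true
      · simp [ht, h1 w ht]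
      · simp [ht]
    · rw [if_neg h1, mul_zero]
      obtain ⟨w, hw⟩ := not_forall.1 h1
      obtain ⟨hw1, hw2⟩ := Classical.not_imp.1 hw
      rw [Finset.prod_eq_zero (Finset.mem_univ w), mul_zero]
      simp [hw1, hw2]
  simp only [e1]
  rw [← Finset.mul_sum, ← h]
  unfold wt
  rw [← Finset.prod_mul_distrib]
  refine Finset.prod_congr rfl fun w _ => ?_
  cases d w <;> simp [add_comm]

/-- The third colouring factor. -/
noncomputable def termC (z : (I → Bool) → ℝ) (t : (I → Bool) → Bool) : ℝ :=
  ∏ w, if t w = true then z w * (1 - z w) / 2 else 1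

/-- The factor with `a`. -/
noncomputable def termA (l : List I) (z : (I → Bool) → ℝ) (t d : (I → Bool) → Bool) : ℝ :=
  kap l d * (if ∀ w, t w = true → d w = true then wt false (fun w => z w / 2) d else 0)

/-- The factor with `b`. -/
noncomputable def termB (l : List I) (z : (I → Bool) → ℝ) (t d' : (I → Bool) → Bool) : ℝ :=
  kap l d' * (if ∀ w, t w = true → d' w = true then
        ∏ w, (if d' w = true ∧ t w = false then z w * (1 + z w) / 2 else 1) else 0)

/-- The expansion of the recursion. -/
theorem avg_Yl_Yl_eq (l : List I) (z : (I → Bool) → ℝ) (hz : ∀ w, w i = true → z w = 0) :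
    avg (fun e : (I → Bool) → Bool =>
      Yl false l (fun w => if Fe i e w then 0 else z w) *
      Yl false l (fun w => if Fe i e w then (z w) ^ 2 else z w)) =
    ∑ t : (I → Bool) → Bool, termC z t * (∑ d, termA l z t d) * (∑ d', termB l z t d') := by
  have hR : ∑ t : (I → Bool) → Bool, termC z t * (∑ d, termA l z t d) * (∑ d', termB l z t d') =
      ∑ t : (I → Bool) → Bool, ∑ d, ∑ d', termC z t * termA l z t d * termB l z t d' := by
    refine Finset.sum_congr rfl fun t _ => ?_
    rw [mul_assoc, Finset.sum_mul_sum, Finset.mul_sum]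
    refine Finset.sum_congr rfl fun d _ => ?_
    rw [Finset.mul_sum]
    refine Finset.sum_congr rfl fun d' _ => ?_
    ring
  rw [hR]
  have hL : avg (fun e : (I → Bool) → Bool =>
      Yl false l (fun w => if Fe i e w then 0 else z w) *
      Yl false l (fun w => if Fe i e w then (z w) ^ 2 else z w)) =
      ∑ d : (I → Bool) → Bool, ∑ d' : (I → Bool) → Bool, kap l d * kap l d' *
        ∏ w, factorT (z w) (d w) (d' w) := by
    simp only [Yl_eq, Finset.sum_mul_sum]
    rw [show (fun e : (I → Bool) → Bool =>
      ∑ d : (I → Bool) → Bool, ∑ d' : (I → Bool) → Bool,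
        (wt false (fun w => if Fe i e w then 0 else z w) d * Gl l d d) *
        (wt false (fun w => if Fe i e w then (z w) ^ 2 else z w) d' * Gl l d' d')) =
      fun e => ∑ d : (I → Bool) → Bool, ∑ d' : (I → Bool) → Bool, kap l d * kap l d' *
        (wt false (fun w => if Fe i e w then 0 else z w) d *
        wt false (fun w => if Fe i e w then (z w) ^ 2 else z w) d') from by
      funext e
      refine Finset.sum_congr rfl fun d _ => Finset.sum_congr rfl fun d' _ => ?_
      simp only [kap]
      ring]
    rw [sum_avg_comm']
    refine Finset.sum_congr rfl fun d _ => ?_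
    rw [sum_avg_comm']
    refine Finset.sum_congr rfl fun d' _ => ?_
    rw [avg_const_mul, avg_wt_wt i z hz]
  rw [hL]
  have hT : ∀ d d' : (I → Bool) → Bool, kap l d * kap l d' * ∏ w, factorT (z w) (d w) (d' w) =
      ∑ t : (I → Bool) → Bool, termC z t * termA l z t d * termB l z t d' := by
    intro d d'
    rw [prod_factorT, Finset.mul_sum]
    refine Finset.sum_congr rfl fun t _ => ?_
    rw [prod_factorU]
    simp only [termC, termA, termB]
    ring
  simp only [hT]
  calc _ = ∑ d : (I → Bool) → Bool, ∑ t : (I → Bool) → Bool, ∑ d' : (I → Bool) → Bool,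
        termC z t * termA l z t d * termB l z t d' :=
        Finset.sum_congr rfl fun d _ => Finset.sum_comm
    _ = _ := Finset.sum_comm

/-- **PAS+**. -/
theorem Yl_pas_plus (l : List I) (hi : i ∉ l) {y : (I → Bool) → ℝ} (hy : ∀ w, y (phi i w) = y w)
    (hy0 : ∀ w, 0 ≤ y w) (hy1 : ∀ w, y w ≤ 1) :
    Yl false (i :: l) y ≤
      Yl false l (fun w => onSide i y w * (1 + onSide i y w) / 2) *
      Yl false l (fun w => onSide i y w / 2 * (1 + onSide i y w * (1 - onSide i y w) / 2)) := by
  refine (Yl_cons_le false i l hi hy hy0 hy1).trans ?_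
  set z := onSide i y with hzdef
  have hz : ∀ w, w i = true → z w = 0 := fun w hw => by simp [hzdef, onSide, hw]
  have hz0 : ∀ w, 0 ≤ z w := fun w => by
    simp only [hzdef, onSide]; split_ifs
    · exact hy0 w
    · exact le_rfl
  have hz1 : ∀ w, z w ≤ 1 := fun w => by
    simp only [hzdef, onSide]; split_ifs
    · exact hy1 w
    · exact zero_le_one
  rw [avg_Yl_Yl_eq i l z hz]
  have hb0 : ∀ w, 0 ≤ z w * (1 + z w) / 2 := fun w => by have := hz0 w; positivity
  have hb1 : ∀ w, z w * (1 + z w) / 2 ≤ 1 := fun w => by nlinarith [hz0 w, hz1 w]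
  have hc0 : ∀ w, 0 ≤ z w * (1 - z w) / 2 := fun w => by
    have := hz0 w; have := hz1 w
    have : 0 ≤ 1 - z w := by linarith
    positivity
  -- the bound of the factor with `b`
  have hB : ∀ t : (I → Bool) → Bool, ∑ d', termB l z t d' ≤
      Yl false l (fun w => z w * (1 + z w) / 2) := by
    intro t
    refine le_trans (le_of_eq ?_) (sum_ge_le_Yl l t hb0 hb1)
    refine Finset.sum_congr rfl fun d _ => ?_
    simp only [termB]
    split_ifs
    · rfl
    · simp
  have hkap : ∀ d, 0 ≤ kap l d := fun d => Gl_nonneg l d d
  have hC : ∀ t : (I → Bool) → Bool, 0 ≤ termC z t :=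
    fun t => Finset.prod_nonneg fun w _ => by
      split_ifs
      · exact hc0 w
      · exact zero_le_one
  have hA : ∀ t : (I → Bool) → Bool, 0 ≤ ∑ d, termA l z t d :=
    fun t => Finset.sum_nonneg fun d _ => mul_nonneg (hkap d) (by
      split_ifs
      · exact wt_nonneg false (fun w => by have := hz0 w; positivity) d
      · exact le_rfl)
  calc _ ≤ ∑ t : (I → Bool) → Bool, termC z t * (∑ d, termA l z t d) *
        Yl false l (fun w => z w * (1 + z w) / 2) :=
        Finset.sum_le_sum fun t _ => mul_le_mul_of_nonneg_left (hB t) (mul_nonneg (hC t) (hA t))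
    _ = Yl false l (fun w => z w * (1 + z w) / 2) *
        ∑ t : (I → Bool) → Bool, termC z t * (∑ d, termA l z t d) := by
        rw [Finset.mul_sum]
        refine Finset.sum_congr rfl fun t _ => ?_
        ring
    _ = _ := by
        have hlast : ∑ t : (I → Bool) → Bool, termC z t * (∑ d, termA l z t d) =
            Yl false l (fun w => z w / 2 * (1 + z w * (1 - z w) / 2)) := by
          rw [Yl_eq]
          have e1 : ∀ t : (I → Bool) → Bool, termC z t * (∑ d, termA l z t d) =
              ∑ d : (I → Bool) → Bool, kap l d * (termC z t *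
              (if ∀ w, t w = true → d w = true then wt false (fun w => z w / 2) d else 0)) := by
            intro t
            rw [Finset.mul_sum]
            refine Finset.sum_congr rfl fun d _ => ?_
            simp only [termA]
            ring
          simp only [e1]
          rw [Finset.sum_comm]
          refine Finset.sum_congr rfl fun d _ => ?_
          rw [← Finset.mul_sum, mul_comm]
          congr 1
          exact sum_t_le _ _ d
        rw [hlast]

/-- PAS+ with the weights of the two sides together. -/
theorem Yl_pas_plus' (l : List I) (hi : i ∉ l) {y : (I → Bool) → ℝ} (hy : ∀ w, y (phi i w) = y w)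
    (hy0 : ∀ w, 0 ≤ y w) (hy1 : ∀ w, y w ≤ 1) :
    Yl false (i :: l) y ≤ Yl false l (fun w => if w i = false then y w * (1 + y w) / 2
      else y w / 2 * (1 + y w * (1 - y w) / 2)) := by
  refine (Yl_pas_plus i l hi hy hy0 hy1).trans (le_of_eq ?_)
  rw [Yl_factor false i l hi (fun w => if w i = false then y w * (1 + y w) / 2
      else y w / 2 * (1 + y w * (1 - y w) / 2))]
  have e1 : (fun w => onSide i y w * (1 + onSide i y w) / 2) = onSide i (fun w => if w i = false then
      y w * (1 + y w) / 2 else y w / 2 * (1 + y w * (1 - y w) / 2)) := by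
    funext w
    by_cases hw : w i = false <;> simp [onSide, hw]
  have e2 : (fun w => onSide i y w / 2 * (1 + onSide i y w * (1 - onSide i y w) / 2)) =
      onSide i (fun w => (fun w => if w i = false then y w * (1 + y w) / 2
        else y w / 2 * (1 + y w * (1 - y w) / 2)) (phi i w)) := by
    funext w
    by_cases hw : w i = false
    · have h2 : (phi i w) i = true := by rw [phi_same, hw]; rfl
      simp [onSide, hw, h2, hy]
    · simp [onSide, hw]
  rw [e1, e2]

end PasPlus

end Crest.Agent.Thorp
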