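import Mathlib
import Crest.Agent.Lib.Thorp.Color4

/-!
# Step D: the quadratic family.

`psiT t x = alphaT t * x + gammaT t * x ^ 2`, with `alphaT t = 1.16 * 2⁻ᵗ`,
`gammaT t = .71 * (5/8)^(t-2) - 2.32 * 2⁻ᵗ`. `quad_step`: the bound at `l` implies the bound at
`i :: l`.
-/

set_option autoImplicit false
set_option linter.unusedSectionVars false
set_option linter.unusedVariables false

namespace Crest.Agent.Thorp

open Finset

section Numbers

/-- The linear coefficient. -/
noncomputable def alphaT (t : ℕ) : ℝ := 1.16 * (1 / 2) ^ t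

/-- The quadratic coefficient. -/
noncomputable def gammaT (t : ℕ) : ℝ := 0.71 * (5 / 8) ^ (t - 2) - 2.32 * (1 / 2) ^ t

/-- The quadratic function. -/
noncomputable def psiT (t : ℕ) (x : ℝ) : ℝ := alphaT t * x + gammaT t * x ^ 2

theorem alphaT_succ (t : ℕ) : alphaT (t + 1) = alphaT t / 2 := by
  simp only [alphaT, pow_succ]; ring

theorem gammaT_succ (t : ℕ) (ht : 2 ≤ t) : gammaT (t + 1) = alphaT t / 4 + 5 * gammaT t / 8 := by
  obtain ⟨s, rfl⟩ : ∃ s, t = s + 2 := ⟨t - 2, by omega⟩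
  simp only [gammaT, alphaT]
  have e1 : s + 2 + 1 - 2 = s + 1 := by omega
  have e2 : s + 2 - 2 = s := by omega
  rw [e1, e2, pow_succ (5 / 8 : ℝ) s, pow_succ (1 / 2 : ℝ) (s + 2)]
  ring

theorem alphaT_pos (t : ℕ) : 0 < alphaT t := by
  unfold alphaT; positivity

theorem gammaT_two : gammaT 2 = 0.13 := by
  norm_num [gammaT]

theorem alphaT_two : alphaT 2 = 0.29 := by
  norm_num [alphaT]

/-- The invariant of the recursion. -/
theorem gammaT_inv (t : ℕ) (ht : 2 ≤ t) : 0 < gammaT t ∧ alphaT t ≤ 2.96 * gammaT t := by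
  induction t, ht using Nat.le_induction with
  | base =>
    rw [gammaT_two, alphaT_two]
    norm_num
  | succ t ht ih =>
    have h1 := alphaT_pos t
    rw [gammaT_succ t ht, alphaT_succ]
    constructor
    · have := ih.1
      positivity
    · have := ih.1
      nlinarith

/-- The step functions. -/
noncomputable def bY (y : ℝ) : ℝ := y * (1 + y) / 2

/-- The step functions. -/
noncomputable def aY (y : ℝ) : ℝ := y / 2 * (1 + y * (1 - y) / 2)

theorem bY_nonneg {y : ℝ} (h0 : 0 ≤ y) : 0 ≤ bY y := by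
  unfold bY; positivity

theorem bY_le {y : ℝ} (h0 : 0 ≤ y) (h1 : y ≤ 1) : bY y ≤ 1 := by
  unfold bY; nlinarith

theorem aY_nonneg {y : ℝ} (h0 : 0 ≤ y) (h1 : y ≤ 1) : 0 ≤ aY y := by
  unfold aY
  have : 0 ≤ 1 - y := by linarith
  positivity

theorem aY_le {y : ℝ} (h0 : 0 ≤ y) (h1 : y ≤ 1) : aY y ≤ 1 := by
  unfold aY
  have : y * (1 - y) ≤ 1 / 4 := by nlinarith [sq_nonneg (y - 1 / 2)]
  nlinarith

/-- Inequality (i). -/
theorem psi_step (t : ℕ) (ht : 2 ≤ t) {x : ℝ} (h0 : 0 ≤ x) (h1 : x ≤ 1) :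
    psiT t (bY x) + psiT t (aY x) ≤ 2 * psiT (t + 1) x := by
  obtain ⟨hg, hag⟩ := gammaT_inv t ht
  simp only [psiT]
  rw [alphaT_succ, gammaT_succ t ht]
  set α := alphaT t
  set γ := gammaT t
  have hkey : α * (1 - x) * x ^ 2 / 4 ≤ γ * ((1 - x) * (3 - x ^ 2 * (1 - x) / 4)) * x ^ 2 / 4 := by
    have h3 : x ^ 2 * (1 - x) ≤ 4 / 27 := by
      nlinarith [mul_nonneg (sq_nonneg (x - 2 / 3)) (by linarith : (0 : ℝ) ≤ x + 1 / 3)]
    have h4 : α ≤ γ * (3 - x ^ 2 * (1 - x) / 4) := by
      have : (2.96 : ℝ) ≤ 3 - x ^ 2 * (1 - x) / 4 := by nlinarith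
      nlinarith
    have h5 : 0 ≤ (1 - x) * x ^ 2 / 4 := by
      have : 0 ≤ 1 - x := by linarith
      positivity
    nlinarith
  simp only [bY, aY]
  nlinarith [hkey]

/-- Inequality (ii). -/
theorem psi_convex (t : ℕ) (ht : 2 ≤ t) (u v : ℝ) :
    2 * psiT t ((u + v) / 2) ≤ psiT t u + psiT t v := by
  have hg := (gammaT_inv t ht).1
  simp only [psiT]
  nlinarith [mul_nonneg hg.le (sq_nonneg (u - v))]

theorem psiT_zero (t : ℕ) : psiT t 0 = 0 := by simp [psiT]

end Numbers

section Step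

variable {I : Type*} [Fintype I] [DecidableEq I] (i : I)

/-- Sums over the pairs. -/
theorem sum_side (g : (I → Bool) → ℝ) :
    ∑ w, g w = ∑ w, (if w i = false then g w + g (phi i w) else 0) := by
  have e1 : ∑ w, (if w i = false then g w + g (phi i w) else 0) =
      ∑ w, (if w i = false then g w else 0) + ∑ w, (if w i = false then g (phi i w) else 0) := by
    rw [← Finset.sum_add_distrib]
    refine Finset.sum_congr rfl fun w _ => ?_
    split_ifs <;> simp
  have e2 : ∑ w, (if w i = false then g (phi i w) else 0) = ∑ w, (if w i = true then g w else 0) := by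
    rw [← Equiv.sum_comp (phi i) (fun w => if w i = true then g w else 0)]
    refine Finset.sum_congr rfl fun w _ => ?_
    rw [phi_same]
    cases hw : w i <;> simp
  rw [e1, e2, ← Finset.sum_add_distrib]
  refine Finset.sum_congr rfl fun w _ => ?_
  cases hw : w i <;> simp

/-- The step of the quadratic family. -/
theorem quad_step (l : List I) (hi : i ∉ l) (t : ℕ) (ht : 2 ≤ t)
    (H : ∀ x : (I → Bool) → ℝ, (∀ w, 0 ≤ x w) → (∀ w, x w ≤ 1) →
      Yl false l x ≤ Real.exp (∑ w, psiT t (x w)))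
    {x : (I → Bool) → ℝ} (h0 : ∀ w, 0 ≤ x w) (h1 : ∀ w, x w ≤ 1) :
    Yl false (i :: l) x ≤ Real.exp (∑ w, psiT (t + 1) (x w)) := by
  have hb0 : ∀ w, 0 ≤ homog i x w := fun w => by
    simp only [homog]
    have := h0 w; have := h0 (phi i w); linarith
  have hb1 : ∀ w, homog i x w ≤ 1 := fun w => by
    simp only [homog]
    have := h1 w; have := h1 (phi i w); linarith
  set z := onSide i (homog i x) with hz
  have hz0 : ∀ w, 0 ≤ z w := fun w => by
    simp only [hz, onSide]; split_ifs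
    · exact hb0 w
    · exact le_rfl
  have hz1 : ∀ w, z w ≤ 1 := fun w => by
    simp only [hz, onSide]; split_ifs
    · exact hb1 w
    · exact zero_le_one
  have hP := (Yl_homog false i l hi h0).trans (Yl_pas_plus i l hi (homog_phi i x) hb0 hb1)
  have hA := H (fun w => z w * (1 + z w) / 2) (fun w => bY_nonneg (hz0 w))
    (fun w => bY_le (hz0 w) (hz1 w))
  have hB := H (fun w => z w / 2 * (1 + z w * (1 - z w) / 2)) (fun w => aY_nonneg (hz0 w) (hz1 w))
    (fun w => aY_le (hz0 w) (hz1 w))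
  refine hP.trans ?_
  refine (mul_le_mul hA hB (Yl_nonneg false l (fun w => aY_nonneg (hz0 w) (hz1 w)))
    (Real.exp_pos _).le).trans ?_
  rw [← Real.exp_add]
  apply Real.exp_le_exp.2
  rw [← Finset.sum_add_distrib]
  -- pointwise and over the pairs
  calc ∑ w, (psiT t (z w * (1 + z w) / 2) + psiT t (z w / 2 * (1 + z w * (1 - z w) / 2)))
      ≤ ∑ w, 2 * psiT (t + 1) (z w) := Finset.sum_le_sum fun w _ => psi_step t ht (hz0 w) (hz1 w)
    _ ≤ ∑ w, (if w i = false then psiT (t + 1) (x w) + psiT (t + 1) (x (phi i w)) else 0) := by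
        refine Finset.sum_le_sum fun w _ => ?_
        by_cases hw : w i = false
        · simp only [hz, onSide, hw, if_true, homog]
          exact psi_convex (t + 1) (by omega) _ _
        · have e : z w = 0 := by simp [hz, onSide, hw]
          rw [e, psiT_zero, if_neg hw]
          simp
    _ = ∑ w, psiT (t + 1) (x w) := (sum_side i (fun w => psiT (t + 1) (x w))).symm

end Step

end Crest.Agent.Thorp
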