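import Mathlib
import Crest.Agent.Lib.Thorp.Quad

/-!
# Step D: small lists, columns.

* `Gl_nil`, `Gl_flip`, `Yl_flip`, `Yl_split`.
* `Yl_le_of_col`: a multiplicative bound which holds on the columns holds everywhere.
* `avg_bool`, `avg_coin`, `avg_coin2`: averages over the values at one or two points of a random table.
-/

set_option autoImplicit false
set_option linter.unusedSectionVars false
set_option linter.unusedVariables false

namespace Crest.Agent.Thorp

open Finset

section Generic

variable {I C : Type*} [Fintype I] [DecidableEq I] [Fintype C] [DecidableEq C] (c0 : C) (i : I)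

theorem Gl_nil (f g : (I → Bool) → C) : Gl [] f g = if ∀ w, f w = g w then 1 else 0 := by
  rw [Gl_def]
  simp only [Kl_nil, Equiv.Perm.coe_one, id_eq]
  exact avg_const _

/-- Flipping the bit `i` does not change the kernel. -/
theorem Gl_flip (l : List I) (hi : i ∉ l) (f g : (I → Bool) → C) :
    Gl l (fun w => f (phi i w)) (fun w => g (phi i w)) = Gl l f g := by
  classical
  rw [Gl_def, Gl_def, ← avg_equiv (tauE i) (fun p =>
      if ∀ w, f (phi i (Kl l p w)) = g (phi i w) then (1 : ℝ) else 0)]
  refine avg_congr fun p => ?_
  have hK : ∀ w, Kl l (tauE i p) w = phi i (Kl l p (phi i w)) := by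
    intro w
    have := Kl_tau i l hi p
    show Kl l (tau i p.1, tau i p.2) w = _
    rw [this]
    rfl
  have hiff : (∀ w, f (phi i (Kl l (tauE i p) w)) = g (phi i w)) ↔ ∀ w, f (Kl l p w) = g w := by
    constructor
    · intro h w
      have := h (phi i w)
      rw [hK, phi_phi, phi_phi] at this
      exact this
    · intro h w
      rw [hK, phi_phi]
      exact h _
  by_cases h : ∀ w, f (Kl l p w) = g w
  · rw [if_pos h, if_pos (hiff.2 h)]
  · rw [if_neg h, if_neg (fun e => h (hiff.1 e))]

theorem wt_flip (x : (I → Bool) → ℝ) (d : (I → Bool) → C) :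
    wt c0 x (fun w => d (phi i w)) = wt c0 (fun w => x (phi i w)) d := by
  unfold wt
  rw [← Equiv.prod_comp (phi i) (fun w => if d (phi i w) = c0 then (1 : ℝ) else x w)]
  refine Finset.prod_congr rfl fun w _ => ?_
  rw [phi_phi]

/-- Flipping the bit `i` in the weights does not change `Y_l`. -/
theorem Yl_flip (l : List I) (hi : i ∉ l) (x : (I → Bool) → ℝ) :
    Yl c0 l (fun w => x (phi i w)) = Yl c0 l x := by
  rw [Yl_eq, Yl_eq, ← Equiv.sum_comp (precompE (C := C) (phi i))]
  refine Finset.sum_congr rfl fun d _ => ?_
  have e1 : wt c0 (fun w => x (phi i w)) ((precompE (C := C) (phi i)) d) = wt c0 x d := by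
    have := wt_flip c0 i (fun w => x (phi i w)) d
    simp only [phi_phi] at this
    exact this
  have e2 : Gl l ((precompE (C := C) (phi i)) d) ((precompE (C := C) (phi i)) d) = Gl l d d :=
    Gl_flip i l hi d d
  rw [e1, e2]

/-- The two halves of the weights. -/
def offSide (x : (I → Bool) → ℝ) : (I → Bool) → ℝ := fun w => if w i = false then 0 else x w

theorem Yl_split (l : List I) (hi : i ∉ l) (x : (I → Bool) → ℝ) :
    Yl c0 l x = Yl c0 l (onSide i x) * Yl c0 l (offSide i x) := by
  rw [Yl_factor c0 i l hi x]
  congr 1
  rw [← Yl_flip c0 i l hi (offSide i x)]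
  congr 1
  funext w
  simp only [onSide, offSide, phi_same]
  cases hw : w i <;> simp

/-- A multiplicative bound which holds on the columns holds everywhere. -/
theorem Yl_le_of_col (l : List I) (Φ : ((I → Bool) → ℝ) → ℝ)
    (P : ((I → Bool) → ℝ) → Prop)
    (hPon : ∀ x j, P x → P (onSide j x)) (hPoff : ∀ x j, P x → P (offSide j x))
    (hΦ0 : ∀ x, P x → 0 ≤ Φ x)
    (hΦ : ∀ x j, P x → j ∉ l → Φ (onSide j x) * Φ (offSide j x) ≤ Φ x)
    (hY0 : ∀ x, P x → 0 ≤ Yl c0 l x)
    (hcol : ∀ x, P x → ∀ c : I → Bool, (∀ w, x w ≠ 0 → ∀ k, k ∉ l → w k = c k) → Yl c0 l x ≤ Φ x) :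
    ∀ x, P x → Yl c0 l x ≤ Φ x := by
  classical
  -- induction on the set of bits not yet fixed
  have key : ∀ S : Finset I, ∀ x, P x → ∀ c : I → Bool,
      (∀ w, x w ≠ 0 → ∀ k, k ∉ l → k ∉ S → w k = c k) → Yl c0 l x ≤ Φ x := by
    intro S
    induction S using Finset.induction_on with
    | empty =>
      intro x hx c h
      exact hcol x hx c (fun w hw k hk => h w hw k hk (by simp))
    | insert j S hj ih =>
      intro x hx c h
      by_cases hjl : j ∈ l
      · refine ih x hx c (fun w hw k hk hkS => h w hw k hk ?_)
        simp only [Finset.mem_insert, not_or]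
        exact ⟨fun e => hk (e ▸ hjl), hkS⟩
      · rw [Yl_split c0 j l hjl x]
        refine le_trans ?_ (hΦ x j hx hjl)
        have h1 := ih (onSide j x) (hPon x j hx) (Function.update c j false) (by
          intro w hw k hk hkS
          simp only [onSide] at hw
          by_cases hw' : w j = false
          · by_cases hkj : k = j
            · subst hkj; simp [hw']
            · rw [Function.update_of_ne hkj]
              refine h w (by simpa [hw'] using hw) k hk ?_
              simp [hkj, hkS]
          · simp [hw'] at hw)
        have h2 := ih (offSide j x) (hPoff x j hx) (Function.update c j true) (by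
          intro w hw k hk hkS
          simp only [offSide] at hw
          by_cases hw' : w j = false
          · simp [hw'] at hw
          · by_cases hkj : k = j
            · subst hkj; simpa using hw'
            · rw [Function.update_of_ne hkj]
              refine h w (by simpa [hw'] using hw) k hk ?_
              simp [hkj, hkS])
        exact mul_le_mul h1 h2 (hY0 _ (hPoff x j hx)) (hΦ0 _ (hPon x j hx))
  intro x hx
  exact key Finset.univ x hx (fun _ => false) (fun w hw k hk hkS => absurd (Finset.mem_univ k) hkS)

end Generic

section Coins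

variable {X : Type*} [Fintype X] [DecidableEq X]

theorem avg_bool (G : Bool → ℝ) : avg G = (G true + G false) / 2 := by
  simp [avg, Fintype.sum_bool]

theorem avg_coin (F : Bool → ℝ) (u : X) :
    avg (fun c : X → Bool => F (c u)) = (F true + F false) / 2 := by
  have h := avg_update (fun (x : Bool) (_ : X → Bool) => F x) u (fun _ _ _ => rfl)
  refine h.trans ?_
  simp only [avg_const]
  exact avg_bool F

theorem avg_coin2 (F : Bool → Bool → ℝ) {u v : X} (huv : u ≠ v) :
    avg (fun c : X → Bool => F (c u) (c v)) =
      (F true true + F true false + F false true + F false false) / 4 := by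
  have h := avg_update (fun (x : Bool) (C : X → Bool) => F x (C v)) u (fun x C y => by
    simp [Function.update_of_ne huv.symm])
  refine h.trans ?_
  have h2 : ∀ x, avg (fun C : X → Bool => F x (C v)) = (F x true + F x false) / 2 :=
    fun x => avg_coin (F x) v
  simp only [h2]
  rw [avg_bool]
  ring

end Coins

end Crest.Agent.Thorp
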