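import Mathlib
import Crest.Agent.Lib.Thorp.Small

/-!
# Step D: the columns of the lists `[j]` and `[j, j']`.

For `x` supported on a column: the value of `Y_[j,j'][x]` is an explicit polynomial `colP`
(a finite computation with the eight relevant coins of the tables), and in general
`Y_[j,j'][x] ≤ ∏_{columns} colP` (`Yl_two_le_prod`). The same for `[j]` with `colP1`.
-/

set_option autoImplicit false
set_option linter.unusedSectionVars false
set_option linter.unusedVariables false

namespace Crest.Agent.Thorp

open Finset

section CountN

/-- Count of the values of a function of two coins. -/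
def cnt4 (F : Bool → Bool → ℕ) : ℕ := F true true + F true false + F false true + F false false

/-- Count of the values of a function of one coin. -/
def cnt2 (F : Bool → ℕ) : ℕ := F true + F false

variable {X : Type*} [Fintype X] [DecidableEq X]

theorem avg_coin2N (F : Bool → Bool → ℕ) {u v : X} (huv : u ≠ v) :
    avg (fun c : X → Bool => (F (c u) (c v) : ℝ)) = (cnt4 F : ℝ) / 4 := by
  rw [avg_coin2 (fun x y => (F x y : ℝ)) huv]
  simp [cnt4]

theorem avg_coinN (F : Bool → ℕ) (u : X) :
    avg (fun c : X → Bool => (F (c u) : ℝ)) = (cnt2 F : ℝ) / 2 := by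
  rw [avg_coin (fun x => (F x : ℝ)) u]
  simp [cnt2]

theorem avg_div_const (F : X → ℝ) (D : ℝ) : avg (fun c => F c / D) = avg F / D := by
  simp only [div_eq_inv_mul]
  rw [avg_const_mul]

end CountN

section Tc

/-- The action of `L_j(a) L_j'(a')` on the column indices, in terms of the relevant coins. -/
def Tc (a0 a1 a0' a1' s s' : Bool) : Bool × Bool :=
  (xor s (cond (xor s' (cond s a1' a0')) a1 a0), xor s' (cond s a1' a0'))

/-- The colouring of the column attached to four bits. -/
def pick (q : Bool × Bool × Bool × Bool) (s s' : Bool) : Bool :=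
  cond s (cond s' q.2.2.2 q.2.2.1) (cond s' q.2.1 q.1)

/-- One equation of the invariance. -/
def chkE (q : Bool × Bool × Bool × Bool) (a0 a1 b0 b1 a0' a1' b0' b1' s s' : Bool) : Bool :=
  pick q (Tc b0 b1 b0' b1' s s').1 (Tc b0 b1 b0' b1' s s').2 ==
    pick q (Tc a0 a1 a0' a1' s s').1 (Tc a0 a1 a0' a1' s s').2

/-- The invariance. -/
def chk (q : Bool × Bool × Bool × Bool) (a0 a1 b0 b1 a0' a1' b0' b1' : Bool) : Bool :=
  chkE q a0 a1 b0 b1 a0' a1' b0' b1' false false && chkE q a0 a1 b0 b1 a0' a1' b0' b1' false true &&
    chkE q a0 a1 b0 b1 a0' a1' b0' b1' true false && chkE q a0 a1 b0 b1 a0' a1' b0' b1' true true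

/-- The number of the values of the eight coins such that the colouring `q` is invariant. -/
def cntQ (q : Bool × Bool × Bool × Bool) : ℕ :=
  cnt4 fun a0 a1 => cnt4 fun b0 b1 => cnt4 fun a0' a1' => cnt4 fun b0' b1' =>
    if chk q a0 a1 b0 b1 a0' a1' b0' b1' = true then 1 else 0

/-- The table of `κ`, times `256`. -/
def tabQ (q : Bool × Bool × Bool × Bool) : ℕ :=
  match q with
  | (false, false, false, false) => 256
  | (false, false, false, true) => 64
  | (false, false, true, false) => 64
  | (false, false, true, true) => 48
  | (false, true, false, false) => 64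
  | (false, true, false, true) => 64
  | (false, true, true, false) => 48
  | (false, true, true, true) => 64
  | (true, false, false, false) => 64
  | (true, false, false, true) => 48
  | (true, false, true, false) => 64
  | (true, false, true, true) => 64
  | (true, true, false, false) => 48
  | (true, true, false, true) => 64
  | (true, true, true, false) => 64
  | (true, true, true, true) => 256

set_option maxRecDepth 100000 in
theorem cntQ_eq : ∀ q0 q1 q2 q3 : Bool, cntQ (q0, q1, q2, q3) = tabQ (q0, q1, q2, q3) := by
  decide

/-- The column polynomial. -/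
noncomputable def colP (p q r s : ℝ) : ℝ :=
  1 + (p + q + r + s) / 4 + (p * r + q * s) / 4 + 3 / 16 * (p * q + r * s + p * s + q * r) +
    (p * q * r + p * q * s + p * r * s + q * r * s) / 4 + p * q * r * s

theorem colP_nonneg {p q r s : ℝ} (hp : 0 ≤ p) (hq : 0 ≤ q) (hr : 0 ≤ r) (hs : 0 ≤ s) :
    0 ≤ colP p q r s := by
  unfold colP; positivity

theorem colP_zero : colP 0 0 0 0 = 1 := by norm_num [colP]

end Tc

section Two

variable {I : Type*} [Fintype I] [DecidableEq I]

/-- The point of the column of `c`. -/
def iota2 (j j' : I) (c : I → Bool) (s s' : Bool) : I → Bool :=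
  Function.update (Function.update c j s) j' s'

/-- The column of `c`. -/
def Col2 (j j' : I) (c w : I → Bool) : Prop := ∀ k, k ≠ j → k ≠ j' → w k = c k

instance (j j' : I) (c w : I → Bool) : Decidable (Col2 j j' c w) := by
  unfold Col2; infer_instance

variable {j j' : I} (hjj : j ≠ j') (c : I → Bool)

include hjj in
theorem iota2_fst (s s' : Bool) : iota2 j j' c s s' j = s := by
  simp [iota2, Function.update_of_ne hjj]

theorem iota2_snd (s s' : Bool) : iota2 j j' c s s' j' = s' := by simp [iota2]

theorem iota2_ne {k : I} (hk : k ≠ j) (hk' : k ≠ j') (s s' : Bool) : iota2 j j' c s s' k = c k := by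
  simp [iota2, Function.update_of_ne hk, Function.update_of_ne hk']

theorem iota2_col (s s' : Bool) : Col2 j j' c (iota2 j j' c s s') := fun k hk hk' =>
  iota2_ne c hk hk' s s'

include hjj in
theorem iota2_of_col {w : I → Bool} (hw : Col2 j j' c w) : iota2 j j' c (w j) (w j') = w := by
  funext k
  by_cases hk' : k = j'
  · subst hk'; exact iota2_snd c _ _
  · by_cases hk : k = j
    · subst hk; exact iota2_fst hjj c _ _
    · rw [iota2_ne c hk hk']; exact (hw k hk hk').symm

include hjj in
theorem iota2_inj {s s' t t' : Bool} (h : iota2 j j' c s s' = iota2 j j' c t t') : s = t ∧ s' = t' := by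
  constructor
  · have := congrFun h j
    rwa [iota2_fst hjj, iota2_fst hjj] at this
  · have := congrFun h j'
    rwa [iota2_snd, iota2_snd] at this

theorem layerFun_snd (a : (I → Bool) → Bool) (s s' : Bool) :
    layerFun j' a (iota2 j j' c s s') = iota2 j j' c s (xor s' (a (iota2 j j' c s false))) := by
  simp [layerFun, iota2, Function.update_idem]

include hjj in
theorem layerFun_fst (a : (I → Bool) → Bool) (s s' : Bool) :
    layerFun j a (iota2 j j' c s s') = iota2 j j' c (xor s (a (iota2 j j' c false s'))) s' := by
  have hu : Function.update (iota2 j j' c s s') j false = iota2 j j' c false s' := by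
    funext k
    by_cases hk' : k = j'
    · subst hk'
      rw [Function.update_of_ne hjj.symm, iota2_snd, iota2_snd]
    · by_cases hk : k = j
      · subst hk
        rw [Function.update_self, iota2_fst hjj]
      · rw [Function.update_of_ne hk, iota2_ne c hk hk', iota2_ne c hk hk']
  funext k
  by_cases hk' : k = j'
  · subst hk'
    rw [layerFun_ne hjj.symm, iota2_snd, iota2_snd]
  · by_cases hk : k = j
    · subst hk
      rw [layerFun_same, hu, iota2_fst hjj, iota2_fst hjj]
    · rw [layerFun_ne hk, iota2_ne c hk hk', iota2_ne c hk hk']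

theorem col2_layerFun_snd {w : I → Bool} (a : (I → Bool) → Bool) :
    Col2 j j' c (layerFun j' a w) ↔ Col2 j j' c w := by
  constructor
  · intro h k hk hk'
    rw [← h k hk hk', layerFun_ne hk']
  · intro h k hk hk'
    rw [layerFun_ne hk', h k hk hk']

theorem col2_layerFun_fst {w : I → Bool} (a : (I → Bool) → Bool) :
    Col2 j j' c (layerFun j a w) ↔ Col2 j j' c w := by
  constructor
  · intro h k hk hk'
    rw [← h k hk hk', layerFun_ne hk]
  · intro h k hk hk'
    rw [layerFun_ne hk, h k hk hk']

/-- The colouring of the column attached to four bits, as a colouring of the words. -/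
def dUp2 (j j' : I) (c : I → Bool) (q : Bool × Bool × Bool × Bool) (w : I → Bool) : Bool :=
  if Col2 j j' c w then pick q (w j) (w j') else false

include hjj in
theorem dUp2_iota (q : Bool × Bool × Bool × Bool) (s s' : Bool) :
    dUp2 j j' c q (iota2 j j' c s s') = pick q s s' := by
  unfold dUp2
  rw [if_pos (iota2_col c s s'), iota2_fst hjj, iota2_snd]

theorem dUp2_off (q : Bool × Bool × Bool × Bool) {w : I → Bool} (hw : ¬ Col2 j j' c w) :
    dUp2 j j' c q w = false := by
  unfold dUp2
  rw [if_neg hw]

theorem cond_iota1 (a : (I → Bool) → Bool) (t : Bool) :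
    a (iota2 j j' c false t) = cond t (a (iota2 j j' c false true)) (a (iota2 j j' c false false)) := by
  cases t <;> rfl

theorem cond_iota2 (a : (I → Bool) → Bool) (t : Bool) :
    a (iota2 j j' c t false) = cond t (a (iota2 j j' c true false)) (a (iota2 j j' c false false)) := by
  cases t <;> rfl

include hjj in
theorem dUp2_layers (q : Bool × Bool × Bool × Bool) (a a' : (I → Bool) → Bool) (s s' : Bool) :
    dUp2 j j' c q (layerFun j a (layerFun j' a' (iota2 j j' c s s'))) =
      pick q
        (Tc (a (iota2 j j' c false false)) (a (iota2 j j' c false true))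
          (a' (iota2 j j' c false false)) (a' (iota2 j j' c true false)) s s').1
        (Tc (a (iota2 j j' c false false)) (a (iota2 j j' c false true))
          (a' (iota2 j j' c false false)) (a' (iota2 j j' c true false)) s s').2 := by
  rw [layerFun_snd, layerFun_fst hjj, dUp2_iota hjj, cond_iota2 c a', cond_iota1 c a]
  rfl

include hjj in
theorem chk_iff (q : Bool × Bool × Bool × Bool) (a b a' b' : (I → Bool) → Bool) :
    (∀ w, dUp2 j j' c q (layer j b (layer j' b' w)) = dUp2 j j' c q (layer j a (layer j' a' w))) ↔
      chk q (a (iota2 j j' c false false)) (a (iota2 j j' c false true))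
        (b (iota2 j j' c false false)) (b (iota2 j j' c false true))
        (a' (iota2 j j' c false false)) (a' (iota2 j j' c true false))
        (b' (iota2 j j' c false false)) (b' (iota2 j j' c true false)) = true := by
  have key : ∀ s s', dUp2 j j' c q (layer j b (layer j' b' (iota2 j j' c s s'))) =
      dUp2 j j' c q (layer j a (layer j' a' (iota2 j j' c s s'))) ↔
      chkE q (a (iota2 j j' c false false)) (a (iota2 j j' c false true))
        (b (iota2 j j' c false false)) (b (iota2 j j' c false true))
        (a' (iota2 j j' c false false)) (a' (iota2 j j' c true false))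
        (b' (iota2 j j' c false false)) (b' (iota2 j j' c true false)) s s' = true := by
    intro s s'
    simp only [layer_apply]
    rw [dUp2_layers hjj, dUp2_layers hjj]
    simp only [chkE, beq_iff_eq]
  constructor
  · intro h
    simp only [chk, Bool.and_eq_true]
    exact ⟨⟨⟨(key _ _).1 (h _), (key _ _).1 (h _)⟩, (key _ _).1 (h _)⟩, (key _ _).1 (h _)⟩
  · intro h w
    simp only [chk, Bool.and_eq_true] at h
    obtain ⟨⟨⟨h1, h2⟩, h3⟩, h4⟩ := h
    by_cases hw : Col2 j j' c w
    · rw [← iota2_of_col hjj c hw]
      cases w j <;> cases w j'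
      · exact (key _ _).2 h1
      · exact (key _ _).2 h2
      · exact (key _ _).2 h3
      · exact (key _ _).2 h4
    · have e : ∀ a a' : (I → Bool) → Bool, dUp2 j j' c q (layer j a (layer j' a' w)) = false := by
        intro a a'
        apply dUp2_off
        simp only [layer_apply]
        rw [col2_layerFun_fst, col2_layerFun_snd]
        exact hw
      rw [e, e]

include hjj in
/-- The kernel on a column. -/
theorem Gl_two (q : Bool × Bool × Bool × Bool) :
    Gl [j, j'] (dUp2 j j' c q) (dUp2 j j' c q) = (cntQ q : ℝ) / 256 := by
  have hu : iota2 j j' c false false ≠ iota2 j j' c false true := fun h => by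
    have := (iota2_inj hjj c h).2
    simp at this
  have hv : iota2 j j' c false false ≠ iota2 j j' c true false := fun h => by
    have := (iota2_inj hjj c h).1
    simp at this
  rw [Gl_cons j [j'] (by simp [hjj])]
  have inner : ∀ a b : (I → Bool) → Bool,
      Gl [j'] (fun w => dUp2 j j' c q (layer j b w)) (fun w => dUp2 j j' c q (layer j a w)) =
      avg (fun a' : (I → Bool) → Bool => avg (fun b' : (I → Bool) → Bool =>
        (((if chk q (a (iota2 j j' c false false)) (a (iota2 j j' c false true))
            (b (iota2 j j' c false false)) (b (iota2 j j' c false true))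
            (a' (iota2 j j' c false false)) (a' (iota2 j j' c true false))
            (b' (iota2 j j' c false false)) (b' (iota2 j j' c true false)) = true
            then 1 else 0 : ℕ)) : ℝ))) := by
    intro a b
    rw [Gl_cons j' [] (by simp)]
    refine avg_congr fun a' => avg_congr fun b' => ?_
    rw [Gl_nil]
    by_cases h : ∀ w, dUp2 j j' c q (layer j b (layer j' b' w)) =
        dUp2 j j' c q (layer j a (layer j' a' w))
    · rw [if_pos h, if_pos ((chk_iff hjj c q a b a' b').1 h)]
      simp
    · rw [if_neg h, if_neg (fun e => h ((chk_iff hjj c q a b a' b').2 e))]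
      simp
  simp only [inner]
  -- the four averages
  have s1 : ∀ a b a' : (I → Bool) → Bool, avg (fun b' : (I → Bool) → Bool =>
        (((if chk q (a (iota2 j j' c false false)) (a (iota2 j j' c false true))
            (b (iota2 j j' c false false)) (b (iota2 j j' c false true))
            (a' (iota2 j j' c false false)) (a' (iota2 j j' c true false))
            (b' (iota2 j j' c false false)) (b' (iota2 j j' c true false)) = true
            then 1 else 0 : ℕ)) : ℝ)) =
        ((cnt4 fun x y => if chk q (a (iota2 j j' c false false)) (a (iota2 j j' c false true))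
            (b (iota2 j j' c false false)) (b (iota2 j j' c false true))
            (a' (iota2 j j' c false false)) (a' (iota2 j j' c true false)) x y = true
            then 1 else 0 : ℕ) : ℝ) / 4 := fun a b a' =>
    avg_coin2N (fun x y => if chk q (a (iota2 j j' c false false)) (a (iota2 j j' c false true))
            (b (iota2 j j' c false false)) (b (iota2 j j' c false true))
            (a' (iota2 j j' c false false)) (a' (iota2 j j' c true false)) x y = true
            then 1 else 0) hv
  simp only [s1]
  have s2 : ∀ a b : (I → Bool) → Bool, avg (fun a' : (I → Bool) → Bool =>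
        ((cnt4 fun x y => if chk q (a (iota2 j j' c false false)) (a (iota2 j j' c false true))
            (b (iota2 j j' c false false)) (b (iota2 j j' c false true))
            (a' (iota2 j j' c false false)) (a' (iota2 j j' c true false)) x y = true
            then 1 else 0 : ℕ) : ℝ) / 4) =
        ((cnt4 fun x' y' => cnt4 fun x y => if chk q (a (iota2 j j' c false false))
            (a (iota2 j j' c false true))
            (b (iota2 j j' c false false)) (b (iota2 j j' c false true)) x' y' x y = true
            then 1 else 0 : ℕ) : ℝ) / 4 / 4 := fun a b => by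
    rw [avg_div_const]
    rw [avg_coin2N (fun x' y' => cnt4 fun x y => if chk q (a (iota2 j j' c false false))
            (a (iota2 j j' c false true))
            (b (iota2 j j' c false false)) (b (iota2 j j' c false true)) x' y' x y = true
            then 1 else 0) hv]
  simp only [s2]
  have s3 : ∀ a : (I → Bool) → Bool, avg (fun b : (I → Bool) → Bool =>
        ((cnt4 fun x' y' => cnt4 fun x y => if chk q (a (iota2 j j' c false false))
            (a (iota2 j j' c false true))
            (b (iota2 j j' c false false)) (b (iota2 j j' c false true)) x' y' x y = true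
            then 1 else 0 : ℕ) : ℝ) / 4 / 4) =
        ((cnt4 fun b0 b1 => cnt4 fun x' y' => cnt4 fun x y => if chk q (a (iota2 j j' c false false))
            (a (iota2 j j' c false true)) b0 b1 x' y' x y = true
            then 1 else 0 : ℕ) : ℝ) / 4 / 4 / 4 := fun a => by
    rw [avg_div_const, avg_div_const]
    rw [avg_coin2N (fun b0 b1 => cnt4 fun x' y' => cnt4 fun x y =>
            if chk q (a (iota2 j j' c false false))
            (a (iota2 j j' c false true)) b0 b1 x' y' x y = true
            then 1 else 0) hu]
  simp only [s3]
  rw [avg_div_const, avg_div_const, avg_div_const]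
  rw [avg_coin2N (fun a0 a1 => cnt4 fun b0 b1 => cnt4 fun x' y' => cnt4 fun x y =>
            if chk q a0 a1 b0 b1 x' y' x y = true then 1 else 0) hu]
  unfold cntQ
  ring

include hjj in
theorem dUp2_inj : Function.Injective (dUp2 j j' c) := by
  intro q q' h
  have h0 := congrFun h (iota2 j j' c false false)
  have h1 := congrFun h (iota2 j j' c false true)
  have h2 := congrFun h (iota2 j j' c true false)
  have h3 := congrFun h (iota2 j j' c true true)
  rw [dUp2_iota hjj, dUp2_iota hjj] at h0 h1 h2 h3
  obtain ⟨q0, q1, q2, q3⟩ := q
  obtain ⟨q0', q1', q2', q3'⟩ := q'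
  simp only [pick, cond] at h0 h1 h2 h3
  subst h0 h1 h2 h3
  rfl

include hjj in
theorem wt_dUp2 (x : (I → Bool) → ℝ) (q : Bool × Bool × Bool × Bool) :
    wt false x (dUp2 j j' c q) =
      (if q.1 = false then 1 else x (iota2 j j' c false false)) *
      (if q.2.1 = false then 1 else x (iota2 j j' c false true)) *
      ((if q.2.2.1 = false then 1 else x (iota2 j j' c true false)) *
      (if q.2.2.2 = false then 1 else x (iota2 j j' c true true))) := by
  unfold wt
  have hinj : Function.Injective (fun p : Bool × Bool => iota2 j j' c p.1 p.2) := by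
    rintro ⟨s, s'⟩ ⟨t, t'⟩ h
    obtain ⟨h1, h2⟩ := iota2_inj hjj c h
    simp only at h1 h2
    rw [h1, h2]
  have := Fintype.prod_of_injective (fun p : Bool × Bool => iota2 j j' c p.1 p.2) hinj
    (fun p => if pick q p.1 p.2 = false then 1 else x (iota2 j j' c p.1 p.2))
    (fun w => if dUp2 j j' c q w = false then 1 else x w)
    (by
      intro w hw
      have hw' : ¬ Col2 j j' c w := fun h => hw ⟨(w j, w j'), iota2_of_col hjj c h⟩
      rw [if_pos (dUp2_off c q hw')])
    (by
      intro p
      rw [dUp2_iota hjj])
  rw [← this, Fintype.prod_prod_type]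
  simp only [Fintype.prod_bool]
  simp only [pick, cond]
  ac_rfl

include hjj in
/-- The value of `Y_[j,j']` on a column. -/
theorem Yl_two_col (x : (I → Bool) → ℝ) (hx : ∀ w, x w ≠ 0 → Col2 j j' c w) :
    Yl false [j, j'] x = colP (x (iota2 j j' c false false)) (x (iota2 j j' c false true))
      (x (iota2 j j' c true false)) (x (iota2 j j' c true true)) := by
  rw [Yl_eq]
  have := Fintype.sum_of_injective (dUp2 j j' c) (dUp2_inj hjj c)
    (fun q => wt false x (dUp2 j j' c q) * Gl [j, j'] (dUp2 j j' c q) (dUp2 j j' c q))
    (fun d => wt false x d * Gl [j, j'] d d)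
    (by
      intro d hd
      by_cases hz : wt false x d = 0
      · simp only [hz, zero_mul]
      · exfalso
        apply hd
        have hoff : ∀ w, ¬ Col2 j j' c w → d w = false := by
          intro w hw
          by_contra hdw
          apply hz
          unfold wt
          refine Finset.prod_eq_zero (Finset.mem_univ w) ?_
          rw [if_neg hdw]
          by_contra hxw
          exact hw (hx w hxw)
        refine ⟨(d (iota2 j j' c false false), d (iota2 j j' c false true),
          d (iota2 j j' c true false), d (iota2 j j' c true true)), ?_⟩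
        funext w
        by_cases hw : Col2 j j' c w
        · rw [← iota2_of_col hjj c hw, dUp2_iota hjj]
          cases w j <;> cases w j' <;> rfl
        · rw [dUp2_off c _ hw, hoff w hw])
    (fun _ => rfl)
  rw [← this]
  simp only [Gl_two hjj c, wt_dUp2 hjj c, cntQ_eq]
  simp only [Fintype.sum_prod_type, Fintype.sum_bool, cntQ_eq]
  simp only [tabQ, colP]
  norm_num
  ring

end Two

section Product

variable {I : Type*} [Fintype I] [DecidableEq I] {j j' : I} (hjj : j ≠ j')

/-- The representatives of the columns. -/
def repsT (j j' : I) : Finset (I → Bool) := univ.filter fun w => w j = false ∧ w j' = false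

/-- The column polynomial at the column of `w`. -/
noncomputable def colAt (j j' : I) (x : (I → Bool) → ℝ) (w : I → Bool) : ℝ :=
  colP (x w) (x (phi j' w)) (x (phi j w)) (x (phi j (phi j' w)))

theorem onSide_phi {k j : I} (hk : j ≠ k) (x : (I → Bool) → ℝ) (w : I → Bool) :
    onSide k x (phi j w) = if w k = false then x (phi j w) else 0 := by
  simp only [onSide, phi_ne j hk.symm]

theorem offSide_phi {k j : I} (hk : j ≠ k) (x : (I → Bool) → ℝ) (w : I → Bool) :
    offSide k x (phi j w) = if w k = false then 0 else x (phi j w) := by
  simp only [offSide, phi_ne j hk.symm]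

theorem colAt_on_mul_off {k : I} (hkj : j ≠ k) (hkj' : j' ≠ k) (x : (I → Bool) → ℝ) (w : I → Bool) :
    colAt j j' (onSide k x) w * colAt j j' (offSide k x) w = colAt j j' x w := by
  unfold colAt
  rw [onSide_phi hkj', onSide_phi hkj, onSide_phi hkj, offSide_phi hkj', offSide_phi hkj,
    offSide_phi hkj, phi_ne j' hkj'.symm]
  simp only [onSide, offSide, phi_ne j' hkj'.symm]
  by_cases hw : w k = false
  · simp [hw, colP_zero]
  · simp [hw, colP_zero]

theorem colAt_nonneg {x : (I → Bool) → ℝ} (h0 : ∀ w, 0 ≤ x w) (w : I → Bool) :
    0 ≤ colAt j j' x w := colP_nonneg (h0 _) (h0 _) (h0 _) (h0 _)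

include hjj in
theorem phi_mem_col (c : I → Bool) {w : I → Bool} (i : I) (hi : i = j ∨ i = j') :
    Col2 j j' c (phi i w) ↔ Col2 j j' c w := by
  constructor
  · intro h k hk hk'
    rw [← h k hk hk', phi_ne i]
    rcases hi with rfl | rfl <;> assumption
  · intro h k hk hk'
    rw [phi_ne i, h k hk hk']
    rcases hi with rfl | rfl <;> assumption

include hjj in
/-- `Y_[j,j']` is at most the product over the columns. -/
theorem Yl_two_le_prod {x : (I → Bool) → ℝ} (h0 : ∀ w, 0 ≤ x w) :
    Yl false [j, j'] x ≤ ∏ w ∈ repsT j j', colAt j j' x w := by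
  refine Yl_le_of_col false [j, j'] (fun x => ∏ w ∈ repsT j j', colAt j j' x w)
    (fun x => ∀ w, 0 ≤ x w) ?_ ?_ ?_ ?_ ?_ ?_ x h0
  · intro x k hx w
    simp only [onSide]
    split_ifs
    · exact hx w
    · exact le_rfl
  · intro x k hx w
    simp only [offSide]
    split_ifs
    · exact le_rfl
    · exact hx w
  · intro x hx
    exact Finset.prod_nonneg fun w _ => colAt_nonneg hx w
  · intro x k hx hk
    rw [← Finset.prod_mul_distrib]
    refine le_of_eq (Finset.prod_congr rfl fun w _ => ?_)
    simp only [List.mem_cons, List.not_mem_nil, or_false, not_or] at hk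
    exact colAt_on_mul_off (fun e => hk.1 e.symm) (fun e => hk.2 e.symm) x w
  · intro x hx
    exact Yl_nonneg false _ hx
  · intro x hx c hcol
    have hc : ∀ w, x w ≠ 0 → Col2 j j' c w := by
      intro w hw k hk hk'
      exact hcol w hw k (by simp [hk, hk'])
    rw [Yl_two_col hjj c x hc]
    have hrep : iota2 j j' c false false ∈ repsT j j' := by
      simp [repsT, iota2_fst hjj, iota2_snd]
    have hphi1 : phi j' (iota2 j j' c false false) = iota2 j j' c false true := by
      funext k
      by_cases hk' : k = j'
      · subst hk'; rw [phi_same, iota2_snd, iota2_snd]; rfl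
      · rw [phi_ne j' hk']
        by_cases hk : k = j
        · subst hk; rw [iota2_fst hjj, iota2_fst hjj]
        · rw [iota2_ne c hk hk', iota2_ne c hk hk']
    have hphi2 : phi j (iota2 j j' c false false) = iota2 j j' c true false := by
      funext k
      by_cases hk : k = j
      · subst hk; rw [phi_same, iota2_fst hjj, iota2_fst hjj]; rfl
      · rw [phi_ne j hk]
        by_cases hk' : k = j'
        · subst hk'; rw [iota2_snd, iota2_snd]
        · rw [iota2_ne c hk hk', iota2_ne c hk hk']
    have hphi3 : phi j (iota2 j j' c false true) = iota2 j j' c true true := by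
      funext k
      by_cases hk : k = j
      · subst hk; rw [phi_same, iota2_fst hjj, iota2_fst hjj]; rfl
      · rw [phi_ne j hk]
        by_cases hk' : k = j'
        · subst hk'; rw [iota2_snd, iota2_snd]
        · rw [iota2_ne c hk hk', iota2_ne c hk hk']
    rw [Finset.prod_eq_single (iota2 j j' c false false)]
    · simp only [colAt, hphi1, hphi2, hphi3]
      exact le_rfl
    · intro w hw hne
      have hw' : ¬ Col2 j j' c w := by
        intro hcolw
        apply hne
        have h3 := iota2_of_col hjj c hcolw
        simp only [repsT, mem_filter, mem_univ, true_and] at hw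
        rw [hw.1, hw.2] at h3
        exact h3.symm
      have hoff : ∀ u, ¬ Col2 j j' c u → x u = 0 := fun u hu => by
        by_contra h
        exact hu (hc u h)
      have h1 : ¬ Col2 j j' c (phi j' w) := fun h =>
        hw' ((phi_mem_col hjj c j' (Or.inr rfl)).1 h)
      have h2 : ¬ Col2 j j' c (phi j w) := fun h =>
        hw' ((phi_mem_col hjj c j (Or.inl rfl)).1 h)
      have h3 : ¬ Col2 j j' c (phi j (phi j' w)) := fun h =>
        h1 ((phi_mem_col hjj c j (Or.inl rfl)).1 h)
      simp only [colAt]
      rw [hoff _ hw', hoff _ h1, hoff _ h2, hoff _ h3, colP_zero]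
    · intro h
      exact absurd hrep h

end Product

section One

variable {I : Type*} [Fintype I] [DecidableEq I]

/-- The point of the pair of `c`. -/
def iota1 (j : I) (c : I → Bool) (s : Bool) : I → Bool := Function.update c j s

/-- The pair of `c`. -/
def Col1 (j : I) (c w : I → Bool) : Prop := ∀ k, k ≠ j → w k = c k

instance (j : I) (c w : I → Bool) : Decidable (Col1 j c w) := by
  unfold Col1; infer_instance

variable {j : I} (c : I → Bool)

theorem iota1_same (s : Bool) : iota1 j c s j = s := by simp [iota1]

theorem iota1_ne {k : I} (hk : k ≠ j) (s : Bool) : iota1 j c s k = c k := by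
  simp [iota1, Function.update_of_ne hk]

theorem iota1_col (s : Bool) : Col1 j c (iota1 j c s) := fun k hk => iota1_ne c hk s

theorem iota1_of_col {w : I → Bool} (hw : Col1 j c w) : iota1 j c (w j) = w := by
  funext k
  by_cases hk : k = j
  · subst hk; exact iota1_same c _
  · rw [iota1_ne c hk]; exact (hw k hk).symm

theorem iota1_inj {s t : Bool} (h : iota1 j c s = iota1 j c t) : s = t := by
  have := congrFun h j
  rwa [iota1_same, iota1_same] at this

theorem layerFun_one (a : (I → Bool) → Bool) (s : Bool) :
    layerFun j a (iota1 j c s) = iota1 j c (xor s (a (iota1 j c false))) := by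
  simp [layerFun, iota1, Function.update_idem]

theorem col1_layerFun {w : I → Bool} (a : (I → Bool) → Bool) :
    Col1 j c (layerFun j a w) ↔ Col1 j c w := by
  constructor
  · intro h k hk
    rw [← h k hk, layerFun_ne hk]
  · intro h k hk
    rw [layerFun_ne hk, h k hk]

/-- The colouring of the pair attached to two bits. -/
def pick1 (q : Bool × Bool) (s : Bool) : Bool := cond s q.2 q.1

/-- The colouring of the pair attached to two bits, as a colouring of the words. -/
def dUp1 (j : I) (c : I → Bool) (q : Bool × Bool) (w : I → Bool) : Bool :=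
  if Col1 j c w then pick1 q (w j) else false

theorem dUp1_iota (q : Bool × Bool) (s : Bool) : dUp1 j c q (iota1 j c s) = pick1 q s := by
  unfold dUp1
  rw [if_pos (iota1_col c s), iota1_same]

theorem dUp1_off (q : Bool × Bool) {w : I → Bool} (hw : ¬ Col1 j c w) : dUp1 j c q w = false := by
  unfold dUp1
  rw [if_neg hw]

/-- The invariance. -/
def chk1 (q : Bool × Bool) (a0 b0 : Bool) : Bool :=
  (pick1 q (xor false b0) == pick1 q (xor false a0)) &&
    (pick1 q (xor true b0) == pick1 q (xor true a0))

/-- The count. -/
def cntQ1 (q : Bool × Bool) : ℕ :=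
  cnt2 fun a0 => cnt2 fun b0 => if chk1 q a0 b0 = true then 1 else 0

/-- The table of the pair, times four. -/
def tabQ1 (q : Bool × Bool) : ℕ :=
  match q with
  | (false, false) => 4
  | (false, true) => 2
  | (true, false) => 2
  | (true, true) => 4

theorem cntQ1_eq : ∀ q0 q1 : Bool, cntQ1 (q0, q1) = tabQ1 (q0, q1) := by decide

theorem chk1_iff (q : Bool × Bool) (a b : (I → Bool) → Bool) :
    (∀ w, dUp1 j c q (layer j b w) = dUp1 j c q (layer j a w)) ↔
      chk1 q (a (iota1 j c false)) (b (iota1 j c false)) = true := by
  have key : ∀ s, dUp1 j c q (layer j b (iota1 j c s)) = dUp1 j c q (layer j a (iota1 j c s)) ↔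
      (pick1 q (xor s (b (iota1 j c false))) == pick1 q (xor s (a (iota1 j c false)))) = true := by
    intro s
    simp only [layer_apply]
    rw [layerFun_one, layerFun_one, dUp1_iota, dUp1_iota]
    simp only [beq_iff_eq]
  constructor
  · intro h
    simp only [chk1, Bool.and_eq_true]
    exact ⟨(key _).1 (h _), (key _).1 (h _)⟩
  · intro h w
    simp only [chk1, Bool.and_eq_true] at h
    obtain ⟨h1, h2⟩ := h
    by_cases hw : Col1 j c w
    · rw [← iota1_of_col c hw]
      cases w j
      · exact (key _).2 h1
      · exact (key _).2 h2
    · have e : ∀ a : (I → Bool) → Bool, dUp1 j c q (layer j a w) = false := by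
        intro a
        apply dUp1_off
        simp only [layer_apply]
        rw [col1_layerFun]
        exact hw
      rw [e, e]

/-- The kernel on a pair. -/
theorem Gl_one (q : Bool × Bool) :
    Gl [j] (dUp1 j c q) (dUp1 j c q) = (cntQ1 q : ℝ) / 4 := by
  rw [Gl_cons j [] (by simp)]
  have inner : ∀ a b : (I → Bool) → Bool,
      Gl [] (fun w => dUp1 j c q (layer j b w)) (fun w => dUp1 j c q (layer j a w)) =
      (((if chk1 q (a (iota1 j c false)) (b (iota1 j c false)) = true then 1 else 0 : ℕ)) : ℝ) := by
    intro a b
    rw [Gl_nil]
    by_cases h : ∀ w, dUp1 j c q (layer j b w) = dUp1 j c q (layer j a w)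
    · rw [if_pos h, if_pos ((chk1_iff c q a b).1 h)]
      simp
    · rw [if_neg h, if_neg (fun e => h ((chk1_iff c q a b).2 e))]
      simp
  simp only [inner]
  have s1 : ∀ a : (I → Bool) → Bool, avg (fun b : (I → Bool) → Bool =>
      (((if chk1 q (a (iota1 j c false)) (b (iota1 j c false)) = true then 1 else 0 : ℕ)) : ℝ)) =
      ((cnt2 fun b0 => if chk1 q (a (iota1 j c false)) b0 = true then 1 else 0 : ℕ) : ℝ) / 2 :=
    fun a => avg_coinN (fun b0 => if chk1 q (a (iota1 j c false)) b0 = true then 1 else 0) _
  simp only [s1]
  rw [avg_div_const]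
  rw [avg_coinN (fun a0 => cnt2 fun b0 => if chk1 q a0 b0 = true then 1 else 0) (iota1 j c false)]
  unfold cntQ1
  ring

theorem dUp1_inj : Function.Injective (dUp1 j c) := by
  intro q q' h
  have h0 := congrFun h (iota1 j c false)
  have h1 := congrFun h (iota1 j c true)
  rw [dUp1_iota, dUp1_iota] at h0 h1
  obtain ⟨q0, q1⟩ := q
  obtain ⟨q0', q1'⟩ := q'
  simp only [pick1, cond] at h0 h1
  subst h0 h1
  rfl

theorem wt_dUp1 (x : (I → Bool) → ℝ) (q : Bool × Bool) :
    wt false x (dUp1 j c q) =
      (if q.1 = false then 1 else x (iota1 j c false)) *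
      (if q.2 = false then 1 else x (iota1 j c true)) := by
  unfold wt
  have hinj : Function.Injective (fun s : Bool => iota1 j c s) := fun s t h => iota1_inj c h
  have := Fintype.prod_of_injective (fun s : Bool => iota1 j c s) hinj
    (fun s => if pick1 q s = false then 1 else x (iota1 j c s))
    (fun w => if dUp1 j c q w = false then 1 else x w)
    (by
      intro w hw
      have hw' : ¬ Col1 j c w := fun h => hw ⟨w j, iota1_of_col c h⟩
      rw [if_pos (dUp1_off c q hw')])
    (by
      intro p
      rw [dUp1_iota])
  rw [← this]
  simp only [Fintype.prod_bool]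
  simp only [pick1, cond]
  ac_rfl

/-- The polynomial of a pair. -/
noncomputable def colP1 (p r : ℝ) : ℝ := 1 + (p + r) / 2 + p * r

theorem colP1_zero : colP1 0 0 = 1 := by norm_num [colP1]

theorem colP1_nonneg {p r : ℝ} (hp : 0 ≤ p) (hr : 0 ≤ r) : 0 ≤ colP1 p r := by
  unfold colP1; positivity

/-- The value of `Y_[j]` on a pair. -/
theorem Yl_one_col (x : (I → Bool) → ℝ) (hx : ∀ w, x w ≠ 0 → Col1 j c w) :
    Yl false [j] x = colP1 (x (iota1 j c false)) (x (iota1 j c true)) := by
  rw [Yl_eq]
  have := Fintype.sum_of_injective (dUp1 j c) (dUp1_inj c)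
    (fun q => wt false x (dUp1 j c q) * Gl [j] (dUp1 j c q) (dUp1 j c q))
    (fun d => wt false x d * Gl [j] d d)
    (by
      intro d hd
      by_cases hz : wt false x d = 0
      · simp only [hz, zero_mul]
      · exfalso
        apply hd
        have hoff : ∀ w, ¬ Col1 j c w → d w = false := by
          intro w hw
          by_contra hdw
          apply hz
          unfold wt
          refine Finset.prod_eq_zero (Finset.mem_univ w) ?_
          rw [if_neg hdw]
          by_contra hxw
          exact hw (hx w hxw)
        refine ⟨(d (iota1 j c false), d (iota1 j c true)), ?_⟩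
        funext w
        by_cases hw : Col1 j c w
        · rw [← iota1_of_col c hw, dUp1_iota]
          cases w j <;> rfl
        · rw [dUp1_off c _ hw, hoff w hw])
    (fun _ => rfl)
  rw [← this]
  simp only [Gl_one c, wt_dUp1 c]
  simp only [Fintype.sum_prod_type, Fintype.sum_bool, cntQ1_eq]
  simp only [tabQ1, colP1]
  norm_num
  ring

/-- The pair polynomial at the pair of `w`. -/
noncomputable def colAt1 (j : I) (x : (I → Bool) → ℝ) (w : I → Bool) : ℝ := colP1 (x w) (x (phi j w))

/-- `Y_[j]` is at most the product over the pairs. -/
theorem Yl_one_le_prod {x : (I → Bool) → ℝ} (h0 : ∀ w, 0 ≤ x w) :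
    Yl false [j] x ≤ ∏ w ∈ univ.filter (fun w : I → Bool => w j = false), colAt1 j x w := by
  refine Yl_le_of_col false [j] (fun x => ∏ w ∈ univ.filter (fun w : I → Bool => w j = false), colAt1 j x w)
    (fun x => ∀ w, 0 ≤ x w) ?_ ?_ ?_ ?_ ?_ ?_ x h0
  · intro x k hx w
    simp only [onSide]
    split_ifs
    · exact hx w
    · exact le_rfl
  · intro x k hx w
    simp only [offSide]
    split_ifs
    · exact le_rfl
    · exact hx w
  · intro x hx
    exact Finset.prod_nonneg fun w _ => colP1_nonneg (hx _) (hx _)
  · intro x k hx hk
    rw [← Finset.prod_mul_distrib]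
    refine le_of_eq (Finset.prod_congr rfl fun w _ => ?_)
    simp only [List.mem_cons, List.not_mem_nil, or_false] at hk
    have hkj : j ≠ k := fun e => hk e.symm
    unfold colAt1
    rw [onSide_phi hkj, offSide_phi hkj]
    simp only [onSide, offSide]
    by_cases hw : w k = false
    · simp [hw, colP1_zero]
    · simp [hw, colP1_zero]
  · intro x hx
    exact Yl_nonneg false _ hx
  · intro x hx c hcol
    have hc : ∀ w, x w ≠ 0 → Col1 j c w := by
      intro w hw k hk
      exact hcol w hw k (by simp [hk])
    rw [Yl_one_col c x hc]
    have hrep : iota1 j c false ∈ univ.filter (fun w : I → Bool => w j = false) := by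
      simp [iota1_same]
    have hphi1 : phi j (iota1 j c false) = iota1 j c true := by
      funext k
      by_cases hk : k = j
      · subst hk; rw [phi_same, iota1_same, iota1_same]; rfl
      · rw [phi_ne j hk, iota1_ne c hk, iota1_ne c hk]
    rw [Finset.prod_eq_single (iota1 j c false)]
    · simp only [colAt1, hphi1]
      exact le_rfl
    · intro w hw hne
      have hw' : ¬ Col1 j c w := by
        intro hcolw
        apply hne
        have h3 := iota1_of_col c hcolw
        simp only [mem_filter, mem_univ, true_and] at hw
        rw [hw] at h3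
        exact h3.symm
      have hoff : ∀ u, ¬ Col1 j c u → x u = 0 := fun u hu => by
        by_contra h
        exact hu (hc u h)
      have h1 : ¬ Col1 j c (phi j w) := fun h => hw' (by
        intro k hk
        rw [← h k hk, phi_ne j hk])
      simp only [colAt1]
      rw [hoff _ hw', hoff _ h1, colP1_zero]
    · intro h
      exact absurd hrep h

end One

end Crest.Agent.Thorp
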