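import Crest.Agent.Lib.Thorp.Color3
import Crest.Agent.Lib.Thorp.PowerMean

/-!
# Thorp (S0222): the cost of a level.  SHARED DEFINITIONS for steps E, F and the numerics.

The element `i` at level `s = |l'| + 1` of a list `… i :: l'`, doubled set `G ⊂ {w i = false}`:
`s = 1`: `log 2 * |G|`;  `s = 2`, `l' = [j]`: `∑_{pairs} log ŷ₁(|G ∩ pair|)`;  `s = 3`, `l' = [j,j']`: `∑_{columns} log ŷ₂(|G ∩ column|)`;
`s ≥ 4`: `wlev s * |G|` with `wlev s = ψ_{s-1}(1)` (`s ≤ 32`), `ψ_31(1)` (`32 < s ≤ 256`), and for `s > 256`, with `m = bigM s = 2^(clog₂ s - 2)`, `θ = m/4`: `(2^θ - 1)(3/4)^(m-1) (4/m)`.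

`Wsum l a x` is the sum of these costs along the list for the in-table `a` and the tuple `x` (same recursion as `WW`).
-/

set_option autoImplicit false
set_option linter.unusedSectionVars false

namespace Crest.Agent.Thorp

open Finset

variable {I : Type*} [Fintype I] [DecidableEq I] {A : Type*} [Fintype A] [DecidableEq A]

/-- Doubled wires of a tuple at bit `i`: the `w` of side false such that `w` and its flip are both occupied. -/
def dblG (i : I) (x : A → I → Bool) : Finset (I → Bool) :=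
  (univ.image x).filter fun w => w i = false ∧ phi i w ∈ univ.image x

/-- `ŷ₁`. -/
noncomputable def yhat1 : ℕ → ℝ
  | 0 => 1
  | 1 => 3 / 2
  | _ => 3

/-- `ŷ₂`. -/
noncomputable def yhat2 : ℕ → ℝ
  | 0 => 1
  | 1 => 5 / 4
  | 2 => 7 / 4
  | 3 => 21 / 8
  | _ => 21 / 4

/-- The pair `{w, φ_j w}`. -/
def pairN (j : I) (w : I → Bool) : Finset (I → Bool) := {w, phi j w}

/-- The column `{w, φ_j w, φ_j' w, φ_j φ_j' w}`. -/
def colN (j j' : I) (w : I → Bool) : Finset (I → Bool) :=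
  {w, phi j w, phi j' w, phi j (phi j' w)}

/-- `α_t`. -/
noncomputable def alphaQ (t : ℕ) : ℝ := 1.16 * (1 / 2 : ℝ) ^ t

/-- `γ_t` (for `t ≥ 2`). -/
noncomputable def gammaQ (t : ℕ) : ℝ := 0.71 * (5 / 8 : ℝ) ^ (t - 2) - 2.32 * (1 / 2 : ℝ) ^ t

/-- `ψ_t(x) = α_t x + γ_t x²`: for `|l| = t ≥ 2`, `Y_l[x] ≤ exp(∑_w ψ_t(x_w))`. -/
noncomputable def psiQ (t : ℕ) (x : ℝ) : ℝ := alphaQ t * x + gammaQ t * x ^ 2

/-- Block size parameter for the big levels. -/
def bigM (s : ℕ) : ℕ := 2 ^ (Nat.clog 2 s - 2)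

/-- Weight of a level `s ≥ 4`. -/
noncomputable def wlev (s : ℕ) : ℝ :=
  if s ≤ 32 then psiQ (s - 1) 1
  else if s ≤ 256 then psiQ 31 1
  else ((2 : ℝ) ^ (bigM s / 4) - 1) * (3 / 4 : ℝ) ^ (bigM s - 1) * (4 / (bigM s : ℝ))

/-- Cost of a level. -/
noncomputable def lam (i : I) : List I → Finset (I → Bool) → ℝ
  | [], G => Real.log 2 * G.card
  | [j], G => ∑ w ∈ univ.filter (fun w : I → Bool => w i = false ∧ w j = false),
      Real.log (yhat1 (G ∩ pairN j w).card)
  | [j, j'], G => ∑ w ∈ univ.filter (fun w : I → Bool => w i = false ∧ w j = false ∧ w j' = false),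
      Real.log (yhat2 (G ∩ colN j j' w).card)
  | l, G => wlev (l.length + 1) * G.card

/-- Sum of the level costs along the list, for the in-table `a` and the tuple `x`. -/
noncomputable def Wsum : List I → Tab I → (A → I → Bool) → ℝ
  | [], _, _ => 0
  | i :: l, a, x => lam i l (dblG i x) + Wsum l a (fun t => layer i (a i) (x t))

/-! The equation lemmas are generated here, once, rather than in each of the modules that use them. -/

section Eqns

theorem yhat1_eqs : yhat1 0 = 1 ∧ yhat1 1 = 3 / 2 ∧ ∀ n, yhat1 (n + 2) = 3 := by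
  refine ⟨by rw [yhat1], by rw [yhat1], fun n => by rw [yhat1] <;> omega⟩

theorem yhat2_eqs : yhat2 0 = 1 ∧ yhat2 1 = 5 / 4 ∧ yhat2 2 = 7 / 4 ∧ yhat2 3 = 21 / 8 ∧
    ∀ n, yhat2 (n + 4) = 21 / 4 := by
  refine ⟨by rw [yhat2], by rw [yhat2], by rw [yhat2], by rw [yhat2], fun n => by rw [yhat2] <;> omega⟩

theorem psiQ_eq (t : ℕ) (x : ℝ) : psiQ t x = alphaQ t * x + gammaQ t * x ^ 2 := by
  rw [psiQ]

theorem Wsum_nil (a : Tab I) (x : A → I → Bool) : Wsum [] a x = 0 := by
  rw [Wsum]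

theorem Wsum_cons (i : I) (l : List I) (a : Tab I) (x : A → I → Bool) :
    Wsum (i :: l) a x = lam i l (dblG i x) + Wsum l a (fun t => layer i (a i) (x t)) := by
  rw [Wsum]

theorem Wsum_eq_def_aux (l : List I) (a : Tab I) (x : A → I → Bool) : Wsum l a x = Wsum l a x := by
  unfold Wsum
  rfl

theorem Wsum_congr_aux {l l' : List I} {a a' : Tab I} {x x' : A → I → Bool} (h1 : l = l')
    (h2 : a = a') (h3 : x = x') : Wsum l a x = Wsum l' a' x' :=
  Wsum.congr_simp l l' h1 a a' h2 x x' h3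

theorem lam_congr_aux {i i' : I} {l l' : List I} {G G' : Finset (I → Bool)} (h1 : i = i')
    (h2 : l = l') (h3 : G = G') : lam i l G = lam i' l' G' :=
  lam.congr_simp i i' h1 l l' h2 G G' h3

end Eqns

end Crest.Agent.Thorp
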