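import Mathlib
import Crest.Agent.Lib.Thorp.Kernel

/-!
# Step E, generic tools: partial resampling of independent coordinates, the peel lemma,
Hölder and Jensen for uniform averages.

`resample J B c` takes the coordinates in `J` from `c` and the others from `B`.
* `avg_resample`: `E_B E_c f (resample J B c) = E f`.
* `avg_mul_le_of_window`, `peel`: if `g` ignores the coordinates in `J` and the conditional mean of
  `f` given the coordinates outside `J` is at most `c` then `E f g ≤ c E g`; iterating:
  `E ∏_{s ∈ S} f_s ≤ ∏_{s ∈ S} c_s` when `f_{s'}` ignores the window `J s` of each `s > s'`.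
* `avg_prod_rpow_le`: Hölder: `E ∏ f_j ^ w_j ≤ ∏ (E f_j) ^ w_j` for `∑ w_j = 1`.
* `avg_rpow_le`: Jensen: `E f ^ θ ≤ (E f) ^ θ` for `0 ≤ θ ≤ 1`.
-/

set_option autoImplicit false
set_option linter.unusedSectionVars false
set_option linter.unusedVariables false

namespace Crest.Agent.Thorp

open Finset

section Holder

variable {Ω : Type*} [Fintype Ω] [Nonempty Ω]

theorem avg_sum {ι : Type*} (S : Finset ι) (F : ι → Ω → ℝ) :
    avg (fun ω => ∑ j ∈ S, F j ω) = ∑ j ∈ S, avg (F j) := by
  unfold avg
  rw [← Finset.sum_div]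
  congr 1
  rw [Finset.sum_comm]

/-- Hölder for averages with positive means. -/
theorem avg_prod_rpow_le {ι : Type*} (S : Finset ι) (w : ι → ℝ) (hw : ∀ j ∈ S, 0 ≤ w j)
    (hs : ∑ j ∈ S, w j = 1) (f : ι → Ω → ℝ) (hf : ∀ j ∈ S, ∀ ω, 0 ≤ f j ω)
    (hm : ∀ j ∈ S, 0 < avg (f j)) :
    avg (fun ω => ∏ j ∈ S, f j ω ^ w j) ≤ ∏ j ∈ S, (avg (f j)) ^ w j := by
  classical
  have hP : 0 < ∏ j ∈ S, (avg (f j)) ^ w j :=
    Finset.prod_pos fun j hj => Real.rpow_pos_of_pos (hm j hj) _
  -- pointwise AM-GM
  have h1 : ∀ ω, ∏ j ∈ S, f j ω ^ w j ≤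
      (∏ j ∈ S, (avg (f j)) ^ w j) * ∑ j ∈ S, w j * (f j ω / avg (f j)) := by
    intro ω
    have amgm := Real.geom_mean_le_arith_mean_weighted S w (fun j => f j ω / avg (f j)) hw hs
      (fun j hj => div_nonneg (hf j hj ω) (hm j hj).le)
    have e : ∏ j ∈ S, f j ω ^ w j =
        (∏ j ∈ S, (avg (f j)) ^ w j) * ∏ j ∈ S, (f j ω / avg (f j)) ^ w j := by
      rw [← Finset.prod_mul_distrib]
      refine Finset.prod_congr rfl fun j hj => ?_
      rw [← Real.mul_rpow (hm j hj).le (div_nonneg (hf j hj ω) (hm j hj).le)]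
      rw [mul_div_cancel₀ _ (hm j hj).ne']
    rw [e]
    exact mul_le_mul_of_nonneg_left amgm hP.le
  refine (avg_mono h1).trans ?_
  rw [avg_const_mul]
  have e2 : avg (fun ω => ∑ j ∈ S, w j * (f j ω / avg (f j))) = 1 := by
    rw [avg_sum]
    rw [← hs]
    refine Finset.sum_congr rfl fun j hj => ?_
    have : (fun ω => w j * (f j ω / avg (f j))) = fun ω => (w j / avg (f j)) * f j ω := by
      funext ω; ring
    rw [this, avg_const_mul]
    field_simp [(hm j hj).ne']
  rw [e2, mul_one]

/-- Jensen for averages. -/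
theorem avg_rpow_le (f : Ω → ℝ) (hf : ∀ ω, 0 ≤ f ω) (hm : 0 < avg f) {θ : ℝ} (h0 : 0 ≤ θ)
    (h1 : θ ≤ 1) : avg (fun ω => f ω ^ θ) ≤ (avg f) ^ θ := by
  classical
  have h := avg_prod_rpow_le (Ω := Ω) (Finset.univ : Finset Bool) (fun b => if b then θ else 1 - θ)
    (fun b _ => by split_ifs <;> linarith) (by simp [Fintype.sum_bool])
    (fun b => if b then f else fun _ => 1)
    (fun b _ ω => by cases b <;> simp [hf ω])
    (fun b _ => by
      cases b
      · simp only [Bool.false_eq_true, ↓reduceIte]
        rw [avg_const]; norm_num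
      · simpa using hm)
  simp only [Fintype.prod_bool, Bool.false_eq_true, ↓reduceIte, Real.one_rpow, mul_one] at h
  rw [avg_const] at h
  simpa using h

end Holder

section Resample

variable {I X : Type*} [Fintype I] [DecidableEq I] [Fintype X] [Nonempty X]

/-- Take the coordinates in `J` from `c` and the others from `B`. -/
def resample (J : Finset I) (B c : I → X) : I → X := fun i => if i ∈ J then c i else B i

theorem resample_apply_mem {J : Finset I} (B c : I → X) {i : I} (h : i ∈ J) :
    resample J B c i = c i := if_pos h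

theorem resample_apply_not_mem {J : Finset I} (B c : I → X) {i : I} (h : i ∉ J) :
    resample J B c i = B i := if_neg h

/-- The crossover involution. -/
def crossE (J : Finset I) : (I → X) × (I → X) ≃ (I → X) × (I → X) where
  toFun p := (resample J p.1 p.2, resample J p.2 p.1)
  invFun p := (resample J p.1 p.2, resample J p.2 p.1)
  left_inv p := by
    ext i <;> by_cases h : i ∈ J <;> simp [resample, h]
  right_inv p := by
    ext i <;> by_cases h : i ∈ J <;> simp [resample, h]

/-- Resampling preserves the uniform law. -/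
theorem avg_resample (J : Finset I) (f : (I → X) → ℝ) :
    avg (fun B : I → X => avg (fun c : I → X => f (resample J B c))) = avg f := by
  have e1 : avg (fun B : I → X => avg (fun c : I → X => f (resample J B c))) =
      avg (fun p : (I → X) × (I → X) => f (resample J p.1 p.2)) :=
    (avg_prod (fun p : (I → X) × (I → X) => f (resample J p.1 p.2))).symm
  rw [e1]
  have e2 := avg_equiv (crossE (X := X) J) (fun p : (I → X) × (I → X) => f p.1)
  have e3 : avg (fun p : (I → X) × (I → X) => f (crossE (X := X) J p).1) =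
      avg (fun p : (I → X) × (I → X) => f (resample J p.1 p.2)) := rfl
  rw [← e3, e2, avg_prod]
  simp only [avg_const]

/-- One peeling step. -/
theorem avg_mul_le_of_window (f g : (I → X) → ℝ) (J : Finset I) (c : ℝ)
    (hg : ∀ B d, g (resample J B d) = g B) (hg0 : ∀ B, 0 ≤ g B)
    (hf : ∀ B, avg (fun d : I → X => f (resample J B d)) ≤ c) :
    avg (fun B => f B * g B) ≤ c * avg g := by
  rw [← avg_resample J (fun B => f B * g B)]
  simp only [hg]
  have e : ∀ B : I → X, avg (fun d : I → X => f (resample J B d) * g B) =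
      avg (fun d : I → X => f (resample J B d)) * g B := by
    intro B
    unfold avg
    rw [← Finset.sum_mul]
    ring
  simp only [e]
  rw [← avg_const_mul]
  exact avg_mono fun B => mul_le_mul_of_nonneg_right (hf B) (hg0 B)

/-- **The peel lemma.** -/
theorem peel (S : Finset ℕ) (f : ℕ → (I → X) → ℝ) (J : ℕ → Finset I) (c : ℕ → ℝ)
    (hf0 : ∀ s ∈ S, ∀ B, 0 ≤ f s B) (hc : ∀ s ∈ S, 0 ≤ c s)
    (hind : ∀ s ∈ S, ∀ s' ∈ S, s' < s → ∀ B d, f s' (resample (J s) B d) = f s' B)
    (hf : ∀ s ∈ S, ∀ B, avg (fun d : I → X => f s (resample (J s) B d)) ≤ c s) :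
    avg (fun B => ∏ s ∈ S, f s B) ≤ ∏ s ∈ S, c s := by
  classical
  induction S using Finset.induction_on_max with
  | empty =>
    simp only [Finset.prod_empty]
    rw [avg_const]
  | insert a S ha ih =>
    have haS : a ∉ S := fun h => lt_irrefl _ (ha a h)
    rw [Finset.prod_insert haS]
    simp only [Finset.prod_insert haS]
    have hg0 : ∀ B, 0 ≤ ∏ s ∈ S, f s B := fun B =>
      Finset.prod_nonneg fun s hs => hf0 s (Finset.mem_insert_of_mem hs) B
    have hstep := avg_mul_le_of_window (f a) (fun B => ∏ s ∈ S, f s B) (J a) (c a)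
      (fun B d => Finset.prod_congr rfl fun s hs =>
        hind a (Finset.mem_insert_self _ _) s (Finset.mem_insert_of_mem hs) (ha s hs) B d)
      hg0 (hf a (Finset.mem_insert_self _ _))
    refine hstep.trans (mul_le_mul_of_nonneg_left ?_ (hc a (Finset.mem_insert_self _ _)))
    exact ih (fun s hs => hf0 s (Finset.mem_insert_of_mem hs))
      (fun s hs => hc s (Finset.mem_insert_of_mem hs))
      (fun s hs s' hs' => hind s (Finset.mem_insert_of_mem hs) s' (Finset.mem_insert_of_mem hs'))
      (fun s hs => hf s (Finset.mem_insert_of_mem hs))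

end Resample

end Crest.Agent.Thorp
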