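import Mathlib
import Crest.Agent.Lib.Thorp.Color3
import Crest.Agent.Lib.Thorp.Peel

/-!
# Step E: Lemma D.

`sig i K = φ K⁻¹ φ K`, `InvCount c0 G σ`: the number of colourings supported on `G` and invariant
under `σ`. For `K = Q_{l₁}(B)⁻¹ Ξ` with `Ξ` frozen:

`E_B InvCount c0 G (sig i K) ≤ (Y_{rev l₁}[1_{Ξ G}] + Y_{rev l₁}[1_{Ξ φ G}]) / 2`.
-/

set_option autoImplicit false
set_option linter.unusedSectionVars false
set_option linter.unusedVariables false

namespace Crest.Agent.Thorp

open Finset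

section GramAbstract

variable {Ω H : Type*} [Fintype Ω] [Nonempty Ω] [Fintype H] [DecidableEq H]

/-- The mass of `φ` at `h`. -/
noncomputable def massAt (φ : Ω → H) (h : H) : ℝ := avg (fun ω => if φ ω = h then (1 : ℝ) else 0)

theorem avg_pair_eq (φ ψ : Ω → H) :
    avg (fun p : Ω × Ω => if φ p.1 = ψ p.2 then (1 : ℝ) else 0) = ∑ h, massAt φ h * massAt ψ h := by
  have hpt : ∀ ω ω' : Ω, (if φ ω = ψ ω' then (1 : ℝ) else 0) =
      ∑ h, (if φ ω = h then (1 : ℝ) else 0) * (if ψ ω' = h then (1 : ℝ) else 0) := by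
    intro ω ω'
    rw [Finset.sum_eq_single (φ ω)]
    · simp only [if_true, one_mul]
      by_cases e : φ ω = ψ ω'
      · rw [if_pos e, if_pos e.symm]
      · rw [if_neg e, if_neg (fun e' => e e'.symm)]
    · intro h _ hh
      rw [if_neg (fun e => hh e.symm), zero_mul]
    · simp
  rw [avg_prod]
  simp only [hpt]
  have e1 : ∀ ω : Ω, avg (fun ω' : Ω => ∑ h, (if φ ω = h then (1 : ℝ) else 0) *
      (if ψ ω' = h then (1 : ℝ) else 0)) =
      ∑ h, (if φ ω = h then (1 : ℝ) else 0) * massAt ψ h := by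
    intro ω
    rw [avg_sum]
    refine Finset.sum_congr rfl fun h _ => ?_
    rw [avg_const_mul]
    rfl
  simp only [e1]
  rw [avg_sum]
  refine Finset.sum_congr rfl fun h _ => ?_
  exact avg_const_mul' _ _

/-- The Cauchy-Schwarz (AM-GM) inequality. -/
theorem avg_pair_le (φ ψ : Ω → H) :
    avg (fun p : Ω × Ω => if φ p.1 = ψ p.2 then (1 : ℝ) else 0) ≤
      (1 / 2) * (avg (fun p : Ω × Ω => if φ p.1 = φ p.2 then (1 : ℝ) else 0) +
        avg (fun p : Ω × Ω => if ψ p.1 = ψ p.2 then (1 : ℝ) else 0)) := by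
  rw [avg_pair_eq, avg_pair_eq, avg_pair_eq, ← Finset.sum_add_distrib, Finset.mul_sum]
  refine Finset.sum_le_sum fun h _ => ?_
  nlinarith [sq_nonneg (massAt φ h - massAt ψ h)]

end GramAbstract

section Words

variable {I C : Type*} [Fintype I] [DecidableEq I] [Fintype C] [DecidableEq C] (c0 : C) (i : I)

/-- The uniformity of the mix of tables. -/
theorem avg_mixTab (g : Tab I → ℝ) :
    avg (fun p : Tab I × Tab I => g (mixTab i p.1 p.2)) = avg g := by
  let e : Tab I × Tab I ≃ Tab I × Tab I :=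
    { toFun := fun q => (mixTab i q.1 q.2, mixTab i q.2 q.1)
      invFun := fun q => (mixTab i q.1 q.2, mixTab i q.2 q.1)
      left_inv := fun q => by
        ext <;> simp only [mixTab] <;> split_ifs <;> rfl
      right_inv := fun q => by
        ext <;> simp only [mixTab] <;> split_ifs <;> rfl }
  have e2 := avg_equiv e (fun q : Tab I × Tab I => g q.1)
  have e3 : avg (fun q : Tab I × Tab I => g (e q).1) =
      avg (fun p : Tab I × Tab I => g (mixTab i p.1 p.2)) := rfl
  rw [← e3, e2, avg_prod]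
  simp only [avg_const]

theorem sweepQ_reverse (A : Tab I) (l : List I) : sweepQ A l.reverse = (sweepQ A l)⁻¹ := by
  induction l with
  | nil => simp [sweepQ]
  | cons j l ih =>
    rw [List.reverse_cons, sweepQ_append_singleton, ih]
    simp only [sweepQ, _root_.mul_inv_rev, layer_inv]

theorem Kl_reverse (l : List I) (p : Tab I × Tab I) :
    Kl l.reverse p = sweepQ p.2 l * (sweepQ p.1 l)⁻¹ := by
  simp [Kl, sweepQ_reverse]

/-- `σ = φ K⁻¹ φ K`. -/
def sig (K : Equiv.Perm (I → Bool)) : Equiv.Perm (I → Bool) := phi i * K⁻¹ * phi i * K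

open Classical in
/-- The number of colourings supported on `G` and invariant under `σ`. -/
noncomputable def InvCount (G : Finset (I → Bool)) (σ : Equiv.Perm (I → Bool)) : ℕ :=
  (Finset.univ.filter (fun d : (I → Bool) → C =>
    (∀ w, w ∉ G → d w = c0) ∧ ∀ w, d (σ w) = d w)).card

/-- The indicator of a set of words. -/
def indW (T : Finset (I → Bool)) : (I → Bool) → ℝ := fun w => if w ∈ T then 1 else 0

theorem indW_nonneg (T : Finset (I → Bool)) (w : I → Bool) : 0 ≤ indW T w := by
  unfold indW; split_ifs <;> norm_num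

theorem indW_le_one (T : Finset (I → Bool)) (w : I → Bool) : indW T w ≤ 1 := by
  unfold indW; split_ifs <;> norm_num

theorem sum_indW (T : Finset (I → Bool)) : ∑ w, indW T w = T.card := by
  unfold indW
  rw [Finset.sum_boole]
  simp

/-- The count of the transported colourings. -/
theorem sum_transport_le (ρ K' : Equiv.Perm (I → Bool)) (G : Finset (I → Bool))
    (P : ((I → Bool) → C) → Prop) [DecidablePred P]
    (hP : ∀ d, P d → (∀ w, w ∉ G → d w = c0) ∧ ∀ w, d (ρ⁻¹ (K' w)) = d (ρ⁻¹ w)) :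
    ∑ d : (I → Bool) → C, (if P d then (1 : ℝ) else 0) ≤ YK c0 K' (indW (G.image ρ)) := by
  classical
  unfold YK
  let E : ((I → Bool) → C) ≃ ((I → Bool) → C) := Equiv.arrowCongr ρ (Equiv.refl C)
  have hE : ∀ (d : (I → Bool) → C) w, E d w = d (ρ⁻¹ w) := fun d w => rfl
  refine le_of_le_of_eq ?_ (Equiv.sum_comp E _)
  refine Finset.sum_le_sum fun d _ => ?_
  by_cases hd : P d
  · rw [if_pos hd]
    obtain ⟨h1, h2⟩ := hP d hd
    have hinv : ∀ w, E d (K' w) = E d w := fun w => by rw [hE, hE]; exact h2 w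
    rw [if_pos hinv]
    have : wt c0 (indW (G.image ρ)) (E d) = 1 := by
      unfold wt
      refine Finset.prod_eq_one fun w _ => ?_
      by_cases hw : E d w = c0
      · rw [if_pos hw]
      · rw [if_neg hw]
        have hmem : ρ⁻¹ w ∈ G := by
          by_contra hn
          exact hw (by rw [hE]; exact h1 _ hn)
        unfold indW
        rw [if_pos]
        exact Finset.mem_image.2 ⟨_, hmem, by simp⟩
    exact this.ge
  · rw [if_neg hd]
    split_ifs
    · exact wt_nonneg c0 (indW_nonneg _) _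
    · exact le_rfl

theorem perm_inv_bit (g : Equiv.Perm (I → Bool)) (hg : ∀ w, g w i = w i) (w : I → Bool) :
    g⁻¹ w i = w i := by
  have := hg (g⁻¹ w)
  rw [show g (g⁻¹ w) = w by simp] at this
  exact this.symm

theorem update_self_eq (w : I → Bool) (b : Bool) (h : w i = b) : Function.update w i b = w := by
  subst h; simp

theorem phi_update_false (v : I → Bool) :
    phi i (Function.update v i false) = Function.update v i true := by
  funext j
  by_cases hj : j = i
  · subst hj; simp [phi_same]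
  · rw [phi_ne i hj, Function.update_of_ne hj, Function.update_of_ne hj]

/-- **Lemma D.** -/
theorem lemmaD (l₁ : List I) (hi : i ∉ l₁) (Ξ : Equiv.Perm (I → Bool)) (hΞ : ∀ w, Ξ w i = w i)
    (G : Finset (I → Bool)) (hG : ∀ w ∈ G, w i = false) :
    avg (fun B : Tab I => (InvCount c0 G (sig i ((sweepQ B l₁)⁻¹ * Ξ)) : ℝ)) ≤
      (1 / 2) * (Yl c0 l₁.reverse (indW (G.image Ξ)) +
        Yl c0 l₁.reverse (indW (G.image (Ξ * phi i)))) := by
  classical
  -- notation
  let Fam : ((I → Bool) → C) → Prop := fun d => ∀ w, w ∉ G → d w = c0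
  let h0 : Tab I → ((I → Bool) → C) → ((I → Bool) → C) := fun B d v =>
    d (Ξ⁻¹ (sweepQ B l₁ (Function.update v i false)))
  let h1 : Tab I → ((I → Bool) → C) → ((I → Bool) → C) := fun B d v =>
    d (phi i (Ξ⁻¹ (sweepQ B l₁ (Function.update v i true))))
  have hQ : ∀ (B : Tab I) w, sweepQ B l₁ w i = w i := fun B w => sweepQ_bit B l₁ i hi w
  have hQi : ∀ (B : Tab I) w, (sweepQ B l₁)⁻¹ w i = w i := fun B w => perm_inv_bit i _ (hQ B) w
  have hΞi : ∀ w, Ξ⁻¹ w i = w i := perm_inv_bit i _ hΞ
  -- Step 1: invariance gives equality of the two pushed colourings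
  have step1 : ∀ (B : Tab I) (d : (I → Bool) → C), (∀ w, d (sig i ((sweepQ B l₁)⁻¹ * Ξ) w) = d w) →
      h0 B d = h1 B d := by
    intro B d hd
    funext v
    set a := Function.update v i false with ha
    have hw := hd (Ξ⁻¹ (sweepQ B l₁ a))
    have e : sig i ((sweepQ B l₁)⁻¹ * Ξ) (Ξ⁻¹ (sweepQ B l₁ a)) =
        phi i (Ξ⁻¹ (sweepQ B l₁ (Function.update v i true))) := by
      have e1 : ((sweepQ B l₁)⁻¹ * Ξ) (Ξ⁻¹ (sweepQ B l₁ a)) = a := by
        simp only [Equiv.Perm.mul_apply]
        simp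
      have e2 : ((sweepQ B l₁)⁻¹ * Ξ)⁻¹ = Ξ⁻¹ * sweepQ B l₁ := by
        rw [_root_.mul_inv_rev, inv_inv]
      simp only [sig, Equiv.Perm.mul_apply]
      have e3 : ((sweepQ B l₁)⁻¹) (Ξ (Ξ⁻¹ (sweepQ B l₁ a))) = a := by simp
      simp only [e2, e3, Equiv.Perm.mul_apply]
      rw [ha, phi_update_false]
    rw [e] at hw
    exact hw.symm
  -- Step 1': the count
  have hcount : ∀ B : Tab I, (InvCount c0 G (sig i ((sweepQ B l₁)⁻¹ * Ξ)) : ℝ) ≤
      ∑ d : (I → Bool) → C, if Fam d ∧ h0 B d = h1 B d then (1 : ℝ) else 0 := by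
    intro B
    unfold InvCount
    rw [Finset.card_filter]
    push_cast
    refine Finset.sum_le_sum fun d _ => ?_
    by_cases hd : (∀ w, w ∉ G → d w = c0) ∧ ∀ w, d (sig i ((sweepQ B l₁)⁻¹ * Ξ) w) = d w
    · rw [if_pos hd, if_pos ⟨hd.1, step1 B d hd.2⟩]
    · rw [if_neg hd]
      split_ifs <;> norm_num
  -- Step 2: side independence
  have hmix0 : ∀ (B B' : Tab I) d, h0 (mixTab i B B') d = h0 B d := by
    intro B B' d
    funext v
    simp only [h0]
    rw [sweepQ_side i (mixTab i B B') B l₁ hi false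
      (fun j w hw => by simp [mixTab, hw]) _ (by simp)]
  have hmix1 : ∀ (B B' : Tab I) d, h1 (mixTab i B B') d = h1 B' d := by
    intro B B' d
    funext v
    simp only [h1]
    rw [sweepQ_side i (mixTab i B B') B' l₁ hi true
      (fun j w hw => by simp [mixTab, hw]) _ (by simp)]
  have step2 : ∀ d : (I → Bool) → C,
      avg (fun B : Tab I => if Fam d ∧ h0 B d = h1 B d then (1 : ℝ) else 0) ≤
      (1 / 2) * (avg (fun p : Tab I × Tab I => if Fam d ∧ h0 p.1 d = h0 p.2 d then (1 : ℝ) else 0) +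
        avg (fun p : Tab I × Tab I => if Fam d ∧ h1 p.1 d = h1 p.2 d then (1 : ℝ) else 0)) := by
    intro d
    by_cases hF : Fam d
    · simp only [hF, true_and]
      rw [← avg_mixTab i (fun B : Tab I => if h0 B d = h1 B d then (1 : ℝ) else 0)]
      simp only [hmix0, hmix1]
      exact avg_pair_le (fun B => h0 B d) (fun B => h1 B d)
    · simp only [hF, false_and, if_false]
      have : avg (fun _ : Tab I => (0 : ℝ)) = 0 := avg_const 0
      have : avg (fun _ : Tab I × Tab I => (0 : ℝ)) = 0 := avg_const 0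
      simp [*]
  -- Step 3: the symmetric terms
  have step3 : ∀ p : Tab I × Tab I,
      ∑ d : (I → Bool) → C, (if Fam d ∧ h0 p.1 d = h0 p.2 d then (1 : ℝ) else 0) ≤
        YK c0 (Kl l₁.reverse p) (indW (G.image Ξ)) := by
    intro p
    refine sum_transport_le c0 Ξ _ G _ ?_
    rintro d ⟨hF, he⟩
    refine ⟨hF, fun w => ?_⟩
    rw [Kl_reverse]
    simp only [Equiv.Perm.mul_apply]
    by_cases hw : w i = false
    · set a := (sweepQ p.1 l₁)⁻¹ w with ha
      have ha0 : a i = false := by rw [ha, hQi, hw]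
      have hv := congrFun he a
      simp only [h0, update_self_eq i a false ha0] at hv
      rw [show sweepQ p.1 l₁ a = w by simp [ha]] at hv
      exact hv.symm
    · have hw' : w i = true := by simpa using hw
      have h1' : Ξ⁻¹ w ∉ G := fun hm => by
        have := hG _ hm
        rw [hΞi, hw'] at this
        exact absurd this (by simp)
      have h2' : Ξ⁻¹ (sweepQ p.2 l₁ ((sweepQ p.1 l₁)⁻¹ w)) ∉ G := fun hm => by
        have := hG _ hm
        rw [hΞi, hQ, hQi, hw'] at this
        exact absurd this (by simp)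
      rw [hF _ h1', hF _ h2']
  have step3' : ∀ p : Tab I × Tab I,
      ∑ d : (I → Bool) → C, (if Fam d ∧ h1 p.1 d = h1 p.2 d then (1 : ℝ) else 0) ≤
        YK c0 (Kl l₁.reverse p) (indW (G.image (Ξ * phi i))) := by
    intro p
    refine sum_transport_le c0 (Ξ * phi i) _ G _ ?_
    rintro d ⟨hF, he⟩
    refine ⟨hF, fun w => ?_⟩
    rw [Kl_reverse]
    have hinv : (Ξ * phi i)⁻¹ = phi i * Ξ⁻¹ := by
      rw [_root_.mul_inv_rev]
      congr 1
    rw [hinv]
    simp only [Equiv.Perm.mul_apply]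
    by_cases hw : w i = true
    · set a := (sweepQ p.1 l₁)⁻¹ w with ha
      have ha0 : a i = true := by rw [ha, hQi, hw]
      have hv := congrFun he a
      simp only [h1, update_self_eq i a true ha0] at hv
      rw [show sweepQ p.1 l₁ a = w by simp [ha]] at hv
      exact hv.symm
    · have hw' : w i = false := by simpa using hw
      have h1' : phi i (Ξ⁻¹ w) ∉ G := fun hm => by
        have := hG _ hm
        rw [phi_same, hΞi, hw'] at this
        exact absurd this (by simp)
      have h2' : phi i (Ξ⁻¹ (sweepQ p.2 l₁ ((sweepQ p.1 l₁)⁻¹ w))) ∉ G := fun hm => by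
        have := hG _ hm
        rw [phi_same, hΞi, hQ, hQi, hw'] at this
        exact absurd this (by simp)
      rw [hF _ h1', hF _ h2']
  -- assemble
  calc avg (fun B : Tab I => (InvCount c0 G (sig i ((sweepQ B l₁)⁻¹ * Ξ)) : ℝ))
      ≤ avg (fun B : Tab I => ∑ d : (I → Bool) → C,
          if Fam d ∧ h0 B d = h1 B d then (1 : ℝ) else 0) := avg_mono hcount
    _ = ∑ d : (I → Bool) → C, avg (fun B : Tab I =>
          if Fam d ∧ h0 B d = h1 B d then (1 : ℝ) else 0) := avg_sum _ _
    _ ≤ ∑ d : (I → Bool) → C, (1 / 2) * (avg (fun p : Tab I × Tab I =>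
            if Fam d ∧ h0 p.1 d = h0 p.2 d then (1 : ℝ) else 0) +
          avg (fun p : Tab I × Tab I =>
            if Fam d ∧ h1 p.1 d = h1 p.2 d then (1 : ℝ) else 0)) :=
        Finset.sum_le_sum fun d _ => step2 d
    _ = (1 / 2) * (avg (fun p : Tab I × Tab I => ∑ d : (I → Bool) → C,
            if Fam d ∧ h0 p.1 d = h0 p.2 d then (1 : ℝ) else 0) +
          avg (fun p : Tab I × Tab I => ∑ d : (I → Bool) → C,
            if Fam d ∧ h1 p.1 d = h1 p.2 d then (1 : ℝ) else 0)) := by
        rw [← Finset.mul_sum, Finset.sum_add_distrib, avg_sum, avg_sum]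
    _ ≤ _ := by
        refine mul_le_mul_of_nonneg_left (add_le_add ?_ ?_) (by norm_num)
        · exact avg_mono step3
        · exact avg_mono step3'

end Words

end Crest.Agent.Thorp
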