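import Mathlib
import Crest.Agent.Lib.Thorp.LemmaD

/-!
# Step E: the product over the levels.

The level of the element `i` in a list `... i :: l'` is `|l'| + 1`. `Cls G θ Pc A l B` is the product
over the levels `s ∈ Pc` of `InvCount (G i) (sig i (K_{l'}(A, B))) ^ θ`.

* `peelL`: for a class of levels spaced with respect to `t`, resampling the layers `R`:
  `E_{B'} Cls G θ Pc A l (resample R B B') ≤ exp (∑_{levels in Pc} b i l')`.
* `block_bound`: Hölder over the residues modulo `m`, then `peelL`.
* `main_abstract`: Hölder over the classes (small, even, odd), `block_bound`, and the peel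
  over the dyadic blocks: `E_B Cls G (1/40) ⊤ A l B ≤ exp ((1/40) ∑_{levels} lam i l')`.
-/

set_option autoImplicit false
set_option linter.unusedSectionVars false
set_option linter.unusedVariables false

namespace Crest.Agent.Thorp

open Finset
open scoped Classical

section Cls

variable {I : Type*} [Fintype I] [DecidableEq I] (G : I → Finset (I → Bool))

/-- The count at the element `i` with tail `l'`. -/
noncomputable def lvlInv (A : Tab I) (i : I) (l' : List I) (B : Tab I) : ℝ :=
  (InvCount (C := Bool) false (G i) (sig i (Kl l' (A, B))) : ℝ)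

/-- The product over the levels in `Pc`. -/
noncomputable def Cls (θ : ℝ) (Pc : ℕ → Prop) (A : Tab I) : List I → Tab I → ℝ
  | [], _ => 1
  | i :: l', B => (if Pc (l'.length + 1) then lvlInv G A i l' B ^ θ else 1) * Cls θ Pc A l' B

/-- The sum over the levels in `Pc`. -/
noncomputable def lvlSum (Pc : ℕ → Prop) (b : I → List I → ℝ) : List I → ℝ
  | [] => 0
  | i :: l' => (if Pc (l'.length + 1) then b i l' else 0) + lvlSum Pc b l'

theorem InvCount_pos {C : Type*} [Fintype C] [DecidableEq C] (c0 : C) (T : Finset (I → Bool))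
    (σ : Equiv.Perm (I → Bool)) : 1 ≤ InvCount c0 T σ := by
  unfold InvCount
  refine Finset.card_pos.2 ⟨fun _ => c0, ?_⟩
  simp

theorem lvlInv_ge_one (A : Tab I) (i : I) (l' : List I) (B : Tab I) : 1 ≤ lvlInv G A i l' B := by
  unfold lvlInv
  exact_mod_cast InvCount_pos false _ _

theorem Cls_ge_one {θ : ℝ} (hθ : 0 ≤ θ) (Pc : ℕ → Prop) (A : Tab I) (l : List I) (B : Tab I) :
    1 ≤ Cls G θ Pc A l B := by
  induction l with
  | nil => simp [Cls]
  | cons i l' ih =>
    simp only [Cls]
    have h1 : 1 ≤ (if Pc (l'.length + 1) then lvlInv G A i l' B ^ θ else 1) := by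
      split_ifs
      · exact Real.one_le_rpow (lvlInv_ge_one G A i l' B) hθ
      · exact le_rfl
    nlinarith

theorem Cls_rpow {θ : ℝ} (hθ : 0 ≤ θ) (w : ℝ) (Pc : ℕ → Prop) (A : Tab I) (l : List I) (B : Tab I) :
    (Cls G θ Pc A l B) ^ w = Cls G (θ * w) Pc A l B := by
  induction l with
  | nil => simp [Cls]
  | cons i l' ih =>
    simp only [Cls]
    rw [Real.mul_rpow _ (by linarith [Cls_ge_one G hθ Pc A l' B]), ih]
    · congr 1
      split_ifs
      · rw [← Real.rpow_mul (by linarith [lvlInv_ge_one G A i l' B])]
      · simp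
    · split_ifs
      · exact Real.rpow_nonneg (by linarith [lvlInv_ge_one G A i l' B]) _
      · exact zero_le_one

/-- Decomposition of a class along a key. -/
theorem Cls_fiber {κ : Type*} (θ : ℝ) (Pc : ℕ → Prop) (A : Tab I) (key : ℕ → κ) (S : Finset κ)
    (l : List I) (hS : ∀ s, s ≤ l.length → Pc s → key s ∈ S) (B : Tab I) :
    Cls G θ Pc A l B = ∏ k ∈ S, Cls G θ (fun s => Pc s ∧ key s = k) A l B := by
  induction l with
  | nil => simp [Cls]
  | cons i l' ih =>
    simp only [Cls]
    rw [Finset.prod_mul_distrib, ← ih (fun s hs => hS s (by simp; omega))]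
    congr 1
    by_cases hP : Pc (l'.length + 1)
    · have hk := hS _ (by simp) hP
      simp only [hP, true_and, if_true]
      rw [Finset.prod_ite_eq S (key (l'.length + 1)) (fun _ => lvlInv G A i l' B ^ θ)]
      simp [hk]
    · simp [hP]

/-- Decomposition of a sum along a key. -/
theorem lvlSum_fiber {κ : Type*} (Pc : ℕ → Prop) (b : I → List I → ℝ) (key : ℕ → κ) (S : Finset κ)
    (l : List I) (hS : ∀ s, s ≤ l.length → Pc s → key s ∈ S) :
    lvlSum Pc b l = ∑ k ∈ S, lvlSum (fun s => Pc s ∧ key s = k) b l := by
  induction l with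
  | nil => simp [lvlSum]
  | cons i l' ih =>
    simp only [lvlSum]
    rw [Finset.sum_add_distrib, ← ih (fun s hs => hS s (by simp; omega))]
    congr 1
    by_cases hP : Pc (l'.length + 1)
    · have hk := hS _ (by simp) hP
      simp only [hP, true_and, if_true]
      rw [Finset.sum_ite_eq S (key (l'.length + 1)) (fun _ => b i l')]
      simp [hk]
    · simp [hP]

theorem lvlSum_const_mul (Pc : ℕ → Prop) (c : ℝ) (b : I → List I → ℝ) (l : List I) :
    lvlSum Pc (fun i l' => c * b i l') l = c * lvlSum Pc b l := by
  induction l with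
  | nil => simp [lvlSum]
  | cons i l' ih =>
    simp only [lvlSum]
    rw [ih, mul_add]
    congr 1
    split_ifs <;> simp

theorem sweepQ_congr_list (l : List I) (X Y : Tab I) (h : ∀ a ∈ l, X a = Y a) :
    sweepQ X l = sweepQ Y l := by
  induction l with
  | nil => rfl
  | cons j l ih =>
    simp only [sweepQ]
    rw [ih (fun a ha => h a (List.mem_cons_of_mem _ ha)), h j List.mem_cons_self]

theorem Kl_congr_right (l' : List I) (A X Y : Tab I) (h : ∀ a ∈ l', X a = Y a) :
    Kl l' (A, X) = Kl l' (A, Y) := by
  simp only [Kl]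
  rw [sweepQ_congr_list l' X Y h]

/-- A class only sees the layers below its levels. -/
theorem Cls_congr (θ : ℝ) (Pc : ℕ → Prop) (A : Tab I) (T : Set I) (l : List I)
    (h : ∀ j l'', (j :: l'') <:+ l → Pc (l''.length + 1) → ∀ a ∈ l'', a ∈ T)
    (X Y : Tab I) (hXY : ∀ a ∈ T, X a = Y a) : Cls G θ Pc A l X = Cls G θ Pc A l Y := by
  induction l with
  | nil => rfl
  | cons i l' ih =>
    simp only [Cls]
    rw [ih (fun j l'' hs hP a ha => h j l'' (hs.trans (List.suffix_cons _ _)) hP a ha)]
    congr 1
    by_cases hP : Pc (l'.length + 1)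
    · simp only [hP, if_true]
      unfold lvlInv
      rw [Kl_congr_right l' A X Y (fun a ha => hXY a (h i l' (List.suffix_rfl) hP a ha))]
    · simp [hP]

theorem sweepQ_append (C : Tab I) (l₁ l₂ : List I) :
    sweepQ C (l₁ ++ l₂) = sweepQ C l₂ * sweepQ C l₁ := by
  induction l₁ with
  | nil => simp [sweepQ]
  | cons j l ih => simp only [List.cons_append, sweepQ, ih, mul_assoc]

/-- **The peel lemma on lists.** -/
theorem peelL {θ : ℝ} (hθ : 0 ≤ θ) (Pc : ℕ → Prop) (t : ℕ → ℕ) (R : Finset I)
    (b : I → List I → ℝ) (A : Tab I) (l : List I) (hl : l.Nodup)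
    (hspace : ∀ s s', Pc s → Pc s' → s' < s → s' + t s < s)
    (hR : ∀ i l', (i :: l') <:+ l → Pc (l'.length + 1) →
      ∀ a ∈ l'.take (t (l'.length + 1)), a ∈ R)
    (hb : ∀ i l', (i :: l') <:+ l → Pc (l'.length + 1) →
      ∀ Ξ : Equiv.Perm (I → Bool), (∀ j, j ∉ l' → ∀ w, Ξ w j = w j) →
      avg (fun B'' : Tab I => (InvCount (C := Bool) false (G i)
        (sig i ((sweepQ B'' (l'.take (t (l'.length + 1))))⁻¹ * Ξ)) : ℝ) ^ θ) ≤ Real.exp (b i l'))
    (B : Tab I) :
    avg (fun B' : Tab I => Cls G θ Pc A l (resample R B B')) ≤ Real.exp (lvlSum Pc b l) := by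
  induction l with
  | nil =>
    simp only [Cls, lvlSum, Real.exp_zero]
    rw [avg_const]
  | cons i l' ih =>
    have hl' : l'.Nodup := (List.nodup_cons.1 hl).2
    have hi : i ∉ l' := (List.nodup_cons.1 hl).1
    have ih' := ih hl'
      (fun i' l'' hs => hR i' l'' (hs.trans (List.suffix_cons _ _)))
      (fun i' l'' hs => hb i' l'' (hs.trans (List.suffix_cons _ _)))
    simp only [Cls, lvlSum]
    by_cases hP : Pc (l'.length + 1)
    · simp only [hP, if_true]
      set t0 := t (l'.length + 1) with ht0
      set S : Finset I := (l'.take t0).toFinset with hS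
      have hl12 : l' = l'.take t0 ++ l'.drop t0 := (List.take_append_drop t0 l').symm
      -- the window is disjoint from the drop
      have hdisj : ∀ a, a ∈ l'.drop t0 → a ∉ S := by
        intro a ha haS
        have h12 : (l'.take t0 ++ l'.drop t0).Nodup := by rw [List.take_append_drop]; exact hl'
        exact (List.disjoint_of_nodup_append h12) (List.mem_toFinset.1 haS) ha
      have hSR : ∀ a ∈ S, a ∈ R := fun a ha => hR i l' List.suffix_rfl hP a (List.mem_toFinset.1 ha)
      -- independence of the lower levels
      have hg : ∀ B' d : Tab I, Cls G θ Pc A l' (resample R B (resample S B' d)) =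
          Cls G θ Pc A l' (resample R B B') := by
        intro B' d
        refine Cls_congr G θ Pc A {a | a ∉ S} l' ?_ _ _ ?_
        · intro j l'' hs hP' a ha haS
          -- write `l' = p ++ j :: l''`
          obtain ⟨p, hp⟩ := hs
          have hlen : l'.length = p.length + (l''.length + 1) := by
            rw [← hp]; simp
          have hlt : l''.length + 1 < l'.length + 1 := by omega
          have hsp := hspace _ _ hP hP' hlt
          have htk : t0 ≤ p.length := by omega
          have hin : a ∈ p := by
            have hm := List.mem_toFinset.1 haS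
            rw [← hp, List.take_append_of_le_length htk] at hm
            exact List.mem_of_mem_take hm
          have hnd : (p ++ j :: l'').Nodup := by rw [hp]; exact hl'
          have := List.disjoint_of_nodup_append hnd hin
          exact this (List.mem_cons_of_mem _ ha)
        · intro a ha
          have ha' : a ∉ S := ha
          by_cases haR : a ∈ R
          · simp only [resample, haR, if_true, ha', if_false]
          · simp only [resample, haR, if_false]
      -- the window average
      have hf : ∀ B' : Tab I, avg (fun d : Tab I => lvlInv G A i l'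
          (resample R B (resample S B' d)) ^ θ) ≤ Real.exp (b i l') := by
        intro B'
        set Ξ : Equiv.Perm (I → Bool) :=
          (sweepQ (resample R B B') (l'.drop t0))⁻¹ * sweepQ A l' with hΞ
        have hΞb : ∀ j, j ∉ l' → ∀ w, Ξ w j = w j := by
          intro j hj w
          simp only [hΞ, Equiv.Perm.mul_apply]
          have hjd : j ∉ l'.drop t0 := fun h => hj (List.mem_of_mem_drop h)
          have h1 := perm_inv_bit j (sweepQ (resample R B B') (l'.drop t0))
            (fun w => sweepQ_bit _ _ j hjd w) (sweepQ A l' w)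
          rw [h1, sweepQ_bit _ _ j hj]
        have hK : ∀ d : Tab I, Kl l' (A, resample R B (resample S B' d)) =
            (sweepQ d (l'.take t0))⁻¹ * Ξ := by
          intro d
          simp only [Kl, hΞ]
          have e1 : sweepQ (resample R B (resample S B' d)) l' =
              sweepQ (resample R B B') (l'.drop t0) * sweepQ d (l'.take t0) := by
            conv_lhs => rw [hl12]
            rw [sweepQ_append]
            congr 1
            · refine sweepQ_congr_list _ _ _ fun a ha => ?_
              have haS := hdisj a ha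
              by_cases haR : a ∈ R
              · simp only [resample, haR, if_true, haS, if_false]
              · simp only [resample, haR, if_false]
            · refine sweepQ_congr_list _ _ _ fun a ha => ?_
              have haS : a ∈ S := List.mem_toFinset.2 ha
              simp only [resample, hSR a haS, if_true, haS]
          rw [e1, _root_.mul_inv_rev, mul_assoc]
        have := hb i l' List.suffix_rfl hP Ξ hΞb
        simp only [← ht0] at this
        refine le_of_eq_of_le (avg_congr fun d => ?_) this
        unfold lvlInv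
        rw [hK]
      have hstep := avg_mul_le_of_window
        (fun B' : Tab I => lvlInv G A i l' (resample R B B') ^ θ)
        (fun B' : Tab I => Cls G θ Pc A l' (resample R B B')) S (Real.exp (b i l'))
        hg (fun B' => by linarith [Cls_ge_one G hθ Pc A l' (resample R B B')]) hf
      refine hstep.trans ?_
      rw [Real.exp_add]
      exact mul_le_mul_of_nonneg_left ih' (Real.exp_pos _).le
    · simp only [hP, if_false, one_mul, zero_add]
      exact ih'

/-- **Hölder over the residues, then the peel lemma.** -/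
theorem block_bound {θ : ℝ} (hθ : 0 ≤ θ) (m : ℕ) (hm : 0 < m) (Bc : ℕ → Prop) (t : ℕ → ℕ)
    (ht : ∀ s, Bc s → t s < m) (R : Finset I)
    (b : I → List I → ℝ) (A : Tab I) (l : List I) (hl : l.Nodup)
    (hR : ∀ i l', (i :: l') <:+ l → Bc (l'.length + 1) →
      ∀ a ∈ l'.take (t (l'.length + 1)), a ∈ R)
    (hb : ∀ i l', (i :: l') <:+ l → Bc (l'.length + 1) →
      ∀ Ξ : Equiv.Perm (I → Bool), (∀ j, j ∉ l' → ∀ w, Ξ w j = w j) →
      avg (fun B'' : Tab I => (InvCount (C := Bool) false (G i)
        (sig i ((sweepQ B'' (l'.take (t (l'.length + 1))))⁻¹ * Ξ)) : ℝ) ^ θ) ≤ Real.exp (b i l'))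
    (B : Tab I) :
    avg (fun B' : Tab I => Cls G (θ / m) Bc A l (resample R B B')) ≤
      Real.exp ((1 / (m : ℝ)) * lvlSum Bc b l) := by
  have hm' : (0 : ℝ) < m := by exact_mod_cast hm
  -- the residue classes
  let Pr : ℕ → ℕ → Prop := fun r s => Bc s ∧ s % m = r
  have hS : ∀ s, s ≤ l.length → Bc s → s % m ∈ Finset.range m :=
    fun s _ _ => Finset.mem_range.2 (Nat.mod_lt _ hm)
  have hpt : ∀ X : Tab I, Cls G (θ / m) Bc A l X =
      ∏ r ∈ Finset.range m, (Cls G θ (Pr r) A l X) ^ (1 / (m : ℝ)) := by
    intro X
    rw [Cls_fiber G (θ / m) Bc A (fun s => s % m) (Finset.range m) l hS X]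
    refine Finset.prod_congr rfl fun r _ => ?_
    rw [Cls_rpow G hθ]
    congr 1
    ring
  simp only [hpt]
  have hw : ∑ r ∈ Finset.range m, (1 / (m : ℝ)) = 1 := by
    rw [Finset.sum_const, Finset.card_range, nsmul_eq_mul]
    field_simp
  have hH := avg_prod_rpow_le (Ω := Tab I) (Finset.range m) (fun _ => 1 / (m : ℝ))
    (fun _ _ => by positivity) hw
    (fun r X => Cls G θ (Pr r) A l (resample R B X))
    (fun r _ X => by linarith [Cls_ge_one G hθ (Pr r) A l (resample R B X)])
    (fun r _ => by
      have : avg (fun _ : Tab I => (1 : ℝ)) ≤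
          avg (fun X => Cls G θ (Pr r) A l (resample R B X)) :=
        avg_mono fun X => Cls_ge_one G hθ (Pr r) A l (resample R B X)
      rw [avg_const] at this
      linarith)
  refine hH.trans ?_
  -- each class by the peel lemma
  have hcl : ∀ r ∈ Finset.range m, avg (fun X : Tab I => Cls G θ (Pr r) A l (resample R B X)) ≤
      Real.exp (lvlSum (Pr r) b l) := by
    intro r hr
    refine peelL G hθ (Pr r) t R b A l hl ?_ ?_ ?_ B
    · rintro s s' ⟨hBs, hrs⟩ ⟨hBs', hrs'⟩ hlt
      have h1 : s' % m = s % m := by rw [hrs, hrs']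
      have h2 : m ∣ s - s' := (Nat.modEq_iff_dvd' hlt.le).1 h1
      have h3 : m ≤ s - s' := Nat.le_of_dvd (by omega) h2
      have h4 := ht s hBs
      omega
    · intro i l' hs hP
      exact hR i l' hs hP.1
    · intro i l' hs hP
      exact hb i l' hs hP.1
  have hprod : ∏ r ∈ Finset.range m,
      (avg (fun X : Tab I => Cls G θ (Pr r) A l (resample R B X))) ^ (1 / (m : ℝ)) ≤
      ∏ r ∈ Finset.range m, (Real.exp (lvlSum (Pr r) b l)) ^ (1 / (m : ℝ)) := by
    refine Finset.prod_le_prod (fun r _ => Real.rpow_nonneg (avg_nonneg fun X => ?_) _)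
      (fun r hr => Real.rpow_le_rpow (avg_nonneg fun X => ?_) (hcl r hr) (by positivity))
    · linarith [Cls_ge_one G hθ (Pr r) A l (resample R B X)]
    · linarith [Cls_ge_one G hθ (Pr r) A l (resample R B X)]
  refine hprod.trans (le_of_eq ?_)
  simp only [← Real.exp_mul]
  rw [← Real.exp_sum]
  congr 1
  rw [lvlSum_fiber Bc b (fun s => s % m) (Finset.range m) l hS, Finset.mul_sum]
  refine Finset.sum_congr rfl fun r _ => ?_
  ring

end Cls

end Crest.Agent.Thorp
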