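import Mathlib
import Crest.Agent.Lib.Thorp.PeelMain
import Crest.Agent.Lib.Thorp.Cost

/-!
# Step E: the Hölder scheme over the classes of levels.

Three classes of levels: `s ≤ 256` (`32` residues, the next `min (s-1) 31` layers), and `s > 256` with
`clog₂ s` even or odd (dyadic blocks with `m = 2 ^ (clog₂ s - 2)` residues, exponent `θ = m / 4`, the next
`m - 1` layers).

`main_abstract`: `E_B ∏_{levels} Inv ^ (1/40) ≤ exp ((1/40) ∑_{levels} lam)`, given the window
bounds at each level.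
-/

set_option autoImplicit false
set_option linter.unusedSectionVars false
set_option linter.unusedVariables false

namespace Crest.Agent.Thorp

open Finset
open scoped Classical

section Main

variable {I : Type*} [Fintype I] [DecidableEq I] (G : I → Finset (I → Bool))

/-- The window at a small level. -/
def tSmall (s : ℕ) : ℕ := min (s - 1) 31

/-- The dyadic block of a level. -/
def blockL (a s : ℕ) : Prop := 256 < s ∧ Nat.clog 2 s = a

/-- The last `n` elements of a list. -/
def lowS (l : List I) (n : ℕ) : Finset I := (l.drop (l.length - n)).toFinset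

theorem mem_lowS_of_suffix {l l'' : List I} {n : ℕ} (h : l'' <:+ l) (hn : l''.length ≤ n) {x : I}
    (hx : x ∈ l'') : x ∈ lowS l n := by
  unfold lowS
  rw [List.mem_toFinset]
  have h1 : l.drop (l.length - n) <:+ l := List.drop_suffix _ _
  have h2 : l'' <:+ l.drop (l.length - n) := by
    refine List.suffix_of_suffix_length_le h h1 ?_
    rw [List.length_drop]
    have := h.length_le
    omega
  exact h2.subset hx

theorem not_mem_lowS {l l' : List I} {i : I} (hl : l.Nodup) (h : (i :: l') <:+ l) {T n : ℕ}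
    (hn : n + T ≤ l'.length) {x : I} (hx : x ∈ l'.take T) : x ∉ lowS l n := by
  intro hmem
  unfold lowS at hmem
  rw [List.mem_toFinset] at hmem
  have hs : l' <:+ l := (List.suffix_cons _ _).trans h
  have h1 : l.drop (l.length - n) <:+ l := List.drop_suffix _ _
  have h2 : l'.drop T <:+ l := (List.drop_suffix _ _).trans hs
  have h3 : l.drop (l.length - n) <:+ l'.drop T := by
    refine List.suffix_of_suffix_length_le h1 h2 ?_
    rw [List.length_drop, List.length_drop]
    have := hs.length_le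
    omega
  have hx2 : x ∈ l'.drop T := h3.subset hmem
  have hnd : l'.Nodup := hl.sublist hs.sublist
  have h12 : (l'.take T ++ l'.drop T).Nodup := by rw [List.take_append_drop]; exact hnd
  exact (List.disjoint_of_nodup_append h12) hx hx2

theorem Cls_congr_pred {θ : ℝ} {Pc Pc' : ℕ → Prop} (h : ∀ s, Pc s ↔ Pc' s) (A : Tab I) (l : List I)
    (B : Tab I) : Cls G θ Pc A l B = Cls G θ Pc' A l B := by
  have : Pc = Pc' := funext fun s => propext (h s)
  rw [this]

theorem lvlSum_congr_pred {Pc Pc' : ℕ → Prop} (h : ∀ s, Pc s ↔ Pc' s) (b : I → List I → ℝ)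
    (l : List I) : lvlSum Pc b l = lvlSum Pc' b l := by
  have : Pc = Pc' := funext fun s => propext (h s)
  rw [this]

theorem clog_ge_nine {s : ℕ} (hs : 256 < s) : 9 ≤ Nat.clog 2 s := by
  by_contra hc
  have h1 : Nat.clog 2 s ≤ 8 := by omega
  have h2 := (Nat.clog_le_iff_le_pow (b := 2) (by norm_num)).1 h1
  norm_num at h2
  omega

/-- The bound for a dyadic block. -/
theorem block_big (lam : I → List I → ℝ) (A : Tab I) (l : List I) (hl : l.Nodup) (a : ℕ) (ha : 9 ≤ a)
    (hbig : ∀ i l', (i :: l') <:+ l → blockL a (l'.length + 1) →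
      ∀ Ξ : Equiv.Perm (I → Bool), (∀ j, j ∉ l' → ∀ w, Ξ w j = w j) →
      avg (fun B'' : Tab I => (InvCount (C := Bool) false (G i)
        (sig i ((sweepQ B'' (l'.take (2 ^ (a - 2) - 1)))⁻¹ * Ξ)) : ℝ) ^ (((2 ^ (a - 2) : ℕ) : ℝ) / 4)) ≤
        Real.exp ((((2 ^ (a - 2) : ℕ) : ℝ) / 4) * lam i l'))
    (B : Tab I) :
    avg (fun B' : Tab I => Cls G (1 / 4) (blockL a) A l
        (resample (lowS l (2 ^ a) \ lowS l (2 ^ (a - 2))) B B')) ≤
      Real.exp ((1 / 4) * lvlSum (blockL a) lam l) := by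
  set m : ℕ := 2 ^ (a - 2) with hm
  have hm0 : 0 < m := by rw [hm]; positivity
  have hm' : (0 : ℝ) < m := by exact_mod_cast hm0
  have hθ : (0 : ℝ) ≤ (m : ℝ) / 4 := by positivity
  have h1 := block_bound G hθ m hm0 (blockL a) (fun _ => m - 1) (fun s _ => by omega)
    (lowS l (2 ^ a) \ lowS l (2 ^ (a - 2))) (fun i l' => ((m : ℝ) / 4) * lam i l') A l hl
    ?_ hbig B
  · have e1 : (m : ℝ) / 4 / (m : ℝ) = 1 / 4 := by field_simp
    rw [e1, lvlSum_const_mul] at h1
    refine h1.trans (le_of_eq ?_)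
    congr 1
    field_simp
  · -- the windows lie in the resampled layers
    intro i l' hs hB x hx
    obtain ⟨h256, hc⟩ := hB
    have hle : l'.length + 1 ≤ 2 ^ a := by
      rw [← hc]; exact Nat.le_pow_clog (by norm_num) _
    have hlt : 2 ^ (a - 1) < l'.length + 1 := by
      have h := Nat.pow_pred_clog_lt_self (b := 2) (by norm_num) (x := l'.length + 1) (by omega)
      rw [hc] at h
      simpa using h
    have hpow : 2 ^ (a - 1) = 2 * m := by
      rw [hm, show a - 1 = (a - 2) + 1 by omega, pow_succ]; ring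
    rw [Finset.mem_sdiff]
    constructor
    · refine mem_lowS_of_suffix ((List.suffix_cons _ _).trans hs) (by omega)
        (List.mem_of_mem_take hx)
    · exact not_mem_lowS hl hs (by omega) hx

/-- A block does not see the window of a higher block. -/
theorem block_indep (A : Tab I) (l : List I) (a a' : ℕ) (haa : a' + 2 ≤ a)
    (B d : Tab I) :
    Cls G (1 / 4) (blockL a') A l (resample (lowS l (2 ^ a) \ lowS l (2 ^ (a - 2))) B d) =
      Cls G (1 / 4) (blockL a') A l B := by
  refine Cls_congr G _ _ A {x | x ∉ lowS l (2 ^ a) \ lowS l (2 ^ (a - 2))} l ?_ _ _ ?_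
  · intro j l'' hs hP x hx hmem
    obtain ⟨h256, hc⟩ := hP
    have hle : l''.length + 1 ≤ 2 ^ a' := by
      rw [← hc]; exact Nat.le_pow_clog (by norm_num) _
    have hle2 : 2 ^ a' ≤ 2 ^ (a - 2) := Nat.pow_le_pow_right (by norm_num) (by omega)
    have h3 : x ∈ lowS l (2 ^ (a - 2)) :=
      mem_lowS_of_suffix ((List.suffix_cons _ _).trans hs) (by omega) hx
    exact (Finset.mem_sdiff.1 hmem).2 h3
  · intro x hx
    exact if_neg hx

/-- The bound for a parity class. -/
theorem parity_bound (lam : I → List I → ℝ) (A : Tab I) (l : List I) (hl : l.Nodup) (p : ℕ)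
    (hbig : ∀ i l', (i :: l') <:+ l → 256 < l'.length + 1 →
      ∀ Ξ : Equiv.Perm (I → Bool), (∀ j, j ∉ l' → ∀ w, Ξ w j = w j) →
      avg (fun B'' : Tab I => (InvCount (C := Bool) false (G i)
        (sig i ((sweepQ B'' (l'.take (bigM (l'.length + 1) - 1)))⁻¹ * Ξ)) : ℝ) ^
          (((bigM (l'.length + 1) : ℕ) : ℝ) / 4)) ≤
        Real.exp ((((bigM (l'.length + 1) : ℕ) : ℝ) / 4) * lam i l')) :
    avg (fun B : Tab I => Cls G (1 / 4) (fun s => 256 < s ∧ Nat.clog 2 s % 2 = p) A l B) ≤
      Real.exp ((1 / 4) * lvlSum (fun s => 256 < s ∧ Nat.clog 2 s % 2 = p) lam l) := by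
  set Pp : ℕ → Prop := fun s => 256 < s ∧ Nat.clog 2 s % 2 = p with hPp
  set Amax : ℕ := Nat.clog 2 l.length + 1 with hAmax
  set S : Finset ℕ := (Finset.range Amax).filter (fun a => a % 2 = p ∧ 9 ≤ a) with hS
  have hkey : ∀ s, s ≤ l.length → Pp s → Nat.clog 2 s ∈ S := by
    intro s hs hP
    rw [hS, Finset.mem_filter, Finset.mem_range]
    refine ⟨?_, hP.2, clog_ge_nine hP.1⟩
    have := Nat.clog_mono_right 2 hs
    omega
  have hblock : ∀ a ∈ S, ∀ s, (Pp s ∧ Nat.clog 2 s = a) ↔ blockL a s := by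
    intro a ha s
    have ha2 := (Finset.mem_filter.1 ha).2.1
    constructor
    · rintro ⟨⟨h1, _⟩, h3⟩
      exact ⟨h1, h3⟩
    · rintro ⟨h1, h3⟩
      exact ⟨⟨h1, by rw [h3]; exact ha2⟩, h3⟩
  have hpt : ∀ X : Tab I, Cls G (1 / 4) Pp A l X = ∏ a ∈ S, Cls G (1 / 4) (blockL a) A l X := by
    intro X
    rw [Cls_fiber G (1 / 4) Pp A (fun s => Nat.clog 2 s) S l hkey X]
    exact Finset.prod_congr rfl fun a ha => Cls_congr_pred G (hblock a ha) A l X
  have hsum : lvlSum Pp lam l = ∑ a ∈ S, lvlSum (blockL a) lam l := by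
    rw [lvlSum_fiber Pp lam (fun s => Nat.clog 2 s) S l hkey]
    exact Finset.sum_congr rfl fun a ha => lvlSum_congr_pred (hblock a ha) lam l
  simp only [hpt]
  have hpeel := peel S (fun a X => Cls G (1 / 4) (blockL a) A l X)
    (fun a => lowS l (2 ^ a) \ lowS l (2 ^ (a - 2)))
    (fun a => Real.exp ((1 / 4) * lvlSum (blockL a) lam l))
    (fun a _ X => by linarith [Cls_ge_one G (θ := 1 / 4) (by norm_num) (blockL a) A l X])
    (fun a _ => (Real.exp_pos _).le)
    (fun a ha a' ha' hlt B d => by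
      have h1 := (Finset.mem_filter.1 ha).2.1
      have h2 := (Finset.mem_filter.1 ha').2.1
      exact block_indep G A l a a' (by omega) B d)
    (fun a ha B => by
      have ha9 := (Finset.mem_filter.1 ha).2.2
      refine block_big G lam A l hl a ha9 ?_ B
      intro i l' hs hB Ξ hΞ
      have := hbig i l' hs hB.1 Ξ hΞ
      have hm : bigM (l'.length + 1) = 2 ^ (a - 2) := by
        unfold bigM; rw [hB.2]
      rw [hm] at this
      exact this)
  refine hpeel.trans (le_of_eq ?_)
  rw [← Real.exp_sum, hsum, Finset.mul_sum]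

/-- **The main bound**, given the window bounds at each level. -/
theorem main_abstract (lam : I → List I → ℝ) (A : Tab I) (l : List I) (hl : l.Nodup)
    (hsmall : ∀ i l', (i :: l') <:+ l → l'.length + 1 ≤ 256 →
      ∀ Ξ : Equiv.Perm (I → Bool), (∀ j, j ∉ l' → ∀ w, Ξ w j = w j) →
      avg (fun B'' : Tab I => (InvCount (C := Bool) false (G i)
        (sig i ((sweepQ B'' (l'.take (tSmall (l'.length + 1))))⁻¹ * Ξ)) : ℝ)) ≤
        Real.exp (lam i l'))
    (hbig : ∀ i l', (i :: l') <:+ l → 256 < l'.length + 1 →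
      ∀ Ξ : Equiv.Perm (I → Bool), (∀ j, j ∉ l' → ∀ w, Ξ w j = w j) →
      avg (fun B'' : Tab I => (InvCount (C := Bool) false (G i)
        (sig i ((sweepQ B'' (l'.take (bigM (l'.length + 1) - 1)))⁻¹ * Ξ)) : ℝ) ^
          (((bigM (l'.length + 1) : ℕ) : ℝ) / 4)) ≤
        Real.exp ((((bigM (l'.length + 1) : ℕ) : ℝ) / 4) * lam i l')) :
    avg (fun B : Tab I => Cls G (1 / 40) (fun _ => True) A l B) ≤
      Real.exp ((1 / 40) * lvlSum (fun _ => True) lam l) := by
  -- the classes
  let P0 : ℕ → Prop := fun s => s ≤ 256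
  let P1 : ℕ → Prop := fun s => 256 < s ∧ Nat.clog 2 s % 2 = 0
  let P2 : ℕ → Prop := fun s => 256 < s ∧ Nat.clog 2 s % 2 = 1
  let key : ℕ → ℕ := fun s => if s ≤ 256 then 0 else 1 + Nat.clog 2 s % 2
  have hkey : ∀ s, s ≤ l.length → True → key s ∈ Finset.range 3 := by
    intro s _ _
    simp only [key, Finset.mem_range]
    split_ifs <;> omega
  have hk0 : ∀ s, (True ∧ key s = 0) ↔ P0 s := by
    intro s
    simp only [key, P0, true_and]
    split_ifs with h
    · simp [h]
    · simp [h]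
  have hk1 : ∀ s, (True ∧ key s = 1) ↔ P1 s := by
    intro s
    simp only [key, P1, true_and]
    split_ifs with h
    · simp; omega
    · constructor
      · intro e; exact ⟨by omega, by omega⟩
      · rintro ⟨_, e⟩; omega
  have hk2 : ∀ s, (True ∧ key s = 2) ↔ P2 s := by
    intro s
    simp only [key, P2, true_and]
    split_ifs with h
    · simp; omega
    · constructor
      · intro e; exact ⟨by omega, by omega⟩
      · rintro ⟨_, e⟩; omega
  have hpt : ∀ X : Tab I, Cls G (1 / 40) (fun _ => True) A l X =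
      (Cls G (1 / 32) P0 A l X) ^ ((4 : ℝ) / 5) * (Cls G (1 / 4) P1 A l X) ^ ((1 : ℝ) / 10) *
        (Cls G (1 / 4) P2 A l X) ^ ((1 : ℝ) / 10) := by
    intro X
    rw [Cls_fiber G (1 / 40) (fun _ => True) A key (Finset.range 3) l hkey X]
    simp only [Finset.prod_range_succ, Finset.prod_range_zero, one_mul]
    rw [Cls_rpow G (by norm_num), Cls_rpow G (by norm_num), Cls_rpow G (by norm_num)]
    rw [Cls_congr_pred G (hk0) A l X, Cls_congr_pred G hk1 A l X, Cls_congr_pred G hk2 A l X]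
    norm_num
  have hsum : lvlSum (fun _ => True) lam l = lvlSum P0 lam l + lvlSum P1 lam l + lvlSum P2 lam l := by
    rw [lvlSum_fiber (fun _ => True) lam key (Finset.range 3) l hkey]
    simp only [Finset.sum_range_succ, Finset.sum_range_zero, zero_add]
    rw [lvlSum_congr_pred hk0, lvlSum_congr_pred hk1, lvlSum_congr_pred hk2]
  -- the bounds
  have h0 : avg (fun B : Tab I => Cls G (1 / 32) P0 A l B) ≤
      Real.exp ((1 / 32) * lvlSum P0 lam l) := by
    have hb := block_bound G (θ := 1) zero_le_one 32 (by norm_num) P0 tSmall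
      (fun s _ => by unfold tSmall; omega) Finset.univ lam A l hl
      (fun _ _ _ _ _ _ => Finset.mem_univ _)
      (fun i l' hs hP Ξ hΞ => by
        simpa using hsmall i l' hs hP Ξ hΞ) (fun _ _ => false)
    have e1 : ∀ B' : Tab I, resample (Finset.univ : Finset I) (fun _ _ => false) B' = B' := by
      intro B'
      funext i
      simp [resample]
    simp only [e1] at hb
    have e2 : (1 : ℝ) / ((32 : ℕ) : ℝ) = 1 / 32 := by norm_num
    rw [e2] at hb
    exact hb
  have h1 := parity_bound G lam A l hl 0 hbig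
  have h2 := parity_bound G lam A l hl 1 hbig
  simp only [hpt]
  have hmean : ∀ (θ : ℝ) (Pc : ℕ → Prop), 0 ≤ θ → 0 < avg (fun B : Tab I => Cls G θ Pc A l B) := by
    intro θ Pc hθ
    have : avg (fun _ : Tab I => (1 : ℝ)) ≤ avg (fun B : Tab I => Cls G θ Pc A l B) :=
      avg_mono fun X => Cls_ge_one G hθ Pc A l X
    rw [avg_const] at this
    linarith
  have hH := avg_prod_rpow_le (Ω := Tab I) (Finset.univ : Finset (Fin 3))
    ![(4 : ℝ) / 5, 1 / 10, 1 / 10]
    (fun j _ => by fin_cases j <;> norm_num)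
    (by rw [Fin.sum_univ_three]; show (4 : ℝ) / 5 + 1 / 10 + 1 / 10 = 1; norm_num)
    ![fun X => Cls G (1 / 32) P0 A l X, fun X => Cls G (1 / 4) P1 A l X,
      fun X => Cls G (1 / 4) P2 A l X]
    (fun j _ X => by
      fin_cases j
      · simpa using by linarith [Cls_ge_one G (θ := 1 / 32) (by norm_num) P0 A l X]
      · simpa using by linarith [Cls_ge_one G (θ := 1 / 4) (by norm_num) P1 A l X]
      · simpa using by linarith [Cls_ge_one G (θ := 1 / 4) (by norm_num) P2 A l X])
    (fun j _ => by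
      fin_cases j
      · exact hmean _ _ (by norm_num)
      · exact hmean _ _ (by norm_num)
      · exact hmean _ _ (by norm_num))
  simp only [Fin.prod_univ_three] at hH
  have e : ∀ X : Tab I,
      (Cls G (1 / 32) P0 A l X) ^ ((4 : ℝ) / 5) * (Cls G (1 / 4) P1 A l X) ^ ((1 : ℝ) / 10) *
        (Cls G (1 / 4) P2 A l X) ^ ((1 : ℝ) / 10) =
      (![fun X => Cls G (1 / 32) P0 A l X, fun X => Cls G (1 / 4) P1 A l X,
      fun X => Cls G (1 / 4) P2 A l X] 0 X) ^ (![(4 : ℝ) / 5, 1 / 10, 1 / 10] 0) *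
      (![fun X => Cls G (1 / 32) P0 A l X, fun X => Cls G (1 / 4) P1 A l X,
      fun X => Cls G (1 / 4) P2 A l X] 1 X) ^ (![(4 : ℝ) / 5, 1 / 10, 1 / 10] 1) *
      (![fun X => Cls G (1 / 32) P0 A l X, fun X => Cls G (1 / 4) P1 A l X,
      fun X => Cls G (1 / 4) P2 A l X] 2 X) ^ (![(4 : ℝ) / 5, 1 / 10, 1 / 10] 2) := fun X => rfl
  refine le_trans (le_of_eq (avg_congr e)) (hH.trans ?_)
  have hn : ∀ (θ : ℝ) (Pc : ℕ → Prop), 0 ≤ θ → 0 ≤ avg (fun B : Tab I => Cls G θ Pc A l B) :=
    fun θ Pc hθ => (hmean θ Pc hθ).le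
  have b0 : (avg (fun B : Tab I => Cls G (1 / 32) P0 A l B)) ^ ((4 : ℝ) / 5) ≤
      Real.exp ((4 / 5) * ((1 / 32) * lvlSum P0 lam l)) := by
    have := Real.rpow_le_rpow (hn _ _ (by norm_num)) h0 (show (0 : ℝ) ≤ 4 / 5 by norm_num)
    rwa [← Real.exp_mul, mul_comm ((1 / 32) * lvlSum P0 lam l)] at this
  have b1 : (avg (fun B : Tab I => Cls G (1 / 4) P1 A l B)) ^ ((1 : ℝ) / 10) ≤
      Real.exp ((1 / 10) * ((1 / 4) * lvlSum P1 lam l)) := by
    have := Real.rpow_le_rpow (hn _ _ (by norm_num)) h1 (show (0 : ℝ) ≤ 1 / 10 by norm_num)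
    rwa [← Real.exp_mul, mul_comm ((1 / 4) * lvlSum P1 lam l)] at this
  have b2 : (avg (fun B : Tab I => Cls G (1 / 4) P2 A l B)) ^ ((1 : ℝ) / 10) ≤
      Real.exp ((1 / 10) * ((1 / 4) * lvlSum P2 lam l)) := by
    have := Real.rpow_le_rpow (hn _ _ (by norm_num)) h2 (show (0 : ℝ) ≤ 1 / 10 by norm_num)
    rwa [← Real.exp_mul, mul_comm ((1 / 4) * lvlSum P2 lam l)] at this
  have hprod := mul_le_mul (mul_le_mul b0 b1 (Real.rpow_nonneg (hn _ _ (by norm_num)) _)
    (Real.exp_pos _).le) b2 (Real.rpow_nonneg (hn _ _ (by norm_num)) _)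
    (mul_nonneg (Real.exp_pos _).le (Real.exp_pos _).le)
  refine le_trans (le_of_eq ?_) (hprod.trans (le_of_eq ?_))
  · rfl
  · rw [← Real.exp_add, ← Real.exp_add, hsum]
    congr 1
    ring

end Main

end Crest.Agent.Thorp
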