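import Mathlib
import Crest.Agent.Lib.Thorp.PeelMain2

/-!
# Step E: the final form.

For `l` nodup, `a : Tab I`, `x` injective:
`E_b (WW l (a,b) x) ^ (1/40) ≤ exp (Wsum l a x / 40)`.

* `invI_le_InvCount`: `invI i x (K ∘ L ∘ x) ≤ InvCount false (dblG i x) (sig i K)`.
* `GG`: the doubled sets along the list, `WW_rpow_le`, `lvlSum_lam_eq`.
* `level_big`: the window bound at the levels `s > 256`.
-/

set_option autoImplicit false
set_option linter.unusedSectionVars false
set_option linter.unusedVariables false

namespace Crest.Agent.Thorp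

open Finset

section Inv

variable {I A : Type*} [Fintype I] [DecidableEq I] [Fintype A] [DecidableEq A]

theorem layerFun_eq_phi_or (i : I) (c : (I → Bool) → Bool) (w : I → Bool) :
    layerFun i c w = w ∨ layerFun i c w = phi i w := by
  by_cases h : c (Function.update w i false) = true
  · right
    funext j
    by_cases hj : j = i
    · subst hj
      rw [layerFun_same, phi_same, h]
      cases w j <;> rfl
    · rw [layerFun_ne hj, phi_ne i hj]
  · left
    have h' : c (Function.update w i false) = false := by simpa using h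
    funext j
    by_cases hj : j = i
    · subst hj
      rw [layerFun_same, h']
      cases w j <;> rfl
    · rw [layerFun_ne hj]

theorem eq_phi_of_clr_eq {i : I} {a b : I → Bool} (h : clr i a = clr i b) (hne : a ≠ b) :
    a = phi i b := by
  have hj : ∀ j, j ≠ i → a j = b j := by
    intro j hj
    have := congrFun h j
    simpa [clr, Function.update_of_ne hj] using this
  funext j
  by_cases hji : j = i
  · subst hji
    rw [phi_same]
    by_contra hc
    apply hne
    funext k
    by_cases hk : k = j
    · subst hk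
      cases ha : a k <;> cases hb : b k <;> simp_all
    · exact hj k hk
  · rw [phi_ne i hji]
    exact hj j hji

theorem clr_phi (i : I) (w : I → Bool) : clr i (phi i w) = clr i w := by
  funext j
  by_cases hj : j = i
  · subst hj; simp [clr]
  · simp [clr, Function.update_of_ne hj, phi_ne i hj]

/-- An even set contains the partner of each of its elements. -/
theorem even_flip {i : I} {x : A → I → Bool} (hx : Function.Injective x) {R : Finset A}
    (hR : EvenFor (fun t => clr i (x t)) R) {t : A} (ht : t ∈ R) : ∃ t' ∈ R, x t' = phi i (x t) := by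
  classical
  have hev := hR (clr i (x t))
  set F := R.filter (fun t' => clr i (x t') = clr i (x t)) with hF
  have htF : t ∈ F := by simp [hF, ht]
  have hpos : 0 < F.card := Finset.card_pos.2 ⟨t, htF⟩
  have h1 : 1 < F.card := by
    obtain ⟨m, hm⟩ := hev
    omega
  obtain ⟨t', ht', hne⟩ := Finset.exists_mem_ne h1 t
  have ht'2 := Finset.mem_filter.1 ht'
  exact ⟨t', ht'2.1, eq_phi_of_clr_eq ht'2.2 (fun e => hne (hx e))⟩

/-- Occupation by `x` is the same as occupation by `L ∘ x` on an even set. -/
theorem occ_layer {i : I} {x : A → I → Bool} (hx : Function.Injective x) {R : Finset A}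
    (hR : EvenFor (fun t => clr i (x t)) R) (c : (I → Bool) → Bool) (z : I → Bool) :
    (∃ t ∈ R, x t = z) ↔ ∃ t ∈ R, layer i c (x t) = z := by
  constructor
  · rintro ⟨t, ht, rfl⟩
    rcases layerFun_eq_phi_or i c (x t) with h | h
    · exact ⟨t, ht, h⟩
    · obtain ⟨t', ht', e⟩ := even_flip hx hR ht
      refine ⟨t', ht', ?_⟩
      rw [e, ← h]
      exact layerFun_invol i c (x t)
  · rintro ⟨t, ht, hz⟩
    have hz' : x t = layerFun i c z := by
      rw [← hz]
      exact (layerFun_invol i c (x t)).symm
    rcases layerFun_eq_phi_or i c z with h | h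
    · exact ⟨t, ht, hz'.trans h⟩
    · obtain ⟨t', ht', e⟩ := even_flip hx hR ht
      refine ⟨t', ht', ?_⟩
      rw [e, hz', h, phi_phi]

theorem phi_bit_false {i : I} {w : I → Bool} (h : w i = true) : phi i w i = false := by
  rw [phi_same, h]; rfl

theorem phi_bit_true {i : I} {w : I → Bool} (h : w i = false) : phi i w i = true := by
  rw [phi_same, h]; rfl

theorem sig_bit {i : I} {K : Equiv.Perm (I → Bool)} (hK : ∀ w, K w i = w i) (w : I → Bool) :
    sig i K w i = w i := by
  simp only [sig, Equiv.Perm.mul_apply]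
  rw [phi_same, perm_inv_bit i K hK, phi_same, hK]
  simp

/-- **The number of even sets is a number of invariant colourings.** -/
theorem invI_le_InvCount (i : I) {x : A → I → Bool} (hx : Function.Injective x)
    (c : (I → Bool) → Bool) (K : Equiv.Perm (I → Bool)) (hK : ∀ w, K w i = w i) :
    invI i x (fun t => K (layer i c (x t))) ≤ InvCount (C := Bool) false (dblG i x) (sig i K) := by
  classical
  have hy : Function.Injective (fun t => K (layer i c (x t))) :=
    fun a b h => hx ((layer i c).injective (K.injective h))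
  -- the key implication
  have key : ∀ R : Finset A, EvenFor (fun t => clr i (x t)) R →
      EvenFor (fun t => clr i (K (layer i c (x t)))) R →
      ∀ w, (∃ t ∈ R, x t = w) ↔ ∃ t ∈ R, x t = phi i (K⁻¹ (phi i (K w))) := by
    intro R hRx hRy w
    rw [occ_layer hx hRx c w, ← Iff.comm]
    constructor
    · rintro ⟨t, ht, e⟩
      -- `phi (x t)` is occupied
      obtain ⟨t', ht', e'⟩ := even_flip hx hRx ht
      have he' : x t' = K⁻¹ (phi i (K w)) := by
        rw [e', e, phi_phi]
      have hoc : ∃ s ∈ R, layer i c (x s) = K⁻¹ (phi i (K w)) :=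
        (occ_layer hx hRx c _).1 ⟨t', ht', he'⟩
      obtain ⟨s, hs, es⟩ := hoc
      obtain ⟨s', hs', es'⟩ := even_flip hy hRy hs
      refine ⟨s', hs', ?_⟩
      have : K (layer i c (x s')) = phi i (K (layer i c (x s))) := es'
      rw [es] at this
      have e3 : K (K⁻¹ (phi i (K w))) = phi i (K w) := by simp
      rw [e3, phi_phi] at this
      exact K.injective this
    · rintro ⟨t, ht, e⟩
      obtain ⟨s', hs', es'⟩ := even_flip hy hRy ht
      have h2 : K (layer i c (x s')) = phi i (K w) := by
        have : K (layer i c (x s')) = phi i (K (layer i c (x t))) := es'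
        rw [this, e]
      have h3 : layer i c (x s') = K⁻¹ (phi i (K w)) := by
        rw [← h2]; simp
      have hoc : ∃ s ∈ R, x s = K⁻¹ (phi i (K w)) :=
        (occ_layer hx hRx c _).2 ⟨s', hs', h3⟩
      obtain ⟨s, hs, es⟩ := hoc
      obtain ⟨u, hu, eu⟩ := even_flip hx hRx hs
      exact ⟨u, hu, by rw [eu, es]⟩
  unfold invI InvCount
  refine Finset.card_le_card_of_injOn
    (fun R w => decide (w i = false ∧ ∃ t ∈ R, x t = w)) ?_ ?_
  · intro R hR
    have hR' := (Finset.mem_filter.1 (Finset.mem_coe.1 hR)).2
    obtain ⟨hRx, hRy⟩ := hR'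
    refine Finset.mem_coe.2 (Finset.mem_filter.2 ⟨Finset.mem_univ _, ?_, ?_⟩)
    · intro w hw
      simp only [decide_eq_false_iff_not]
      rintro ⟨hw0, t, ht, e⟩
      apply hw
      obtain ⟨t', ht', e'⟩ := even_flip hx hRx ht
      unfold dblG
      rw [Finset.mem_filter]
      refine ⟨Finset.mem_image.2 ⟨t, Finset.mem_univ _, e⟩, hw0, ?_⟩
      exact Finset.mem_image.2 ⟨t', Finset.mem_univ _, by rw [e', e]⟩
    · intro w
      have hb : sig i K w i = w i := sig_bit hK w
      have e1 : sig i K w = phi i (K⁻¹ (phi i (K w))) := rfl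
      simp only [decide_eq_decide]
      rw [hb, e1, ← key R hRx hRy w]
  · intro R hR R' hR' he
    have h1 := (Finset.mem_filter.1 (Finset.mem_coe.1 hR)).2.1
    have h2 := (Finset.mem_filter.1 (Finset.mem_coe.1 hR')).2.1
    have hsub : ∀ {R R' : Finset A}, EvenFor (fun t => clr i (x t)) R →
        EvenFor (fun t => clr i (x t)) R' →
        ((fun w => decide (w i = false ∧ ∃ t ∈ R, x t = w)) : (I → Bool) → Bool) =
          (fun w => decide (w i = false ∧ ∃ t ∈ R', x t = w)) → R ⊆ R' := by
      intro R R' h1 h2 he t ht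
      by_cases hbit : x t i = false
      · have := congrFun he (x t)
        simp only [decide_eq_decide] at this
        obtain ⟨_, t', ht', e⟩ := this.1 ⟨hbit, t, ht, rfl⟩
        rwa [← hx e]
      · obtain ⟨t1, ht1, e1⟩ := even_flip hx h1 ht
        have hb1 : x t1 i = false := by
          rw [e1]; exact phi_bit_false (by simpa using hbit)
        have := congrFun he (x t1)
        simp only [decide_eq_decide] at this
        obtain ⟨_, t', ht', e⟩ := this.1 ⟨hb1, t1, ht1, rfl⟩
        obtain ⟨t'', ht'', e''⟩ := even_flip hx h2 ht'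
        have : x t'' = x t := by rw [e'', e, e1, phi_phi]
        rwa [← hx this]
    exact Finset.Subset.antisymm (hsub h1 h2 he) (hsub h2 h1 he.symm)

end Inv

section Family

variable {I A : Type*} [Fintype I] [DecidableEq I] [Fintype A] [DecidableEq A]

/-- The doubled sets along the list. -/
def GG : List I → Tab I → (A → I → Bool) → I → Finset (I → Bool)
  | [], _, _, _ => ∅
  | i :: l, a, x, j => if j = i then dblG i x else GG l a (fun t => layer i (a i) (x t)) j

theorem GG_side (l : List I) (a : Tab I) (x : A → I → Bool) (j : I) (w : I → Bool)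
    (h : w ∈ GG l a x j) : w j = false := by
  induction l generalizing x with
  | nil => simp [GG] at h
  | cons i l ih =>
    simp only [GG] at h
    split_ifs at h with hj
    · subst hj
      unfold dblG at h
      exact (Finset.mem_filter.1 h).2.1
    · exact ih _ h

theorem Cls_congr_G {G G' : I → Finset (I → Bool)} (θ : ℝ) (Pc : ℕ → Prop) (a : Tab I) (l : List I)
    (h : ∀ j ∈ l, G j = G' j) (B : Tab I) : Cls G θ Pc a l B = Cls G' θ Pc a l B := by
  induction l with
  | nil => rfl
  | cons i l ih =>
    simp only [Cls]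
    rw [ih (fun j hj => h j (List.mem_cons_of_mem _ hj))]
    unfold lvlInv
    rw [h i List.mem_cons_self]

theorem lvlInv_eq {G : I → Finset (I → Bool)} (a : Tab I) (i : I) (l' : List I) (B : Tab I) :
    lvlInv G a i l' B = (InvCount (C := Bool) false (G i) (sig i (Kl l' (a, B))) : ℝ) := rfl

/-- `WW` is bounded by the class product. -/
theorem WW_rpow_le {θ : ℝ} (hθ : 0 ≤ θ) (l : List I) (hl : l.Nodup) (a b : Tab I) {x : A → I → Bool}
    (hx : Function.Injective x) :
    (WW l (a, b) x) ^ θ ≤ Cls (GG l a x) θ (fun _ => True) a l b := by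
  induction l generalizing x with
  | nil => simp [WW, Cls]
  | cons i l ih =>
    have hi : i ∉ l := (List.nodup_cons.1 hl).1
    have hl' : l.Nodup := (List.nodup_cons.1 hl).2
    have hx' : Function.Injective (fun t => layer i (a i) (x t)) :=
      fun u v h => hx ((layer i (a i)).injective h)
    simp only [WW, Cls, if_true]
    rw [Real.mul_rpow (Nat.cast_nonneg _) (WW_nonneg _ _ _)]
    have e : Cls (GG (i :: l) a x) θ (fun _ => True) a l b =
        Cls (GG l a (fun t => layer i (a i) (x t))) θ (fun _ => True) a l b := by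
      refine Cls_congr_G _ _ _ _ (fun j hj => ?_) _
      have hne : j ≠ i := fun e => hi (e ▸ hj)
      simp only [GG, if_neg hne]
    rw [e]
    have h1 : ((invI i x (fun t => Kl l (a, b) (layer i (a i) (x t))) : ℕ) : ℝ) ≤
        lvlInv (GG (i :: l) a x) a i l b := by
      rw [lvlInv_eq]
      have e2 : GG (i :: l) a x i = dblG i x := by simp [GG]
      rw [e2]
      exact_mod_cast invI_le_InvCount i hx (a i) (Kl l (a, b)) (fun w => Kl_bit l (a, b) i hi w)
    refine mul_le_mul (Real.rpow_le_rpow (Nat.cast_nonneg _) h1 hθ) (ih hl' hx')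
      (Real.rpow_nonneg (WW_nonneg _ _ _) _) (Real.rpow_nonneg ?_ _)
    linarith [lvlInv_ge_one (GG (i :: l) a x) a i l b]

/-- The sum of the costs. -/
theorem lvlSum_lam_eq (l : List I) (hl : l.Nodup) (a : Tab I) (x : A → I → Bool)
    (G : I → Finset (I → Bool)) (hG : ∀ j ∈ l, G j = GG l a x j) :
    lvlSum (fun _ => True) (fun i l' => lam i l' (G i)) l = Wsum l a x := by
  induction l generalizing x with
  | nil => rfl
  | cons i l ih =>
    have hi : i ∉ l := (List.nodup_cons.1 hl).1
    have hl' : l.Nodup := (List.nodup_cons.1 hl).2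
    simp only [lvlSum, Wsum, if_true]
    have e1 : G i = dblG i x := by
      rw [hG i List.mem_cons_self]; simp [GG]
    rw [e1, ih hl' _ (fun j hj => ?_)]
    have hne : j ≠ i := fun e => hi (e ▸ hj)
    rw [hG j (List.mem_cons_of_mem _ hj)]
    simp only [GG, if_neg hne]

end Family

section Big

variable {I : Type*} [Fintype I] [DecidableEq I]

/-- A power of the count is a count with more colours. -/
theorem InvCount_pow_le (G : Finset (I → Bool)) (σ : Equiv.Perm (I → Bool)) (θ : ℕ) :
    (InvCount (C := Bool) false G σ) ^ θ ≤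
      InvCount (C := Fin θ → Bool) (fun _ => false) G σ := by
  classical
  unfold InvCount
  set S := Finset.univ.filter (fun d : (I → Bool) → Bool =>
    (∀ w, w ∉ G → d w = false) ∧ ∀ w, d (σ w) = d w) with hS
  have hc : S.card ^ θ = (Fintype.piFinset (fun _ : Fin θ => S)).card := by
    rw [Fintype.card_piFinset_const]
  rw [hc]
  refine Finset.card_le_card_of_injOn (fun D w j => D j w) ?_ ?_
  · intro D hD
    have hD' := Fintype.mem_piFinset.1 (Finset.mem_coe.1 hD)
    refine Finset.mem_coe.2 (Finset.mem_filter.2 ⟨Finset.mem_univ _, ?_, ?_⟩)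
    · intro w hw
      funext j
      exact ((Finset.mem_filter.1 (hD' j)).2.1) w hw
    · intro w
      funext j
      exact ((Finset.mem_filter.1 (hD' j)).2.2) w
  · intro D _ D' _ he
    funext j w
    exact congrFun (congrFun he w) j

theorem card_image_perm (G : Finset (I → Bool)) (g : Equiv.Perm (I → Bool)) :
    (G.image g).card = G.card := Finset.card_image_of_injective _ g.injective

theorem lam_of_three (i : I) (l' : List I) (G : Finset (I → Bool)) (h : 3 ≤ l'.length) :
    lam i l' G = wlev (l'.length + 1) * G.card := by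
  match l', h with
  | a :: b :: c :: r, _ => rfl

/-- The window bound at a big level. -/
theorem level_big (i : I) (l' : List I) (hl' : l'.Nodup) (hi : i ∉ l') (G : Finset (I → Bool))
    (hG : ∀ w ∈ G, w i = false) (hs : 256 < l'.length + 1) (Ξ : Equiv.Perm (I → Bool))
    (hΞ : ∀ j, j ∉ l' → ∀ w, Ξ w j = w j) :
    avg (fun B'' : Tab I => (InvCount (C := Bool) false G
        (sig i ((sweepQ B'' (l'.take (bigM (l'.length + 1) - 1)))⁻¹ * Ξ)) : ℝ) ^
          (((bigM (l'.length + 1) : ℕ) : ℝ) / 4)) ≤
      Real.exp ((((bigM (l'.length + 1) : ℕ) : ℝ) / 4) * lam i l' G) := by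
  classical
  set s := l'.length + 1 with hs'
  set m := bigM s with hm
  have hclog := clog_ge_nine hs
  have hm2 : m = 4 * 2 ^ (Nat.clog 2 s - 4) := by
    rw [hm]
    unfold bigM
    rw [show Nat.clog 2 s - 2 = (Nat.clog 2 s - 4) + 2 by omega, pow_add]
    ring
  set θ := 2 ^ (Nat.clog 2 s - 4) with hθ
  have hθ1 : m / 4 = θ := by rw [hm2]; simp
  have hmpos : 0 < m := by rw [hm2]; positivity
  have hmR : (0 : ℝ) < m := by exact_mod_cast hmpos
  have hθR : (m : ℝ) / 4 = (θ : ℝ) := by rw [hm2]; push_cast; ring
  -- the list of the window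
  set l₁ := l'.take (m - 1) with hl₁
  have hi₁ : i ∉ l₁ := fun h => hi (List.mem_of_mem_take h)
  have hΞi : ∀ w, Ξ w i = w i := hΞ i hi
  have hlen : m ≤ s := by
    have h1 : 2 ^ (Nat.clog 2 s - 1) < s := by
      have h := Nat.pow_pred_clog_lt_self (b := 2) (by norm_num) (x := s) (by omega)
      simpa using h
    have h2 : m ≤ 2 ^ (Nat.clog 2 s - 1) := by
      rw [hm]; unfold bigM
      exact Nat.pow_le_pow_right (by norm_num) (by omega)
    omega
  have hlen₁ : l₁.reverse.length = m - 1 := by
    rw [List.length_reverse, hl₁, List.length_take]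
    omega
  have hnd₁ : l₁.reverse.Nodup := by
    rw [List.nodup_reverse]
    exact hl'.sublist (List.take_sublist _ _)
  -- the pointwise bound
  have hpt : ∀ B'' : Tab I, (InvCount (C := Bool) false G (sig i ((sweepQ B'' l₁)⁻¹ * Ξ)) : ℝ) ^
      ((m : ℝ) / 4) ≤ (InvCount (C := Fin θ → Bool) (fun _ => false) G
        (sig i ((sweepQ B'' l₁)⁻¹ * Ξ)) : ℝ) := by
    intro B''
    rw [hθR, Real.rpow_natCast]
    exact_mod_cast InvCount_pow_le G _ θ
  refine (avg_mono hpt).trans ?_
  have hD := lemmaD (C := Fin θ → Bool) (fun _ => false) i l₁ hi₁ Ξ hΞi G hG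
  refine hD.trans ?_
  -- the linear bound
  have hcard : ((Fintype.card (Fin θ → Bool) : ℕ) : ℝ) - 1 = (2 : ℝ) ^ θ - 1 := by
    simp
  have hY : ∀ T : Finset (I → Bool), T.card = G.card →
      Yl (C := Fin θ → Bool) (fun _ => false) l₁.reverse (indW T) ≤
        Real.exp (((2 : ℝ) ^ θ - 1) * (3 / 4) ^ (m - 1) * G.card) := by
    intro T hT
    have h := Yl_le_exp (C := Fin θ → Bool) (fun _ => false) l₁.reverse hnd₁
      (x := indW T) (indW_nonneg T) (indW_le_one T)
    rw [hcard, hlen₁, sum_indW, hT] at h
    exact h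
  have h1 := hY (G.image Ξ) (card_image_perm G Ξ)
  have h2 := hY (G.image (Ξ * phi i)) (card_image_perm G _)
  have hlam : lam i l' G = wlev s * G.card := lam_of_three i l' G (by omega)
  have hw : wlev s = ((2 : ℝ) ^ θ - 1) * (3 / 4 : ℝ) ^ (m - 1) * (4 / (m : ℝ)) := by
    unfold wlev
    rw [if_neg (by omega), if_neg (by omega), ← hm, hθ1]
  have e : (m : ℝ) / 4 * lam i l' G = ((2 : ℝ) ^ θ - 1) * (3 / 4) ^ (m - 1) * G.card := by
    rw [hlam, hw]
    field_simp
  rw [e]
  linarith

end Big

end Crest.Agent.Thorp
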