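import Mathlib
import Crest.Agent.Lib.Thorp.Column
import Crest.Agent.Lib.Thorp.Cost
import Crest.Agent.Lib.Thorp.LemmaD

/-!
# Step D: final forms.

* `Y_nil_ind`, `Y_one_ind`, `Y_two_ind_le`: the lists of length `0, 1, 2` on an indicator.
* `exp_bound`, `Yl_two_quad`: the base of the quadratic family.
* `Y_quad`, `Y_ind_le_quad`: the quadratic family.
* `Y_ind_le_linear`: the linear bound on an indicator.
-/

set_option autoImplicit false
set_option linter.unusedSectionVars false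
set_option linter.unusedVariables false

namespace Crest.Agent.Thorp

open Finset

section Numeric

/-- The polynomial. -/
noncomputable def polyS (m : ℝ) : ℝ :=
  (4 / 25 : ℝ) * m ^ 0 + (-143 / 2500 : ℝ) * m ^ 1 + (-12811 / 93750 : ℝ) * m ^ 2 + (-4120319 / 9375000 : ℝ) * m ^ 3 + (120942383 / 390625000 : ℝ) * m ^ 4 + (27599700571 / 175781250000 : ℝ) * m ^ 5 + (2093492687 / 29296875000 : ℝ) * m ^ 6 + (339999439 / 11718750000 : ℝ) * m ^ 7 + (169285441 / 17578125000 : ℝ) * m ^ 8 + (27732731 / 11718750000 : ℝ) * m ^ 9 + (10767497 / 29296875000 : ℝ) * m ^ 10 + (4826809 / 175781250000 : ℝ) * m ^ 11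

theorem polyS_nonneg0 {m : ℝ} (h0 : (0 : ℝ) ≤ m) (h1 : m ≤ (1 / 3 : ℝ)) : 0 ≤ polyS m := by
  have ha : 0 ≤ m - (0 : ℝ) := by linarith
  have hb : 0 ≤ (1 / 3 : ℝ) - m := by linarith
  have key : polyS m = (708588 / 25 : ℝ) * (m - (0 : ℝ)) ^ 0 * ((1 / 3 : ℝ) - m) ^ 11
      + (771002793 / 2500 : ℝ) * (m - (0 : ℝ)) ^ 1 * ((1 / 3 : ℝ) - m) ^ 10
      + (23787935577 / 15625 : ℝ) * (m - (0 : ℝ)) ^ 2 * ((1 / 3 : ℝ) - m) ^ 9
      + (14054993294697 / 3125000 : ℝ) * (m - (0 : ℝ)) ^ 3 * ((1 / 3 : ℝ) - m) ^ 8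
      + (3448761270138621 / 390625000 : ℝ) * (m - (0 : ℝ)) ^ 4 * ((1 / 3 : ℝ) - m) ^ 7
      + (236007613121663601 / 19531250000 : ℝ) * (m - (0 : ℝ)) ^ 5 * ((1 / 3 : ℝ) - m) ^ 6
      + (4593005029308897 / 390625000 : ℝ) * (m - (0 : ℝ)) ^ 6 * ((1 / 3 : ℝ) - m) ^ 5
      + (1016102416491 / 125000 : ℝ) * (m - (0 : ℝ)) ^ 7 * ((1 / 3 : ℝ) - m) ^ 4
      + (122191447269 / 31250 : ℝ) * (m - (0 : ℝ)) ^ 8 * ((1 / 3 : ℝ) - m) ^ 3
      + (622728849 / 500 : ℝ) * (m - (0 : ℝ)) ^ 9 * ((1 / 3 : ℝ) - m) ^ 2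
      + (59062649 / 250 : ℝ) * (m - (0 : ℝ)) ^ 10 * ((1 / 3 : ℝ) - m) ^ 1
      + (3636763 / 180 : ℝ) * (m - (0 : ℝ)) ^ 11 * ((1 / 3 : ℝ) - m) ^ 0 := by
    unfold polyS
    ring
  rw [key]
  positivity

theorem polyS_nonneg1 {m : ℝ} (h0 : (1 / 3 : ℝ) ≤ m) (h1 : m ≤ (2 / 3 : ℝ)) : 0 ≤ polyS m := by
  have ha : 0 ≤ m - (1 / 3 : ℝ) := by linarith
  have hb : 0 ≤ (2 / 3 : ℝ) - m := by linarith
  have key : polyS m = (3636763 / 180 : ℝ) * (m - (1 / 3 : ℝ)) ^ 0 * ((2 / 3 : ℝ) - m) ^ 11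
      + (234272992 / 1125 : ℝ) * (m - (1 / 3 : ℝ)) ^ 1 * ((2 / 3 : ℝ) - m) ^ 10
      + (4344202501 / 4500 : ℝ) * (m - (1 / 3 : ℝ)) ^ 2 * ((2 / 3 : ℝ) - m) ^ 9
      + (124340639284 / 46875 : ℝ) * (m - (1 / 3 : ℝ)) ^ 3 * ((2 / 3 : ℝ) - m) ^ 8
      + (71857740233 / 15000 : ℝ) * (m - (1 / 3 : ℝ)) ^ 4 * ((2 / 3 : ℝ) - m) ^ 7
      + (6980002721717059 / 1171875000 : ℝ) * (m - (1 / 3 : ℝ)) ^ 5 * ((2 / 3 : ℝ) - m) ^ 6
      + (303958571232101203 / 58593750000 : ℝ) * (m - (1 / 3 : ℝ)) ^ 6 * ((2 / 3 : ℝ) - m) ^ 5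
      + (4619997284819797 / 1464843750 : ℝ) * (m - (1 / 3 : ℝ)) ^ 7 * ((2 / 3 : ℝ) - m) ^ 4
      + (7656169634282767 / 5859375000 : ℝ) * (m - (1 / 3 : ℝ)) ^ 8 * ((2 / 3 : ℝ) - m) ^ 3
      + (3075930946689871 / 8789062500 : ℝ) * (m - (1 / 3 : ℝ)) ^ 9 * ((2 / 3 : ℝ) - m) ^ 2
      + (478477102061851 / 8789062500 : ℝ) * (m - (1 / 3 : ℝ)) ^ 10 * ((2 / 3 : ℝ) - m) ^ 1
      + (82365125510911 / 21972656250 : ℝ) * (m - (1 / 3 : ℝ)) ^ 11 * ((2 / 3 : ℝ) - m) ^ 0 := by
    unfold polyS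
    ring
  rw [key]
  positivity

theorem polyS_nonneg2 {m : ℝ} (h0 : (2 / 3 : ℝ) ≤ m) (h1 : m ≤ (1 : ℝ)) : 0 ≤ polyS m := by
  have ha : 0 ≤ m - (2 / 3 : ℝ) := by linarith
  have hb : 0 ≤ (1 : ℝ) - m := by linarith
  have key : polyS m = (82365125510911 / 21972656250 : ℝ) * (m - (2 / 3 : ℝ)) ^ 0 * ((1 : ℝ) - m) ^ 11
      + (410560004056943 / 14648437500 : ℝ) * (m - (2 / 3 : ℝ)) ^ 1 * ((1 : ℝ) - m) ^ 10
      + (83835550045891 / 976562500 : ℝ) * (m - (2 / 3 : ℝ)) ^ 2 * ((1 : ℝ) - m) ^ 9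
      + (276757886138079 / 1953125000 : ℝ) * (m - (2 / 3 : ℝ)) ^ 3 * ((1 : ℝ) - m) ^ 8
      + (16923287879343 / 97656250 : ℝ) * (m - (2 / 3 : ℝ)) ^ 4 * ((1 : ℝ) - m) ^ 7
      + (5925393665867007 / 19531250000 : ℝ) * (m - (2 / 3 : ℝ)) ^ 5 * ((1 : ℝ) - m) ^ 6
      + (6159421609904547 / 9765625000 : ℝ) * (m - (2 / 3 : ℝ)) ^ 6 * ((1 : ℝ) - m) ^ 5
      + (1791523833097833 / 1953125000 : ℝ) * (m - (2 / 3 : ℝ)) ^ 7 * ((1 : ℝ) - m) ^ 4
      + (203343385493304 / 244140625 : ℝ) * (m - (2 / 3 : ℝ)) ^ 8 * ((1 : ℝ) - m) ^ 3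
      + (447942347045703 / 976562500 : ℝ) * (m - (2 / 3 : ℝ)) ^ 9 * ((1 : ℝ) - m) ^ 2
      + (172549685130381 / 1220703125 : ℝ) * (m - (2 / 3 : ℝ)) ^ 10 * ((1 : ℝ) - m) ^ 1
      + (91804976424513 / 4882812500 : ℝ) * (m - (2 / 3 : ℝ)) ^ 11 * ((1 : ℝ) - m) ^ 0 := by
    unfold polyS
    ring
  rw [key]
  positivity


theorem polyS_nonneg {m : ℝ} (h0 : 0 ≤ m) (h1 : m ≤ 1) : 0 ≤ polyS m := by
  by_cases h2 : m ≤ 1 / 3
  · exact polyS_nonneg0 (by simpa using h0) (by simpa using h2)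
  · by_cases h3 : m ≤ 2 / 3
    · exact polyS_nonneg1 (by linarith) h3
    · exact polyS_nonneg2 (by linarith) (by simpa using h1)

/-- The numeric inequality at the base of the quadratic family. -/
theorem exp_bound {m : ℝ} (h0 : 0 ≤ m) (h1 : m ≤ 1) :
    1 + m + 5 / 4 * m ^ 2 + m ^ 3 + m ^ 4 ≤ Real.exp (1.16 * m + 0.52 * m ^ 2) := by
  have ht : 0 ≤ 1.16 * m + 0.52 * m ^ 2 := by positivity
  refine le_trans ?_ (Real.sum_le_exp_of_nonneg ht 7)
  have hS := mul_nonneg h0 (polyS_nonneg h0 h1)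
  simp only [Finset.sum_range_succ, Finset.sum_range_zero, Nat.factorial]
  push_cast
  have key : m * polyS m = (0 + (1.16 * m + 0.52 * m ^ 2) ^ 0 / (1 : ℝ) +
      (1.16 * m + 0.52 * m ^ 2) ^ 1 / ((0 + 1) * 1 : ℝ) +
      (1.16 * m + 0.52 * m ^ 2) ^ 2 / ((1 + 1) * ((0 + 1) * 1) : ℝ) +
      (1.16 * m + 0.52 * m ^ 2) ^ 3 / ((2 + 1) * ((1 + 1) * ((0 + 1) * 1)) : ℝ) +
      (1.16 * m + 0.52 * m ^ 2) ^ 4 / ((3 + 1) * ((2 + 1) * ((1 + 1) * ((0 + 1) * 1))) : ℝ) +
      (1.16 * m + 0.52 * m ^ 2) ^ 5 / ((4 + 1) * ((3 + 1) * ((2 + 1) * ((1 + 1) * ((0 + 1) * 1)))) : ℝ) +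
      (1.16 * m + 0.52 * m ^ 2) ^ 6 /
        ((5 + 1) * ((4 + 1) * ((3 + 1) * ((2 + 1) * ((1 + 1) * ((0 + 1) * 1))))) : ℝ)) -
      (1 + m + 5 / 4 * m ^ 2 + m ^ 3 + m ^ 4) := by
    unfold polyS
    ring
  linarith

/-- The column polynomial at the balanced point. -/
theorem colP_balanced {u v : ℝ} (hu0 : 0 ≤ u) (hv0 : 0 ≤ v) (hu1 : u ≤ 1) (hv1 : v ≤ 1) :
    colP u v u v ≤ Real.exp (4 * psiQ 2 ((u + v) / 2)) := by
  set m := (u + v) / 2 with hm
  have hm0 : 0 ≤ m := by positivity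
  have hm1 : m ≤ 1 := by rw [hm]; linarith
  have h1 : colP u v u v ≤ 1 + m + 5 / 4 * m ^ 2 + m ^ 3 + m ^ 4 := by
    have hd : u * v ≤ m ^ 2 := by
      rw [hm]; nlinarith [sq_nonneg (u - v)]
    have hp : 0 ≤ u * v := by positivity
    have e : colP u v u v = 1 + m + m ^ 2 + (u * v) / 4 + (u * v) * m + (u * v) ^ 2 := by
      rw [hm]; unfold colP; ring
    rw [e]
    have h3 : (u * v) ^ 2 ≤ (m ^ 2) ^ 2 := pow_le_pow_left₀ hp hd 2
    have h4 : (u * v) * m ≤ m ^ 2 * m := mul_le_mul_of_nonneg_right hd hm0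
    nlinarith
  refine h1.trans ((exp_bound hm0 hm1).trans (le_of_eq ?_))
  congr 1
  simp only [psiQ, alphaQ, gammaQ]
  norm_num
  ring

theorem psiQ_eq_psiT (t : ℕ) (x : ℝ) : psiQ t x = psiT t x := rfl

theorem psiQ_zero (t : ℕ) : psiQ t 0 = 0 := psiT_zero t

end Numeric

section Words

variable {I : Type*} [Fintype I] [DecidableEq I]

theorem phi_comm {j j' : I} (hjj : j ≠ j') (w : I → Bool) : phi j' (phi j w) = phi j (phi j' w) := by
  funext k
  by_cases hk' : k = j'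
  · subst hk'
    rw [phi_same, phi_ne j hjj.symm, phi_ne j hjj.symm, phi_same]
  · by_cases hk : k = j
    · subst hk
      rw [phi_ne j' hk', phi_same, phi_same, phi_ne j' hk']
    · rw [phi_ne j' hk', phi_ne j hk, phi_ne j hk, phi_ne j' hk']

theorem phi_ne_self (j : I) (w : I → Bool) : phi j w ≠ w := fun h => by
  have := congrFun h j
  rw [phi_same] at this
  cases hw : w j <;> simp [hw] at this

/-- The sum over all the words as a sum over the columns. -/
theorem sum_columns {j j' : I} (hjj : j ≠ j') (f : (I → Bool) → ℝ) :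
    ∑ w, f w = ∑ w ∈ repsT j j',
      (f w + f (phi j' w) + f (phi j w) + f (phi j (phi j' w))) := by
  rw [sum_side j' f, sum_side j, repsT, Finset.sum_filter]
  refine Finset.sum_congr rfl fun w _ => ?_
  have hne : (phi j w) j' = w j' := phi_ne j hjj.symm w
  by_cases hw : w j = false
  · by_cases hw' : w j' = false
    · rw [if_pos hw, if_pos hw', if_pos (by rw [hne]; exact hw'), if_pos ⟨hw, hw'⟩, phi_comm hjj]
      ring
    · rw [if_pos hw, if_neg hw', if_neg (by rw [hne]; exact hw'), if_neg (fun h => hw' h.2)]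
      ring
  · rw [if_neg hw, if_neg (fun h => hw h.1)]

/-- The base of the quadratic family. -/
theorem Yl_two_quad {j j' : I} (hjj : j ≠ j') {x : (I → Bool) → ℝ} (h0 : ∀ w, 0 ≤ x w)
    (h1 : ∀ w, x w ≤ 1) : Yl false [j, j'] x ≤ Real.exp (∑ w, psiQ 2 (x w)) := by
  have hb0 : ∀ w, 0 ≤ homog j x w := fun w => by
    simp only [homog]
    have := h0 w; have := h0 (phi j w); linarith
  have hb1 : ∀ w, homog j x w ≤ 1 := fun w => by
    simp only [homog]
    have := h1 w; have := h1 (phi j w); linarith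
  refine (Yl_homog false j [j'] (by simp [hjj]) h0).trans ?_
  refine (Yl_two_le_prod hjj hb0).trans ?_
  rw [sum_columns hjj, Real.exp_sum]
  refine Finset.prod_le_prod (fun w _ => colAt_nonneg hb0 w) fun w _ => ?_
  simp only [colAt]
  rw [homog_phi, homog_phi]
  refine (colP_balanced (hb0 _) (hb0 _) (hb1 _) (hb1 _)).trans (Real.exp_le_exp.2 ?_)
  have c1 := psi_convex 2 le_rfl (homog j x w) (homog j x (phi j' w))
  have c2 := psi_convex 2 le_rfl (x w) (x (phi j w))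
  have c3 := psi_convex 2 le_rfl (x (phi j' w)) (x (phi j (phi j' w)))
  simp only [psiQ_eq_psiT]
  simp only [homog] at c1 ⊢
  linarith

/-- The quadratic family. -/
theorem Y_quad (l : List I) (hl : l.Nodup) (hlen : 2 ≤ l.length) {x : (I → Bool) → ℝ}
    (h0 : ∀ w, 0 ≤ x w) (h1 : ∀ w, x w ≤ 1) :
    Yl false l x ≤ Real.exp (∑ w, psiQ l.length (x w)) := by
  induction l generalizing x with
  | nil => simp at hlen
  | cons i l ih =>
    cases l with
    | nil => simp at hlen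
    | cons j l' =>
      cases l' with
      | nil =>
        have hij : i ≠ j := by
          intro e
          subst e
          simp at hl
        exact Yl_two_quad hij h0 h1
      | cons k l'' =>
        have hi : i ∉ j :: k :: l'' := (List.nodup_cons.1 hl).1
        have hn : (j :: k :: l'').Nodup := (List.nodup_cons.1 hl).2
        have hs := quad_step i (j :: k :: l'') hi (j :: k :: l'').length (by simp)
          (fun x h0 h1 => ih hn (by simp) h0 h1) h0 h1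
        exact hs

/-- The quadratic family on an indicator. -/
theorem Y_ind_le_quad (l : List I) (hl : l.Nodup) (hlen : 2 ≤ l.length) (H : Finset (I → Bool)) :
    Yl false l (indW H) ≤ Real.exp (psiQ l.length 1 * H.card) := by
  refine (Y_quad l hl hlen (indW_nonneg H) (indW_le_one H)).trans (le_of_eq ?_)
  congr 1
  have : ∀ w, psiQ l.length (indW H w) = (if w ∈ H then psiQ l.length 1 else 0) := by
    intro w
    unfold indW
    split_ifs
    · rfl
    · exact psiQ_zero _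
  simp only [this]
  rw [Finset.sum_ite_mem]
  simp [mul_comm]

/-- The linear bound on an indicator. -/
theorem Y_ind_le_linear {C : Type*} [Fintype C] [DecidableEq C] (c0 : C) (l : List I) (hl : l.Nodup)
    (H : Finset (I → Bool)) :
    Yl c0 l (indW H) ≤ Real.exp (((Fintype.card C : ℝ) - 1) * (3 / 4) ^ l.length * H.card) := by
  refine (Yl_le_exp c0 l hl (indW_nonneg H) (indW_le_one H)).trans (le_of_eq ?_)
  rw [sum_indW]

/-- The empty list on an indicator. -/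
theorem Y_nil_ind (H : Finset (I → Bool)) :
    Yl false ([] : List I) (indW H) = 2 ^ H.card := by
  rw [Yl_nil]
  have : ∀ w, (1 + (((Fintype.card Bool : ℕ) : ℝ) - 1) * indW H w) = if w ∈ H then (2 : ℝ) else 1 := by
    intro w
    unfold indW
    simp only [Fintype.card_bool]
    split_ifs <;> norm_num
  simp only [this]
  rw [Finset.prod_ite_mem]
  simp

theorem colP1_ind_le (pa pb : Prop) [Decidable pa] [Decidable pb] :
    colP1 (if pa then 1 else 0) (if pb then 1 else 0) ≤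
      yhat1 ((if pa then 1 else 0) + (if pb then 1 else 0)) := by
  by_cases ha : pa <;> by_cases hb : pb <;> simp [ha, hb, colP1, yhat1] <;> norm_num

/-- The list of length one on an indicator. -/
theorem Y_one_ind (j : I) (H : Finset (I → Bool)) :
    Yl false [j] (indW H) ≤
      ∏ w ∈ univ.filter (fun w : I → Bool => w j = false), yhat1 (H ∩ pairN j w).card := by
  refine (Yl_one_le_prod (indW_nonneg H)).trans ?_
  refine Finset.prod_le_prod (fun w _ => colP1_nonneg (indW_nonneg H _) (indW_nonneg H _)) fun w _ => ?_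
  have hcard : (H ∩ pairN j w).card = (if w ∈ H then 1 else 0) + (if phi j w ∈ H then 1 else 0) := by
    rw [Finset.inter_comm, ← Finset.filter_mem_eq_inter, Finset.card_filter]
    unfold pairN
    rw [Finset.sum_pair (phi_ne_self j w).symm]
  rw [hcard]
  exact colP1_ind_le _ _

theorem colP_ind_le (pa pb pc pd : Prop) [Decidable pa] [Decidable pb] [Decidable pc] [Decidable pd] :
    colP (if pa then 1 else 0) (if pb then 1 else 0) (if pc then 1 else 0) (if pd then 1 else 0) ≤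
      yhat2 ((if pa then 1 else 0) + (if pc then 1 else 0) + (if pb then 1 else 0) +
        (if pd then 1 else 0)) := by
  by_cases ha : pa <;> by_cases hb : pb <;> by_cases hc : pc <;> by_cases hd : pd <;>
    simp [ha, hb, hc, hd, colP, yhat2] <;> norm_num

/-- The list of length two on an indicator. -/
theorem Y_two_ind_le {j j' : I} (hjj : j ≠ j') (H : Finset (I → Bool)) :
    Yl false [j, j'] (indW H) ≤
      ∏ w ∈ univ.filter (fun w : I → Bool => w j = false ∧ w j' = false),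
        yhat2 (H ∩ colN j j' w).card := by
  refine (Yl_two_le_prod hjj (indW_nonneg H)).trans ?_
  refine Finset.prod_le_prod (fun w _ => colAt_nonneg (indW_nonneg H) w) fun w _ => ?_
  have hcard : (H ∩ colN j j' w).card = (if w ∈ H then 1 else 0) + (if phi j w ∈ H then 1 else 0) +
      (if phi j' w ∈ H then 1 else 0) + (if phi j (phi j' w) ∈ H then 1 else 0) := by
    rw [Finset.inter_comm, ← Finset.filter_mem_eq_inter, Finset.card_filter]
    unfold colN
    have n1 : phi j w ≠ phi j' w := fun h => by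
      have := congrFun h j
      rw [phi_same, phi_ne j' hjj] at this
      cases hw : w j <;> simp [hw] at this
    have n2 : phi j' w ≠ phi j (phi j' w) := (phi_ne_self j _).symm
    have n3 : phi j w ≠ phi j (phi j' w) := fun h => by
      have := congrFun h j'
      rw [phi_ne j hjj.symm, phi_ne j hjj.symm, phi_same] at this
      cases hw : w j' <;> simp [hw] at this
    have n4 : w ≠ phi j w := (phi_ne_self j w).symm
    have n5 : w ≠ phi j' w := (phi_ne_self j' w).symm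
    have n6 : w ≠ phi j (phi j' w) := fun h => by
      have := congrFun h j'
      rw [phi_ne j hjj.symm, phi_same] at this
      cases hw : w j' <;> simp [hw] at this
    rw [Finset.sum_insert (by simp [n4, n5, n6]), Finset.sum_insert (by simp [n1, n3]),
      Finset.sum_pair n2]
    ring
  rw [hcard]
  exact colP_ind_le _ _ _ _

end Words

end Crest.Agent.Thorp
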