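import Mathlib
import Crest.Agent.Lib.Thorp.EMain
import Crest.Agent.Lib.Thorp.SmallLists

/-!
# Step E: the window bound at the small levels, and the final form.
-/

set_option autoImplicit false
set_option linter.unusedSectionVars false
set_option linter.unusedVariables false

namespace Crest.Agent.Thorp

open Finset

section Small

variable {I : Type*} [Fintype I] [DecidableEq I]

private theorem bool_eq_not {a b : Bool} (h : a ≠ b) : a = !b := by
  cases a <;> cases b <;> simp_all

theorem mem_pairN {j : I} {w v : I → Bool} : v ∈ pairN j w ↔ ∀ k, k ≠ j → v k = w k := by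
  unfold pairN
  simp only [Finset.mem_insert, Finset.mem_singleton]
  constructor
  · rintro (rfl | rfl) k hk
    · rfl
    · exact phi_ne j hk _
  · intro h
    by_cases hb : v j = w j
    · left
      funext k
      by_cases hk : k = j
      · rw [hk, hb]
      · exact h k hk
    · right
      funext k
      by_cases hk : k = j
      · subst hk
        rw [phi_same]
        exact bool_eq_not hb
      · rw [phi_ne j hk]; exact h k hk

theorem mem_colN {j j' : I} (hjj : j ≠ j') {w v : I → Bool} :
    v ∈ colN j j' w ↔ ∀ k, k ≠ j → k ≠ j' → v k = w k := by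
  unfold colN
  simp only [Finset.mem_insert, Finset.mem_singleton]
  constructor
  · rintro (rfl | rfl | rfl | rfl) k hk hk'
    · rfl
    · exact phi_ne j hk _
    · exact phi_ne j' hk' _
    · rw [phi_ne j hk, phi_ne j' hk']
  · intro h
    by_cases hb : v j = w j <;> by_cases hb' : v j' = w j'
    · left
      funext k
      by_cases hk : k = j
      · rw [hk, hb]
      by_cases hk' : k = j'
      · rw [hk', hb']
      exact h k hk hk'
    · right; right; left
      funext k
      by_cases hk' : k = j'
      · subst hk'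
        rw [phi_same]
        exact bool_eq_not hb'
      by_cases hk : k = j
      · subst hk
        rw [phi_ne j' hk', hb]
      rw [phi_ne j' hk']
      exact h k hk hk'
    · right; left
      funext k
      by_cases hk : k = j
      · subst hk
        rw [phi_same]
        exact bool_eq_not hb
      by_cases hk' : k = j'
      · subst hk'
        rw [phi_ne j hk, hb']
      rw [phi_ne j hk]
      exact h k hk hk'
    · right; right; right
      funext k
      by_cases hk : k = j
      · subst hk
        rw [phi_same, phi_ne j' hjj]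
        exact bool_eq_not hb
      by_cases hk' : k = j'
      · subst hk'
        rw [phi_ne j hk, phi_same]
        exact bool_eq_not hb'
      rw [phi_ne j hk, phi_ne j' hk']
      exact h k hk hk'

theorem colN_comm {j j' : I} (hjj : j ≠ j') (w : I → Bool) : colN j j' w = colN j' j w := by
  ext v
  rw [mem_colN hjj, mem_colN hjj.symm]
  exact ⟨fun h k hk hk' => h k hk' hk, fun h k hk hk' => h k hk' hk⟩

/-- Counting in the image of a permutation. -/
theorem card_image_inter (G S S' : Finset (I → Bool)) (ρ : Equiv.Perm (I → Bool))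
    (h : ∀ v, ρ v ∈ S ↔ v ∈ S') : (G.image ρ ∩ S).card = (G ∩ S').card := by
  classical
  have e : G.image ρ ∩ S = (G ∩ S').image ρ := by
    ext u
    simp only [Finset.mem_inter, Finset.mem_image]
    constructor
    · rintro ⟨⟨v, hv, rfl⟩, hu⟩
      exact ⟨v, ⟨hv, (h v).1 hu⟩, rfl⟩
    · rintro ⟨v, ⟨hv, hv'⟩, rfl⟩
      exact ⟨⟨v, hv, rfl⟩, (h v).2 hv'⟩
  rw [e, Finset.card_image_of_injective _ ρ.injective]

/-- The empty list. -/
theorem Yl_nil_indW (H : Finset (I → Bool)) :
    Yl (C := Bool) false ([] : List I) (indW H) = 2 ^ H.card := by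
  classical
  rw [Yl_nil]
  have e : ∀ w : I → Bool, (1 + ((Fintype.card Bool : ℝ) - 1) * indW H w) =
      if w ∈ H then 2 else 1 := by
    intro w
    unfold indW
    simp only [Fintype.card_bool]
    split_ifs <;> norm_num
  simp only [e]
  rw [Finset.prod_ite, Finset.prod_const, Finset.prod_const, one_pow, mul_one]
  congr 1
  rw [Finset.filter_mem_eq_inter, Finset.univ_inter]

/-- The generic computation for the blocks. -/
theorem block_prod (i : I) (G : Finset (I → Bool)) (hG : ∀ w ∈ G, w i = false)
    (Ξ : Equiv.Perm (I → Bool)) (P : (I → Bool) → Prop) [DecidablePred P]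
    (hP : ∀ w, P (phi i w) ↔ P w) (Sf : (I → Bool) → Finset (I → Bool)) (yh : ℕ → ℝ)
    (hy0 : yh 0 = 1) (hypos : ∀ n, 0 < yh n)
    (hΞS : ∀ w v, Ξ v ∈ Sf w ↔ v ∈ Sf w) (hφS : ∀ w v, phi i v ∈ Sf w ↔ v ∈ Sf (phi i w))
    (hbit : ∀ w v, v ∈ Sf w → v i = w i) :
    (∏ w ∈ Finset.univ.filter P, yh (G.image Ξ ∩ Sf w).card =
      Real.exp (∑ w ∈ Finset.univ.filter (fun w : I → Bool => w i = false ∧ P w),
        Real.log (yh (G ∩ Sf w).card))) ∧
    (∏ w ∈ Finset.univ.filter P, yh (G.image (Ξ * phi i) ∩ Sf w).card =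
      Real.exp (∑ w ∈ Finset.univ.filter (fun w : I → Bool => w i = false ∧ P w),
        Real.log (yh (G ∩ Sf w).card))) := by
  classical
  have hbase : ∏ w ∈ Finset.univ.filter P, yh (G ∩ Sf w).card =
      Real.exp (∑ w ∈ Finset.univ.filter (fun w : I → Bool => w i = false ∧ P w),
        Real.log (yh (G ∩ Sf w).card)) := by
    rw [Real.exp_sum]
    have e1 : ∀ w ∈ Finset.univ.filter (fun w : I → Bool => w i = false ∧ P w),
        Real.exp (Real.log (yh (G ∩ Sf w).card)) = yh (G ∩ Sf w).card :=
      fun w _ => Real.exp_log (hypos _)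
    rw [Finset.prod_congr rfl e1]
    symm
    refine Finset.prod_subset ?_ ?_
    · intro w hw
      have := (Finset.mem_filter.1 hw).2
      exact Finset.mem_filter.2 ⟨Finset.mem_univ _, this.2⟩
    · intro w hw hw'
      have hPw := (Finset.mem_filter.1 hw).2
      have hiw : w i = true := by
        by_contra hc
        apply hw'
        exact Finset.mem_filter.2 ⟨Finset.mem_univ _, by simpa using hc, hPw⟩
      have hemp : G ∩ Sf w = ∅ := by
        ext v
        simp only [Finset.mem_inter, Finset.notMem_empty, iff_false, not_and]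
        intro hv hvS
        have h1 := hG v hv
        have h2 := hbit w v hvS
        rw [h1, hiw] at h2
        exact absurd h2 (by simp)
      rw [hemp, Finset.card_empty, hy0]
  constructor
  · rw [← hbase]
    refine Finset.prod_congr rfl fun w _ => ?_
    rw [card_image_inter G (Sf w) (Sf w) Ξ (hΞS w)]
  · rw [← hbase]
    have e1 : ∀ w, (G.image (Ξ * phi i) ∩ Sf w).card = (G ∩ Sf (phi i w)).card := by
      intro w
      refine card_image_inter G (Sf w) (Sf (phi i w)) (Ξ * phi i) fun v => ?_
      rw [Equiv.Perm.mul_apply, hΞS, hφS]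
    simp only [e1]
    refine Finset.prod_bij (fun w _ => phi i w) ?_ ?_ ?_ ?_
    · intro w hw
      exact Finset.mem_filter.2 ⟨Finset.mem_univ _, (hP w).2 (Finset.mem_filter.1 hw).2⟩
    · intro w _ w' _ h
      exact (phi i).injective h
    · intro w hw
      refine ⟨phi i w, Finset.mem_filter.2 ⟨Finset.mem_univ _,
        (hP w).2 (Finset.mem_filter.1 hw).2⟩, phi_phi i w⟩
    · intro w _
      rfl

theorem yhat1_pos (n : ℕ) : 0 < yhat1 n := by
  unfold yhat1
  split <;> norm_num

theorem yhat2_pos (n : ℕ) : 0 < yhat2 n := by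
  unfold yhat2
  split <;> norm_num

theorem phi_apply_eq_iff (i k : I) (v w : I → Bool) : phi i v k = w k ↔ v k = phi i w k := by
  by_cases hk : k = i
  · subst hk
    rw [phi_same, phi_same]
    cases v k <;> cases w k <;> simp
  · rw [phi_ne i hk, phi_ne i hk]

theorem Ybound_nil (i : I) (G : Finset (I → Bool)) (T : Finset (I → Bool)) (hc : T.card = G.card) :
    Yl (C := Bool) false ([] : List I) (indW T) ≤ Real.exp (lam i ([] : List I) G) := by
  rw [Yl_nil_indW, hc]
  have e2 : lam i ([] : List I) G = Real.log 2 * G.card := rfl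
  rw [e2, Real.exp_mul, Real.exp_log (by norm_num), Real.rpow_natCast]

theorem Ybound_one
    (hS1 : ∀ (j : I) (H : Finset (I → Bool)), Yl (C := Bool) false [j] (indW H) ≤
      ∏ w ∈ Finset.univ.filter (fun w : I → Bool => w j = false), yhat1 (H ∩ pairN j w).card)
    (i j : I) (hij : i ≠ j) (G : Finset (I → Bool)) (hG : ∀ w ∈ G, w i = false)
    (Ξ : Equiv.Perm (I → Bool)) (hΞ : ∀ k, k ≠ j → ∀ w, Ξ w k = w k) (T : Finset (I → Bool))
    (hT : T = G.image Ξ ∨ T = G.image (Ξ * phi i)) :
    Yl (C := Bool) false [j] (indW T) ≤ Real.exp (lam i [j] G) := by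
  refine (hS1 j T).trans (le_of_eq ?_)
  have hb := block_prod i G hG Ξ (fun w : I → Bool => w j = false)
    (fun w => by rw [phi_ne i hij.symm])
    (pairN j) yhat1 rfl yhat1_pos
    (fun w v => by
      simp only [mem_pairN]
      exact forall_congr' fun k => imp_congr_right fun hk => by rw [hΞ k hk])
    (fun w v => by
      simp only [mem_pairN]
      exact forall_congr' fun k => imp_congr_right fun hk => phi_apply_eq_iff i k v w)
    (fun w v hv => (mem_pairN.1 hv) i hij)
  rcases hT with rfl | rfl
  · exact hb.1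
  · exact hb.2

theorem Ybound_two
    (hS2 : ∀ (j j' : I), j ≠ j' → ∀ H : Finset (I → Bool), Yl (C := Bool) false [j, j'] (indW H) ≤
      ∏ w ∈ Finset.univ.filter (fun w : I → Bool => w j = false ∧ w j' = false),
        yhat2 (H ∩ colN j j' w).card)
    (i j j' : I) (hij : i ≠ j) (hij' : i ≠ j') (hjj : j ≠ j') (G : Finset (I → Bool))
    (hG : ∀ w ∈ G, w i = false)
    (Ξ : Equiv.Perm (I → Bool)) (hΞ : ∀ k, k ≠ j → k ≠ j' → ∀ w, Ξ w k = w k)
    (T : Finset (I → Bool)) (hT : T = G.image Ξ ∨ T = G.image (Ξ * phi i)) :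
    Yl (C := Bool) false [j', j] (indW T) ≤ Real.exp (lam i [j, j'] G) := by
  refine (hS2 j' j hjj.symm T).trans (le_of_eq ?_)
  have hb := block_prod i G hG Ξ (fun w : I → Bool => w j = false ∧ w j' = false)
    (fun w => by rw [phi_ne i hij.symm, phi_ne i hij'.symm])
    (colN j j') yhat2 rfl yhat2_pos
    (fun w v => by
      simp only [mem_colN hjj]
      exact forall_congr' fun k => imp_congr_right fun hk => imp_congr_right fun hk' => by
        rw [hΞ k hk hk'])
    (fun w v => by
      simp only [mem_colN hjj]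
      exact forall_congr' fun k => imp_congr_right fun hk => imp_congr_right fun hk' =>
        phi_apply_eq_iff i k v w)
    (fun w v hv => (mem_colN hjj).1 hv i hij hij')
  have e1 : ∀ w, colN j' j w = colN j j' w := fun w => (colN_comm hjj w).symm
  have e2 : Finset.univ.filter (fun w : I → Bool => w j' = false ∧ w j = false) =
      Finset.univ.filter (fun w : I → Bool => w j = false ∧ w j' = false) := by
    ext w; simp [and_comm]
  simp only [e1]
  rw [e2]
  rcases hT with rfl | rfl
  · exact hb.1
  · exact hb.2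

theorem Ybound_long
    (hQ : ∀ l : List I, l.Nodup → 2 ≤ l.length → ∀ H : Finset (I → Bool),
      Yl (C := Bool) false l (indW H) ≤ Real.exp (psiQ l.length 1 * H.card))
    (i : I) (l' : List I) (hl' : l'.Nodup) (h3 : 3 ≤ l'.length) (hs : l'.length + 1 ≤ 256)
    (G T : Finset (I → Bool)) (hc : T.card = G.card) :
    Yl (C := Bool) false (l'.take (tSmall (l'.length + 1))).reverse (indW T) ≤
      Real.exp (lam i l' G) := by
  have hlen : (l'.take (tSmall (l'.length + 1))).reverse.length = tSmall (l'.length + 1) := by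
    rw [List.length_reverse, List.length_take]
    unfold tSmall
    omega
  have h2 : 2 ≤ (l'.take (tSmall (l'.length + 1))).reverse.length := by
    rw [hlen]; unfold tSmall; omega
  have hnd : (l'.take (tSmall (l'.length + 1))).reverse.Nodup := by
    rw [List.nodup_reverse]
    exact hl'.sublist (List.take_sublist _ _)
  refine (hQ _ hnd h2 T).trans ?_
  rw [hlen, hc, lam_of_three i l' G h3]
  apply le_of_eq
  congr 2
  unfold wlev tSmall
  by_cases h32 : l'.length + 1 ≤ 32
  · rw [if_pos h32]
    congr 1
    omega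
  · rw [if_neg h32, if_pos hs]
    congr 1
    omega

/-- The window bound at the small levels. -/
theorem level_small
    (hS1 : ∀ (j : I) (H : Finset (I → Bool)), Yl (C := Bool) false [j] (indW H) ≤
      ∏ w ∈ Finset.univ.filter (fun w : I → Bool => w j = false), yhat1 (H ∩ pairN j w).card)
    (hS2 : ∀ (j j' : I), j ≠ j' → ∀ H : Finset (I → Bool), Yl (C := Bool) false [j, j'] (indW H) ≤
      ∏ w ∈ Finset.univ.filter (fun w : I → Bool => w j = false ∧ w j' = false),
        yhat2 (H ∩ colN j j' w).card)
    (hQ : ∀ l : List I, l.Nodup → 2 ≤ l.length → ∀ H : Finset (I → Bool),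
      Yl (C := Bool) false l (indW H) ≤ Real.exp (psiQ l.length 1 * H.card))
    (i : I) (l' : List I) (hl' : l'.Nodup) (hi : i ∉ l') (G : Finset (I → Bool))
    (hG : ∀ w ∈ G, w i = false) (hs : l'.length + 1 ≤ 256) (Ξ : Equiv.Perm (I → Bool))
    (hΞ : ∀ j, j ∉ l' → ∀ w, Ξ w j = w j) :
    avg (fun B'' : Tab I => (InvCount (C := Bool) false G
        (sig i ((sweepQ B'' (l'.take (tSmall (l'.length + 1))))⁻¹ * Ξ)) : ℝ)) ≤
      Real.exp (lam i l' G) := by
  classical
  have hΞi : ∀ w, Ξ w i = w i := hΞ i hi
  have hD := lemmaD (C := Bool) false i (l'.take (tSmall (l'.length + 1)))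
    (fun h => hi (List.mem_of_mem_take h)) Ξ hΞi G hG
  refine hD.trans ?_
  -- it suffices to bound each term
  suffices hsuff : ∀ T : Finset (I → Bool), (T = G.image Ξ ∨ T = G.image (Ξ * phi i)) →
      Yl (C := Bool) false (l'.take (tSmall (l'.length + 1))).reverse (indW T) ≤
        Real.exp (lam i l' G) by
    have h1 := hsuff _ (Or.inl rfl)
    have h2 := hsuff _ (Or.inr rfl)
    linarith
  intro T hT
  have hc : T.card = G.card := by
    rcases hT with rfl | rfl <;> exact card_image_perm _ _
  by_cases h3 : 3 ≤ l'.length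
  · exact Ybound_long hQ i l' hl' h3 hs G T hc
  rcases l' with _ | ⟨j, _ | ⟨j', _ | ⟨c, r⟩⟩⟩
  · have e : tSmall (([] : List I).length + 1) = 0 := by simp [tSmall]
    rw [e]
    simpa using Ybound_nil i G T hc
  · have hij : i ≠ j := fun e => hi (by simp [e])
    have e : tSmall (([j] : List I).length + 1) = 1 := by simp [tSmall]
    rw [e]
    exact Ybound_one hS1 i j hij G hG Ξ (fun k hk w => hΞ k (by simpa using hk) w) T hT
  · have hij : i ≠ j := fun e => hi (by simp [e])
    have hij' : i ≠ j' := fun e => hi (by simp [e])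
    have hjj : j ≠ j' := fun e => (List.nodup_cons.1 hl').1 (by simp [e])
    have e : tSmall (([j, j'] : List I).length + 1) = 2 := by simp [tSmall]
    rw [e]
    exact Ybound_two hS2 i j j' hij hij' hjj G hG Ξ
      (fun k hk hk' w => hΞ k (by simp [hk, hk']) w) T hT
  · exact absurd (by simp) h3

/-- **Step E, final form**, given the small cases of step D. -/
theorem E_main_of
    (hS1 : ∀ (j : I) (H : Finset (I → Bool)), Yl (C := Bool) false [j] (indW H) ≤
      ∏ w ∈ Finset.univ.filter (fun w : I → Bool => w j = false), yhat1 (H ∩ pairN j w).card)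
    (hS2 : ∀ (j j' : I), j ≠ j' → ∀ H : Finset (I → Bool), Yl (C := Bool) false [j, j'] (indW H) ≤
      ∏ w ∈ Finset.univ.filter (fun w : I → Bool => w j = false ∧ w j' = false),
        yhat2 (H ∩ colN j j' w).card)
    (hQ : ∀ l : List I, l.Nodup → 2 ≤ l.length → ∀ H : Finset (I → Bool),
      Yl (C := Bool) false l (indW H) ≤ Real.exp (psiQ l.length 1 * H.card))
    {A : Type*} [Fintype A] [DecidableEq A]
    (l : List I) (hl : l.Nodup) (a : Tab I) {x : A → I → Bool} (hx : Function.Injective x) :
    avg (fun b : Tab I => (WW l (a, b) x) ^ (1 / 40 : ℝ)) ≤ Real.exp (Wsum l a x / 40) := by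
  set G := GG l a x with hG
  have h1 : ∀ b : Tab I, (WW l (a, b) x) ^ (1 / 40 : ℝ) ≤ Cls G (1 / 40) (fun _ => True) a l b :=
    fun b => WW_rpow_le (by norm_num) l hl a b hx
  refine (avg_mono h1).trans ?_
  have hsub : ∀ i l', (i :: l') <:+ l → (i :: l').Nodup := fun i l' hs => hl.sublist hs.sublist
  have h2 := main_abstract G (fun i l' => lam i l' (G i)) a l hl
    (fun i l' hs hsm Ξ hΞ => level_small hS1 hS2 hQ i l' (List.nodup_cons.1 (hsub i l' hs)).2
      (List.nodup_cons.1 (hsub i l' hs)).1 (G i) (fun w hw => GG_side l a x i w hw) hsm Ξ hΞ)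
    (fun i l' hs hbg Ξ hΞ => level_big i l' (List.nodup_cons.1 (hsub i l' hs)).2
      (List.nodup_cons.1 (hsub i l' hs)).1 (G i) (fun w hw => GG_side l a x i w hw) hbg Ξ hΞ)
  refine h2.trans (le_of_eq ?_)
  rw [lvlSum_lam_eq l hl a x G (fun j _ => rfl)]
  congr 1
  ring

/-- **Step E, final form.** -/
theorem avg_WW_le {A : Type*} [Fintype A] [DecidableEq A] (l : List I) (hl : l.Nodup) (a : Tab I)
    (x : A → I → Bool) (hx : Function.Injective x) :
    avg (fun b : Tab I => (WW l (a, b) x) ^ (1 / 40 : ℝ)) ≤ Real.exp (Wsum l a x / 40) :=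
  E_main_of (fun j H => Y_one_ind j H) (fun _ _ h H => Y_two_ind_le h H)
    (fun l hl h H => Y_ind_le_quad l hl h H) l hl a hx

end Small

end Crest.Agent.Thorp
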