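import Mathlib

/-!
# Traces of a positive operator on invariant subspaces

`trOn A S = tr (A ∘ P_S)`. For `A` positive: monotone in `S`, subadditive on invariant subspaces,
additive on independent invariant subspaces, invariant under injective intertwiners.
-/

set_option autoImplicit false
set_option linter.unusedSectionVars false

namespace Crest.Agent.Thorp

open scoped InnerProductSpace
open Module

variable {E : Type*} [NormedAddCommGroup E] [InnerProductSpace ℝ E] [FiniteDimensional ℝ E]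
variable {F : Type*} [NormedAddCommGroup F] [InnerProductSpace ℝ F] [FiniteDimensional ℝ F]

/-- The orthogonal projection as a linear map. -/
noncomputable def prj (S : Submodule ℝ E) : E →ₗ[ℝ] E := (S.starProjection : E →L[ℝ] E)

theorem prj_apply (S : Submodule ℝ E) (x : E) : prj S x = S.starProjection x := rfl

theorem prj_mem (S : Submodule ℝ E) (x : E) : prj S x ∈ S := S.starProjection_apply_mem x

theorem prj_of_mem {S : Submodule ℝ E} {x : E} (hx : x ∈ S) : prj S x = x :=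
  Submodule.starProjection_eq_self_iff.2 hx

theorem sub_prj_mem (S : Submodule ℝ E) (x : E) : x - prj S x ∈ Sᗮ :=
  S.sub_starProjection_mem_orthogonal x

theorem prj_of_mem_orthogonal {S : Submodule ℝ E} {x : E} (hx : x ∈ Sᗮ) : prj S x = 0 := by
  have : x - 0 ∈ Sᗮ := by simpa using hx
  exact Submodule.eq_starProjection_of_mem_orthogonal S.zero_mem this

theorem prj_comp_prj (S : Submodule ℝ E) : prj S ∘ₗ prj S = prj S := by
  ext x; exact prj_of_mem (prj_mem S x)

theorem prj_adjoint (S : Submodule ℝ E) : (prj S).adjoint = prj S := by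
  have h : (prj S).IsSymmetric := S.starProjection_isSymmetric
  exact (LinearMap.isSymmetric_iff_isSelfAdjoint _).1 h

/-- The trace of `A` on `S`, i.e. `tr (A ∘ P_S)`. -/
noncomputable def trOn (A : E →ₗ[ℝ] E) (S : Submodule ℝ E) : ℝ :=
  LinearMap.trace ℝ E (A ∘ₗ prj S)

@[simp] theorem trOn_top (A : E →ₗ[ℝ] E) : trOn A ⊤ = LinearMap.trace ℝ E A := by
  have : prj (⊤ : Submodule ℝ E) = LinearMap.id := by
    ext x; exact prj_of_mem Submodule.mem_top
  simp [trOn, this]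

@[simp] theorem trOn_bot (A : E →ₗ[ℝ] E) : trOn A ⊥ = 0 := by
  have : prj (⊥ : Submodule ℝ E) = 0 := by
    ext x
    have h := prj_mem (⊥ : Submodule ℝ E) x
    simpa using h
  simp [trOn, this]

theorem prj_sup_of_isOrtho {S T : Submodule ℝ E} (h : S ⟂ T) :
    prj (S ⊔ T) = prj S + prj T := by
  ext x
  refine Submodule.eq_starProjection_of_mem_orthogonal
    (Submodule.add_mem_sup (prj_mem S x) (prj_mem T x)) ?_
  rw [← Submodule.inf_orthogonal]
  constructor
  · have h1 := sub_prj_mem S x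
    have h2 : prj T x ∈ Sᗮ := h.symm (prj_mem T x)
    simpa [sub_add_eq_sub_sub] using Submodule.sub_mem _ h1 h2
  · have h1 := sub_prj_mem T x
    have h2 : prj S x ∈ Tᗮ := h (prj_mem S x)
    have : x - (prj S x + prj T x) = (x - prj T x) - prj S x := by abel
    change x - (prj S x + prj T x) ∈ Tᗮ
    rw [this]
    exact Submodule.sub_mem _ h1 h2

theorem trOn_sup_of_isOrtho (A : E →ₗ[ℝ] E) {S T : Submodule ℝ E} (h : S ⟂ T) :
    trOn A (S ⊔ T) = trOn A S + trOn A T := by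
  simp only [trOn, prj_sup_of_isOrtho h, LinearMap.comp_add, map_add]

/-- `tr (A ∘ P_S)` is the trace of the compression of `A` to `S`. -/
theorem trOn_eq_trace_compress (A : E →ₗ[ℝ] E) (S : Submodule ℝ E) :
    trOn A S = LinearMap.trace ℝ S
      ((S.orthogonalProjectionOnto : E →L[ℝ] S).toLinearMap ∘ₗ A ∘ₗ S.subtype) := by
  have : prj S = S.subtype ∘ₗ (S.orthogonalProjectionOnto : E →L[ℝ] S).toLinearMap := rfl
  rw [trOn, this, ← LinearMap.comp_assoc, LinearMap.trace_comp_comm']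

/-- On an invariant subspace the trace is that of the restriction. -/
theorem trOn_eq_trace_restrict (A : E →ₗ[ℝ] E) (S : Submodule ℝ E) (h : ∀ x ∈ S, A x ∈ S) :
    trOn A S = LinearMap.trace ℝ S (A.restrict h) := by
  rw [trOn_eq_trace_compress]
  congr 1
  ext x
  simp only [LinearMap.comp_apply, Submodule.subtype_apply, LinearMap.coe_restrict_apply]
  exact prj_of_mem (h x x.2)

theorem trOn_nonneg {A : E →ₗ[ℝ] E} (hA : A.IsPositive) (S : Submodule ℝ E) : 0 ≤ trOn A S := by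
  have h := hA.adjoint_conj (prj S)
  rw [prj_adjoint] at h
  have e : trOn A S = LinearMap.trace ℝ E (prj S ∘ₗ A ∘ₗ prj S) := by
    rw [LinearMap.trace_comp_comm', LinearMap.comp_assoc, prj_comp_prj, trOn]
  rw [e]
  exact h.trace_nonneg

/-- Monotonicity in the subspace. -/
theorem trOn_mono {A : E →ₗ[ℝ] E} (hA : A.IsPositive) {S T : Submodule ℝ E} (h : S ≤ T) :
    trOn A S ≤ trOn A T := by
  have e : T = S ⊔ (Sᗮ ⊓ T) := (Submodule.sup_orthogonal_inf_of_hasOrthogonalProjection h).symm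
  have ho : S ⟂ (Sᗮ ⊓ T) := fun x hx y hy => by rw [real_inner_comm]; exact hy.1 x hx
  rw [e, trOn_sup_of_isOrtho A ho]
  have := trOn_nonneg hA (Sᗮ ⊓ T)
  linarith

/-- Invariance under conjugation by an injective intertwiner. -/
theorem trOn_map_eq (A : E →ₗ[ℝ] E) (B : F →ₗ[ℝ] F) (π : F →ₗ[ℝ] E)
    (hπ : ∀ x, π (B x) = A (π x)) (S : Submodule ℝ F) (hS : ∀ x ∈ S, B x ∈ S)
    (hinj : Set.InjOn π S) :
    trOn A (S.map π) = trOn B S := by
  have hS' : ∀ x ∈ S.map π, A x ∈ S.map π := by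
    rintro _ ⟨y, hy, rfl⟩
    exact ⟨B y, hS y hy, hπ y⟩
  rw [trOn_eq_trace_restrict A _ hS', trOn_eq_trace_restrict B S hS]
  have hinj' : Function.Injective (π.domRestrict S) := by
    intro x y hxy
    exact Subtype.ext (hinj x.2 y.2 hxy)
  have hrange : LinearMap.range (π.domRestrict S) = S.map π := by
    rw [LinearMap.range_domRestrict]
  let e : S ≃ₗ[ℝ] S.map π :=
    (LinearEquiv.ofInjective (π.domRestrict S) hinj').trans (LinearEquiv.ofEq _ _ hrange)
  have he : ∀ x : S, ((e x : S.map π) : E) = π x := fun x => rfl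
  rw [← LinearMap.trace_conj' (B.restrict hS) e]
  congr 1
  ext x
  obtain ⟨y, rfl⟩ := e.surjective x
  simp only [LinearEquiv.conj_apply_apply, LinearEquiv.symm_apply_apply,
    LinearMap.coe_restrict_apply, he, hπ]

/-- Symmetric operators: the projection onto an invariant subspace commutes. -/
theorem prj_comm {A : E →ₗ[ℝ] E} (hA : A.IsSymmetric) {S : Submodule ℝ E} (hS : ∀ x ∈ S, A x ∈ S)
    (x : E) : prj S (A x) = A (prj S x) := by
  refine Submodule.eq_starProjection_of_mem_orthogonal (hS _ (prj_mem S x)) ?_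
  have h := sub_prj_mem S x
  rw [← map_sub]
  rw [Submodule.mem_orthogonal] at h ⊢
  intro u hu
  rw [real_inner_comm, hA, real_inner_comm]
  exact h _ (hS u hu)

theorem orthogonal_invariant {A : E →ₗ[ℝ] E} (hA : A.IsSymmetric) {S : Submodule ℝ E}
    (hS : ∀ x ∈ S, A x ∈ S) : ∀ x ∈ Sᗮ, A x ∈ Sᗮ := by
  intro x hx
  rw [Submodule.mem_orthogonal] at hx ⊢
  intro u hu
  rw [real_inner_comm, hA, real_inner_comm]
  exact hx _ (hS u hu)

theorem inf_invariant {A : E →ₗ[ℝ] E} {S T : Submodule ℝ E} (hS : ∀ x ∈ S, A x ∈ S)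
    (hT : ∀ x ∈ T, A x ∈ T) : ∀ x ∈ S ⊓ T, A x ∈ S ⊓ T :=
  fun x hx => ⟨hS x hx.1, hT x hx.2⟩

theorem sup_invariant {A : E →ₗ[ℝ] E} {S T : Submodule ℝ E} (hS : ∀ x ∈ S, A x ∈ S)
    (hT : ∀ x ∈ T, A x ∈ T) : ∀ x ∈ S ⊔ T, A x ∈ S ⊔ T := by
  intro x hx
  obtain ⟨a, ha, b, hb, rfl⟩ := Submodule.mem_sup.1 hx
  rw [map_add]
  exact Submodule.add_mem_sup (hS a ha) (hT b hb)

/-- The key decomposition: with `K = S₁ ⊓ S₂`, `U = Kᗮ ⊓ S₂`, the trace on `S₁ ⊔ S₂` is the sum of
the traces on `S₁` and on `U`. -/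
theorem trOn_sup_eq {A : E →ₗ[ℝ] E} (hA : A.IsSymmetric) {S₁ S₂ : Submodule ℝ E}
    (h₁ : ∀ x ∈ S₁, A x ∈ S₁) (h₂ : ∀ x ∈ S₂, A x ∈ S₂) :
    trOn A (S₁ ⊔ S₂) = trOn A S₁ + trOn A ((S₁ ⊓ S₂)ᗮ ⊓ S₂) := by
  set K := S₁ ⊓ S₂ with hK
  set U := Kᗮ ⊓ S₂ with hU
  set T := S₁ᗮ ⊓ (S₁ ⊔ S₂) with hT
  have hKinv : ∀ x ∈ K, A x ∈ K := inf_invariant h₁ h₂
  have hUinv : ∀ x ∈ U, A x ∈ U := inf_invariant (orthogonal_invariant hA hKinv) h₂
  have e : S₁ ⊔ S₂ = S₁ ⊔ T :=
    (Submodule.sup_orthogonal_inf_of_hasOrthogonalProjection le_sup_left).symm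
  have ho : S₁ ⟂ T := fun x hx y hy => by rw [real_inner_comm]; exact hy.1 x hx
  rw [e, trOn_sup_of_isOrtho A ho]
  congr 1
  -- `π = 1 - P_{S₁}` identifies `U` and `T`
  let π : E →ₗ[ℝ] E := LinearMap.id - prj S₁
  have hπ : ∀ x, π (A x) = A (π x) := by
    intro x
    simp only [π, LinearMap.sub_apply, LinearMap.id_apply, map_sub, prj_comm hA h₁]
  have hmap : U.map π = T := by
    apply le_antisymm
    · rintro _ ⟨u, hu, rfl⟩
      refine ⟨sub_prj_mem S₁ u, ?_⟩
      exact Submodule.sub_mem _ (Submodule.mem_sup_right hu.2) (Submodule.mem_sup_left (prj_mem _ _))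
    · rintro t ⟨ht1, ht2⟩
      obtain ⟨a, ha, b, hb, rfl⟩ := Submodule.mem_sup.1 ht2
      -- decompose `b = k + u`
      have hb' : b ∈ K ⊔ U := by
        rw [hU, Submodule.sup_orthogonal_inf_of_hasOrthogonalProjection (inf_le_right : K ≤ S₂)]
        exact hb
      obtain ⟨k, hk, u, hu, rfl⟩ := Submodule.mem_sup.1 hb'
      refine ⟨u, hu, ?_⟩
      have hπt : π (a + (k + u)) = a + (k + u) := by
        simp only [π, LinearMap.sub_apply, LinearMap.id_apply, prj_of_mem_orthogonal ht1, sub_zero]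
      have hπa : π a = 0 := by
        simp only [π, LinearMap.sub_apply, LinearMap.id_apply, prj_of_mem ha, sub_self]
      have hπk : π k = 0 := by
        simp only [π, LinearMap.sub_apply, LinearMap.id_apply, prj_of_mem hk.1, sub_self]
      rw [← hπt, map_add, map_add, hπa, hπk, zero_add, zero_add]
  have hinj : Set.InjOn π U := by
    intro x hx y hy hxy
    have h0 : π (x - y) = 0 := by rw [map_sub, hxy, sub_self]
    have h1 : x - y ∈ S₁ := by
      have : x - y = prj S₁ (x - y) := by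
        simpa [π, sub_eq_zero] using h0
      rw [this]; exact prj_mem _ _
    have h2 : x - y ∈ S₂ := Submodule.sub_mem _ hx.2 hy.2
    have h3 : x - y ∈ Kᗮ := Submodule.sub_mem _ hx.1 hy.1
    have h4 : x - y ∈ K := ⟨h1, h2⟩
    have h5 : x - y = 0 := by
      have := Submodule.inf_orthogonal_eq_bot K
      have h6 : x - y ∈ K ⊓ Kᗮ := ⟨h4, h3⟩
      rw [this] at h6
      simpa using h6
    exact sub_eq_zero.1 h5
  rw [← hmap]
  exact trOn_map_eq A A π hπ U hUinv hinj

/-- Subadditivity on invariant subspaces of a positive operator. -/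
theorem trOn_sup_le {A : E →ₗ[ℝ] E} (hA : A.IsPositive) {S₁ S₂ : Submodule ℝ E}
    (h₁ : ∀ x ∈ S₁, A x ∈ S₁) (h₂ : ∀ x ∈ S₂, A x ∈ S₂) :
    trOn A (S₁ ⊔ S₂) ≤ trOn A S₁ + trOn A S₂ := by
  rw [trOn_sup_eq hA.isSymmetric h₁ h₂]
  have := trOn_mono hA (inf_le_right : (S₁ ⊓ S₂)ᗮ ⊓ S₂ ≤ S₂)
  linarith

/-- Additivity on disjoint invariant subspaces of a symmetric operator. -/
theorem trOn_sup_of_disjoint {A : E →ₗ[ℝ] E} (hA : A.IsSymmetric) {S₁ S₂ : Submodule ℝ E}
    (h₁ : ∀ x ∈ S₁, A x ∈ S₁) (h₂ : ∀ x ∈ S₂, A x ∈ S₂) (hd : Disjoint S₁ S₂) :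
    trOn A (S₁ ⊔ S₂) = trOn A S₁ + trOn A S₂ := by
  rw [trOn_sup_eq hA h₁ h₂, hd.eq_bot]
  simp

theorem biSup_invariant {ι : Type*} {A : E →ₗ[ℝ] E} (S : ι → Submodule ℝ E) (s : Finset ι)
    (h : ∀ i ∈ s, ∀ x ∈ S i, A x ∈ S i) : ∀ x ∈ ⨆ i ∈ s, S i, A x ∈ ⨆ i ∈ s, S i := by
  classical
  induction s using Finset.induction_on with
  | empty => intro x hx; simp at hx ⊢; simp [hx]
  | insert a s ha ih =>
    rw [Finset.iSup_insert]
    exact sup_invariant (h a (Finset.mem_insert_self _ _))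
      (ih fun i hi => h i (Finset.mem_insert_of_mem hi))

/-- Subadditivity over a finite family. -/
theorem trOn_biSup_le {ι : Type*} {A : E →ₗ[ℝ] E} (hA : A.IsPositive) (S : ι → Submodule ℝ E)
    (s : Finset ι) (h : ∀ i ∈ s, ∀ x ∈ S i, A x ∈ S i) :
    trOn A (⨆ i ∈ s, S i) ≤ ∑ i ∈ s, trOn A (S i) := by
  classical
  induction s using Finset.induction_on with
  | empty => simp
  | insert a s ha ih =>
    rw [Finset.iSup_insert, Finset.sum_insert ha]
    have hs : ∀ i ∈ s, ∀ x ∈ S i, A x ∈ S i := fun i hi => h i (Finset.mem_insert_of_mem hi)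
    refine (trOn_sup_le hA (h a (Finset.mem_insert_self _ _)) (biSup_invariant S s hs)).trans ?_
    linarith [ih hs]

/-- Additivity over an independent finite family. -/
theorem trOn_biSup_eq {ι : Type*} {A : E →ₗ[ℝ] E} (hA : A.IsSymmetric) (S : ι → Submodule ℝ E)
    (s : Finset ι) (h : ∀ i ∈ s, ∀ x ∈ S i, A x ∈ S i)
    (hind : ∀ a ∈ s, ∀ t ⊆ s, a ∉ t → Disjoint (S a) (⨆ j ∈ t, S j)) :
    trOn A (⨆ i ∈ s, S i) = ∑ i ∈ s, trOn A (S i) := by
  classical
  induction s using Finset.induction_on with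
  | empty => simp
  | insert a s ha ih =>
    rw [Finset.iSup_insert, Finset.sum_insert ha]
    have hs : ∀ i ∈ s, ∀ x ∈ S i, A x ∈ S i := fun i hi => h i (Finset.mem_insert_of_mem hi)
    rw [trOn_sup_of_disjoint hA (h a (Finset.mem_insert_self _ _)) (biSup_invariant S s hs)
      (hind a (Finset.mem_insert_self _ _) s (Finset.subset_insert _ _) ha)]
    rw [ih hs fun b hb t ht hbt =>
      hind b (Finset.mem_insert_of_mem hb) t (ht.trans (Finset.subset_insert _ _)) hbt]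

end Crest.Agent.Thorp
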