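import Mathlib

/-!
# Independence of level components on injective tuples

Pure combinatorial core of "G": functions `φ_D` (`D` a `j`-subset of `R`) depending only on the
coordinates in `D` with zero fibre sums (among injective tuples) are independent as functions on
injective `R`-tuples as soon as `|R| + j ≤ |W|`.

Functions are written on all maps `ι → W`; only the values on maps that are injective on the
relevant set matter.
-/

set_option autoImplicit false
set_option linter.unusedSectionVars false

namespace Crest.Agent.Thorp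

open Finset

variable {ι W : Type*} [Fintype ι] [DecidableEq ι] [Fintype W] [DecidableEq W]

/-- `φ` depends only on the coordinates in `D`. -/
def DepOn (D : Finset ι) (φ : (ι → W) → ℝ) : Prop :=
  ∀ x y, (∀ i ∈ D, x i = y i) → φ x = φ y

/-- All fibre sums of `φ` vanish, among maps injective on `D`. -/
def FibZero (D : Finset ι) (φ : (ι → W) → ℝ) : Prop :=
  ∀ i ∈ D, ∀ x : ι → W, Set.InjOn x (D.erase i : Finset ι) →
    ∑ v ∈ univ \ (D.erase i).image x, φ (Function.update x i v) = 0

/-- The recursive identity obtained by summing over the coordinate `c`. -/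
theorem sum_over_coordinate (j : ℕ) (R : Finset ι) (c : ι) (hc : c ∈ R)
    (φ : Finset ι → (ι → W) → ℝ)
    (hφ : ∀ D ∈ R.powersetCard j, DepOn D (φ D) ∧ FibZero D (φ D))
    (h0 : ∀ x, Set.InjOn x (R : Set ι) → ∑ D ∈ R.powersetCard j, φ D x = 0)
    (x : ι → W) (hx : Set.InjOn x (R.erase c : Finset ι)) :
    ((Fintype.card W - (R.erase c).card : ℕ) : ℝ) * ∑ D ∈ (R.erase c).powersetCard j, φ D x =
      ∑ D ∈ (R.erase c).powersetCard j, ∑ t ∈ D,
        φ (insert c (D.erase t)) (Function.update x c (x t)) := by
  set R' := R.erase c with hR'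
  have hcR' : c ∉ R' := by simp [hR']
  set A : Finset W := univ \ R'.image x with hA
  have hcardA : A.card = Fintype.card W - R'.card := by
    rw [hA, card_sdiff_of_subset (subset_univ _), card_univ, card_image_of_injOn hx]
  have hinj : ∀ v ∈ A, Set.InjOn (Function.update x c v) (R : Set ι) := by
    intro v hv a ha b hb hab
    have hv' : ∀ t ∈ R', x t ≠ v := by
      intro t ht he
      simp only [hA, mem_sdiff, mem_univ, true_and, mem_image, not_exists, not_and] at hv
      exact hv t ht he
    by_cases hac : a = c <;> by_cases hbc : b = c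
    · rw [hac, hbc]
    · subst hac
      rw [Function.update_self, Function.update_of_ne hbc] at hab
      exact absurd hab.symm (hv' b (by simp [hR', hbc]; exact_mod_cast hb))
    · subst hbc
      rw [Function.update_self, Function.update_of_ne hac] at hab
      exact absurd hab (hv' a (by simp [hR', hac]; exact_mod_cast ha))
    · rw [Function.update_of_ne hac, Function.update_of_ne hbc] at hab
      exact hx (by simp [hR', hac]; exact_mod_cast ha) (by simp [hR', hbc]; exact_mod_cast hb) hab
  -- the total sum vanishes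
  have h1 : ∑ v ∈ A, ∑ D ∈ R.powersetCard j, φ D (Function.update x c v) = 0 :=
    sum_eq_zero fun v hv => h0 _ (hinj v hv)
  rw [sum_comm] at h1
  rw [← sum_filter_add_sum_filter_not (R.powersetCard j) (fun D => c ∉ D)] at h1
  -- part without `c`
  have hP0 : (R.powersetCard j).filter (fun D => c ∉ D) = R'.powersetCard j := by
    ext D
    simp only [mem_filter, mem_powersetCard, hR']
    constructor
    · rintro ⟨⟨h1, h2⟩, h3⟩
      exact ⟨subset_erase.2 ⟨h1, h3⟩, h2⟩
    · rintro ⟨h1, h2⟩
      exact ⟨⟨h1.trans (erase_subset _ _), h2⟩, fun h => (mem_erase.1 (h1 h)).1 rfl⟩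
  have hpart0 : ∑ D ∈ (R.powersetCard j).filter (fun D => c ∉ D),
      ∑ v ∈ A, φ D (Function.update x c v) =
      ((Fintype.card W - R'.card : ℕ) : ℝ) * ∑ D ∈ R'.powersetCard j, φ D x := by
    rw [hP0, mul_sum]
    refine sum_congr rfl fun D hD => ?_
    have hDsub : D ⊆ R := (mem_powersetCard.1 hD).1.trans (erase_subset _ _)
    have hcD : c ∉ D := fun h => hcR' ((mem_powersetCard.1 hD).1 h)
    have hD' : D ∈ R.powersetCard j := mem_powersetCard.2 ⟨hDsub, (mem_powersetCard.1 hD).2⟩
    have : ∀ v ∈ A, φ D (Function.update x c v) = φ D x := fun v _ =>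
      (hφ D hD').1 _ _ fun i hi => by
        rw [Function.update_of_ne]; rintro rfl; exact hcD hi
    rw [sum_congr rfl this, sum_const, hcardA, nsmul_eq_mul]
  -- part with `c`
  have hpart1 : ∀ D ∈ (R.powersetCard j).filter (fun D => ¬ c ∉ D),
      ∑ v ∈ A, φ D (Function.update x c v) =
      - ∑ t ∈ R' \ D, φ D (Function.update x c (x t)) := by
    intro D hD
    simp only [mem_filter, not_not] at hD
    obtain ⟨hD1, hcD⟩ := hD
    have hDsub := (mem_powersetCard.1 hD1).1
    have hsub : D.erase c ⊆ R' := erase_subset_erase _ hDsub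
    have hF := (hφ D hD1).2 c hcD x (hx.mono (by exact_mod_cast hsub))
    -- split the fibre
    have hsplit : univ \ (D.erase c).image x = A ∪ (R' \ D).image x := by
      ext v
      simp only [hA, mem_sdiff, mem_univ, true_and, mem_union, mem_image, not_exists, not_and]
      constructor
      · intro h
        by_cases hv : ∃ t ∈ R', x t = v
        · obtain ⟨t, ht, rfl⟩ := hv
          refine Or.inr ⟨t, ⟨ht, fun htD => ?_⟩, rfl⟩
          have htc : t ≠ c := fun h => hcR' (h ▸ ht)
          exact h t (mem_erase.2 ⟨htc, htD⟩) rfl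
        · push Not at hv
          exact Or.inl hv
      · rintro (h | ⟨t, ⟨ht, htD⟩, rfl⟩)
        · exact fun t ht => h t (hsub ht)
        · intro u hu hut
          have : u = t := hx (by exact_mod_cast hsub hu) (by exact_mod_cast ht) hut
          subst this
          exact htD (mem_of_mem_erase hu)
    have hdisj : Disjoint A ((R' \ D).image x) := by
      rw [disjoint_left]
      intro v hv hv'
      simp only [hA, mem_sdiff, mem_univ, true_and, mem_image, not_exists, not_and] at hv hv'
      obtain ⟨t, ⟨ht, _⟩, rfl⟩ := hv'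
      exact hv t ht rfl
    rw [hsplit, sum_union hdisj, sum_image] at hF
    · linarith
    · intro a ha b hb hab
      have ha' : a ∈ R' := (mem_sdiff.1 (by exact_mod_cast ha)).1
      have hb' : b ∈ R' := (mem_sdiff.1 (by exact_mod_cast hb)).1
      exact hx (by exact_mod_cast ha') (by exact_mod_cast hb') hab
  rw [hpart0, sum_congr rfl hpart1, sum_neg_distrib] at h1
  -- reindex the double sum
  have hreindex : ∑ D ∈ (R.powersetCard j).filter (fun D => ¬ c ∉ D),
      ∑ t ∈ R' \ D, φ D (Function.update x c (x t)) =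
      ∑ D ∈ R'.powersetCard j, ∑ t ∈ D,
        φ (insert c (D.erase t)) (Function.update x c (x t)) := by
    rw [sum_sigma', sum_sigma']
    refine sum_nbij' (fun p => ⟨insert p.2 (p.1.erase c), p.2⟩)
      (fun p => ⟨insert c (p.1.erase p.2), p.2⟩) ?_ ?_ ?_ ?_ ?_
    · rintro ⟨D, t⟩ hp
      simp only [mem_sigma, mem_filter, not_not, mem_powersetCard, mem_sdiff] at hp ⊢
      obtain ⟨⟨⟨hDR, hDj⟩, hcD⟩, htR', htD⟩ := hp
      have htD' : t ∉ D.erase c := fun h => htD (mem_of_mem_erase h)
      refine ⟨⟨insert_subset htR' (erase_subset_erase _ hDR), ?_⟩, mem_insert_self _ _⟩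
      rw [card_insert_of_notMem htD', card_erase_of_mem hcD, hDj]
      have : 0 < D.card := card_pos.2 ⟨c, hcD⟩
      omega
    · rintro ⟨D, t⟩ hp
      simp only [mem_sigma, mem_filter, not_not, mem_powersetCard, mem_sdiff] at hp ⊢
      obtain ⟨⟨hDR, hDj⟩, htD⟩ := hp
      have hcD : c ∉ D := fun h => hcR' (hDR h)
      have hcD' : c ∉ D.erase t := fun h => hcD (mem_of_mem_erase h)
      have htR' := hDR htD
      have htc : t ≠ c := fun h => hcR' (h ▸ htR')
      refine ⟨⟨⟨insert_subset hc ((erase_subset _ _).trans (hDR.trans (erase_subset _ _))), ?_⟩,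
        mem_insert_self _ _⟩, htR', ?_⟩
      · rw [card_insert_of_notMem hcD', card_erase_of_mem htD, hDj]
        have : 0 < D.card := card_pos.2 ⟨t, htD⟩
        omega
      · simp [htc]
    · rintro ⟨D, t⟩ hp
      simp only [mem_sigma, mem_filter, not_not, mem_powersetCard, mem_sdiff] at hp
      obtain ⟨⟨⟨hDR, hDj⟩, hcD⟩, htR', htD⟩ := hp
      have htD' : t ∉ D.erase c := fun h => htD (mem_of_mem_erase h)
      simp only [erase_insert htD', insert_erase hcD]
    · rintro ⟨D, t⟩ hp
      simp only [mem_sigma, mem_powersetCard] at hp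
      obtain ⟨⟨hDR, hDj⟩, htD⟩ := hp
      have hcD : c ∉ D := fun h => hcR' (hDR h)
      have hcD' : c ∉ D.erase t := fun h => hcD (mem_of_mem_erase h)
      simp only [erase_insert hcD', insert_erase htD]
    · rintro ⟨D, t⟩ hp
      simp only [mem_sigma, mem_filter, not_not, mem_powersetCard, mem_sdiff] at hp
      obtain ⟨⟨⟨hDR, hDj⟩, hcD⟩, htR', htD⟩ := hp
      have htD' : t ∉ D.erase c := fun h => htD (mem_of_mem_erase h)
      simp only [erase_insert htD', insert_erase hcD]
  rw [hreindex] at h1
  linarith

/-- The new family on `R.erase c`. -/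
noncomputable def psiFam (N' : ℝ) (c : ι) (φ : Finset ι → (ι → W) → ℝ) (D : Finset ι)
    (x : ι → W) : ℝ :=
  N' * φ D x - ∑ t ∈ D, φ (insert c (D.erase t)) (Function.update x c (x t))

theorem psiFam_depOn (j : ℕ) (R : Finset ι) (c : ι) (hc : c ∈ R) (N' : ℝ)
    (φ : Finset ι → (ι → W) → ℝ)
    (hφ : ∀ D ∈ R.powersetCard j, DepOn D (φ D) ∧ FibZero D (φ D))
    (D : Finset ι) (hD : D ∈ (R.erase c).powersetCard j) : DepOn D (psiFam N' c φ D) := by
  obtain ⟨hDR, hDj⟩ := mem_powersetCard.1 hD
  have hcD : c ∉ D := fun h => (mem_erase.1 (hDR h)).1 rfl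
  have hDR0 : D ⊆ R := hDR.trans (erase_subset _ _)
  intro x y hxy
  simp only [psiFam]
  rw [(hφ D (mem_powersetCard.2 ⟨hDR0, hDj⟩)).1 x y hxy]
  congr 1
  refine sum_congr rfl fun t ht => ?_
  have hmem : insert c (D.erase t) ∈ R.powersetCard j := by
    refine mem_powersetCard.2 ⟨insert_subset hc ((erase_subset _ _).trans hDR0), ?_⟩
    rw [card_insert_of_notMem (fun h => hcD (mem_of_mem_erase h)), card_erase_of_mem ht, hDj]
    have : 0 < D.card := card_pos.2 ⟨t, ht⟩
    omega
  refine (hφ _ hmem).1 _ _ fun i hi => ?_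
  by_cases hic : i = c
  · subst hic; simp [hxy t ht]
  · rw [Function.update_of_ne hic, Function.update_of_ne hic]
    exact hxy i (mem_of_mem_erase (mem_of_mem_insert_of_ne hi hic))

theorem psiFam_fibZero (j : ℕ) (R : Finset ι) (c : ι) (hc : c ∈ R) (N' : ℝ)
    (φ : Finset ι → (ι → W) → ℝ)
    (hφ : ∀ D ∈ R.powersetCard j, DepOn D (φ D) ∧ FibZero D (φ D))
    (D : Finset ι) (hD : D ∈ (R.erase c).powersetCard j) : FibZero D (psiFam N' c φ D) := by
  obtain ⟨hDR, hDj⟩ := mem_powersetCard.1 hD
  have hcD : c ∉ D := fun h => (mem_erase.1 (hDR h)).1 rfl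
  have hDR0 : D ⊆ R := hDR.trans (erase_subset _ _)
  have hmem : ∀ t ∈ D, insert c (D.erase t) ∈ R.powersetCard j := by
    intro t ht
    refine mem_powersetCard.2 ⟨insert_subset hc ((erase_subset _ _).trans hDR0), ?_⟩
    rw [card_insert_of_notMem (fun h => hcD (mem_of_mem_erase h)), card_erase_of_mem ht, hDj]
    have : 0 < D.card := card_pos.2 ⟨t, ht⟩
    omega
  intro i hi x hx
  have hic : i ≠ c := fun h => hcD (h ▸ hi)
  simp only [psiFam, sum_sub_distrib, ← mul_sum]
  rw [(hφ D (mem_powersetCard.2 ⟨hDR0, hDj⟩)).2 i hi x hx, mul_zero, zero_sub, neg_eq_zero]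
  rw [sum_comm]
  refine sum_eq_zero fun t ht => ?_
  by_cases hti : t = i
  · -- the term `t = i`: fibre over the coordinate `c`
    subst hti
    have hF := (hφ _ (hmem t ht)).2 c (mem_insert_self _ _) x
    have he : (insert c (D.erase t)).erase c = D.erase t :=
      erase_insert (fun h => hcD (mem_of_mem_erase h))
    rw [he] at hF
    rw [← hF hx]
    refine sum_congr rfl fun v _ => ?_
    refine (hφ _ (hmem t ht)).1 _ _ fun l hl => ?_
    by_cases hlc : l = c
    · subst hlc; simp
    · have hlt : l ≠ t := fun h => by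
        have := mem_of_mem_insert_of_ne hl hlc
        exact (mem_erase.1 this).1 h
      simp [Function.update_of_ne hlc, Function.update_of_ne hlt]
  · -- the term `t ≠ i`: fibre over the coordinate `i`
    set z := Function.update x c (x t) with hz
    have hiD : i ∈ insert c (D.erase t) := mem_insert_of_mem (mem_erase.2 ⟨Ne.symm hti, hi⟩)
    have hzt : ∀ l, l ≠ c → z l = x l := fun l hl => by rw [hz, Function.update_of_ne hl]
    have hzc : z c = x t := by rw [hz, Function.update_self]
    have htDi : t ∈ D.erase i := mem_erase.2 ⟨hti, ht⟩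
    have hEr : (insert c (D.erase t)).erase i = insert c ((D.erase t).erase i) := by
      rw [erase_insert_of_ne (Ne.symm hic)]
    have himg : ((insert c (D.erase t)).erase i).image z = (D.erase i).image x := by
      rw [hEr, image_insert, hzc]
      ext v
      simp only [mem_insert, mem_image, mem_erase]
      constructor
      · rintro (rfl | ⟨l, ⟨hli, hlt, hlD⟩, rfl⟩)
        · exact ⟨t, ⟨hti, ht⟩, rfl⟩
        · have hlc : l ≠ c := fun h => hcD (h ▸ hlD)
          exact ⟨l, ⟨hli, hlD⟩, (hzt l hlc).symm⟩
      · rintro ⟨l, ⟨hli, hlD⟩, rfl⟩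
        by_cases hlt : l = t
        · subst hlt; exact Or.inl rfl
        · have hlc : l ≠ c := fun h => hcD (h ▸ hlD)
          exact Or.inr ⟨l, ⟨hli, hlt, hlD⟩, hzt l hlc⟩
    have hzinj : Set.InjOn z ((insert c (D.erase t)).erase i : Finset ι) := by
      rw [hEr]
      intro a ha b hb hab
      have ha' := mem_insert.1 (by exact_mod_cast ha : a ∈ insert c ((D.erase t).erase i))
      have hb' := mem_insert.1 (by exact_mod_cast hb : b ∈ insert c ((D.erase t).erase i))
      have key : ∀ u ∈ (D.erase t).erase i, u ∈ D.erase i ∧ u ≠ t ∧ u ≠ c := by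
        intro u hu
        obtain ⟨h1, h2⟩ := mem_erase.1 hu
        obtain ⟨h3, h4⟩ := mem_erase.1 h2
        exact ⟨mem_erase.2 ⟨h1, h4⟩, h3, fun h => hcD (h ▸ h4)⟩
      rcases ha' with rfl | ha' <;> rcases hb' with rfl | hb'
      · rfl
      · obtain ⟨h1, h2, h3⟩ := key b hb'
        rw [hzc, hzt b h3] at hab
        exact absurd (hx (by exact_mod_cast htDi) (by exact_mod_cast h1) hab).symm h2
      · obtain ⟨h1, h2, h3⟩ := key a ha'
        rw [hzc, hzt a h3] at hab
        exact absurd (hx (by exact_mod_cast h1) (by exact_mod_cast htDi) hab) h2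
      · obtain ⟨h1, h2, h3⟩ := key a ha'
        obtain ⟨h4, h5, h6⟩ := key b hb'
        rw [hzt a h3, hzt b h6] at hab
        exact hx (by exact_mod_cast h1) (by exact_mod_cast h4) hab
    have hF := (hφ _ (hmem t ht)).2 i hiD z hzinj
    rw [himg] at hF
    rw [← hF]
    refine sum_congr rfl fun v _ => ?_
    congr 1
    rw [Function.update_of_ne hti, hz, Function.update_comm hic]

/-- **Independence** of level components (all `j`-subsets of `R`), for `|R| + j ≤ |W|`. -/
theorem tuple_indep (j : ℕ) : ∀ (n : ℕ) (R : Finset ι), R.card = n → n + j ≤ Fintype.card W →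
    ∀ φ : Finset ι → (ι → W) → ℝ,
      (∀ D ∈ R.powersetCard j, DepOn D (φ D) ∧ FibZero D (φ D)) →
      (∀ x, Set.InjOn x (R : Set ι) → ∑ D ∈ R.powersetCard j, φ D x = 0) →
      ∀ D ∈ R.powersetCard j, ∀ x, Set.InjOn x (D : Set ι) → φ D x = 0 := by
  classical
  -- the degenerate case `R.card ≤ j`
  have hdeg : ∀ (R : Finset ι), R.card ≤ j → ∀ φ : Finset ι → (ι → W) → ℝ,
      (∀ x, Set.InjOn x (R : Set ι) → ∑ D ∈ R.powersetCard j, φ D x = 0) →
      ∀ D ∈ R.powersetCard j, ∀ x, Set.InjOn x (D : Set ι) → φ D x = 0 := by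
    intro R hR φ h0 D hD x hx
    obtain ⟨hDR, hDj⟩ := mem_powersetCard.1 hD
    have hDeq : D = R := eq_of_subset_of_card_le hDR (by omega)
    subst hDeq
    have hP : D.powersetCard j = {D} := by
      ext E
      simp only [mem_powersetCard, mem_singleton]
      constructor
      · rintro ⟨h1, h2⟩
        exact eq_of_subset_of_card_le h1 (by omega)
      · rintro rfl; exact ⟨Subset.refl _, hDj⟩
    have := h0 x hx
    rwa [hP, sum_singleton] at this
  intro n
  induction n with
  | zero =>
    intro R hR _ φ _ h0
    exact hdeg R (by omega) φ h0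
  | succ n ih =>
    intro R hR hN φ hφ h0
    by_cases hRj : R.card ≤ j
    · exact hdeg R hRj φ h0
    push Not at hRj
    -- all values vanish, by the maximum principle
    intro D0 hD0 x0 hx0
    by_contra hne
    let S : Finset (Finset ι × (ι → W)) :=
      (R.powersetCard j ×ˢ univ).filter fun p => Set.InjOn p.2 (p.1 : Set ι)
    have hS0 : (D0, x0) ∈ S := by
      simp only [S, mem_filter, mem_product, mem_univ, and_true]
      exact ⟨hD0, hx0⟩
    obtain ⟨p, hpS, hpmax⟩ := exists_max_image S (fun p => |φ p.1 p.2|) ⟨_, hS0⟩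
    obtain ⟨D, x⟩ := p
    simp only [S, mem_filter, mem_product, mem_univ, and_true] at hpS
    obtain ⟨hD, hx⟩ := hpS
    obtain ⟨hDR, hDj⟩ := mem_powersetCard.1 hD
    set m := |φ D x| with hm
    have hmpos : 0 < m := lt_of_lt_of_le (abs_pos.2 hne) (hpmax _ hS0)
    -- a coordinate outside `D`
    obtain ⟨c, hcR, hcD⟩ : ∃ c ∈ R, c ∉ D := by
      by_contra hall
      push Not at hall
      have : R.card ≤ D.card := card_le_card hall
      omega
    have hcardR' : (R.erase c).card = n := by rw [card_erase_of_mem hcR, hR]; rfl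
    set N' : ℝ := ((Fintype.card W - (R.erase c).card : ℕ) : ℝ) with hN'
    have hN'ge : (j : ℝ) + 1 ≤ N' := by
      rw [hN', hcardR']
      have : j + 1 ≤ Fintype.card W - n := by omega
      exact_mod_cast this
    have hDmem' : D ∈ (R.erase c).powersetCard j :=
      mem_powersetCard.2 ⟨subset_erase.2 ⟨hDR, hcD⟩, hDj⟩
    have hIH := ih (R.erase c) hcardR' (by omega) (psiFam N' c φ)
      (fun E hE => ⟨psiFam_depOn j R c hcR N' φ hφ E hE, psiFam_fibZero j R c hcR N' φ hφ E hE⟩)
      (fun y hy => by
        simp only [psiFam, sum_sub_distrib, ← mul_sum]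
        rw [sum_over_coordinate j R c hcR φ hφ h0 y hy]
        simp)
      D hDmem' x hx
    simp only [psiFam] at hIH
    have hbound : N' * m ≤ j * m := by
      have h1 : N' * φ D x = ∑ t ∈ D, φ (insert c (D.erase t)) (Function.update x c (x t)) := by
        linarith
      have h2 : N' * m = |N' * φ D x| := by
        rw [abs_mul, abs_of_nonneg (by linarith [(Nat.cast_nonneg j : (0 : ℝ) ≤ (j : ℝ))] : (0 : ℝ) ≤ N')]
      rw [h2, h1]
      refine (abs_sum_le_sum_abs _ _).trans ?_
      have h3 : ∀ t ∈ D, |φ (insert c (D.erase t)) (Function.update x c (x t))| ≤ m := by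
        intro t ht
        have hmemS : (insert c (D.erase t), Function.update x c (x t)) ∈ S := by
          simp only [S, mem_filter, mem_product, mem_univ, and_true]
          constructor
          · refine mem_powersetCard.2 ⟨insert_subset hcR ((erase_subset _ _).trans hDR), ?_⟩
            rw [card_insert_of_notMem (fun h => hcD (mem_of_mem_erase h)), card_erase_of_mem ht, hDj]
            have : 0 < D.card := card_pos.2 ⟨t, ht⟩
            omega
          · intro a ha b hb hab
            have ha' := mem_insert.1 (by exact_mod_cast ha : a ∈ insert c (D.erase t))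
            have hb' := mem_insert.1 (by exact_mod_cast hb : b ∈ insert c (D.erase t))
            have hne' : ∀ u ∈ D.erase t, u ≠ c := fun u hu h => hcD (h ▸ mem_of_mem_erase hu)
            rcases ha' with rfl | ha' <;> rcases hb' with rfl | hb'
            · rfl
            · rw [Function.update_self, Function.update_of_ne (hne' b hb')] at hab
              have := hx (by exact_mod_cast ht) (by exact_mod_cast (mem_of_mem_erase hb')) hab
              exact absurd this.symm (mem_erase.1 hb').1
            · rw [Function.update_self, Function.update_of_ne (hne' a ha')] at hab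
              have := hx (by exact_mod_cast (mem_of_mem_erase ha')) (by exact_mod_cast ht) hab
              exact absurd this (mem_erase.1 ha').1
            · rw [Function.update_of_ne (hne' a ha'), Function.update_of_ne (hne' b hb')] at hab
              exact hx (by exact_mod_cast (mem_of_mem_erase ha'))
                (by exact_mod_cast (mem_of_mem_erase hb')) hab
        exact hpmax _ hmemS
      refine (sum_le_sum h3).trans_eq ?_
      rw [sum_const, hDj, nsmul_eq_mul]
    nlinarith

end Crest.Agent.Thorp
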