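import Mathlib
import Crest.Agent.Lib.Thorp.TraceOn
import Crest.Agent.Lib.Thorp.TupleIndep

/-!
# Levels of the tuple operators

For a function `μ` on `Perm W`, `tupOp μ κ` acts on functions on injective `κ`-tuples by
`(tupOp μ κ f) x = ∑ g, μ g * f (g ∘ x)`. `W0 κ W` is the space of functions with zero fibre sums.
`pull e` is the pull-back along `e : κ ↪ ι`; it intertwines the operators.

* `level_indep`: the level `j` pieces on `ι`-tuples are independent if `|ι| + j ≤ |W|`;
* `choose_mul_omega_le`: `C(k, j) ω_j(T) ≤ tr (M_k ^ T)`;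
-/

set_option autoImplicit false
set_option linter.unusedSectionVars false

namespace Crest.Agent.Thorp

open Finset

variable {W : Type*} [Fintype W] [DecidableEq W]
variable {κ ι : Type*} [Fintype κ] [DecidableEq κ] [Fintype ι] [DecidableEq ι]

/-- Functions on injective `κ`-tuples. -/
abbrev TupE (κ W : Type*) [Fintype κ] [DecidableEq κ] [Fintype W] [DecidableEq W] :=
  EuclideanSpace ℝ (κ ↪ W)

/-- The kernel of a law `μ` on injective tuples. -/
noncomputable def tupMat (μ : Equiv.Perm W → ℝ) (κ : Type*) [Fintype κ] [DecidableEq κ] :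
    Matrix (κ ↪ W) (κ ↪ W) ℝ :=
  fun x y => ∑ g, μ g * if x.trans g.toEmbedding = y then 1 else 0

/-- The operator of the kernel on functions on injective tuples. -/
noncomputable def tupOp (μ : Equiv.Perm W → ℝ) (κ : Type*) [Fintype κ] [DecidableEq κ] :
    TupE κ W →ₗ[ℝ] TupE κ W where
  toFun f := WithLp.toLp 2 fun x => ∑ g, μ g * f (x.trans g.toEmbedding)
  map_add' f h := by
    ext x
    simp [mul_add, Finset.sum_add_distrib]
  map_smul' c f := by
    ext x
    simp [Finset.mul_sum, mul_left_comm]

theorem tupOp_apply (μ : Equiv.Perm W → ℝ) (f : TupE κ W) (x : κ ↪ W) :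
    tupOp μ κ f x = ∑ g, μ g * f (x.trans g.toEmbedding) := rfl

theorem tupOp_eq_toEuclideanLin (μ : Equiv.Perm W → ℝ) :
    tupOp μ κ = Matrix.toEuclideanLin (tupMat μ κ) := by
  ext1 f
  ext x
  rw [tupOp_apply]
  simp only [Matrix.toLpLin_apply, Matrix.mulVec, dotProduct, tupMat]
  simp only [sum_mul, mul_assoc]
  rw [sum_comm]
  refine sum_congr rfl fun g _ => ?_
  simp [ite_mul]

/-- The trace of the operator is the trace of the matrix. -/
theorem trace_tupOp_pow (μ : Equiv.Perm W → ℝ) (T : ℕ) :
    LinearMap.trace ℝ (TupE κ W) (tupOp μ κ ^ T) = Matrix.trace (tupMat μ κ ^ T) := by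
  rw [tupOp_eq_toEuclideanLin]
  have h : (Matrix.toEuclideanLin (tupMat μ κ)) ^ T = Matrix.toEuclideanLin (tupMat μ κ ^ T) :=
    (Matrix.toLpLin_pow 2 (tupMat μ κ) T).symm
  rw [h]
  change LinearMap.trace ℝ (TupE κ W) (Matrix.toLpLin 2 2 _) = _
  rw [Matrix.toLpLin_eq_toLin]
  exact Matrix.trace_toLin_eq _ _

/-- Pull-back of functions on tuples along an injection of index types. -/
noncomputable def pull (e : κ ↪ ι) : TupE κ W →ₗ[ℝ] TupE ι W where
  toFun φ := WithLp.toLp 2 fun x => φ (e.trans x)
  map_add' f h := by ext x; simp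
  map_smul' c f := by ext x; simp

theorem pull_apply (e : κ ↪ ι) (φ : TupE κ W) (x : ι ↪ W) : pull e φ x = φ (e.trans x) := rfl

theorem pull_tupOp (μ : Equiv.Perm W → ℝ) (e : κ ↪ ι) (φ : TupE κ W) :
    pull e (tupOp μ κ φ) = tupOp μ ι (pull e φ) := by
  ext x
  simp only [pull_apply, tupOp_apply]
  rfl

theorem pull_tupOp_pow (μ : Equiv.Perm W → ℝ) (e : κ ↪ ι) (T : ℕ) (φ : TupE κ W) :
    pull e ((tupOp μ κ ^ T) φ) = (tupOp μ ι ^ T) (pull e φ) := by
  induction T generalizing φ with
  | zero => simp
  | succ T ih =>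
    rw [pow_succ, pow_succ, Module.End.mul_apply, Module.End.mul_apply, ih, pull_tupOp]

theorem pull_pull {κ' : Type*} [Fintype κ'] [DecidableEq κ'] (e : κ ↪ ι) (e' : ι ↪ κ')
    (φ : TupE κ W) : pull e' (pull e φ) = pull (e.trans e') φ := by
  ext x
  rfl

/-- Injective tuples extend. -/
theorem exists_extend (e : κ ↪ ι) (y : κ ↪ W) (h : Fintype.card ι ≤ Fintype.card W) :
    ∃ x : ι ↪ W, e.trans x = y := by
  classical
  rcases isEmpty_or_nonempty W with hW | hW
  · have hι : IsEmpty ι := by
      rw [← Fintype.card_eq_zero_iff] at hW ⊢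
      omega
    have hκ : IsEmpty κ := Function.isEmpty e
    exact ⟨Function.Embedding.ofIsEmpty, by ext k; exact (hκ.false k).elim⟩
  · have hκι : Fintype.card κ ≤ Fintype.card ι := Fintype.card_le_of_embedding e
    have ht0 : (univ.image y).card ≤ Fintype.card ι := by
      rw [card_image_of_injective _ y.injective, card_univ]; exact hκι
    obtain ⟨t, ht, -, htc⟩ := exists_subsuperset_card_eq (subset_univ (univ.image y)) ht0
      (by rwa [card_univ])
    let f : ι → W := Function.extend e y fun _ => Classical.arbitrary W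
    have hfe : ∀ k, f (e k) = y k := fun k => e.injective.extend_apply _ _ k
    obtain ⟨g, hg⟩ := Finset.exists_equiv_extend_of_card_eq (α := ι) (β := W) (t := t)
      htc.symm (s := univ.image e) (f := f)
      (by
        intro w hw
        obtain ⟨i, hi, rfl⟩ := mem_image.1 hw
        obtain ⟨k, -, rfl⟩ := mem_image.1 hi
        rw [hfe]
        exact ht (mem_image_of_mem _ (mem_univ _)))
      (by
        rintro a ha b hb hab
        simp only [coe_image, coe_univ, Set.image_univ, Set.mem_range] at ha hb
        obtain ⟨k, rfl⟩ := ha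
        obtain ⟨l, rfl⟩ := hb
        rw [hfe, hfe] at hab
        rw [y.injective hab])
    refine ⟨g.toEmbedding.trans (Function.Embedding.subtype _), ?_⟩
    ext k
    simp only [Function.Embedding.trans_apply, Equiv.coe_toEmbedding,
      Function.Embedding.coe_subtype]
    rw [hg _ (mem_image_of_mem _ (mem_univ _)), hfe]

theorem pull_injective (e : κ ↪ ι) (h : Fintype.card ι ≤ Fintype.card W) :
    Function.Injective (pull e : TupE κ W → TupE ι W) := by
  intro φ ψ hφψ
  ext y
  obtain ⟨x, rfl⟩ := exists_extend e y h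
  have := congrArg (fun f : TupE ι W => f x) hφψ
  simpa [pull_apply] using this

/-- Functions on injective tuples with zero fibre sums. -/
noncomputable def W0 (κ W : Type*) [Fintype κ] [DecidableEq κ] [Fintype W] [DecidableEq W] :
    Submodule ℝ (TupE κ W) where
  carrier := {φ | ∀ i : κ, ∀ x : κ ↪ W,
    ∑ y ∈ univ.filter (fun y : κ ↪ W => ∀ l, l ≠ i → y l = x l), φ y = 0}
  zero_mem' := by
    intro i x
    simp
  add_mem' := by
    intro a b ha hb i x
    simp [Finset.sum_add_distrib, ha i x, hb i x]
  smul_mem' := by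
    intro c a ha i x
    simp only [PiLp.smul_apply, smul_eq_mul, ← Finset.mul_sum]
    rw [ha i x, mul_zero]

theorem mem_W0 {φ : TupE κ W} : φ ∈ W0 κ W ↔ ∀ i : κ, ∀ x : κ ↪ W,
    ∑ y ∈ univ.filter (fun y : κ ↪ W => ∀ l, l ≠ i → y l = x l), φ y = 0 := Iff.rfl

/-- Permutations act on tuples. -/
def transEquiv (g : Equiv.Perm W) : (κ ↪ W) ≃ (κ ↪ W) where
  toFun y := y.trans g.toEmbedding
  invFun y := y.trans g.symm.toEmbedding
  left_inv y := by ext; simp
  right_inv y := by ext; simp

/-- The tuple operators preserve `W0`. -/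
theorem tupOp_mem_W0 (μ : Equiv.Perm W → ℝ) {φ : TupE κ W} (hφ : φ ∈ W0 κ W) :
    tupOp μ κ φ ∈ W0 κ W := by
  intro i x
  simp only [tupOp_apply]
  rw [sum_comm]
  refine sum_eq_zero fun g _ => ?_
  rw [← mul_sum]
  have : ∑ y ∈ univ.filter (fun y : κ ↪ W => ∀ l, l ≠ i → y l = x l),
      φ (y.trans g.toEmbedding) =
      ∑ y ∈ univ.filter (fun y : κ ↪ W => ∀ l, l ≠ i → y l = (x.trans g.toEmbedding) l), φ y := by
    refine Finset.sum_equiv (transEquiv g) ?_ ?_
    · intro y
      simp only [mem_filter, mem_univ, true_and, transEquiv, Equiv.coe_fn_mk,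
        Function.Embedding.trans_apply, Equiv.coe_toEmbedding]
      constructor
      · intro h l hl; rw [h l hl]
      · intro h l hl; exact g.injective (h l hl)
    · intro y _
      rfl
  rw [this, hφ i _, mul_zero]

theorem tupOp_pow_mem_W0 (μ : Equiv.Perm W → ℝ) (T : ℕ) {φ : TupE κ W} (hφ : φ ∈ W0 κ W) :
    (tupOp μ κ ^ T) φ ∈ W0 κ W := by
  induction T with
  | zero => simpa using hφ
  | succ T ih =>
    rw [pow_succ', Module.End.mul_apply]
    exact tupOp_mem_W0 μ ih

section Lift

/-- The inclusion of a finset of indices. -/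
def subEmb (D : Finset ι) : {i // i ∈ D} ↪ ι := Function.Embedding.subtype _

/-- The tuple on `D` defined by a map injective on `D`. -/
def embOf (D : Finset ι) (x : ι → W) (h : Set.InjOn x (D : Set ι)) : {i // i ∈ D} ↪ W :=
  ⟨fun i => x i, fun a b hab => Subtype.ext (h (by exact_mod_cast a.2) (by exact_mod_cast b.2) hab)⟩

@[simp] theorem embOf_apply (D : Finset ι) (x : ι → W) (h : Set.InjOn x (D : Set ι))
    (i : {i // i ∈ D}) : embOf D x h i = x i := rfl

open Classical in
/-- A function on `D`-tuples as a function on all maps. -/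
noncomputable def lift (D : Finset ι) (φ : TupE {i // i ∈ D} W) (x : ι → W) : ℝ :=
  if h : Set.InjOn x (D : Set ι) then φ (embOf D x h) else 0

theorem lift_of_injOn (D : Finset ι) (φ : TupE {i // i ∈ D} W) (x : ι → W)
    (h : Set.InjOn x (D : Set ι)) : lift D φ x = φ (embOf D x h) := dif_pos h

theorem lift_depOn (D : Finset ι) (φ : TupE {i // i ∈ D} W) : DepOn D (lift D φ) := by
  intro x y hxy
  by_cases hx : Set.InjOn x (D : Set ι)
  · have hy : Set.InjOn y (D : Set ι) := by
      intro a ha b hb hab
      rw [← hxy a (by exact_mod_cast ha), ← hxy b (by exact_mod_cast hb)] at hab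
      exact hx ha hb hab
    rw [lift_of_injOn D φ x hx, lift_of_injOn D φ y hy]
    have : embOf D x hx = embOf D y hy := by
      ext i
      exact hxy i i.2
    rw [this]
  · have hy : ¬ Set.InjOn y (D : Set ι) := by
      intro hy
      apply hx
      intro a ha b hb hab
      rw [hxy a (by exact_mod_cast ha), hxy b (by exact_mod_cast hb)] at hab
      exact hy ha hb hab
    simp [lift, hx, hy]

theorem lift_fibZero (D : Finset ι) {φ : TupE {i // i ∈ D} W} (hφ : φ ∈ W0 {i // i ∈ D} W) :
    FibZero D (lift D φ) := by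
  classical
  intro i hi x hx
  -- the injectivity after updating
  have hinj : ∀ v ∈ univ \ (D.erase i).image x, Set.InjOn (Function.update x i v) (D : Set ι) := by
    intro v hv a ha b hb hab
    have hv' : ∀ t ∈ D.erase i, x t ≠ v := by
      intro t ht he
      simp only [mem_sdiff, mem_univ, true_and, mem_image, not_exists, not_and] at hv
      exact hv t ht he
    by_cases hai : a = i <;> by_cases hbi : b = i
    · rw [hai, hbi]
    · subst hai
      rw [Function.update_self, Function.update_of_ne hbi] at hab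
      exact absurd hab.symm (hv' b (mem_erase.2 ⟨hbi, by exact_mod_cast hb⟩))
    · subst hbi
      rw [Function.update_self, Function.update_of_ne hai] at hab
      exact absurd hab (hv' a (mem_erase.2 ⟨hai, by exact_mod_cast ha⟩))
    · rw [Function.update_of_ne hai, Function.update_of_ne hbi] at hab
      exact hx (by exact_mod_cast mem_erase.2 ⟨hai, by exact_mod_cast ha⟩)
        (by exact_mod_cast mem_erase.2 ⟨hbi, by exact_mod_cast hb⟩) hab
  rcases (univ \ (D.erase i).image x).eq_empty_or_nonempty with hE | ⟨v₀, hv₀⟩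
  · rw [hE, sum_empty]
  · -- compare with the fibre through `v₀`
    set y₀ := embOf D (Function.update x i v₀) (hinj v₀ hv₀) with hy₀
    have hfib := hφ ⟨i, hi⟩ y₀
    rw [← hfib]
    refine Finset.sum_bij (fun v hv => embOf D (Function.update x i v) (hinj v hv)) ?_ ?_ ?_ ?_
    · intro v hv
      simp only [mem_filter, mem_univ, true_and]
      intro l hl
      have hli : (l : ι) ≠ i := fun h => hl (Subtype.ext h)
      simp [y₀, Function.update_of_ne hli]
    · intro v hv w hw hvw
      have := congrArg (fun z : {i // i ∈ D} ↪ W => z ⟨i, hi⟩) hvw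
      simpa using this
    · intro y hy
      simp only [mem_filter, mem_univ, true_and] at hy
      have hyv : y ⟨i, hi⟩ ∈ univ \ (D.erase i).image x := by
        simp only [mem_sdiff, mem_univ, true_and, mem_image, not_exists, not_and]
        intro t ht he
        have hti : t ≠ i := (mem_erase.1 ht).1
        have htD : t ∈ D := (mem_erase.1 ht).2
        have h1 := hy ⟨t, htD⟩ (fun h => hti (congrArg Subtype.val h))
        have h2 : y₀ ⟨t, htD⟩ = x t := by
          simp [y₀, Function.update_of_ne hti]
        rw [h2, he] at h1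
        have h3 := y.injective h1
        exact hti (congrArg Subtype.val h3)
      refine ⟨y ⟨i, hi⟩, hyv, ?_⟩
      ext l
      by_cases hli : (l : ι) = i
      · have : l = ⟨i, hi⟩ := Subtype.ext hli
        subst this
        simp
      · have h1 := hy l (fun h => hli (congrArg Subtype.val h))
        simp only [embOf_apply, Function.update_of_ne hli]
        rw [h1]
        simp [y₀, Function.update_of_ne hli]
    · intro v hv
      rw [lift_of_injOn D φ _ (hinj v hv)]

/-- Independence of the level `j` pieces, in the form of vectors. -/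
theorem level_indep (j : ℕ) (hN : Fintype.card ι + j ≤ Fintype.card W)
    (φ : ∀ D : Finset ι, TupE {i // i ∈ D} W)
    (hφ : ∀ D ∈ (univ : Finset ι).powersetCard j, φ D ∈ W0 {i // i ∈ D} W)
    (h0 : ∑ D ∈ (univ : Finset ι).powersetCard j, pull (subEmb D) (φ D) = 0) :
    ∀ D ∈ (univ : Finset ι).powersetCard j, φ D = 0 := by
  classical
  have key := tuple_indep (ι := ι) (W := W) j (Fintype.card ι) univ (by simp) hN
    (fun D => lift D (φ D))
    (fun D hD => ⟨lift_depOn D (φ D), lift_fibZero D (hφ D hD)⟩)
    (by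
      intro x hx
      have hxinj : Function.Injective x := by
        intro a b hab
        exact hx (by simp) (by simp) hab
      have := congrArg (fun f : TupE ι W => f ⟨x, hxinj⟩) h0
      simp only [WithLp.ofLp_sum, Finset.sum_apply, PiLp.zero_apply] at this
      rw [← this]
      refine sum_congr rfl fun D _ => ?_
      have hD : Set.InjOn x (D : Set ι) := hxinj.injOn
      rw [lift_of_injOn D _ x hD, pull_apply]
      rfl)
  intro D hD
  ext y
  -- extend `y` arbitrarily
  rcases isEmpty_or_nonempty W with hW | hW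
  · have h1 : IsEmpty {i // i ∈ D} := by
      by_contra hne
      rw [not_isEmpty_iff] at hne
      obtain ⟨i⟩ := hne
      exact hW.false (y i)
    have hx : ∃ x : ι → W, True := by
      have hι : IsEmpty ι := by
        rw [← Fintype.card_eq_zero_iff] at hW ⊢
        omega
      exact ⟨fun i => (hι.false i).elim, trivial⟩
    obtain ⟨x, -⟩ := hx
    have hinj : Set.InjOn x (D : Set ι) := by
      intro a ha
      exact (h1.false ⟨a, by exact_mod_cast ha⟩).elim
    have h2 := key D hD x hinj
    rw [lift_of_injOn D _ x hinj] at h2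
    have h3 : embOf D x hinj = y := by ext i; exact (h1.false i).elim
    rw [h3] at h2
    simpa using h2
  · let x : ι → W := fun i => if h : i ∈ D then y ⟨i, h⟩ else Classical.arbitrary W
    have hxy : ∀ i : {i // i ∈ D}, x i = y i := by
      intro i
      simp only [x]
      rw [dif_pos i.2]
    have hinj : Set.InjOn x (D : Set ι) := by
      intro a ha b hb hab
      have ha' : a ∈ D := by exact_mod_cast ha
      have hb' : b ∈ D := by exact_mod_cast hb
      have h1 := hxy ⟨a, ha'⟩
      have h2 := hxy ⟨b, hb'⟩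
      simp only at h1 h2
      rw [h1, h2] at hab
      exact congrArg Subtype.val (y.injective hab)
    have h2 := key D hD x hinj
    rw [lift_of_injOn D _ x hinj] at h2
    have h3 : embOf D x hinj = y := by ext i; exact hxy i
    rw [h3] at h2
    simpa using h2

/-- The level `j` piece sitting on the coordinates `D`. -/
noncomputable def levelPiece (W : Type*) [Fintype W] [DecidableEq W] (D : Finset ι) :
    Submodule ℝ (TupE ι W) :=
  (W0 {i // i ∈ D} W).map (pull (subEmb D))

theorem levelPiece_invariant (μ : Equiv.Perm W → ℝ) (T : ℕ) (D : Finset ι) :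
    ∀ f ∈ levelPiece W D, (tupOp μ ι ^ T) f ∈ levelPiece W D := by
  rintro _ ⟨φ, hφ, rfl⟩
  exact ⟨(tupOp μ _ ^ T) φ, tupOp_pow_mem_W0 μ T hφ, pull_tupOp_pow μ (subEmb D) T φ⟩

/-- The pieces of one level are independent. -/
theorem levelPiece_disjoint (j : ℕ) (hN : Fintype.card ι + j ≤ Fintype.card W)
    (a : Finset ι) (ha : a ∈ (univ : Finset ι).powersetCard j)
    (t : Finset (Finset ι)) (ht : t ⊆ (univ : Finset ι).powersetCard j) (hat : a ∉ t) :
    Disjoint (levelPiece (ι := ι) W a) (⨆ D ∈ t, levelPiece (ι := ι) W D) := by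
  classical
  rw [Submodule.disjoint_def]
  intro f hfa hft
  obtain ⟨φa, hφa, rfl⟩ := hfa
  rw [Submodule.mem_iSup_finset_iff_exists_sum] at hft
  obtain ⟨g, hg⟩ := hft
  -- choose preimages
  have hg' : ∀ D, ∃ ψ ∈ W0 {i // i ∈ D} W, pull (subEmb D) ψ = (g D : TupE ι W) :=
    fun D => (g D).2
  choose ψ hψ hψe using hg'
  let φ : ∀ D : Finset ι, TupE {i // i ∈ D} W := fun D =>
    if h : D = a then h ▸ φa else if D ∈ t then - ψ D else 0
  have hφa' : φ a = φa := by simp [φ]
  have hφt : ∀ D ∈ t, φ D = - ψ D := by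
    intro D hD
    have hne : D ≠ a := fun h => hat (h ▸ hD)
    simp [φ, hne, hD]
  have hφmem : ∀ D ∈ (univ : Finset ι).powersetCard j, φ D ∈ W0 {i // i ∈ D} W := by
    intro D _
    by_cases h : D = a
    · subst h
      rw [hφa']; exact hφa
    · by_cases hD : D ∈ t
      · rw [hφt D hD]; exact Submodule.neg_mem _ (hψ D)
      · simp [φ, h, hD]
  have hsum : ∑ D ∈ (univ : Finset ι).powersetCard j, pull (subEmb D) (φ D) = 0 := by
    have hsub : insert a t ⊆ (univ : Finset ι).powersetCard j := insert_subset ha ht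
    rw [← sum_subset hsub]
    · rw [sum_insert hat, hφa']
      have : ∑ D ∈ t, pull (subEmb D) (φ D) = - pull (subEmb a) φa := by
        rw [sum_congr rfl (fun D hD => by rw [hφt D hD, map_neg, hψe D]), sum_neg_distrib, hg]
      rw [this]; simp
    · intro D _ hD
      have h1 : D ≠ a := fun h => hD (h ▸ mem_insert_self _ _)
      have h2 : D ∉ t := fun h => hD (mem_insert_of_mem h)
      simp [φ, h1, h2]
  have := level_indep j hN φ hφmem hsum a ha
  rw [hφa'] at this
  rw [this, map_zero]

end Lift

section Omega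

/-- The trace of `M_κ ^ T` on the level space `W0`. -/
noncomputable def omegaTr (μ : Equiv.Perm W → ℝ) (κ : Type*) [Fintype κ] [DecidableEq κ] (T : ℕ) :
    ℝ :=
  trOn (tupOp μ κ ^ T) (W0 κ W)

/-- The trace on a level piece is the `omegaTr` of the coordinate set. -/
theorem trOn_levelPiece (μ : Equiv.Perm W → ℝ) (T : ℕ) (D : Finset ι)
    (hN : Fintype.card ι ≤ Fintype.card W) :
    trOn (tupOp μ ι ^ T) (levelPiece W D) = omegaTr μ {i // i ∈ D} T := by
  have h := trOn_map_eq (tupOp μ ι ^ T) (tupOp μ {i // i ∈ D} ^ T) (pull (subEmb D))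
    (pull_tupOp_pow μ (subEmb D) T) (W0 {i // i ∈ D} W)
    (fun x hx => tupOp_pow_mem_W0 μ T hx) (pull_injective _ hN).injOn
  exact h

/-- Pull-back along a bijection of the index type preserves `W0`. -/
theorem pull_equiv_mem_W0 {κ' : Type*} [Fintype κ'] [DecidableEq κ'] (e : κ ≃ κ') {φ : TupE κ W}
    (hφ : φ ∈ W0 κ W) : pull e.toEmbedding φ ∈ W0 κ' W := by
  intro i x
  have h := hφ (e.symm i) (e.toEmbedding.trans x)
  rw [← h]
  let E : (κ' ↪ W) ≃ (κ ↪ W) :=
    { toFun := fun y => e.toEmbedding.trans y
      invFun := fun y => e.symm.toEmbedding.trans y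
      left_inv := fun y => by ext k; simp
      right_inv := fun y => by ext k; simp }
  refine Finset.sum_equiv E ?_ ?_
  · intro y
    simp only [mem_filter, mem_univ, true_and, E, Equiv.coe_fn_mk,
      Function.Embedding.trans_apply, Equiv.coe_toEmbedding]
    constructor
    · intro hy l hl
      exact hy (e l) (fun h => hl (by simp [← h]))
    · intro hy l hl
      have := hy (e.symm l) (fun h => hl (by simpa using congrArg e h))
      simpa using this
  · intro y _
    rfl

theorem pull_equiv_symm {κ' : Type*} [Fintype κ'] [DecidableEq κ'] (e : κ ≃ κ') (ψ : TupE κ' W) :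
    pull e.toEmbedding (pull e.symm.toEmbedding ψ) = ψ := by
  ext x
  rw [pull_apply, pull_apply]
  have : e.symm.toEmbedding.trans (e.toEmbedding.trans x) = x := by
    ext k; simp
  rw [this]

theorem W0_map_pull_equiv {κ' : Type*} [Fintype κ'] [DecidableEq κ'] (e : κ ≃ κ') :
    (W0 κ W).map (pull e.toEmbedding) = W0 κ' W := by
  apply le_antisymm
  · rintro _ ⟨φ, hφ, rfl⟩
    exact pull_equiv_mem_W0 e hφ
  · intro ψ hψ
    refine ⟨pull e.symm.toEmbedding ψ, pull_equiv_mem_W0 e.symm hψ, ?_⟩
    exact pull_equiv_symm e ψ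

/-- `omegaTr` depends only on the cardinality of the index type. -/
theorem omegaTr_congr (μ : Equiv.Perm W → ℝ) {κ' : Type*} [Fintype κ'] [DecidableEq κ'] (e : κ ≃ κ')
    (T : ℕ) : omegaTr μ κ' T = omegaTr μ κ T := by
  have h := trOn_map_eq (tupOp μ κ' ^ T) (tupOp μ κ ^ T) (pull e.toEmbedding)
    (pull_tupOp_pow μ e.toEmbedding T) (W0 κ W)
    (fun x hx => tupOp_pow_mem_W0 μ T hx)
    (fun a _ b _ hab => by
      have h1 := pull_equiv_symm e.symm a
      have h2 := pull_equiv_symm e.symm b
      simp only [Equiv.symm_symm] at h1 h2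
      rw [← h1, ← h2, hab])
  rw [W0_map_pull_equiv] at h
  exact h

/-- `G`: the levels inject into larger tuples. -/
theorem choose_mul_omegaTr_le (μ : Equiv.Perm W → ℝ) (T j : ℕ)
    (hpos : (tupOp μ ι ^ T).IsPositive)
    (hN : Fintype.card ι + j ≤ Fintype.card W) :
    ((Fintype.card ι).choose j : ℝ) * omegaTr μ (Fin j) T ≤ Matrix.trace (tupMat μ ι ^ T) := by
  classical
  have hN' : Fintype.card ι ≤ Fintype.card W := by omega
  have h1 : trOn (tupOp μ ι ^ T) (⨆ D ∈ (univ : Finset ι).powersetCard j, levelPiece W D) =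
      ∑ D ∈ (univ : Finset ι).powersetCard j, trOn (tupOp μ ι ^ T) (levelPiece W D) := by
    refine trOn_biSup_eq hpos.isSymmetric _ _ (fun D _ => levelPiece_invariant μ T D) ?_
    intro a ha t ht hat
    exact levelPiece_disjoint j hN a ha t ht hat
  have h2 : ∑ D ∈ (univ : Finset ι).powersetCard j, trOn (tupOp μ ι ^ T) (levelPiece W D) =
      ((Fintype.card ι).choose j : ℝ) * omegaTr μ (Fin j) T := by
    rw [sum_congr rfl (g := fun _ => omegaTr μ (Fin j) T)]
    · rw [sum_const, card_powersetCard, card_univ, nsmul_eq_mul]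
    · intro D hD
      rw [trOn_levelPiece μ T D hN']
      have hc : Fintype.card {i // i ∈ D} = j := by
        simpa using (mem_powersetCard.1 hD).2
      exact (omegaTr_congr μ (Fintype.equivFinOfCardEq hc) T).symm
  rw [← h2, ← h1, ← trace_tupOp_pow, ← trOn_top]
  exact trOn_mono hpos le_top

end Omega

end Crest.Agent.Thorp
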