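import Mathlib
import Crest.Agent.Lib.Thorp.Levels

/-!
# Juntas and the level decomposition

`juntaSub ι W J` is the span of the functions on injective `ι`-tuples depending on at most `J`
coordinates. It is the sum of the level pieces (`juntaSub_le`), so the trace of a positive
power of the tuple operator on it is at most `∑_{j ≤ J} C(N, j) ω_j`.
-/

set_option autoImplicit false
set_option linter.unusedSectionVars false

namespace Crest.Agent.Thorp

open Finset
open scoped InnerProductSpace

variable {W : Type*} [Fintype W] [DecidableEq W]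
variable {κ ι : Type*} [Fintype κ] [DecidableEq κ] [Fintype ι] [DecidableEq ι]

/-- Inclusion of the coordinates other than `i`. -/
def offEmb (i : κ) : {l // l ≠ i} ↪ κ := Function.Embedding.subtype _

/-- Functions not depending on coordinate `i`. -/
noncomputable def offCoord (W : Type*) [Fintype W] [DecidableEq W] (i : κ) :
    Submodule ℝ (TupE κ W) :=
  LinearMap.range (pull (W := W) (offEmb i))

/-- A function orthogonal to all functions that do not depend on some coordinate lies in `W0`. -/
theorem mem_W0_of_orthogonal {φ : TupE κ W} (h : ∀ i : κ, ∀ f ∈ offCoord W i, ⟪f, φ⟫_ℝ = 0) :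
    φ ∈ W0 κ W := by
  classical
  intro i x
  -- the indicator of the fibre
  let z : {l // l ≠ i} ↪ W := (offEmb i).trans x
  let g : TupE {l // l ≠ i} W := WithLp.toLp 2 fun u => if u = z then 1 else 0
  have hf := h i (pull (offEmb i) g) ⟨g, rfl⟩
  rw [PiLp.inner_apply] at hf
  have e : ∀ y : κ ↪ W, ⟪(pull (offEmb i) g) y, φ y⟫_ℝ =
      if (∀ l, l ≠ i → y l = x l) then φ y else 0 := by
    intro y
    have hiff : (offEmb i).trans y = z ↔ ∀ l, l ≠ i → y l = x l := by
      constructor
      · intro he l hl
        exact congrArg (fun u : {l // l ≠ i} ↪ W => u ⟨l, hl⟩) he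
      · intro he
        ext l
        exact he l l.2
    have : (pull (offEmb i) g) y = if (offEmb i).trans y = z then 1 else 0 := rfl
    rw [this]
    by_cases hc : (offEmb i).trans y = z
    · rw [if_pos hc, if_pos (hiff.1 hc)]; simp
    · have : ¬ ∀ l, l ≠ i → y l = x l := fun h => hc (hiff.2 h)
      rw [if_neg hc, if_neg this]; simp
  simp only [e] at hf
  rw [sum_filter]
  exact hf

/-- Every function is a `W0` function plus functions not depending on some coordinate. -/
theorem W0_sup_offCoord : W0 κ W ⊔ (⨆ i : κ, offCoord W i) = ⊤ := by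
  set F := ⨆ i : κ, offCoord (κ := κ) W i with hF
  have h : Fᗮ ≤ W0 κ W := by
    intro φ hφ
    refine mem_W0_of_orthogonal fun i f hf => ?_
    have hfF : f ∈ F := (le_iSup (fun i : κ => offCoord (κ := κ) W i) i) hf
    exact (Submodule.mem_orthogonal _ _).1 hφ f hfF
  have h2 : F ⊔ Fᗮ = ⊤ := Submodule.sup_orthogonal_of_hasOrthogonalProjection
  rw [eq_top_iff, ← h2, sup_comm]
  exact sup_le_sup_right h F

/-- Functions depending only on the coordinates in `D`. -/
noncomputable def coordFun (W : Type*) [Fintype W] [DecidableEq W] (D : Finset ι) :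
    Submodule ℝ (TupE ι W) :=
  LinearMap.range (pull (W := W) (subEmb D))

/-- The reindexing of the coordinates of `D` other than `i`. -/
def offEquiv (D : Finset ι) (i : ι) (hi : i ∈ D) :
    {l : {l // l ∈ D} // l ≠ ⟨i, hi⟩} ≃ {l // l ∈ D.erase i} where
  toFun l := ⟨l.1.1, mem_erase.2 ⟨fun h => l.2 (Subtype.ext h), l.1.2⟩⟩
  invFun l := ⟨⟨l.1, (mem_erase.1 l.2).2⟩, fun h => (mem_erase.1 l.2).1 (congrArg Subtype.val h)⟩
  left_inv _ := rfl
  right_inv _ := rfl

/-- Every function of the coordinates in `D` is a sum of level pieces of subsets of `D`. -/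
theorem coordFun_le (D : Finset ι) :
    coordFun W D ≤ ⨆ D' ∈ D.powerset, levelPiece W D' := by
  induction D using Finset.strongInduction with
  | H D ih =>
    set T := ⨆ D' ∈ D.powerset, levelPiece (ι := ι) W D' with hT
    rintro _ ⟨φ, rfl⟩
    have hφ : φ ∈ W0 {l // l ∈ D} W ⊔ (⨆ i, offCoord W i) := by
      rw [W0_sup_offCoord]; exact Submodule.mem_top
    -- it suffices to treat the two parts
    have hmap : (W0 {l // l ∈ D} W ⊔ (⨆ i, offCoord W i)).map (pull (subEmb D)) ≤ T := by
      rw [Submodule.map_sup, sup_le_iff, Submodule.map_iSup]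
      constructor
      · exact le_iSup₂_of_le D (mem_powerset_self D) le_rfl
      · refine iSup_le fun i => ?_
        rintro _ ⟨_, ⟨ψ, rfl⟩, rfl⟩
        -- `ψ` is a function of the coordinates in `D.erase i`
        have hsub : D.erase i.1 ⊂ D := erase_ssubset i.2
        have h1 := ih (D.erase i.1) hsub
        have hmem : pull (subEmb (D.erase i.1)) (pull (offEquiv D i.1 i.2).toEmbedding ψ) ∈
            coordFun W (D.erase i.1) := ⟨_, rfl⟩
        have h2 := h1 hmem
        have h3 : (⨆ D' ∈ (D.erase i.1).powerset, levelPiece (ι := ι) W D') ≤ T := by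
          refine iSup₂_le fun D' hD' => ?_
          exact le_iSup₂_of_le D' (mem_powerset.2 ((mem_powerset.1 hD').trans (erase_subset _ _)))
            le_rfl
        have h4 := h3 h2
        convert h4 using 1
        rw [pull_pull, pull_pull]
        ext x
        rw [pull_apply, pull_apply]
        rfl
    exact hmap ⟨φ, hφ, rfl⟩

/-- The span of the functions of at most `J` coordinates. -/
noncomputable def juntaSub (ι W : Type*) [Fintype ι] [DecidableEq ι] [Fintype W] [DecidableEq W]
    (J : ℕ) : Submodule ℝ (TupE ι W) :=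
  ⨆ D ∈ (univ : Finset (Finset ι)).filter (fun D => D.card ≤ J), coordFun W D

theorem levelPiece_le_coordFun (D : Finset ι) : levelPiece W D ≤ coordFun W D := by
  rintro _ ⟨φ, _, rfl⟩
  exact ⟨φ, rfl⟩

/-- Juntas are the sums of level pieces. -/
theorem juntaSub_eq (J : ℕ) : juntaSub ι W J =
    ⨆ D ∈ (univ : Finset (Finset ι)).filter (fun D => D.card ≤ J), levelPiece W D := by
  apply le_antisymm
  · refine iSup₂_le fun D hD => (coordFun_le D).trans ?_
    refine iSup₂_le fun D' hD' => ?_
    refine le_iSup₂_of_le D' ?_ le_rfl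
    simp only [mem_filter, mem_univ, true_and] at hD ⊢
    exact (card_le_card (mem_powerset.1 hD')).trans hD
  · exact iSup₂_mono fun D _ => levelPiece_le_coordFun D

theorem juntaSub_invariant (μ : Equiv.Perm W → ℝ) (T J : ℕ) :
    ∀ f ∈ juntaSub ι W J, (tupOp μ ι ^ T) f ∈ juntaSub ι W J := by
  rw [juntaSub_eq]
  exact biSup_invariant _ _ fun D _ => levelPiece_invariant μ T D

/-- **Low levels.** -/
theorem trOn_juntaSub_le (μ : Equiv.Perm W → ℝ) (T J : ℕ) (hpos : (tupOp μ ι ^ T).IsPositive)
    (hN : Fintype.card ι ≤ Fintype.card W) :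
    trOn (tupOp μ ι ^ T) (juntaSub ι W J) ≤
      ∑ j ∈ range (J + 1), ((Fintype.card ι).choose j : ℝ) * omegaTr μ (Fin j) T := by
  classical
  rw [juntaSub_eq]
  refine (trOn_biSup_le hpos _ _ fun D _ => levelPiece_invariant μ T D).trans_eq ?_
  have h1 : ∀ D : Finset ι, trOn (tupOp μ ι ^ T) (levelPiece W D) =
      omegaTr μ (Fin D.card) T := by
    intro D
    rw [trOn_levelPiece μ T D hN]
    have hc : Fintype.card {i // i ∈ D} = D.card := by simp
    exact (omegaTr_congr μ (Fintype.equivFinOfCardEq hc) T).symm
  simp only [h1]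
  have h2 := sum_fiberwise_of_maps_to (s := (univ : Finset (Finset ι)).filter (fun D => D.card ≤ J))
    (t := range (J + 1)) (g := fun D => D.card) (by
      intro D hD
      simp only [mem_filter, mem_univ, true_and] at hD
      exact mem_range.2 (by omega)) (fun D => omegaTr μ (Fin D.card) T)
  rw [← h2]
  refine sum_congr rfl fun j hj => ?_
  have hj' : j ≤ J := by have := mem_range.1 hj; omega
  have h3 : (univ.filter fun D : Finset ι => D.card ≤ J).filter (fun D => D.card = j) =
      (univ : Finset ι).powersetCard j := by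
    ext D
    simp only [mem_filter, mem_univ, true_and, mem_powersetCard, subset_univ]
    constructor
    · exact fun h => h.2
    · exact fun h => ⟨by omega, h⟩
  rw [h3, sum_congr rfl (g := fun _ => omegaTr μ (Fin j) T)]
  · rw [sum_const, card_powersetCard, card_univ, nsmul_eq_mul]
  · intro D hD
    rw [(mem_powersetCard.1 hD).2]

end Crest.Agent.Thorp
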