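import Mathlib
import Crest.Agent.Lib.Thorp.TraceOn

/-!
# Spectral estimates for traces on invariant subspaces
-/

set_option autoImplicit false
set_option linter.unusedSectionVars false

namespace Crest.Agent.Thorp

open scoped InnerProductSpace
open Module

variable {E : Type*} [NormedAddCommGroup E] [InnerProductSpace ℝ E] [FiniteDimensional ℝ E]

/-- Powers of a positive operator are positive. -/
theorem isPositive_pow {A : E →ₗ[ℝ] E} (hA : A.IsPositive) (k : ℕ) : (A ^ k).IsPositive := by
  induction k using Nat.strong_induction_on with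
  | _ k ih =>
    match k with
    | 0 => simp
    | 1 => simpa using hA
    | k + 2 =>
      have h := (ih k (by omega)).conj_adjoint A
      have hadj : A.adjoint = A := (LinearMap.isSymmetric_iff_isSelfAdjoint _).1 hA.isSymmetric
      rw [hadj] at h
      have e : A ∘ₗ (A ^ k) ∘ₗ A = A ^ (k + 2) := by
        change A * (A ^ k * A) = A ^ (k + 2)
        rw [← pow_succ, ← pow_succ']
      rwa [e] at h

/-- An eigenvector of `A` is an eigenvector of its powers. -/
theorem pow_apply_of_eigen {A : E →ₗ[ℝ] E} {c : ℝ} {x : E} (h : A x = c • x) (k : ℕ) :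
    (A ^ k) x = c ^ k • x := by
  induction k with
  | zero => simp
  | succ k ih =>
    rw [pow_succ, Module.End.mul_apply, h, map_smul, ih, smul_smul, pow_succ]
    congr 1
    ring

/-- The eigenvalues and eigenvectors of a positive operator on an invariant subspace. -/
theorem exists_spectral_on {A : E →ₗ[ℝ] E} (hA : A.IsPositive) {S : Submodule ℝ E}
    (hS : ∀ x ∈ S, A x ∈ S) :
    ∃ (n : ℕ) (b : Fin n → E) (l : Fin n → ℝ), (∀ i, b i ∈ S) ∧ (∀ i, b i ≠ 0) ∧ (∀ i, 0 ≤ l i) ∧
      (∀ i, A (b i) = l i • b i) ∧ ∀ k, trOn (A ^ k) S = ∑ i, l i ^ k := by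
  -- the restriction to `S`
  let B : S →ₗ[ℝ] S := A.restrict hS
  have hBsym : B.IsSymmetric := hA.isSymmetric.restrict_invariant hS
  have hBpos : B.IsPositive := by
    refine ⟨hBsym, fun x => ?_⟩
    have := hA.re_inner_nonneg_left (x : E)
    simpa [B] using this
  let bb := hBsym.eigenvectorBasis rfl
  let ll := hBsym.eigenvalues rfl
  have hll : ∀ i, 0 ≤ ll i := hBpos.nonneg_eigenvalues rfl
  have hbb : ∀ i, B (bb i) = ll i • bb i := fun i => by
    rw [hBsym.apply_eigenvectorBasis rfl i]
    simp [ll, bb]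
  refine ⟨_, fun i => (bb i : E), ll, fun i => (bb i).2, fun i => ?_, hll, fun i => ?_, fun k => ?_⟩
  · intro h
    have h1 : bb i = 0 := Subtype.ext h
    have := bb.norm_eq_one i
    rw [h1] at this
    simp at this
  · have := congrArg (Subtype.val) (hbb i)
    simpa [B] using this
  · have hinv : ∀ x ∈ S, (A ^ k) x ∈ S := by
      induction k with
      | zero => simp
      | succ k ih =>
        intro x hx
        rw [pow_succ', Module.End.mul_apply]
        exact hS _ (ih x hx)
    rw [trOn_eq_trace_restrict _ S hinv]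
    have hres : (A ^ k).restrict hinv = B ^ k := by
      ext x
      simp only [LinearMap.coe_restrict_apply]
      induction k generalizing x with
      | zero => simp
      | succ k ih =>
        rw [pow_succ', pow_succ', Module.End.mul_apply, Module.End.mul_apply]
        have hinv' : ∀ x ∈ S, (A ^ k) x ∈ S := fun y hy => by
          have : ∀ (k : ℕ), ∀ x ∈ S, (A ^ k) x ∈ S := by
            intro k
            induction k with
            | zero => simp
            | succ k ih =>
              intro x hx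
              rw [pow_succ', Module.End.mul_apply]
              exact hS _ (ih x hx)
          exact this k y hy
        rw [ih hinv' x]
        rfl
    rw [hres, LinearMap.trace_eq_sum_inner (B ^ k) bb]
    refine Finset.sum_congr rfl fun i _ => ?_
    rw [pow_apply_of_eigen (hbb i) k, inner_smul_right, real_inner_self_eq_norm_sq, bb.norm_eq_one]
    simp

theorem sum_pow_le_pow_sum {ι : Type*} (s : Finset ι) (a : ι → ℝ) (ha : ∀ i ∈ s, 0 ≤ a i) (m : ℕ)
    (hm : 1 ≤ m) : ∑ i ∈ s, a i ^ m ≤ (∑ i ∈ s, a i) ^ m := by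
  induction m, hm using Nat.le_induction with
  | base => simp
  | succ m hm ih =>
    have hle : ∀ i ∈ s, a i ≤ ∑ j ∈ s, a j := fun i hi =>
      Finset.single_le_sum ha hi
    calc ∑ i ∈ s, a i ^ (m + 1) = ∑ i ∈ s, a i ^ m * a i := by simp only [pow_succ]
      _ ≤ ∑ i ∈ s, a i ^ m * ∑ j ∈ s, a j := by
          refine Finset.sum_le_sum fun i hi => ?_
          exact mul_le_mul_of_nonneg_left (hle i hi) (pow_nonneg (ha i hi) _)
      _ = (∑ i ∈ s, a i ^ m) * ∑ j ∈ s, a j := by rw [Finset.sum_mul]
      _ ≤ (∑ i ∈ s, a i) ^ m * ∑ j ∈ s, a j := by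
          refine mul_le_mul_of_nonneg_right ih (Finset.sum_nonneg ha)
      _ = _ := by rw [pow_succ]

/-- `tr ((A|S) ^ m) ≤ tr (A|S) ^ m`. -/
theorem trOn_pow_le {A : E →ₗ[ℝ] E} (hA : A.IsPositive) {S : Submodule ℝ E}
    (hS : ∀ x ∈ S, A x ∈ S) (m : ℕ) (hm : 1 ≤ m) : trOn (A ^ m) S ≤ trOn A S ^ m := by
  obtain ⟨n, b, l, -, -, hl, -, htr⟩ := exists_spectral_on hA hS
  have h1 := htr 1
  rw [pow_one] at h1
  rw [htr m, h1]
  simp only [pow_one]
  exact sum_pow_le_pow_sum _ _ (fun i _ => hl i) m hm

/-- The trace on an eigenspace. -/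
theorem trOn_eigenspace (A : E →ₗ[ℝ] E) (c : ℝ) (t : ℕ) :
    trOn (A ^ t) (Module.End.eigenspace A c) = c ^ t * finrank ℝ (Module.End.eigenspace A c) := by
  set S := Module.End.eigenspace A c with hSdef
  have hmem : ∀ x ∈ S, A x = c • x := fun x hx => Module.End.mem_eigenspace_iff.1 hx
  have hinv : ∀ x ∈ S, (A ^ t) x ∈ S := by
    intro x hx
    rw [pow_apply_of_eigen (hmem x hx) t]
    exact S.smul_mem _ hx
  rw [trOn_eq_trace_restrict _ S hinv]
  have : (A ^ t).restrict hinv = (c ^ t) • LinearMap.id := by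
    ext x
    simp only [LinearMap.coe_restrict_apply, LinearMap.smul_apply, LinearMap.id_apply]
    rw [pow_apply_of_eigen (hmem x x.2) t]
    rfl
  rw [this, map_smul, LinearMap.trace_id, smul_eq_mul]

/-- **High part.** Let `S` be an invariant subspace of `A` such that every eigenvector in `S` with a
positive eigenvalue has an eigenspace of dimension at least `D`. Then the trace of the powers of
`A` on `S` decays like `(tr A^t / D)^m`. -/
theorem trOn_high_le {A : E →ₗ[ℝ] E} (hA : A.IsPositive) {S : Submodule ℝ E}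
    (hS : ∀ x ∈ S, A x ∈ S) {D : ℝ} (hD : 0 < D) (t m : ℕ) (ht : 1 ≤ t)
    (hmult : ∀ (c : ℝ) (ψ : E), 0 < c → ψ ∈ S → ψ ≠ 0 → A ψ = c • ψ →
      D ≤ finrank ℝ (Module.End.eigenspace A c)) :
    trOn (A ^ (t * (m + 1))) S ≤ (LinearMap.trace ℝ E (A ^ t) / D) ^ m * LinearMap.trace ℝ E (A ^ t) := by
  obtain ⟨n, b, l, hbS, hb0, hl, hAb, htr⟩ := exists_spectral_on hA hS
  set Z := LinearMap.trace ℝ E (A ^ t) with hZ
  have hApos := isPositive_pow hA t
  have hZ0 : 0 ≤ Z := hApos.trace_nonneg
  have hZge : ∑ i, l i ^ t ≤ Z := by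
    rw [← htr t, hZ, ← trOn_top]
    exact trOn_mono hApos le_top
  -- every eigenvalue bound
  have hbound : ∀ i, l i ^ t ≤ Z / D := by
    intro i
    rcases (hl i).eq_or_lt with h0 | hpos
    · rw [← h0, zero_pow (by omega)]
      positivity
    · have h1 := hmult (l i) (b i) hpos (hbS i) (hb0 i) (hAb i)
      have h2 : (l i) ^ t * finrank ℝ (Module.End.eigenspace A (l i)) ≤ Z := by
        rw [← trOn_eigenspace, hZ, ← trOn_top]
        exact trOn_mono hApos le_top
      rw [le_div_iff₀ hD]
      calc l i ^ t * D ≤ l i ^ t * finrank ℝ (Module.End.eigenspace A (l i)) :=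
            mul_le_mul_of_nonneg_left h1 (pow_nonneg (hl i) _)
        _ ≤ Z := h2
  rw [htr]
  calc ∑ i, l i ^ (t * (m + 1)) = ∑ i, (l i ^ t) ^ m * l i ^ t := by
        refine Finset.sum_congr rfl fun i _ => ?_
        rw [← pow_mul, ← pow_add, mul_add, mul_one]
    _ ≤ ∑ i, (Z / D) ^ m * l i ^ t := by
        refine Finset.sum_le_sum fun i _ => ?_
        exact mul_le_mul_of_nonneg_right
          (pow_le_pow_left₀ (pow_nonneg (hl i) _) (hbound i) _) (pow_nonneg (hl i) _)
    _ = (Z / D) ^ m * ∑ i, l i ^ t := by rw [Finset.mul_sum]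
    _ ≤ (Z / D) ^ m * Z := mul_le_mul_of_nonneg_left hZge (by positivity)

end Crest.Agent.Thorp
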