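import Mathlib
import Crest.Agent.Lib.Thorp.Junta
import Crest.Agent.Lib.Thorp.Spectral

/-!
# Multiplicities of eigenvalues of the tuple operators

If `ψ ≠ 0` is an eigenvector of `M_ι`, its first nonzero level gives a nonzero eigenvector
`ξ = push_D ψ ∈ W0 D`. From such a `ξ`, fixing some coordinates at given values and using the
independence of levels on the smaller alphabet, the eigenspace of `M_ι` has dimension at least
`C(K, a)` whenever `K + a + f ≤ N`, `a + f = |D|`.
-/

set_option autoImplicit false
set_option linter.unusedSectionVars false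

namespace Crest.Agent.Thorp

open Finset
open scoped InnerProductSpace

variable {W : Type*} [Fintype W] [DecidableEq W]
variable {κ ι : Type*} [Fintype κ] [DecidableEq κ] [Fintype ι] [DecidableEq ι]

/-- Push-forward of functions on tuples (the adjoint of `pull`). -/
noncomputable def push (e : κ ↪ ι) : TupE ι W →ₗ[ℝ] TupE κ W where
  toFun ψ := WithLp.toLp 2 fun z => ∑ x ∈ univ.filter (fun x : ι ↪ W => e.trans x = z), ψ x
  map_add' f h := by
    ext z
    simp [Finset.sum_add_distrib]
  map_smul' c f := by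
    ext z
    simp [Finset.mul_sum]

theorem push_apply (e : κ ↪ ι) (ψ : TupE ι W) (z : κ ↪ W) :
    push e ψ z = ∑ x ∈ univ.filter (fun x : ι ↪ W => e.trans x = z), ψ x := rfl

/-- `push` is the adjoint of `pull`. -/
theorem inner_pull_left (e : κ ↪ ι) (φ : TupE κ W) (ψ : TupE ι W) :
    ⟪pull e φ, ψ⟫_ℝ = ⟪φ, push e ψ⟫_ℝ := by
  simp only [PiLp.inner_apply, RCLike.inner_apply, conj_trivial, push_apply, pull_apply]
  simp only [Finset.sum_mul]
  rw [← Finset.sum_fiberwise (s := univ) (g := fun x : ι ↪ W => e.trans x)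
    (f := fun x => ψ.ofLp x * φ.ofLp (e.trans x))]
  refine Finset.sum_congr rfl fun z _ => Finset.sum_congr rfl fun x hx => ?_
  rw [(Finset.mem_filter.1 hx).2]

/-- `push` intertwines the tuple operators. -/
theorem push_tupOp (μ : Equiv.Perm W → ℝ) (e : κ ↪ ι) (ψ : TupE ι W) :
    push e (tupOp μ ι ψ) = tupOp μ κ (push e ψ) := by
  ext z
  simp only [push_apply, tupOp_apply]
  rw [Finset.sum_comm]
  refine Finset.sum_congr rfl fun g _ => ?_
  rw [← Finset.mul_sum]
  congr 1
  refine Finset.sum_equiv (transEquiv g) ?_ ?_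
  · intro x
    simp only [mem_filter, mem_univ, true_and, transEquiv, Equiv.coe_fn_mk]
    constructor
    · intro h
      rw [← h]; rfl
    · intro h
      ext k
      have := congrArg (fun u : κ ↪ W => u k) h
      simpa using this
  · intro x _
    rfl

/-- The fibre indicator: a function on `D`-tuples not depending on one coordinate gives
a junta on `D.erase i`. -/
theorem pull_fib_mem (D : Finset ι) (i : {l // l ∈ D}) (x : {l // l ∈ D} ↪ W) :
    pull (subEmb D) (WithLp.toLp 2 fun y : {l // l ∈ D} ↪ W =>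
        if (∀ l, l ≠ i → y l = x l) then (1 : ℝ) else 0) ∈ coordFun W (D.erase i.1) := by
  classical
  let x' : {l // l ∈ D.erase i.1} ↪ W :=
    (⟨fun l => ⟨l.1, (mem_erase.1 l.2).2⟩, fun a b hab => by
      apply Subtype.ext
      exact congrArg (fun u : {l // l ∈ D} => u.1) hab⟩ : {l // l ∈ D.erase i.1} ↪ {l // l ∈ D}).trans x
  refine ⟨WithLp.toLp 2 fun w : {l // l ∈ D.erase i.1} ↪ W => if w = x' then (1 : ℝ) else 0, ?_⟩
  ext u
  rw [pull_apply, pull_apply]
  have hiff : ((subEmb (D.erase i.1)).trans u = x') ↔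
      (∀ l : {l // l ∈ D}, l ≠ i → ((subEmb D).trans u) l = x l) := by
    constructor
    · intro h l hl
      have hl' : l.1 ∈ D.erase i.1 := mem_erase.2 ⟨fun h => hl (Subtype.ext h), l.2⟩
      exact congrArg (fun v : {l // l ∈ D.erase i.1} ↪ W => v ⟨l.1, hl'⟩) h
    · intro h
      ext l
      exact h ⟨l.1, (mem_erase.1 l.2).2⟩ (fun he => (mem_erase.1 l.2).1 (congrArg Subtype.val he))
  by_cases hc : (subEmb (D.erase i.1)).trans u = x'
  · simp only [hc, if_true, if_pos (hiff.1 hc)]
  · have hn : ¬ (∀ l : {l // l ∈ D}, l ≠ i → ((subEmb D).trans u) l = x l) := fun h => hc (hiff.2 h)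
    simp only [hc, if_false, if_neg hn]

theorem coordFun_le_juntaSub {D : Finset ι} {J : ℕ} (hD : D.card ≤ J) :
    coordFun W D ≤ juntaSub ι W J :=
  le_iSup₂_of_le D (by simpa using hD) le_rfl

/-- The push of a function orthogonal to the juntas of degree `< |D|` has zero fibre sums. -/
theorem push_mem_W0 {ψ : TupE ι W} {D : Finset ι} {J : ℕ} (hJ : D.card ≤ J + 1)
    (hψ : ψ ∈ (juntaSub ι W J)ᗮ) : push (subEmb D) ψ ∈ W0 {l // l ∈ D} W := by
  classical
  intro i x
  have h1 := pull_fib_mem (W := W) D i x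
  have hcard : (D.erase i.1).card ≤ J := by
    rw [card_erase_of_mem i.2]; omega
  have h2 := coordFun_le_juntaSub hcard h1
  have h3 := (Submodule.mem_orthogonal _ _).1 hψ _ h2
  rw [inner_pull_left, PiLp.inner_apply] at h3
  simp only [RCLike.inner_apply, conj_trivial] at h3
  rw [Finset.sum_filter]
  refine Eq.trans ?_ h3
  refine Finset.sum_congr rfl fun y _ => ?_
  by_cases hc : ∀ l, l ≠ i → y l = x l
  · rw [if_pos hc, if_pos hc, mul_one]
  · rw [if_neg hc, if_neg hc, mul_zero]

/-- The first level: a nonzero vector has a nonzero push at the first level where it is not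
orthogonal to the juntas. -/
theorem exists_first_level {ψ : TupE ι W} (hψ : ψ ≠ 0) :
    ∃ D : Finset ι, push (subEmb D) ψ ≠ 0 ∧ push (subEmb D) ψ ∈ W0 {l // l ∈ D} W ∧
      (∀ J, ψ ∈ (juntaSub ι W J)ᗮ → J < D.card) ∧
      ∀ J, J < D.card → ψ ∈ (juntaSub ι W J)ᗮ := by
  classical
  -- all coordinates see everything
  have htop : ∃ J, ψ ∉ (juntaSub ι W J)ᗮ := by
    refine ⟨Fintype.card ι, fun hmem => hψ ?_⟩
    have hall : ∀ f : TupE ι W, f ∈ juntaSub ι W (Fintype.card ι) := by
      intro f
      have hu : (univ : Finset ι).card ≤ Fintype.card ι := by simp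
      refine coordFun_le_juntaSub hu ?_
      let e : {l // l ∈ (univ : Finset ι)} ≃ ι := Equiv.subtypeUnivEquiv (fun _ => mem_univ _)
      refine ⟨pull e.symm.toEmbedding f, ?_⟩
      rw [pull_pull]
      ext x
      rw [pull_apply]
      congr 1
    have := (Submodule.mem_orthogonal _ _).1 hmem ψ (hall ψ)
    exact inner_self_eq_zero.1 this
  let j := Nat.find htop
  have hj : ψ ∉ (juntaSub ι W j)ᗮ := Nat.find_spec htop
  have hlow : ∀ J, J < j → ψ ∈ (juntaSub ι W J)ᗮ := fun J hJ => by
    by_contra h
    exact Nat.find_min htop hJ h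
  -- a coordinate set of size `≤ j` seeing `ψ`
  have hex : ∃ D : Finset ι, D.card ≤ j ∧ ¬ ∀ f ∈ coordFun W D, ⟪f, ψ⟫_ℝ = 0 := by
    by_contra hcon
    push Not at hcon
    apply hj
    rw [Submodule.mem_orthogonal]
    intro f hf
    have hle : juntaSub ι W j ≤ (Submodule.span ℝ {ψ})ᗮ := by
      refine iSup₂_le fun D hD => ?_
      intro g hg
      rw [Submodule.mem_orthogonal]
      intro u hu
      obtain ⟨r, rfl⟩ := Submodule.mem_span_singleton.1 hu
      rw [inner_smul_left, real_inner_comm, hcon D (by simpa using hD) g hg, mul_zero]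
    have := (Submodule.mem_orthogonal _ _).1 (hle hf) ψ (Submodule.mem_span_singleton_self ψ)
    rwa [real_inner_comm] at this
  obtain ⟨D, hDj, hD⟩ := hex
  push Not at hD
  obtain ⟨f, ⟨φ, rfl⟩, hne⟩ := hD
  have hpush : push (subEmb D) ψ ≠ 0 := by
    intro h0
    rw [inner_pull_left, h0, inner_zero_right] at hne
    exact hne rfl
  have hDcard : D.card = j := by
    by_contra hne'
    have hlt : D.card < j := lt_of_le_of_ne hDj hne'
    exact hne ((Submodule.mem_orthogonal _ _).1 (hlow _ hlt) _
      (coordFun_le_juntaSub le_rfl ⟨φ, rfl⟩))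
  refine ⟨D, hpush, ?_, ?_, fun J hJ => hlow J (by omega)⟩
  · rcases Nat.eq_zero_or_pos j with hj0 | hjpos
    · -- `D` is empty: no fibre conditions
      have hDe : D = ∅ := by
        rw [← card_eq_zero]; omega
      subst hDe
      intro i
      exact (Finset.notMem_empty _ i.2).elim
    · exact push_mem_W0 (J := j - 1) (by omega) (hlow _ (by omega))
  · intro J hJ
    by_contra hcon
    push Not at hcon
    have hjJ : j ≤ J := by omega
    -- orthogonal to juntas of degree `J` implies degree `j`
    have hmono : juntaSub ι W j ≤ juntaSub ι W J := by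
      refine iSup₂_le fun E hE => coordFun_le_juntaSub ?_
      simp only [mem_filter, mem_univ, true_and] at hE
      omega
    exact hj (Submodule.orthogonal_le hmono hJ)

section Core

variable {a f K : ℕ}

/-- Glue a tuple `w` in the complement of the range of `v` with `v`. -/
def glue {A F W : Type*} (v : F ↪ W) (w : A ↪ {x // ∀ t, v t ≠ x}) : A ⊕ F ↪ W where
  toFun := Sum.elim (fun t => (w t).1) v
  inj' := by
    rintro (s | s) (t | t) h
    · exact congrArg Sum.inl (w.injective (Subtype.ext h))
    · exact absurd h.symm ((w s).2 t)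
    · exact absurd h ((w t).2 s)
    · exact congrArg Sum.inr (v.injective h)

@[simp] theorem glue_inl {A F W : Type*} (v : F ↪ W) (w : A ↪ {x // ∀ t, v t ≠ x}) (s : A) :
    glue v w (Sum.inl s) = (w s).1 := rfl

@[simp] theorem glue_inr {A F W : Type*} (v : F ↪ W) (w : A ↪ {x // ∀ t, v t ≠ x}) (s : F) :
    glue v w (Sum.inr s) = v s := rfl

variable {A F : Type*} [Fintype A] [DecidableEq A] [Fintype F] [DecidableEq F]

/-- The restriction of a function on `A ⊕ F`-tuples to the tuples with prescribed `F` part. -/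
noncomputable def sliceF (v : F ↪ W) (ξ : TupE (A ⊕ F) W) : TupE A {x // ∀ t, v t ≠ x} :=
  WithLp.toLp 2 fun w => ξ (glue v w)

theorem sliceF_apply (v : F ↪ W) (ξ : TupE (A ⊕ F) W) (w : A ↪ {x // ∀ t, v t ≠ x}) :
    sliceF v ξ w = ξ (glue v w) := rfl

/-- Slices keep zero fibre sums. -/
theorem sliceF_mem_W0 (v : F ↪ W) {ξ : TupE (A ⊕ F) W} (hξ : ξ ∈ W0 (A ⊕ F) W) :
    sliceF v ξ ∈ W0 A {x // ∀ t, v t ≠ x} := by
  classical
  intro i w
  have h := hξ (Sum.inl i) (glue v w)
  rw [← h]
  refine Finset.sum_bij (fun y _ => glue v y) ?_ ?_ ?_ ?_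
  · intro y hy
    simp only [mem_filter, mem_univ, true_and] at hy ⊢
    rintro (l | l) hl
    · have hne : l ≠ i := fun he => hl (by rw [he])
      simp [hy l hne]
    · simp
  · intro y _ y' _ h
    ext s
    have := congrArg (fun u : A ⊕ F ↪ W => u (Sum.inl s)) h
    simpa using this
  · intro y hy
    simp only [mem_filter, mem_univ, true_and] at hy
    -- the `F` part of `y` is `v`
    have hF : ∀ t, y (Sum.inr t) = v t := fun t => by
      have := hy (Sum.inr t) (by simp)
      simpa using this
    let y' : A ↪ {x // ∀ t, v t ≠ x} :=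
      ⟨fun s => ⟨y (Sum.inl s), fun t he => by
        rw [← hF t] at he
        exact absurd (y.injective he) (by simp)⟩, fun s s' h => by
        have := congrArg Subtype.val h
        simpa using y.injective this⟩
    refine ⟨y', ?_, ?_⟩
    · simp only [mem_filter, mem_univ, true_and]
      intro l hl
      apply Subtype.ext
      have := hy (Sum.inl l) (fun he => hl (Sum.inl.inj he))
      change y (Sum.inl l) = (w l).1
      simpa using this
    · ext (s | s)
      · rfl
      · exact (hF s).symm
  · intro y _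
    rfl

theorem card_compl_range (v : F ↪ W) :
    Fintype.card {x // ∀ t, v t ≠ x} + Fintype.card F = Fintype.card W := by
  classical
  have h : (univ.image v)ᶜ.card = Fintype.card {x // ∀ t, v t ≠ x} := by
    symm
    apply Fintype.card_of_subtype
    intro x
    simp
  rw [← h, card_compl, card_image_of_injective _ v.injective, card_univ]
  have : Fintype.card F ≤ Fintype.card W := Fintype.card_le_of_embedding v
  omega

variable {L : Type*} [Fintype L] [DecidableEq L]

/-- **Multiplicity from a level vector.** -/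
theorem mult_core (μ : Equiv.Perm W → ℝ) (ξ : TupE (A ⊕ F) W)
    (hξ : ξ ∈ W0 (A ⊕ F) W) (hne : ξ ≠ 0) (c : ℝ)
    (heig : tupOp μ (A ⊕ F) ξ = c • ξ) (hN : Fintype.card ι ≤ Fintype.card W)
    (hK : Fintype.card L + Fintype.card A + Fintype.card F ≤ Fintype.card ι) :
    (Fintype.card L).choose (Fintype.card A) ≤
      Module.finrank ℝ (Module.End.eigenspace (tupOp μ ι) c) := by
  classical
  obtain ⟨y₀, hy₀⟩ : ∃ y₀, ξ y₀ ≠ 0 := by
    by_contra hcon
    push Not at hcon
    apply hne
    ext y
    simpa using hcon y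
  let v : F ↪ W := Function.Embedding.inr.trans y₀
  have hcard : Fintype.card L + Fintype.card A ≤ Fintype.card {x // ∀ t, v t ≠ x} := by
    have h1 := card_compl_range v
    have h2 := Fintype.card_le_of_embedding (Function.Embedding.nonempty_of_card_le
      (α := ι) (β := W) hN).some
    omega
  obtain ⟨i₀⟩ : Nonempty (L ⊕ F ↪ ι) := Function.Embedding.nonempty_of_card_le (by
    simp only [Fintype.card_sum]; omega)
  set ξ' := sliceF (A := A) v ξ with hξ'
  have hξ'mem : ξ' ∈ W0 A {x // ∀ t, v t ≠ x} := sliceF_mem_W0 v hξ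
  -- the point where `ξ'` does not vanish
  let w₀ : A ↪ {x // ∀ t, v t ≠ x} :=
    ⟨fun s => ⟨y₀ (Sum.inl s), fun t he => by
      have : y₀ (Sum.inr t) = y₀ (Sum.inl s) := he
      exact absurd (y₀.injective this) (by simp)⟩, fun s s' h => by
      have := congrArg Subtype.val h
      simpa using y₀.injective this⟩
  have hw₀ : glue v w₀ = y₀ := by
    ext (s | s) <;> rfl
  have hξ'w₀ : ξ' w₀ ≠ 0 := by
    rw [hξ', sliceF_apply, hw₀]; exact hy₀
  -- the embeddings of the coordinates
  let e : ∀ D : Finset L, D.card = Fintype.card A → A ≃ {l // l ∈ D} := fun D h =>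
    Fintype.equivOfCardEq (by simpa using h.symm)
  let g : ∀ D : Finset L, D.card = Fintype.card A → A ⊕ F ↪ ι := fun D h =>
    (Function.Embedding.sumMap ((e D h).toEmbedding.trans (subEmb D))
      (Function.Embedding.refl _)).trans i₀
  let V : Finset L → TupE ι W := fun D =>
    if h : D.card = Fintype.card A then pull (g D h) ξ else 0
  have hVeig : ∀ D, V D ∈ Module.End.eigenspace (tupOp μ ι) c := by
    intro D
    rw [Module.End.mem_eigenspace_iff]
    by_cases h : D.card = Fintype.card A
    · simp only [V, dif_pos h]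
      rw [← pull_tupOp, heig, map_smul]
    · simp [V, dif_neg h]
  let P : Finset (Finset L) := (univ : Finset L).powersetCard (Fintype.card A)
  have hind : LinearIndepOn ℝ V (P : Set (Finset L)) := by
    rw [linearIndepOn_finset_iff]
    intro b hb D hD
    have hDcard : D.card = Fintype.card A := (mem_powersetCard.1 hD).2
    let φ : ∀ D : Finset L, TupE {l // l ∈ D} {x // ∀ t, v t ≠ x} := fun D =>
      if h : D.card = Fintype.card A then b D • pull (e D h).toEmbedding ξ' else 0
    have hφmem : ∀ D ∈ P, φ D ∈ W0 {l // l ∈ D} {x // ∀ t, v t ≠ x} := by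
      intro D hD
      have h := (mem_powersetCard.1 hD).2
      simp only [φ, dif_pos h]
      exact Submodule.smul_mem _ _ (pull_equiv_mem_W0 _ hξ'mem)
    have h0 : ∑ D ∈ P, pull (subEmb D) (φ D) = 0 := by
      ext z
      obtain ⟨x, hx⟩ := exists_extend i₀ (glue v z) hN
      have hb' := congrArg (fun u : TupE ι W => u x) hb
      simp only [WithLp.ofLp_sum, WithLp.ofLp_smul, Finset.sum_apply, Pi.smul_apply, smul_eq_mul,
        PiLp.zero_apply] at hb' ⊢
      rw [← hb']
      refine Finset.sum_congr rfl fun D hD => ?_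
      have h := (mem_powersetCard.1 hD).2
      simp only [φ, V, dif_pos h]
      rw [pull_apply]
      simp only [WithLp.ofLp_smul, Pi.smul_apply, smul_eq_mul]
      congr 1
      rw [pull_apply, pull_apply, hξ', sliceF_apply]
      have hemb : glue v ((e D h).toEmbedding.trans ((subEmb D).trans z)) = (g D h).trans x := by
        ext (s | s)
        · have : ((g D h).trans x) (Sum.inl s) =
              (i₀.trans x) (Sum.inl (subEmb D ((e D h) s))) := rfl
          rw [this, hx]
          rfl
        · have : ((g D h).trans x) (Sum.inr s) = (i₀.trans x) (Sum.inr s) := rfl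
          rw [this, hx]
          rfl
      rw [hemb]
    have h1 := level_indep (Fintype.card A) hcard φ hφmem h0 D hD
    simp only [φ, dif_pos hDcard] at h1
    rcases smul_eq_zero.1 h1 with h2 | h2
    · exact h2
    · exfalso
      apply hξ'w₀
      have h3 := congrArg (fun u : TupE {l // l ∈ D} {x // ∀ t, v t ≠ x} =>
        u ((e D hDcard).symm.toEmbedding.trans w₀)) h2
      simp only [pull_apply, PiLp.zero_apply] at h3
      have h4 : (e D hDcard).toEmbedding.trans ((e D hDcard).symm.toEmbedding.trans w₀) = w₀ := by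
        ext s; simp
      rw [h4] at h3
      exact h3
  have hli : LinearIndependent ℝ (fun D : P =>
      (⟨V D, hVeig D⟩ : Module.End.eigenspace (tupOp μ ι) c)) := by
    apply LinearIndependent.of_comp (Module.End.eigenspace (tupOp μ ι) c).subtype
    exact hind
  have := hli.fintype_card_le_finrank
  simpa [P, Fintype.card_coe, card_powersetCard] using this

end Core

/-- Multiplicity from a level vector on any index type. -/
theorem mult_of_level (μ : Equiv.Perm W → ℝ) (ξ : TupE κ W) (hξ : ξ ∈ W0 κ W) (hne : ξ ≠ 0) (c : ℝ)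
    (heig : tupOp μ κ ξ = c • ξ) (hN : Fintype.card ι ≤ Fintype.card W) (a K : ℕ)
    (ha : a ≤ Fintype.card κ) (hK : K + Fintype.card κ ≤ Fintype.card ι) :
    K.choose a ≤ Module.finrank ℝ (Module.End.eigenspace (tupOp μ ι) c) := by
  classical
  have hc : Fintype.card κ = Fintype.card (Fin a ⊕ Fin (Fintype.card κ - a)) := by
    simp only [Fintype.card_sum, Fintype.card_fin]; omega
  let e : κ ≃ Fin a ⊕ Fin (Fintype.card κ - a) := Fintype.equivOfCardEq hc
  have h1 := mult_core (ι := ι) (A := Fin a) (F := Fin (Fintype.card κ - a)) (L := Fin K) μ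
    (pull e.toEmbedding ξ) (pull_equiv_mem_W0 e hξ)
    (fun h0 => hne (by
      have h2 := pull_equiv_symm e.symm ξ
      simp only [Equiv.symm_symm] at h2
      rw [← h2, h0, map_zero]))
    c (by rw [← pull_tupOp, heig, map_smul]) hN
    (by simp only [Fintype.card_fin]; omega)
  simpa using h1

/-- **Multiplicity at the first level of an eigenvector.** -/
theorem exists_level_mult (μ : Equiv.Perm W → ℝ) {ψ : TupE ι W} (hψ : ψ ≠ 0) {c : ℝ}
    (heig : tupOp μ ι ψ = c • ψ) (hN : Fintype.card ι ≤ Fintype.card W) {J : ℕ}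
    (hJ : ψ ∈ (juntaSub ι W J)ᗮ) :
    ∃ D : Finset ι, J < D.card ∧ push (subEmb D) ψ ≠ 0 ∧ push (subEmb D) ψ ∈ W0 {l // l ∈ D} W ∧
      tupOp μ {l // l ∈ D} (push (subEmb D) ψ) = c • push (subEmb D) ψ ∧
      (∀ J', J' < D.card → ψ ∈ (juntaSub ι W J')ᗮ) ∧
      ∀ a K : ℕ, a ≤ D.card → K + D.card ≤ Fintype.card ι →
        K.choose a ≤ Module.finrank ℝ (Module.End.eigenspace (tupOp μ ι) c) := by
  obtain ⟨D, h1, h2, h3, h4⟩ := exists_first_level hψ
  have heig' : tupOp μ {l // l ∈ D} (push (subEmb D) ψ) = c • push (subEmb D) ψ := by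
    rw [← push_tupOp, heig, map_smul]
  refine ⟨D, h3 J hJ, h1, h2, heig', h4, fun a K ha hK => ?_⟩
  exact mult_of_level μ _ h2 h1 c heig' hN a K (by simpa using ha) (by simpa using hK)

end Crest.Agent.Thorp
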