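import Mathlib
import Crest.Agent.Lib.Thorp.Multiplicity

/-!
# Multiplicity at high levels: the character argument

Functions on permutations are functions on `W ↪ W`. Right translations `RT h` commute with the tuple
operators. If `v` is a common eigenvector of the translations by the pairs of a perfect matching of
`W`, then, permuting the pairs, the space generated has dimension at least `C(m, s)`, with `m` the
number of pairs and `s` the number of pairs with eigenvalue `-1`.
-/

set_option autoImplicit false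
set_option linter.unusedSectionVars false

namespace Crest.Agent.Thorp

open Finset
open scoped InnerProductSpace

variable {W : Type*} [Fintype W] [DecidableEq W]

/-- Right translation of functions on permutations. -/
noncomputable abbrev RT (h : Equiv.Perm W) : TupE W W →ₗ[ℝ] TupE W W := pull h.toEmbedding

theorem RT_apply (h : Equiv.Perm W) (f : TupE W W) (x : W ↪ W) :
    RT h f x = f (h.toEmbedding.trans x) := rfl

theorem RT_mul (a b : Equiv.Perm W) (f : TupE W W) : RT (a * b) f = RT a (RT b f) := by
  ext x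
  simp only [RT_apply]
  rfl

theorem RT_one (f : TupE W W) : RT (1 : Equiv.Perm W) f = f := by
  ext x
  simp only [RT_apply]
  rfl

theorem RT_inv_cancel (h : Equiv.Perm W) (f : TupE W W) : RT h⁻¹ (RT h f) = f := by
  rw [← RT_mul, inv_mul_cancel, RT_one]

theorem RT_cancel_inv (h : Equiv.Perm W) (f : TupE W W) : RT h (RT h⁻¹ f) = f := by
  rw [← RT_mul, mul_inv_cancel, RT_one]

theorem RT_ne_zero (h : Equiv.Perm W) {f : TupE W W} (hf : f ≠ 0) : RT h f ≠ 0 := by
  intro h0
  apply hf
  rw [← RT_inv_cancel h f, h0, map_zero]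

/-- Right translations are isometries. -/
theorem RT_inner (h : Equiv.Perm W) (f g : TupE W W) : ⟪RT h f, RT h g⟫_ℝ = ⟪f, g⟫_ℝ := by
  simp only [PiLp.inner_apply, RCLike.inner_apply, conj_trivial, RT_apply]
  let E : (W ↪ W) ≃ (W ↪ W) :=
    { toFun := fun x => h.toEmbedding.trans x
      invFun := fun x => h.symm.toEmbedding.trans x
      left_inv := fun x => by ext w; simp
      right_inv := fun x => by ext w; simp }
  exact Fintype.sum_equiv E _ _ fun x => rfl

section Char

variable {Y : Type*} [Fintype Y] [DecidableEq Y]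

/-- The transposition of the pair `r`. -/
def swapY (e : Y × Bool ≃ W) (r : Y) : Equiv.Perm W := Equiv.swap (e (r, false)) (e (r, true))

theorem exists_perm_of_card_eq (S A : Finset Y) (h : S.card = A.card) :
    ∃ f : Equiv.Perm Y, ∀ r, r ∈ S ↔ f r ∈ A := by
  classical
  have h1 : Fintype.card {r // r ∈ S} = Fintype.card {r // r ∈ A} := by simpa using h
  let e0 : {r // r ∈ S} ≃ {r // r ∈ A} := Fintype.equivOfCardEq h1
  refine ⟨e0.extendSubtype, fun r => ?_⟩
  constructor
  · intro hr
    exact e0.extendSubtype_mem r hr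
  · intro hr
    by_contra hn
    exact e0.extendSubtype_not_mem r hn hr

/-- **Characters**: permuting the pairs produces `C(m, s)` independent vectors. -/
theorem char_mult (V : Submodule ℝ (TupE W W)) (hV : ∀ (h : Equiv.Perm W), ∀ f ∈ V, RT h f ∈ V)
    (e : Y × Bool ≃ W) (S₀ : Finset Y) {v : TupE W W} (hv : v ∈ V) (hne : v ≠ 0)
    (hchar : ∀ r, RT (swapY e r) v = (if r ∈ S₀ then (-1 : ℝ) else 1) • v) :
    (Fintype.card Y).choose S₀.card ≤ Module.finrank ℝ V := by
  classical
  let P : Finset (Finset Y) := (univ : Finset Y).powersetCard S₀.card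
  have hf : ∀ A : P, ∃ f : Equiv.Perm Y, ∀ r, r ∈ S₀ ↔ f r ∈ A.1 := fun A =>
    exists_perm_of_card_eq S₀ A.1 (mem_powersetCard.1 A.2).2.symm
  choose f hfA using hf
  -- the lifted permutations
  let hh : P → Equiv.Perm W := fun A =>
    (e.symm.trans (Equiv.prodCongr (f A) (Equiv.refl Bool))).trans e
  have hhe : ∀ A r b, hh A (e (r, b)) = e (f A r, b) := by
    intro A r b
    simp [hh]
  let u : P → TupE W W := fun A => RT (hh A) v
  have huchar : ∀ A r, RT (swapY e r) (u A) = (if r ∈ A.1 then (-1 : ℝ) else 1) • u A := by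
    intro A r
    have hconj : swapY e r * hh A = hh A * swapY e ((f A)⁻¹ r) := by
      have h2 : hh A (e ((f A)⁻¹ r, false)) = e (r, false) := by rw [hhe]; simp
      have h3 : hh A (e ((f A)⁻¹ r, true)) = e (r, true) := by rw [hhe]; simp
      have h1 : swapY e r = hh A * swapY e ((f A)⁻¹ r) * (hh A)⁻¹ := by
        unfold swapY
        rw [← Equiv.swap_apply_apply, h2, h3]
      rw [h1]
      group
    simp only [u]
    rw [← RT_mul, hconj, RT_mul, hchar, map_smul]
    congr 1
    have hiff : (f A)⁻¹ r ∈ S₀ ↔ r ∈ A.1 := by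
      rw [hfA A]
      simp
    simp only [hiff]
  have hu0 : ∀ A, u A ≠ 0 := fun A => RT_ne_zero _ hne
  have horth : Pairwise fun A B : P => ⟪u A, u B⟫_ℝ = 0 := by
    intro A B hAB
    have hex : ∃ r, ¬ (r ∈ A.1 ↔ r ∈ B.1) := by
      by_contra hcon
      push Not at hcon
      exact hAB (Subtype.ext (Finset.ext hcon))
    obtain ⟨r, hr⟩ := hex
    have h1 := RT_inner (swapY e r) (u A) (u B)
    rw [huchar, huchar, inner_smul_left, inner_smul_right] at h1
    simp only [conj_trivial] at h1
    by_cases hA : r ∈ A.1 <;> by_cases hB : r ∈ B.1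
    · exact absurd (Iff.intro (fun _ => hB) (fun _ => hA)) hr
    · simp only [hA, hB, if_true, if_false] at h1
      linarith
    · simp only [hA, hB, if_true, if_false] at h1
      linarith
    · exact absurd (Iff.intro (fun h => absurd h hA) (fun h => absurd h hB)) hr
  have hli : LinearIndependent ℝ u := linearIndependent_of_ne_zero_of_inner_eq_zero hu0 horth
  have hli' : LinearIndependent ℝ (fun A : P => (⟨u A, hV _ _ hv⟩ : V)) := by
    apply LinearIndependent.of_comp V.subtype
    exact hli
  have := hli'.fintype_card_le_finrank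
  simpa [P, Fintype.card_coe, card_powersetCard] using this

end Char

section Matching

/-- The support of a family of pairs. -/
def supp (T : Finset (W × W)) : Finset W := T.biUnion fun p => {p.1, p.2}

theorem mem_supp {T : Finset (W × W)} {w : W} : w ∈ supp T ↔ ∃ p ∈ T, w = p.1 ∨ w = p.2 := by
  simp [supp]

/-- Pairwise disjoint pairs. -/
structure Pairs (T : Finset (W × W)) : Prop where
  ne : ∀ p ∈ T, p.1 ≠ p.2
  disj : ∀ p ∈ T, ∀ q ∈ T, p ≠ q → Disjoint ({p.1, p.2} : Finset W) {q.1, q.2}

theorem Pairs.card_supp {T : Finset (W × W)} (h : Pairs T) : (supp T).card = 2 * T.card := by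
  unfold supp
  rw [card_biUnion h.disj, sum_congr rfl (g := fun _ => 2)]
  · simp [mul_comm]
  · intro p hp
    exact card_pair (h.ne p hp)

theorem pairs_empty : Pairs (∅ : Finset (W × W)) := ⟨by simp, by simp⟩

theorem supp_empty : supp (∅ : Finset (W × W)) = ∅ := by simp [supp]

theorem supp_union (T₁ T₂ : Finset (W × W)) : supp (T₁ ∪ T₂) = supp T₁ ∪ supp T₂ := by
  simp only [supp, union_biUnion]

theorem pairs_singleton {a b : W} (h : a ≠ b) : Pairs {(a, b)} := by
  constructor
  · simpa using h
  · intro p hp q hq hpq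
    rw [mem_singleton] at hp hq
    exact absurd (hp.trans hq.symm) hpq

theorem supp_singleton (a b : W) : supp {(a, b)} = {a, b} := by simp [supp]

theorem pairs_union {T₁ T₂ : Finset (W × W)} (h₁ : Pairs T₁) (h₂ : Pairs T₂)
    (hd : Disjoint (supp T₁) (supp T₂)) : Pairs (T₁ ∪ T₂) := by
  have hsub1 : ∀ p ∈ T₁, ({p.1, p.2} : Finset W) ⊆ supp T₁ := fun p hp =>
    subset_biUnion_of_mem (fun p : W × W => ({p.1, p.2} : Finset W)) hp
  have hsub2 : ∀ p ∈ T₂, ({p.1, p.2} : Finset W) ⊆ supp T₂ := fun p hp =>
    subset_biUnion_of_mem (fun p : W × W => ({p.1, p.2} : Finset W)) hp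
  constructor
  · intro p hp
    rcases mem_union.1 hp with hp | hp
    · exact h₁.ne p hp
    · exact h₂.ne p hp
  · intro p hp q hq hpq
    rcases mem_union.1 hp with hp | hp <;> rcases mem_union.1 hq with hq | hq
    · exact h₁.disj p hp q hq hpq
    · exact disjoint_of_subset_left (hsub1 p hp) (disjoint_of_subset_right (hsub2 q hq) hd)
    · exact (disjoint_of_subset_left (hsub1 q hq) (disjoint_of_subset_right (hsub2 p hp) hd)).symm
    · exact h₂.disj p hp q hq hpq

/-- A set of even size is the support of pairwise disjoint pairs. -/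
theorem exists_pairs : ∀ (n : ℕ) (B : Finset W), B.card = 2 * n → ∃ T, Pairs T ∧ supp T = B := by
  intro n
  induction n with
  | zero =>
    intro B hB
    refine ⟨∅, pairs_empty, ?_⟩
    rw [supp_empty]
    exact (card_eq_zero.1 (by omega)).symm
  | succ n ih =>
    intro B hB
    obtain ⟨a, ha⟩ : B.Nonempty := card_pos.1 (by omega)
    obtain ⟨b, hb⟩ : (B.erase a).Nonempty := card_pos.1 (by rw [card_erase_of_mem ha]; omega)
    have hab : b ≠ a := (mem_erase.1 hb).1
    have hbB : b ∈ B := (mem_erase.1 hb).2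
    have hc : ((B.erase a).erase b).card = 2 * n := by
      rw [card_erase_of_mem hb, card_erase_of_mem ha]; omega
    obtain ⟨T, hT, hs⟩ := ih _ hc
    refine ⟨{(a, b)} ∪ T, pairs_union (pairs_singleton hab.symm) hT ?_, ?_⟩
    · rw [hs, supp_singleton, disjoint_left]
      intro x hx
      simp only [mem_insert, mem_singleton] at hx
      simp only [mem_erase, not_and]
      rcases hx with rfl | rfl
      · intro _ h
        exact absurd rfl h
      · intro h
        exact absurd rfl h
    · rw [supp_union, hs, supp_singleton]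
      ext x
      simp only [mem_union, mem_insert, mem_singleton, mem_erase]
      constructor
      · rintro ((rfl | rfl) | ⟨-, -, h⟩)
        · exact ha
        · exact hbB
        · exact h
      · intro h
        by_cases h1 : x = a
        · exact Or.inl (Or.inl h1)
        · by_cases h2 : x = b
          · exact Or.inl (Or.inr h2)
          · exact Or.inr ⟨h2, h1, h⟩

/-- The pairs of an involution on a set of representatives. -/
theorem pairs_image (φ : W → W) (hinv : ∀ w, φ (φ w) = w) (hne : ∀ w, φ w ≠ w) (Z : Finset W)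
    (hZ : ∀ w ∈ Z, φ w ∉ Z) :
    Pairs (Z.image fun w => (w, φ w)) ∧ supp (Z.image fun w => (w, φ w)) = Z ∪ Z.image φ := by
  constructor
  · constructor
    · intro p hp
      obtain ⟨w, -, rfl⟩ := mem_image.1 hp
      exact (hne w).symm
    · intro p hp q hq hpq
      obtain ⟨w, hw, rfl⟩ := mem_image.1 hp
      obtain ⟨w', hw', rfl⟩ := mem_image.1 hq
      have hww : w ≠ w' := fun e => hpq (by rw [e])
      rw [disjoint_left]
      intro x hx hx'
      simp only [mem_insert, mem_singleton] at hx hx'
      rcases hx with rfl | rfl <;> rcases hx' with h | h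
      · exact hww h
      · have : w' = φ x := by rw [h, hinv]
        exact hZ x hw (this ▸ hw')
      · exact hZ w hw (h ▸ hw')
      · have : w = w' := by
          have := congrArg φ h
          rwa [hinv, hinv] at this
        exact hww this
  · ext x
    simp only [mem_supp, mem_image, mem_union]
    constructor
    · rintro ⟨p, ⟨w, hw, rfl⟩, h | h⟩
      · exact Or.inl (h ▸ hw)
      · exact Or.inr ⟨w, hw, h.symm⟩
    · rintro (h | ⟨w, hw, rfl⟩)
      · exact ⟨_, ⟨x, h, rfl⟩, Or.inl rfl⟩
      · exact ⟨_, ⟨w, hw, rfl⟩, Or.inr rfl⟩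

/-- The wires as pairs times bits. -/
noncomputable def matchEquiv {T : Finset (W × W)} (hT : Pairs T) (hs : supp T = univ) :
    {p // p ∈ T} × Bool ≃ W :=
  Equiv.ofBijective (fun r => if r.2 then r.1.1.2 else r.1.1.1) (by
    constructor
    · rintro ⟨⟨p, hp⟩, b⟩ ⟨⟨q, hq⟩, b'⟩ h
      simp only at h
      by_cases hpq : p = q
      · subst hpq
        have hn := hT.ne p hp
        cases b <;> cases b' <;> simp_all
      · exfalso
        have hd := hT.disj p hp q hq hpq
        rw [disjoint_left] at hd
        cases b <;> cases b' <;> simp only [Bool.false_eq_true, if_true, if_false] at h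
        · exact hd (a := p.1) (by simp) (by simp [h])
        · exact hd (a := p.1) (by simp) (by simp [h])
        · exact hd (a := p.2) (by simp) (by simp [h])
        · exact hd (a := p.2) (by simp) (by simp [h])
    · intro w
      have hw : w ∈ supp T := by rw [hs]; exact mem_univ w
      obtain ⟨p, hp, h | h⟩ := mem_supp.1 hw
      · exact ⟨(⟨p, hp⟩, false), by simp [h]⟩
      · exact ⟨(⟨p, hp⟩, true), by simp [h]⟩)

theorem matchEquiv_false {T : Finset (W × W)} (hT : Pairs T) (hs : supp T = univ) (r : {p // p ∈ T}) :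
    matchEquiv hT hs (r, false) = r.1.1 := rfl

theorem matchEquiv_true {T : Finset (W × W)} (hT : Pairs T) (hs : supp T = univ) (r : {p // p ∈ T}) :
    matchEquiv hT hs (r, true) = r.1.2 := rfl

end Matching

section Family

theorem swap_comm_of_disjoint {a b a' b' : W} (h1 : a' ≠ a) (h2 : a' ≠ b) (h3 : b' ≠ a) (h4 : b' ≠ b) :
    Equiv.swap a b * Equiv.swap a' b' = Equiv.swap a' b' * Equiv.swap a b := by
  refine Equiv.Perm.Disjoint.commute ?_
  intro x
  by_cases hx : x = a ∨ x = b
  · right
    rw [Equiv.swap_apply_of_ne_of_ne]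
    · rintro rfl
      rcases hx with rfl | rfl <;> simp_all
    · rintro rfl
      rcases hx with rfl | rfl <;> simp_all
  · left
    push Not at hx
    exact Equiv.swap_apply_of_ne_of_ne hx.1 hx.2

/-- Swapping twice. -/
theorem RT_swap_swap (a b : W) (f : TupE W W) : RT (Equiv.swap a b) (RT (Equiv.swap a b) f) = f := by
  rw [← RT_mul, Equiv.swap_mul_self, RT_one]

/-- **A maximal family of disjoint transpositions.** -/
theorem exists_maximal_family (V : Submodule ℝ (TupE W W))
    (hV : ∀ (h : Equiv.Perm W), ∀ f ∈ V, RT h f ∈ V) :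
    ∀ (n : ℕ) (X : Finset W), X.card ≤ n → ∀ v ∈ V, v ≠ 0 →
      ∃ (X'' : Finset W) (T : Finset (W × W)) (v' : TupE W W),
        X'' ⊆ X ∧ Pairs T ∧ supp T = X \ X'' ∧ v' ∈ V ∧ v' ≠ 0 ∧
        (∀ p ∈ T, RT (Equiv.swap p.1 p.2) v' = -v') ∧
        (∀ a ∈ X'', ∀ b ∈ X'', RT (Equiv.swap a b) v' = v') ∧
        (∀ a b, a ∉ X → b ∉ X → ∀ ε : ℝ, RT (Equiv.swap a b) v = ε • v →
          RT (Equiv.swap a b) v' = ε • v') := by
  intro n
  induction n with
  | zero =>
    intro X hX v hv hne
    have hX0 : X = ∅ := card_eq_zero.1 (by omega)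
    subst hX0
    exact ⟨∅, ∅, v, Subset.refl _, pairs_empty, by simp [supp_empty], hv, hne, by simp, by simp,
      fun _ _ _ _ _ h => h⟩
  | succ n ih =>
    intro X hX v hv hne
    by_cases hfix : ∀ a ∈ X, ∀ b ∈ X, RT (Equiv.swap a b) v = v
    · exact ⟨X, ∅, v, Subset.refl _, pairs_empty, by simp [supp_empty], hv, hne, by simp, hfix,
        fun _ _ _ _ _ h => h⟩
    · push Not at hfix
      obtain ⟨a, ha, b, hb, hab⟩ := hfix
      have haneb : a ≠ b := by
        rintro rfl
        apply hab
        rw [Equiv.swap_self]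
        exact RT_one v
      set v₁ := v - RT (Equiv.swap a b) v with hv₁
      have hv₁V : v₁ ∈ V := V.sub_mem hv (hV _ _ hv)
      have hv₁ne : v₁ ≠ 0 := fun h => hab (sub_eq_zero.1 h).symm
      have hv₁neg : RT (Equiv.swap a b) v₁ = -v₁ := by
        rw [hv₁, map_sub, RT_swap_swap]
        abel
      set X₁ := (X.erase a).erase b with hX₁
      have hbe : b ∈ X.erase a := mem_erase.2 ⟨haneb.symm, hb⟩
      have hc : X₁.card ≤ n := by
        rw [hX₁, card_erase_of_mem hbe, card_erase_of_mem ha]
        omega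
      obtain ⟨X'', T, v', hsub, hT, hsT, hv'V, hv'ne, hneg, hpos, hzeta⟩ := ih X₁ hc v₁ hv₁V hv₁ne
      have haX₁ : a ∉ X₁ := by simp [hX₁]
      have hbX₁ : b ∉ X₁ := by simp [hX₁]
      have hsubX : X₁ ⊆ X := (erase_subset _ _).trans (erase_subset _ _)
      have hab' : RT (Equiv.swap a b) v' = -v' := by
        have := hzeta a b haX₁ hbX₁ (-1) (by rw [hv₁neg]; simp)
        rw [this]; simp
      refine ⟨X'', {(a, b)} ∪ T, v', hsub.trans hsubX,
        pairs_union (pairs_singleton haneb) hT ?_, ?_, hv'V, hv'ne, ?_, hpos, ?_⟩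
      · rw [hsT, supp_singleton, disjoint_left]
        intro x hx
        simp only [mem_insert, mem_singleton] at hx
        simp only [mem_sdiff, not_and]
        rcases hx with rfl | rfl
        · exact fun h => absurd h haX₁
        · exact fun h => absurd h hbX₁
      · rw [supp_union, hsT, supp_singleton]
        ext x
        simp only [mem_union, mem_insert, mem_singleton, mem_sdiff]
        constructor
        · rintro ((rfl | rfl) | ⟨h1, h2⟩)
          · exact ⟨ha, fun h => haX₁ (hsub h)⟩
          · exact ⟨hb, fun h => hbX₁ (hsub h)⟩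
          · exact ⟨hsubX h1, h2⟩
        · rintro ⟨h1, h2⟩
          by_cases h3 : x = a
          · exact Or.inl (Or.inl h3)
          · by_cases h4 : x = b
            · exact Or.inl (Or.inr h4)
            · exact Or.inr ⟨by simp [hX₁, h1, h3, h4], h2⟩
      · intro p hp
        rcases mem_union.1 hp with hp | hp
        · rw [mem_singleton] at hp
          subst hp
          exact hab'
        · exact hneg p hp
      · intro a' b' ha' hb' ε hε
        refine hzeta a' b' (fun h => ha' (hsubX h)) (fun h => hb' (hsubX h)) ε ?_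
        have hcomm := swap_comm_of_disjoint (a := a) (b := b) (a' := a') (b' := b')
          (fun e => ha' (e ▸ ha)) (fun e => ha' (e ▸ hb)) (fun e => hb' (e ▸ ha)) (fun e => hb' (e ▸ hb))
        rw [hv₁, map_sub, hε, ← RT_mul, ← hcomm, RT_mul, hε, map_smul, smul_sub]

/-- A function fixed by the transpositions of `X` only depends on the other coordinates. -/
theorem mem_coordFun_of_swap_fixed (X : Finset W) (v : TupE W W)
    (h : ∀ a ∈ X, ∀ b ∈ X, RT (Equiv.swap a b) v = v) : v ∈ coordFun W Xᶜ := by
  classical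
  -- invariance under all permutations supported on `X`
  have hsym : ∀ σ : Equiv.Perm {x // x ∈ X}, RT (Equiv.Perm.ofSubtype σ) v = v := by
    intro σ
    induction σ using Equiv.Perm.swap_induction_on with
    | one =>
      rw [map_one]
      exact RT_one v
    | swap_mul f x y _ ih =>
      rw [map_mul, RT_mul, ih, Equiv.Perm.ofSubtype_swap_eq]
      exact h _ x.2 _ y.2
  -- two permutations which agree off `X` have the same value
  have hval : ∀ x y : W ↪ W, (∀ w, w ∉ X → x w = y w) → v x = v y := by
    intro x y hxy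
    let ex : Equiv.Perm W := Equiv.ofBijective x (Finite.injective_iff_bijective.1 x.injective)
    let ey : Equiv.Perm W := Equiv.ofBijective y (Finite.injective_iff_bijective.1 y.injective)
    have hex : ∀ w, ex w = x w := fun w => rfl
    have hey : ∀ w, ey w = y w := fun w => rfl
    let g : Equiv.Perm W := ey⁻¹ * ex
    have hg : ∀ w, w ∉ X → g w = w := by
      intro w hw
      change ey⁻¹ (ex w) = w
      rw [hex, hxy w hw, ← hey]
      simp
    have hgm : ∀ w, g w ∈ X ↔ w ∈ X := by
      intro w
      constructor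
      · intro hw
        by_contra hc
        rw [hg w hc] at hw
        exact hc hw
      · intro hw
        by_contra hc
        have h1 := hg _ hc
        have : g w = w := g.injective h1
        rw [this] at hc
        exact hc hw
    let σ : Equiv.Perm {x // x ∈ X} := g.subtypePerm hgm
    have hσ : Equiv.Perm.ofSubtype σ = g := by
      apply Equiv.Perm.ofSubtype_subtypePerm
      intro w hw
      by_contra hc
      apply hw
      exact hg w hc
    have h1 := hsym σ
    rw [hσ] at h1
    have h2 : RT g v y = v y := by rw [h1]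
    rw [RT_apply] at h2
    have hxe : g.toEmbedding.trans y = x := by
      ext w
      change y (ey⁻¹ (ex w)) = x w
      rw [← hey]
      simp [hex]
    rw [hxe] at h2
    exact h2
  -- the function on the other coordinates
  have hcard : Fintype.card W ≤ Fintype.card W := le_rfl
  choose ext hext using fun y : {l // l ∈ Xᶜ} ↪ W => exists_extend (subEmb Xᶜ) y hcard
  refine ⟨WithLp.toLp 2 fun y => v (ext y), ?_⟩
  ext x
  rw [pull_apply]
  apply hval
  intro w hw
  have h1 := hext ((subEmb Xᶜ).trans x)
  have h2 := DFunLike.congr_fun h1 ⟨w, by simpa using hw⟩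
  exact h2

end Family

section Invariance

/-- Right translations move the functions of the coordinates of `D` to those of `h D`. -/
theorem RT_mem_coordFun (h : Equiv.Perm W) (D : Finset W) {f : TupE W W} (hf : f ∈ coordFun W D) :
    RT h f ∈ coordFun W (D.map h.toEmbedding) := by
  obtain ⟨φ, rfl⟩ := hf
  let e : {l // l ∈ D} ↪ {l // l ∈ D.map h.toEmbedding} :=
    ⟨fun l => ⟨h l.1, mem_map_of_mem _ l.2⟩, fun a b hab => by
      apply Subtype.ext
      exact h.injective (congrArg Subtype.val hab)⟩
  refine ⟨pull e φ, ?_⟩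
  ext x
  rfl

theorem RT_mem_juntaSub (h : Equiv.Perm W) (J : ℕ) {f : TupE W W} (hf : f ∈ juntaSub W W J) :
    RT h f ∈ juntaSub W W J := by
  have hle : juntaSub W W J ≤ (juntaSub W W J).comap (RT h) := by
    refine iSup₂_le fun D hD g hg => ?_
    rw [Submodule.mem_comap]
    have hc : (D.map h.toEmbedding).card ≤ J := by
      rw [card_map]
      simpa using hD
    exact coordFun_le_juntaSub hc (RT_mem_coordFun h D hg)
  exact hle hf

theorem RT_mem_orthogonal (h : Equiv.Perm W) (J : ℕ) {f : TupE W W} (hf : f ∈ (juntaSub W W J)ᗮ) :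
    RT h f ∈ (juntaSub W W J)ᗮ := by
  rw [Submodule.mem_orthogonal] at hf ⊢
  intro g hg
  have h1 := hf (RT h⁻¹ g) (RT_mem_juntaSub _ _ hg)
  rw [← RT_inner h, RT_cancel_inv] at h1
  exact h1

/-- The symmetrisation of a function. -/
noncomputable def symmF (ψ : TupE W W) : TupE W W :=
  ∑ h : Equiv.Perm W, ψ h.toEmbedding • RT h ψ

theorem symmF_apply (ψ : TupE W W) (x : W ↪ W) :
    symmF ψ x = ∑ h : Equiv.Perm W, ψ h.toEmbedding * ψ (h.toEmbedding.trans x) := by
  simp [symmF, RT_apply, WithLp.ofLp_sum]

theorem symmF_ne_zero {ψ : TupE W W} (hψ : ψ ≠ 0) : symmF ψ ≠ 0 := by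
  intro h0
  have h1 := symmF_apply ψ (Function.Embedding.refl W)
  rw [h0] at h1
  simp only [Function.Embedding.trans_refl] at h1
  have h2 : ∀ h : Equiv.Perm W, ψ h.toEmbedding * ψ h.toEmbedding = 0 := by
    have := (Finset.sum_eq_zero_iff_of_nonneg (s := (univ : Finset (Equiv.Perm W)))
      (f := fun h => ψ h.toEmbedding * ψ h.toEmbedding) (fun h _ => mul_self_nonneg _)).1
      (by simpa using h1.symm)
    exact fun h => this h (mem_univ h)
  apply hψ
  ext x
  have := h2 (Equiv.ofBijective x (Finite.injective_iff_bijective.1 x.injective))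
  have h3 : (Equiv.ofBijective x (Finite.injective_iff_bijective.1 x.injective)).toEmbedding = x := by
    ext w
    rfl
  rw [h3] at this
  simpa using this

theorem RT_symmF (τ : Equiv.Perm W) {ψ : TupE W W}
    (hleft : ∀ x : W ↪ W, ψ (x.trans τ.toEmbedding) = ψ x) : RT τ (symmF ψ) = symmF ψ := by
  unfold symmF
  rw [map_sum]
  have h1 : ∀ h : Equiv.Perm W, RT τ (ψ h.toEmbedding • RT h ψ) =
      ψ (τ * h).toEmbedding • RT (τ * h) ψ := by
    intro h
    rw [map_smul, RT_mul]
    congr 1
    exact (hleft h.toEmbedding).symm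
  simp only [h1]
  exact Equiv.sum_comp (Equiv.mulLeft τ) (fun h => ψ h.toEmbedding • RT h ψ)

theorem symmF_mem (V : Submodule ℝ (TupE W W)) (hV : ∀ (h : Equiv.Perm W), ∀ f ∈ V, RT h f ∈ V)
    {ψ : TupE W W} (hψ : ψ ∈ V) : symmF ψ ∈ V :=
  V.sum_mem fun h _ => V.smul_mem _ (hV h ψ hψ)

/-- Binomials increase towards the middle. -/
theorem choose_le_of_between {m z s : ℕ} (h1 : z ≤ s) (h2 : s + z ≤ m) : m.choose z ≤ m.choose s := by
  -- increasing up to the middle
  have hmono : ∀ a b, a ≤ b → 2 * b ≤ m → m.choose a ≤ m.choose b := by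
    intro a b hab
    induction b, hab using Nat.le_induction with
    | base => exact fun _ => le_rfl
    | succ b hab ih =>
      intro hb
      have h3 : b < m / 2 := by omega
      exact (ih (by omega)).trans (Nat.choose_le_succ_of_lt_half_left h3)
  by_cases hs : 2 * s ≤ m
  · exact hmono z s h1 hs
  · have hle : s ≤ m := by omega
    rw [← Nat.choose_symm hle]
    exact hmono z (m - s) (by omega) (by omega)

/-- **Multiplicity from the invariance under the first layer.** -/
theorem mult_b (μ : Equiv.Perm W → ℝ) (φ : W → W) (hinv : ∀ w, φ (φ w) = w) (hne : ∀ w, φ w ≠ w)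
    (Rep : Finset W) (hRep : ∀ w, w ∈ Rep ↔ φ w ∉ Rep)
    {ψ : TupE W W} (hψ : ψ ≠ 0) {c : ℝ} (heig : tupOp μ W ψ = c • ψ)
    (hleft : ∀ (w : W) (x : W ↪ W), ψ (x.trans (Equiv.swap w (φ w)).toEmbedding) = ψ x)
    {J z₀ : ℕ} (hJ : ψ ∈ (juntaSub W W J)ᗮ) (hz : 4 * z₀ ≤ J + 1) (hzR : z₀ ≤ Rep.card) :
    Rep.card.choose z₀ ≤ Module.finrank ℝ (Module.End.eigenspace (tupOp μ W) c) := by
  classical
  set V : Submodule ℝ (TupE W W) := Module.End.eigenspace (tupOp μ W) c ⊓ (juntaSub W W J)ᗮ with hVdef
  have hV : ∀ (h : Equiv.Perm W), ∀ f ∈ V, RT h f ∈ V := by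
    intro h f hf
    refine ⟨?_, RT_mem_orthogonal h J hf.2⟩
    have h1 : tupOp μ W f = c • f := Module.End.mem_eigenspace_iff.1 hf.1
    apply Module.End.mem_eigenspace_iff.2
    rw [← pull_tupOp, h1, map_smul]
  have hψV : ψ ∈ V := ⟨Module.End.mem_eigenspace_iff.2 heig, hJ⟩
  have hle : Module.finrank ℝ V ≤ Module.finrank ℝ (Module.End.eigenspace (tupOp μ W) c) :=
    Submodule.finrank_mono inf_le_left
  refine le_trans ?_ hle
  -- the whole matching of the first layer
  set m := Rep.card with hm
  have hZsub : ∀ Z ⊆ Rep, ∀ w ∈ Z, φ w ∉ Z := fun Z hZ w hw hw' =>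
    (hRep w).1 (hZ hw) (hZ hw')
  have hinj : Function.Injective fun w => (w, φ w) := fun a b hab => congrArg Prod.fst hab
  have hRepAll : supp (Rep.image fun w => (w, φ w)) = univ := by
    rw [(pairs_image φ hinv hne Rep (hZsub Rep (Subset.refl _))).2]
    ext w
    simp only [mem_union, mem_image, mem_univ, iff_true]
    by_cases hw : w ∈ Rep
    · exact Or.inl hw
    · right
      refine ⟨φ w, ?_, hinv w⟩
      by_contra hc
      exact hw ((hRep w).2 hc)
  have hN : Fintype.card W = 2 * m := by
    have := (pairs_image φ hinv hne Rep (hZsub Rep (Subset.refl _))).1.card_supp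
    rw [hRepAll, card_univ, card_image_of_injective _ hinj] at this
    exact this
  -- the symmetrisation
  set ξ := symmF ψ with hξ
  have hξV : ξ ∈ V := symmF_mem V hV hψV
  have hξ0 : ξ ≠ 0 := symmF_ne_zero hψ
  have hξτ : ∀ w, RT (Equiv.swap w (φ w)) ξ = (1 : ℝ) • ξ := fun w => by
    rw [one_smul]
    exact RT_symmF _ (hleft w)
  -- the reserved pairs
  obtain ⟨Z₀, hZ₀, hZ₀c⟩ := exists_subset_card_eq hzR
  obtain ⟨hT₀, hsT₀⟩ := pairs_image φ hinv hne Z₀ (hZsub Z₀ hZ₀)
  set T₀ := Z₀.image fun w => (w, φ w) with hT₀def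
  have hT₀c : T₀.card = z₀ := by rw [hT₀def, card_image_of_injective _ hinj, hZ₀c]
  have hS₀c : (supp T₀).card = 2 * z₀ := by rw [hT₀.card_supp, hT₀c]
  -- the maximal family
  set X' : Finset W := (supp T₀)ᶜ with hX'
  obtain ⟨X'', T, v', hsub, hT, hsT, hv'V, hv'0, hneg, hpos, hzeta⟩ :=
    exists_maximal_family V hV _ X' le_rfl ξ hξV hξ0
  have hX'c : X'.card = 2 * m - 2 * z₀ := by
    rw [hX', card_compl, hS₀c, hN]
  have hTc : (supp T).card = 2 * T.card := hT.card_supp
  have hsdiff : (X' \ X'').card = X'.card - X''.card := card_sdiff_of_subset hsub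
  have hX''le : X''.card ≤ X'.card := card_le_card hsub
  -- sizes
  have hX''c : X''.card = 2 * (m - z₀ - T.card) := by
    rw [hsT] at hTc
    omega
  have hsm : T.card + z₀ ≤ m := by
    rw [hsT] at hTc
    omega
  -- the lower bound of the number of pairs
  have hcoord : v' ∈ coordFun W X''ᶜ := mem_coordFun_of_swap_fixed X'' v' hpos
  have hsize : J + 1 ≤ (X''ᶜ).card := by
    by_contra hcon
    push Not at hcon
    have h1 : v' ∈ juntaSub W W J := coordFun_le_juntaSub (by omega) hcoord
    have h2 := (Submodule.mem_orthogonal _ _).1 hv'V.2 v' h1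
    exact hv'0 (inner_self_eq_zero.1 h2)
  have hX''compl : (X''ᶜ).card = 2 * z₀ + 2 * T.card := by
    rw [card_compl, hN, hX''c]
    omega
  have hzs : z₀ ≤ T.card := by omega
  -- complete to a perfect matching
  obtain ⟨T₂, hT₂, hsT₂⟩ := exists_pairs _ X'' hX''c
  have hd1 : Disjoint (supp T₀) (supp T) := by
    rw [hsT, disjoint_left]
    intro x hx hx'
    have := (mem_sdiff.1 hx').1
    rw [hX', mem_compl] at this
    exact this hx
  have hd2 : Disjoint (supp (T₀ ∪ T)) (supp T₂) := by
    rw [supp_union, hsT, hsT₂, disjoint_left]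
    intro x hx hx'
    rcases mem_union.1 hx with hx | hx
    · have := hsub hx'
      rw [hX', mem_compl] at this
      exact this hx
    · exact (mem_sdiff.1 hx).2 hx'
  set Y := (T₀ ∪ T) ∪ T₂ with hYdef
  have hY : Pairs Y := pairs_union (pairs_union hT₀ hT hd1) hT₂ hd2
  have hsY : supp Y = univ := by
    rw [hYdef, supp_union, supp_union, hsT, hsT₂]
    ext w
    simp only [mem_union, mem_sdiff, mem_univ, iff_true]
    by_cases h1 : w ∈ supp T₀
    · exact Or.inl (Or.inl h1)
    · by_cases h2 : w ∈ X''
      · exact Or.inr h2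
      · exact Or.inl (Or.inr ⟨by rw [hX', mem_compl]; exact h1, h2⟩)
  have hYc : Y.card = m := by
    have := hY.card_supp
    rw [hsY, card_univ, hN] at this
    omega
  -- the characters
  let e := matchEquiv hY hsY
  let S₁ : Finset {p // p ∈ Y} := T.subtype (· ∈ Y)
  have hTY : T ⊆ Y := fun p hp => mem_union_left _ (mem_union_right _ hp)
  have hS₁c : S₁.card = T.card := by
    rw [card_subtype, filter_true_of_mem (fun p hp => hTY hp)]
  have hchar : ∀ r, RT (swapY e r) v' = (if r ∈ S₁ then (-1 : ℝ) else 1) • v' := by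
    intro r
    have hsw : swapY e r = Equiv.swap r.1.1 r.1.2 := rfl
    rw [hsw]
    by_cases hr : r ∈ S₁
    · rw [if_pos hr, neg_one_smul]
      exact hneg r.1 (mem_subtype.1 hr)
    · rw [if_neg hr, one_smul]
      have hrT : r.1 ∉ T := fun h => hr (mem_subtype.2 h)
      rcases mem_union.1 r.2 with h | h
      · rcases mem_union.1 h with h | h
        · obtain ⟨w, hw, hrw⟩ := mem_image.1 h
          have h1 : r.1.1 = w := by rw [← hrw]
          have h2 : r.1.2 = φ w := by rw [← hrw]
          rw [h1, h2]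
          have hS1 : w ∈ supp T₀ := mem_supp.2 ⟨_, mem_image_of_mem _ hw, Or.inl rfl⟩
          have hS2 : φ w ∈ supp T₀ := mem_supp.2 ⟨_, mem_image_of_mem _ hw, Or.inr rfl⟩
          have := hzeta w (φ w) (by rw [hX', mem_compl]; simpa using hS1)
            (by rw [hX', mem_compl]; simpa using hS2) 1 (hξτ w)
          rwa [one_smul] at this
        · exact absurd h hrT
      · have h1 : r.1.1 ∈ supp T₂ := mem_supp.2 ⟨_, h, Or.inl rfl⟩
        have h2 : r.1.2 ∈ supp T₂ := mem_supp.2 ⟨_, h, Or.inr rfl⟩
        rw [hsT₂] at h1 h2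
        exact hpos _ h1 _ h2
  have hfin := char_mult V hV e S₁ hv'V hv'0 hchar
  rw [Fintype.card_coe, hYc, hS₁c] at hfin
  exact (choose_le_of_between hzs hsm).trans hfin

end Invariance

end Crest.Agent.Thorp
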