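import Mathlib
import Crest.Agent.Lib.Thorp.MultB
import Crest.Agent.Lib.Thorp.Color2

/-!
# Multiplicity of the eigenvalues of the kernel above the level `3N/32`

For `N = 64 u`, an eigenvector of the kernel of `K_l` with non-zero eigenvalue which is orthogonal
to the functions of `6 u` coordinates has an eigenspace of dimension at least `exp(19 u)/(64 u + 1)`.
-/

set_option autoImplicit false
set_option linter.unusedSectionVars false

namespace Crest.Agent.Thorp

open Finset
open scoped InnerProductSpace

section Law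

variable {W : Type*} [Fintype W] [DecidableEq W]
variable {κ : Type*} [Fintype κ] [DecidableEq κ] {C : Type*} [Fintype C]

/-- The operator of a law is an average. -/
theorem tupOp_lawOf (F : C → Equiv.Perm W) (f : TupE κ W) (x : κ ↪ W) :
    tupOp (lawOf F) κ f x = avg (fun c => f (x.trans (F c).toEmbedding)) := by
  classical
  rw [tupOp_apply]
  simp only [lawOf_eq_avg, avg, sum_div, sum_mul]
  rw [sum_comm]
  refine sum_congr rfl fun c _ => ?_
  rw [sum_eq_single (F c)]
  · simp
    ring
  · intro g _ hg
    simp [Ne.symm hg]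
  · simp

end Law

section Left

variable {I : Type*} [Fintype I] [DecidableEq I]

/-- The product of two layers of the same bit. -/
theorem layer_mul_layer (i : I) (a c : (I → Bool) → Bool) :
    layer i a * layer i c = layer i (fun w => xor (a w) (c w)) := by
  ext1 w
  have h : Function.update (layerFun i c w) i false = Function.update w i false := by
    funext j
    by_cases hj : j = i
    · subst hj; simp
    · simp [Function.update_of_ne hj, layerFun_ne hj]
  funext j
  simp only [Equiv.Perm.mul_apply, layer_apply]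
  by_cases hj : j = i
  · subst hj
    rw [layerFun_same, h, layerFun_same, layerFun_same]
    cases w j <;> cases a (Function.update w j false) <;> cases c (Function.update w j false) <;> rfl
  · rw [layerFun_ne hj, layerFun_ne hj, layerFun_ne hj]

/-- **Left invariance.** The first layer absorbs any layer of the same bit. -/
theorem tupOp_layer_invariant {κ : Type*} [Fintype κ] [DecidableEq κ] (i : I) (l : List I)
    (hi : i ∉ l) (c₀ : (I → Bool) → Bool) (f : TupE κ (I → Bool)) (x : κ ↪ (I → Bool)) :
    tupOp (lawOf (Kl (i :: l))) κ f (x.trans (layer i c₀).toEmbedding) =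
      tupOp (lawOf (Kl (i :: l))) κ f x := by
  rw [tupOp_lawOf, tupOp_lawOf]
  have hL := avg_Kl_cons (fun K => f ((x.trans (layer i c₀).toEmbedding).trans K.toEmbedding)) i l hi
  have hR := avg_Kl_cons (fun K => f (x.trans K.toEmbedding)) i l hi
  rw [hL, hR]
  -- the change of variables of the first table
  let E : ((I → Bool) → Bool) ≃ ((I → Bool) → Bool) :=
    { toFun := fun a w => xor (a w) (c₀ w)
      invFun := fun a w => xor (a w) (c₀ w)
      left_inv := fun a => by funext w; simp
      right_inv := fun a => by funext w; simp }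
  rw [← avg_equiv E (fun a : (I → Bool) → Bool => avg (fun b : (I → Bool) → Bool =>
    avg (fun p : Tab I × Tab I => f (x.trans (layer i b * Kl l p * layer i a).toEmbedding))))]
  refine avg_congr fun a => avg_congr fun b => avg_congr fun p => ?_
  have h1 : (x.trans (layer i c₀).toEmbedding).trans (layer i b * Kl l p * layer i a).toEmbedding =
      x.trans (layer i b * Kl l p * layer i (E a)).toEmbedding := by
    ext k
    have h2 : layer i (E a) = layer i a * layer i c₀ := (layer_mul_layer i a c₀).symm
    rw [h2]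
    rfl
  rw [h1]

/-- The layer flipping the bit on one pair only. -/
theorem swap_eq_layer (i : I) (w : I → Bool) :
    Equiv.swap w (phi i w) = layer i (fun u => decide (u = Function.update w i false)) := by
  ext1 v
  have hupd : Function.update (phi i w) i false = Function.update w i false := by
    funext j
    by_cases hj : j = i
    · subst hj; simp
    · simp [Function.update_of_ne hj, phi_ne i hj]
  by_cases h1 : v = w
  · subst h1
    rw [Equiv.swap_apply_left]
    funext j
    simp only [layer_apply]
    by_cases hj : j = i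
    · subst hj
      rw [layerFun_same, phi_same]
      simp
    · rw [layerFun_ne hj, phi_ne i hj]
  · by_cases h2 : v = phi i w
    · subst h2
      rw [Equiv.swap_apply_right]
      funext j
      simp only [layer_apply]
      by_cases hj : j = i
      · subst hj
        rw [layerFun_same, phi_same, hupd]
        simp
      · rw [layerFun_ne hj, phi_ne i hj]
    · rw [Equiv.swap_apply_of_ne_of_ne h1 h2]
      funext j
      simp only [layer_apply]
      have hne : Function.update v i false ≠ Function.update w i false := by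
        intro he
        by_cases hb : v i = w i
        · apply h1
          funext k
          by_cases hk : k = i
          · subst hk; exact hb
          · have := congrFun he k
            simpa [Function.update_of_ne hk] using this
        · apply h2
          funext k
          by_cases hk : k = i
          · subst hk
            rw [phi_same]
            revert hb
            cases v k <;> cases w k <;> simp
          · rw [phi_ne i hk]
            have := congrFun he k
            simpa [Function.update_of_ne hk] using this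
      by_cases hj : j = i
      · subst hj
        rw [layerFun_same]
        simp [hne]
      · rw [layerFun_ne hj]

/-- Eigenvectors with non-zero eigenvalue are invariant under the pairs of the first layer. -/
theorem eigen_left_invariant (i : I) (l : List I) (hi : i ∉ l) {ψ : TupE (I → Bool) (I → Bool)} {c : ℝ}
    (hc : c ≠ 0) (heig : tupOp (lawOf (Kl (i :: l))) (I → Bool) ψ = c • ψ) (w : I → Bool)
    (x : (I → Bool) ↪ (I → Bool)) :
    ψ (x.trans (Equiv.swap w (phi i w)).toEmbedding) = ψ x := by
  have h1 := tupOp_layer_invariant i l hi (fun u => decide (u = Function.update w i false)) ψ x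
  rw [← swap_eq_layer, heig] at h1
  simp only [PiLp.smul_apply, smul_eq_mul] at h1
  exact mul_left_cancel₀ hc h1

/-- The side of `i`, a set of representatives of the flip of `i`. -/
def sideFalse (i : I) : Finset (I → Bool) := univ.filter fun w => w i = false

theorem mem_sideFalse_iff (i : I) (w : I → Bool) : w ∈ sideFalse i ↔ phi i w ∉ sideFalse i := by
  simp only [sideFalse, mem_filter, mem_univ, true_and, phi_same]
  cases w i <;> simp

theorem two_mul_card_sideFalse (i : I) : Fintype.card (I → Bool) = 2 * (sideFalse i).card := by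
  have h := (pairs_image (phi i) (phi_phi i) (fun w => ?_) (sideFalse i)
    (fun w hw => (mem_sideFalse_iff i w).1 hw)).1.card_supp
  · have hinj : Function.Injective fun w : I → Bool => (w, phi i w) :=
      fun a b hab => congrArg Prod.fst hab
    rw [card_image_of_injective _ hinj,
      (pairs_image (phi i) (phi_phi i) (fun w => ?_) (sideFalse i)
        (fun w hw => (mem_sideFalse_iff i w).1 hw)).2] at h
    · rw [← h, ← card_univ]
      congr 1
      ext w
      simp only [mem_union, mem_image, mem_univ, true_iff]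
      by_cases hw : w ∈ sideFalse i
      · exact Or.inl hw
      · right
        refine ⟨phi i w, ?_, phi_phi i w⟩
        by_contra hc
        exact hw ((mem_sideFalse_iff i w).2 hc)
    · intro he
      have := congrFun he i
      rw [phi_same] at this
      cases hb : w i <;> simp [hb] at this
  · intro he
    have := congrFun he i
    rw [phi_same] at this
    cases hb : w i <;> simp [hb] at this

end Left

section Numerics

/-- The terms of the binomial expansion of `n ^ n` with ratio `r : n - r`. -/
private def termB (n r k : ℕ) : ℕ := r ^ k * (n - r) ^ (n - k) * n.choose k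

private theorem termB_rel (n r k : ℕ) (hk : k < n) :
    termB n r (k + 1) * ((k + 1) * (n - r)) = termB n r k * ((n - k) * r) := by
  unfold termB
  have h1 : n.choose (k + 1) * (k + 1) = n.choose k * (n - k) := Nat.choose_succ_right_eq n k
  have h2 : (n - r) ^ (n - k) = (n - r) ^ (n - (k + 1)) * (n - r) := by
    rw [← pow_succ]
    congr 1
    omega
  rw [h2, pow_succ r k]
  calc r ^ k * r * (n - r) ^ (n - (k + 1)) * n.choose (k + 1) * ((k + 1) * (n - r))
      = r ^ k * r * (n - r) ^ (n - (k + 1)) * (n - r) * (n.choose (k + 1) * (k + 1)) := by ring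
    _ = _ := by rw [h1]; ring

private theorem termB_le (n r : ℕ) (hr : r ≤ n) (k : ℕ) (hk : k ≤ n) : termB n r k ≤ termB n r r := by
  have hup : ∀ k, r ≤ k → k ≤ n → termB n r k ≤ termB n r r := by
    intro k hrk
    induction k, hrk using Nat.le_induction with
    | base => exact fun _ => le_rfl
    | succ k hrk ih =>
      intro hk
      refine le_trans ?_ (ih (by omega))
      have h := termB_rel n r k (by omega)
      have hXpos : 0 < (k + 1) * (n - r) := Nat.mul_pos (by omega) (by omega)
      have hXY : (n - k) * r ≤ (k + 1) * (n - r) := by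
        rw [mul_comm (n - k)]
        exact Nat.mul_le_mul (by omega) (by omega)
      refine Nat.le_of_mul_le_mul_right ?_ hXpos
      rw [h]
      exact Nat.mul_le_mul_left _ hXY
  have hdown : ∀ d, d ≤ r → termB n r (r - d) ≤ termB n r r := by
    intro d
    induction d with
    | zero => intro _; simp
    | succ d ih =>
      intro hd
      refine le_trans ?_ (ih (by omega))
      have hk1 : r - d = r - (d + 1) + 1 := by omega
      rw [hk1]
      set k := r - (d + 1) with hk
      have h := termB_rel n r k (by omega)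
      have hYpos : 0 < (n - k) * r := Nat.mul_pos (by omega) (by omega)
      have hXY : (k + 1) * (n - r) ≤ (n - k) * r := by
        rw [mul_comm (n - k)]
        exact Nat.mul_le_mul (by omega) (by omega)
      refine Nat.le_of_mul_le_mul_right ?_ hYpos
      rw [← h]
      exact Nat.mul_le_mul_left _ hXY
  by_cases hc : r ≤ k
  · exact hup k hc hk
  · have := hdown (r - k) (by omega)
    have e : r - (r - k) = k := by omega
    rwa [e] at this

/-- The largest term of the binomial expansion. -/
theorem pow_self_le_choose (n r : ℕ) (hr : r ≤ n) :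
    n ^ n ≤ (n + 1) * (n.choose r * r ^ r * (n - r) ^ (n - r)) := by
  have h1 : n ^ n = ∑ k ∈ range (n + 1), termB n r k := by
    have h2 : n = r + (n - r) := by omega
    conv_lhs => rw [h2]
    rw [add_pow, ← h2]
    rfl
  rw [h1]
  calc ∑ k ∈ range (n + 1), termB n r k ≤ ∑ _k ∈ range (n + 1), termB n r r :=
        sum_le_sum fun k hk => termB_le n r hr k (by have := mem_range.1 hk; omega)
    _ = (n + 1) * termB n r r := by simp
    _ = _ := by
        unfold termB
        ring

/-- Binomial lower bound from the entropy. -/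
theorem exp_le_choose (a b u : ℕ) (hb : b ≤ a) (ha : a ≤ 64) (hu : 0 < u)
    (hnum : Real.exp 19 * ((b : ℝ) ^ b * ((a - b : ℕ) : ℝ) ^ (a - b)) ≤ (a : ℝ) ^ a) (hb0 : 0 < b)
    (hab : b < a) :
    Real.exp (19 * u) / (64 * u + 1) ≤ ((a * u).choose (b * u) : ℝ) := by
  have hbu : b * u ≤ a * u := Nat.mul_le_mul_right _ hb
  have h0 := pow_self_le_choose (a * u) (b * u) hbu
  have h1 : a * u - b * u = (a - b) * u := (Nat.sub_mul a b u).symm
  rw [h1] at h0
  have h2 : ((a * u : ℕ) : ℝ) ^ (a * u) ≤
      ((a * u : ℕ) + 1) * (((a * u).choose (b * u) : ℝ) * ((b * u : ℕ) : ℝ) ^ (b * u) *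
        (((a - b) * u : ℕ) : ℝ) ^ ((a - b) * u)) := by
    exact_mod_cast h0
  set C : ℝ := ((a * u).choose (b * u) : ℝ) with hC
  have hupos : (0 : ℝ) < u := by exact_mod_cast hu
  have hA : ((a * u : ℕ) : ℝ) ^ (a * u) = ((a : ℝ) ^ a) ^ u * ((u : ℝ) ^ (b * u) * (u : ℝ) ^ ((a - b) * u)) := by
    rw [← pow_add, ← add_mul, show b + (a - b) = a by omega, Nat.cast_mul, mul_pow, pow_mul]
  have hB : ((b * u : ℕ) : ℝ) ^ (b * u) = ((b : ℝ) ^ b) ^ u * (u : ℝ) ^ (b * u) := by
    rw [Nat.cast_mul, mul_pow, pow_mul]
  have hD : (((a - b) * u : ℕ) : ℝ) ^ ((a - b) * u) =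
      (((a - b : ℕ) : ℝ) ^ (a - b)) ^ u * (u : ℝ) ^ ((a - b) * u) := by
    rw [Nat.cast_mul, mul_pow, pow_mul]
  rw [hA, hB, hD] at h2
  have hUU : (0 : ℝ) < (u : ℝ) ^ (b * u) * (u : ℝ) ^ ((a - b) * u) := by positivity
  set B : ℝ := (b : ℝ) ^ b with hBdef
  set D : ℝ := ((a - b : ℕ) : ℝ) ^ (a - b) with hDdef
  have hBpos : 0 < B := by
    have : (0 : ℝ) < b := by exact_mod_cast hb0
    positivity
  have hDpos : 0 < D := by
    have : (0 : ℝ) < ((a - b : ℕ) : ℝ) := by
      exact_mod_cast Nat.sub_pos_of_lt hab
    positivity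
  have h3 : ((a : ℝ) ^ a) ^ u ≤ (((a * u : ℕ) : ℝ) + 1) * (C * (B ^ u * D ^ u)) := by
    refine le_of_mul_le_mul_right ?_ hUU
    refine h2.trans_eq ?_
    ring
  have h4 : Real.exp 19 ^ u * (B ^ u * D ^ u) ≤ ((a : ℝ) ^ a) ^ u := by
    rw [← mul_pow, ← mul_pow]
    exact pow_le_pow_left₀ (by positivity) hnum u
  have hBD : 0 < B ^ u * D ^ u := by positivity
  have h5 : Real.exp 19 ^ u ≤ (((a * u : ℕ) : ℝ) + 1) * C := by
    refine le_of_mul_le_mul_right ?_ hBD
    refine (h4.trans h3).trans_eq ?_
    ring
  have hC0 : 0 ≤ C := by rw [hC]; positivity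
  have h6 : ((a * u : ℕ) : ℝ) ≤ 64 * u := by
    rw [Nat.cast_mul]
    have : (a : ℝ) ≤ 64 := by exact_mod_cast ha
    exact mul_le_mul_of_nonneg_right this hupos.le
  have h7 : Real.exp (19 * u) = Real.exp 19 ^ u := by
    rw [mul_comm, Real.exp_nat_mul]
  rw [h7, div_le_iff₀ (by positivity)]
  nlinarith [mul_le_mul_of_nonneg_right h6 hC0]

/-- `e^19` as a rational upper bound. -/
theorem exp_nineteen_le : Real.exp 19 ≤ (2.7182818286 : ℝ) ^ 19 := by
  have h1 : Real.exp 19 = Real.exp 1 ^ 19 := by
    rw [← Real.exp_nat_mul]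
    norm_num
  rw [h1]
  exact pow_le_pow_left₀ (Real.exp_pos 1).le Real.exp_one_lt_d9.le 19

private theorem num_of {a b : ℕ} (h : (2.7182818286 : ℝ) ^ 19 * ((b : ℝ) ^ b * ((a - b : ℕ) : ℝ) ^ (a - b)) ≤ (a : ℝ) ^ a) :
    Real.exp 19 * ((b : ℝ) ^ b * ((a - b : ℕ) : ℝ) ^ (a - b)) ≤ (a : ℝ) ^ a :=
  le_trans (mul_le_mul_of_nonneg_right exp_nineteen_le (by positivity)) h

theorem num_56_6 : Real.exp 19 * (((6 : ℕ) : ℝ) ^ 6 * ((56 - 6 : ℕ) : ℝ) ^ (56 - 6)) ≤ ((56 : ℕ) : ℝ) ^ 56 :=
  num_of (by norm_num)

theorem num_48_8 : Real.exp 19 * (((8 : ℕ) : ℝ) ^ 8 * ((48 - 8 : ℕ) : ℝ) ^ (48 - 8)) ≤ ((48 : ℕ) : ℝ) ^ 48 :=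
  num_of (by norm_num)

theorem num_32_16 : Real.exp 19 * (((16 : ℕ) : ℝ) ^ 16 * ((32 - 16 : ℕ) : ℝ) ^ (32 - 16)) ≤ ((32 : ℕ) : ℝ) ^ 32 :=
  num_of (by norm_num)

theorem num_28_14 : Real.exp 19 * (((14 : ℕ) : ℝ) ^ 14 * ((28 - 14 : ℕ) : ℝ) ^ (28 - 14)) ≤ ((28 : ℕ) : ℝ) ^ 28 :=
  num_of (by norm_num)

theorem num_32_9 : Real.exp 19 * (((9 : ℕ) : ℝ) ^ 9 * ((32 - 9 : ℕ) : ℝ) ^ (32 - 9)) ≤ ((32 : ℕ) : ℝ) ^ 32 :=
  num_of (by norm_num)

end Numerics

section Main

variable {I : Type*} [Fintype I] [DecidableEq I]

/-- **Multiplicity above the level `6 u`.** -/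
theorem high_mult (l : List I) (hl : l.Nodup) (hall : ∀ i, i ∈ l) (u : ℕ) (hu1 : 1 ≤ u)
    (hN2 : 2 ^ Fintype.card I = 64 * u) (c : ℝ) (hc : 0 < c)
    (ψ : TupE (I → Bool) (I → Bool)) (hψ : ψ ≠ 0)
    (heig : tupOp (lawOf (Kl l)) (I → Bool) ψ = c • ψ)
    (hJ : ψ ∈ (juntaSub (I → Bool) (I → Bool) (6 * u))ᗮ) :
    Real.exp (19 * u) / (64 * u + 1) ≤
      Module.finrank ℝ (Module.End.eigenspace (tupOp (lawOf (Kl l)) (I → Bool)) c) := by
  have hu : 0 < u := hu1
  have hN : Fintype.card (I → Bool) = 64 * u := by
    rw [← hN2]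
    simp
  have hne : l ≠ [] := by
    rintro rfl
    have hI : IsEmpty I := ⟨fun i => by simpa using hall i⟩
    rw [Fintype.card_eq_zero] at hN2
    omega
  obtain ⟨D, hJD, -, -, -, hlow, hmult⟩ := exists_level_mult _ hψ heig le_rfl hJ
  rw [hN] at hmult
  rcases l with _ | ⟨i, l'⟩
  · exact absurd rfl hne
  have hi : i ∉ l' := (List.nodup_cons.1 hl).1
  by_cases h8 : D.card ≤ 8 * u
  · refine (exp_le_choose 56 6 u (by norm_num) (by norm_num) hu num_56_6 (by norm_num)
      (by norm_num)).trans ?_
    exact_mod_cast hmult _ _ (by omega) (by omega)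
  by_cases h16 : D.card ≤ 16 * u
  · refine (exp_le_choose 48 8 u (by norm_num) (by norm_num) hu num_48_8 (by norm_num)
      (by norm_num)).trans ?_
    exact_mod_cast hmult _ _ (by omega) (by omega)
  by_cases h32 : D.card ≤ 32 * u
  · refine (exp_le_choose 32 16 u (by norm_num) (by norm_num) hu num_32_16 (by norm_num)
      (by norm_num)).trans ?_
    exact_mod_cast hmult _ _ (by omega) (by omega)
  by_cases h36 : D.card ≤ 36 * u
  · refine (exp_le_choose 28 14 u (by norm_num) (by norm_num) hu num_28_14 (by norm_num)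
      (by norm_num)).trans ?_
    exact_mod_cast hmult _ _ (by omega) (by omega)
  -- the character argument
  refine (exp_le_choose 32 9 u (by norm_num) (by norm_num) hu num_32_9 (by norm_num)
    (by norm_num)).trans ?_
  have hside : (sideFalse i).card = 32 * u := by
    have := two_mul_card_sideFalse i
    omega
  have hfix : ∀ w : I → Bool, phi i w ≠ w := by
    intro w he
    have := congrFun he i
    rw [phi_same] at this
    cases hb : w i <;> simp [hb] at this
  have h := mult_b (lawOf (Kl (i :: l'))) (phi i) (phi_phi i) hfix (sideFalse i)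
    (mem_sideFalse_iff i) hψ heig (fun w x => eigen_left_invariant i l' hi hc.ne' heig w x)
    (J := 36 * u) (z₀ := 9 * u) (hlow _ (by omega)) (by omega) (by omega)
  rw [hside] at h
  exact_mod_cast h

end Main

end Crest.Agent.Thorp
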