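import Crest.Agent.Lib.Thorp.MGFocc
import Crest.Agent.Lib.Thorp.Peel

/-!
# Thorp: the moment generating function of the level costs over a uniform injective tuple.

Occupation: for `x` uniform in `Fin k ↪ I → Bool`, `N = 2^card I`, and a set `B` of wires of side `w i = false`,
`E ∏_{w∈B} 1(w ∈ range x) 1(phi i w ∈ range x) = (k)_{2|B|}/(N)_{2|B|} ≤ p^|B|`, `p = k(k-1)/(N(N-1))`.

`mgf_nodes`: let `𝒱` be pairwise disjoint sets of `n` wires of side false and `F g = ∑_{b ≤ g} C(g,b) c_b` with `c_b ≥ 0`.  Then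
`E_x ∏_{v∈𝒱} F(|Gx i x ∩ v|) ≤ (∑_{b≤n} C(n,b) c_b p^b)^|𝒱|`.
Proof: `F(|G∩v|) = ∑_{T⊂v} c_|T| ∏_{w∈T} 1(w∈G)`, expand the product over `v`, take expectations; or induction on `𝒱` with a prefactor `∏_{w∈T₀} 1(w∈G)`.

`mgf_low`: Hölder in the levels.  Wsum is the sum over the levels of `lam` at `x_r = Q(prefix)(A) ∘ x`; for fixed `A`, `x ↦ Q(prefix)(A) ∘ x` is a bijection of `Fin k ↪ I → Bool` so each level can be averaged as if `x_r = x`.
Hölder weights: level `s=1`: `1/4`; `s=2`: `1/5`; `s=3`: `1/7`; level `s ≥ 4`: `(57/140) wlev s / Wstar`, `Wstar = (57/140) log 9`, dummy factor for the rest of the weights (`∑_{s≥4} wlev s ≤ Wstar`).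
`s=1`: `exp(4 lam) = 16^|G|`, `F=16^g`: `c=(1,15)`, `n=1`, `|𝒱|=N/2`.
`s=2`: `exp(5 lam) = ∏_v ŷ₁(|G∩v|)^5`: `n=2`, `c₁ = (3/2)^5-1`, `c₂ = 3^5-2(3/2)^5+1`, `|𝒱| = N/4`.
`s=3`: `exp(7 lam) = ∏_v ŷ₂(|G∩v|)^7`: `n=4`, `c₁ = (5/4)^7-1`, `c₂=(7/4)^7-2(5/4)^7+1`, `c₃=(21/8)^7-3(7/4)^7+3(5/4)^7-1`, `c₄=(21/4)^7-4(21/8)^7+6(7/4)^7-4(5/4)^7+1`, `|𝒱| = N/8`.
`s≥4`: `exp(lam/θ_s) = 9^|G|`, `c=(1,8)`, `n=1`, `|𝒱|=N/2`.
-/

set_option autoImplicit false
set_option linter.unusedSectionVars false

namespace Crest.Agent.Thorp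

open Finset

variable {I : Type*} [Fintype I] [DecidableEq I]

/-- Coefficients of the nodes. -/
noncomputable def c21 : ℝ := (3 / 2 : ℝ) ^ 5 - 1
noncomputable def c22 : ℝ := (3 : ℝ) ^ 5 - 2 * (3 / 2 : ℝ) ^ 5 + 1
noncomputable def d41 : ℝ := (5 / 4 : ℝ) ^ 7 - 1
noncomputable def d42 : ℝ := (7 / 4 : ℝ) ^ 7 - 2 * (5 / 4 : ℝ) ^ 7 + 1
noncomputable def d43 : ℝ := (21 / 8 : ℝ) ^ 7 - 3 * (7 / 4 : ℝ) ^ 7 + 3 * (5 / 4 : ℝ) ^ 7 - 1
noncomputable def d44 : ℝ :=
  (21 / 4 : ℝ) ^ 7 - 4 * (21 / 8 : ℝ) ^ 7 + 6 * (7 / 4 : ℝ) ^ 7 - 4 * (5 / 4 : ℝ) ^ 7 + 1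

/-- The final exponent. -/
noncomputable def Rmgf (N k : ℕ) : ℝ :=
  let p := pk N k
  (N / 8 : ℝ) * Real.log (1 + 15 * p) +
    (N / 20 : ℝ) * Real.log (1 + 2 * c21 * p + c22 * p ^ 2) +
    (N / 56 : ℝ) * Real.log (1 + 4 * d41 * p + 6 * d42 * p ^ 2 + 4 * d43 * p ^ 3 + d44 * p ^ 4) +
    (57 * N / 280 : ℝ) * Real.log (1 + 8 * p)


/-! ### Levels of a list -/

section Levels

variable {A : Type*} [Fintype A] [DecidableEq A]

/-- The cost at the level with tail length `t`. -/
noncomputable def levVal : List I → ℕ → Tab I → (A → I → Bool) → ℝ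
  | [], _, _, _ => 0
  | i :: l, t, a, x =>
      if t = l.length then lam i l (dblG i x) else levVal l t a (fun r => layer i (a i) (x r))

theorem Wsum_eq_sum_levVal (l : List I) (a : Tab I) (x : A → I → Bool) :
    Wsum l a x = ∑ t ∈ Finset.range l.length, levVal l t a x := by
  induction l generalizing x with
  | nil => simp [Wsum]
  | cons i l ih =>
    simp only [Wsum, List.length_cons]
    rw [Finset.sum_range_succ, ih]
    have h1 : levVal (i :: l) l.length a x = lam i l (dblG i x) := by
      simp [levVal]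
    rw [h1, add_comm]
    congr 1
    refine Finset.sum_congr rfl fun t ht => ?_
    have : t ≠ l.length := (Finset.mem_range.1 ht).ne
    simp [levVal, this]

theorem levVal_spec (l : List I) (t : ℕ) (ht : t < l.length) :
    ∃ (i : I) (l' : List I) (π : Tab I → Equiv.Perm (I → Bool)),
      (i :: l') <:+ l ∧ l'.length = t ∧
        ∀ (a : Tab I) (x : A → I → Bool), levVal l t a x = lam i l' (dblG i (fun r => π a (x r))) := by
  induction l with
  | nil => simp at ht
  | cons i l ih =>
    by_cases h : t = l.length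
    · refine ⟨i, l, fun _ => 1, List.suffix_refl _, h.symm, fun a x => ?_⟩
      simp [levVal, h]
    · have ht' : t < l.length := by
        simp only [List.length_cons] at ht; omega
      obtain ⟨i', l', π, hs, hl, hv⟩ := ih ht'
      refine ⟨i', l', fun a => π a * layer i (a i), hs.trans (List.suffix_cons _ _), hl, fun a x => ?_⟩
      simp only [levVal, h, if_false]
      rw [hv]
      rfl

end Levels

/-- Averaging over tuples is invariant under permutations of the wires. -/
theorem avg_tuple_perm (k : ℕ) (g : Equiv.Perm (I → Bool)) (Φ : (Fin k → I → Bool) → ℝ) :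
    (avg fun x : Fin k ↪ (I → Bool) => Φ (fun r => g (x r))) =
      avg fun x : Fin k ↪ (I → Bool) => Φ x := by
  have h := avg_equiv ((Equiv.refl (Fin k)).embeddingCongr g)
    (fun x : Fin k ↪ (I → Bool) => Φ x)
  rw [← h]
  refine avg_congr fun x => ?_
  congr 1

/-! ### Half-counting -/

theorem card_half (j : I) (S : Finset (I → Bool)) (hS : ∀ w, w ∈ S → phi j w ∈ S) :
    2 * (S.filter fun w => w j = false).card = S.card := by
  have h1 : (S.filter fun w => w j = false).card = (S.filter fun w => ¬ (w j = false)).card := by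
    refine Finset.card_bij' (fun w _ => phi j w) (fun w _ => phi j w) ?_ ?_ ?_ ?_
    · intro w hw
      simp only [mem_filter] at hw ⊢
      refine ⟨hS w hw.1, ?_⟩
      rw [phi_same, hw.2]; simp
    · intro w hw
      simp only [mem_filter] at hw ⊢
      refine ⟨hS w hw.1, ?_⟩
      rw [phi_same]
      simpa using hw.2
    · intro w _; exact phi_phi j w
    · intro w _; exact phi_phi j w
  have h2 := Finset.card_filter_add_card_filter_not (s := S) (fun w => w j = false)
  omega

/-- `|{w i = false}| = N/2`. -/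
theorem card_side1 (i : I) :
    ((univ.filter fun w : I → Bool => w i = false).card : ℝ) = (2 ^ Fintype.card I : ℕ) / 2 := by
  have h := card_half i (univ : Finset (I → Bool)) (fun _ _ => mem_univ _)
  have hc : (univ : Finset (I → Bool)).card = 2 ^ Fintype.card I := by simp
  rw [hc] at h
  have : (2 : ℝ) * ((univ.filter fun w : I → Bool => w i = false).card : ℝ) = (2 ^ Fintype.card I : ℕ) := by
    exact_mod_cast h
  linarith

theorem card_side2 (i j : I) (hij : j ≠ i) :
    ((univ.filter fun w : I → Bool => w i = false ∧ w j = false).card : ℝ) = (2 ^ Fintype.card I : ℕ) / 4 := by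
  have h := card_half j (univ.filter fun w : I → Bool => w i = false) (fun w hw => by
    simp only [mem_filter, mem_univ, true_and] at hw ⊢
    rw [phi_ne j hij.symm, hw])
  rw [Finset.filter_filter] at h
  have h2 := card_side1 i
  have : (2 : ℝ) * ((univ.filter fun w : I → Bool => w i = false ∧ w j = false).card : ℝ) =
      ((univ.filter fun w : I → Bool => w i = false).card : ℝ) := by
    exact_mod_cast h
  rw [h2] at this
  linarith

theorem card_side3 (i j j' : I) (hij : j ≠ i) (hij' : j' ≠ i) (hjj' : j' ≠ j) :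
    ((univ.filter fun w : I → Bool => w i = false ∧ w j = false ∧ w j' = false).card : ℝ) =
      (2 ^ Fintype.card I : ℕ) / 8 := by
  have h := card_half j' (univ.filter fun w : I → Bool => w i = false ∧ w j = false) (fun w hw => by
    simp only [mem_filter, mem_univ, true_and] at hw ⊢
    rw [phi_ne j' hij'.symm, phi_ne j' hjj'.symm]
    exact hw)
  rw [Finset.filter_filter] at h
  have h2 := card_side2 i j hij
  have e : (univ.filter fun w : I → Bool => (w i = false ∧ w j = false) ∧ w j' = false) =
      (univ.filter fun w : I → Bool => w i = false ∧ w j = false ∧ w j' = false) := by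
    ext w; simp [and_assoc]
  rw [e] at h
  have : (2 : ℝ) * ((univ.filter fun w : I → Bool => w i = false ∧ w j = false ∧ w j' = false).card : ℝ) =
      ((univ.filter fun w : I → Bool => w i = false ∧ w j = false).card : ℝ) := by
    exact_mod_cast h
  rw [h2] at this
  linarith

/-! ### Nodes -/

theorem pairN_card (j : I) (w : I → Bool) (hw : w j = false) : (pairN j w).card = 2 := by
  unfold pairN
  rw [Finset.card_pair]
  intro h
  have := congrFun h j
  rw [phi_same, hw] at this
  simp at this

theorem pairN_side (i j : I) (hij : j ≠ i) (w : I → Bool) (hw : w i = false) :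
    ∀ u ∈ pairN j w, u i = false := by
  intro u hu
  simp only [pairN, mem_insert, mem_singleton] at hu
  rcases hu with rfl | rfl
  · exact hw
  · rw [phi_ne j hij.symm, hw]

theorem pairN_clear (j : I) (w u : I → Bool) (hw : w j = false) (hu : u ∈ pairN j w) :
    Function.update u j false = w := by
  simp only [pairN, mem_insert, mem_singleton] at hu
  funext k
  rcases hu with rfl | rfl
  · by_cases hk : k = j
    · subst hk; simp [hw]
    · simp [Function.update_of_ne hk]
  · by_cases hk : k = j
    · subst hk; simp [hw]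
    · rw [Function.update_of_ne hk, phi_ne j hk]

theorem colN_card (j j' : I) (hjj' : j' ≠ j) (w : I → Bool) (hw : w j = false) (hw' : w j' = false) :
    (colN j j' w).card = 4 := by
  unfold colN
  have e1 : ∀ u : I → Bool, phi j u j = !(u j) := phi_same j
  have e2 : ∀ u : I → Bool, phi j' u j' = !(u j') := phi_same j'
  have e3 : ∀ u : I → Bool, phi j u j' = u j' := phi_ne j hjj'
  have e4 : ∀ u : I → Bool, phi j' u j = u j := phi_ne j' hjj'.symm
  have n1 : w ≠ phi j w := by
    intro h; have := congrFun h j; rw [e1, hw] at this; simp at this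
  have n2 : w ≠ phi j' w := by
    intro h; have := congrFun h j'; rw [e2, hw'] at this; simp at this
  have n3 : w ≠ phi j (phi j' w) := by
    intro h; have := congrFun h j; rw [e1, e4, hw] at this; simp at this
  have n4 : phi j w ≠ phi j' w := by
    intro h; have := congrFun h j; rw [e1, e4, hw] at this; simp at this
  have n5 : phi j w ≠ phi j (phi j' w) := by
    intro h; have := congrFun h j'; rw [e3, e3, e2, hw'] at this; simp at this
  have n6 : phi j' w ≠ phi j (phi j' w) := by
    intro h; have := congrFun h j; rw [e1, e4, hw] at this; simp at this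
  rw [Finset.card_insert_of_notMem, Finset.card_insert_of_notMem, Finset.card_pair n6]
  · simp [n4, n5]
  · simp [n1, n2, n3]

theorem colN_side (i j j' : I) (hij : j ≠ i) (hij' : j' ≠ i) (w : I → Bool) (hw : w i = false) :
    ∀ u ∈ colN j j' w, u i = false := by
  intro u hu
  simp only [colN, mem_insert, mem_singleton] at hu
  rcases hu with rfl | rfl | rfl | rfl
  · exact hw
  · rw [phi_ne j hij.symm, hw]
  · rw [phi_ne j' hij'.symm, hw]
  · rw [phi_ne j hij.symm, phi_ne j' hij'.symm, hw]

theorem colN_clear (j j' : I) (hjj' : j' ≠ j) (w u : I → Bool) (hw : w j = false) (hw' : w j' = false)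
    (hu : u ∈ colN j j' w) :
    Function.update (Function.update u j false) j' false = w := by
  simp only [colN, mem_insert, mem_singleton] at hu
  funext k
  by_cases h' : k = j'
  · subst h'; simp [hw']
  rw [Function.update_of_ne h']
  by_cases h : k = j
  · subst h; simp [hw]
  rw [Function.update_of_ne h]
  rcases hu with rfl | rfl | rfl | rfl
  · rfl
  · rw [phi_ne j h]
  · rw [phi_ne j' h']
  · rw [phi_ne j h, phi_ne j' h']

theorem exp_sum_eq_prod {α : Type*} (S : Finset α) (c : ℝ) (f : α → ℝ) (hf : ∀ w ∈ S, 0 < f w) (n : ℕ)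
    (hc : c = n) :
    Real.exp (c * ∑ w ∈ S, Real.log (f w)) = ∏ w ∈ S, f w ^ n := by
  rw [Finset.mul_sum, Real.exp_sum]
  refine Finset.prod_congr rfl fun w hw => ?_
  rw [hc, mul_comm, Real.exp_mul, Real.exp_log (hf w hw), Real.rpow_natCast]

/-! ### The one-level bounds -/

variable (k : ℕ)

/-- Bound for the singleton nodes. -/
theorem mgf_single (hk : k ≤ 2 ^ Fintype.card I) (i : I) (C : ℝ) (hC : 1 ≤ C) :
    (avg fun x : Fin k ↪ (I → Bool) => C ^ (dblG i (x : Fin k → I → Bool)).card) ≤
      (1 + (C - 1) * pk (2 ^ Fintype.card I) k) ^ ((univ.filter fun w : I → Bool => w i = false).card) := by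
  classical
  set Side := univ.filter fun w : I → Bool => w i = false with hSide
  have hV := mgf_nodes k hk i 1 (fun b => if b = 0 then 1 else if b = 1 then C - 1 else 0)
    (fun b => by split_ifs <;> linarith) (fun g => C ^ g)
    (fun g hg => by
      interval_cases g <;> simp [Finset.sum_range_succ])
    (Side.image fun w => ({w} : Finset (I → Bool)))
    (fun v hv u hu => by
      obtain ⟨w, hw, rfl⟩ := mem_image.1 hv
      rw [mem_singleton] at hu
      subst hu
      simpa [hSide] using hw)
    (fun v hv => by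
      obtain ⟨w, hw, rfl⟩ := mem_image.1 hv
      simp)
    (fun v hv v' hv' hne => by
      obtain ⟨w, hw, rfl⟩ := mem_image.1 hv
      obtain ⟨w', hw', rfl⟩ := mem_image.1 hv'
      rw [Finset.disjoint_singleton]
      rintro rfl
      exact hne rfl)
  have hinj : Set.InjOn (fun w : I → Bool => ({w} : Finset (I → Bool))) (Side : Set (I → Bool)) := by
    intro a _ b _ h
    simpa using h
  rw [Finset.card_image_of_injOn hinj] at hV
  have hsum : ∑ b ∈ Finset.range (1 + 1), ((1 : ℕ).choose b : ℝ) *
      (if b = 0 then (1 : ℝ) else if b = 1 then C - 1 else 0) * pk (2 ^ Fintype.card I) k ^ b =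
      1 + (C - 1) * pk (2 ^ Fintype.card I) k := by
    simp [Finset.sum_range_succ]
  rw [hsum] at hV
  refine le_trans (le_of_eq ?_) hV
  refine avg_congr fun x => ?_
  rw [Finset.prod_image (fun a ha b hb h => hinj ha hb h)]
  simp only [Finset.prod_pow_eq_pow_sum]
  congr 1
  have hG : dblG i (x : Fin k → I → Bool) ⊆ Side := by
    intro w hw
    simp only [dblG, mem_filter] at hw
    simp [hSide, hw.2.1]
  have : ∀ w ∈ Side, (dblG i (x : Fin k → I → Bool) ∩ {w}).card =
      if w ∈ dblG i (x : Fin k → I → Bool) then 1 else 0 := by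
    intro w _
    rw [Finset.inter_singleton]
    split_ifs <;> simp
  rw [Finset.sum_congr rfl this, Finset.sum_ite_mem, Finset.sum_const]
  simp [Finset.inter_eq_right.2 hG]


/-- Bound for a level with nodes given by a function `nd` of the wires in a set `Wi`. -/
theorem mgf_nodes_indexed (hk : k ≤ 2 ^ Fintype.card I) (i : I) (n : ℕ) (c : ℕ → ℝ) (hc : ∀ b, 0 ≤ c b)
    (F : ℕ → ℝ) (hF : ∀ g ≤ n, F g = ∑ b ∈ Finset.range (g + 1), (g.choose b : ℝ) * c b)
    (Wi : Finset (I → Bool)) (nd : (I → Bool) → Finset (I → Bool))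
    (hside : ∀ w ∈ Wi, ∀ u ∈ nd w, u i = false) (hcard : ∀ w ∈ Wi, (nd w).card = n)
    (clear : (I → Bool) → (I → Bool)) (hclear : ∀ w ∈ Wi, ∀ u ∈ nd w, clear u = w)
    (hn : ∀ w ∈ Wi, (nd w).Nonempty) :
    (avg fun x : Fin k ↪ (I → Bool) =>
        ∏ w ∈ Wi, F (dblG i (x : Fin k → I → Bool) ∩ nd w).card) ≤
      (∑ b ∈ Finset.range (n + 1), (n.choose b : ℝ) * c b * (pk (2 ^ Fintype.card I) k) ^ b) ^ Wi.card := by
  classical
  have hdis : ∀ w ∈ Wi, ∀ w' ∈ Wi, w ≠ w' → Disjoint (nd w) (nd w') := by
    intro w hw w' hw' hne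
    rw [Finset.disjoint_left]
    intro u hu hu'
    exact hne ((hclear w hw u hu).symm.trans (hclear w' hw' u hu'))
  have hinj : Set.InjOn nd (Wi : Set (I → Bool)) := by
    intro a ha b hb h
    by_contra hne
    obtain ⟨u, hu⟩ := hn a ha
    exact Finset.disjoint_left.1 (hdis a ha b hb hne) hu (h ▸ hu)
  have hV := mgf_nodes k hk i n c hc F hF (Wi.image nd)
    (fun v hv u hu => by
      obtain ⟨w, hw, rfl⟩ := mem_image.1 hv
      exact hside w hw u hu)
    (fun v hv => by
      obtain ⟨w, hw, rfl⟩ := mem_image.1 hv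
      exact hcard w hw)
    (fun v hv v' hv' hne => by
      obtain ⟨w, hw, rfl⟩ := mem_image.1 hv
      obtain ⟨w', hw', rfl⟩ := mem_image.1 hv'
      refine hdis w hw w' hw' ?_
      rintro rfl
      exact hne rfl)
  rw [Finset.card_image_of_injOn hinj] at hV
  refine le_trans (le_of_eq ?_) hV
  refine avg_congr fun x => ?_
  rw [Finset.prod_image (fun a ha b hb h => hinj ha hb h)]

/-- The weights of the Hölder inequality, indexed by the tail length. -/
noncomputable def thetaL : ℕ → ℝ
  | 0 => 1 / 4
  | 1 => 1 / 5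
  | 2 => 1 / 7
  | t + 3 => (57 / 140) * wlev (t + 4) / Wstar

/-- The exponents at each level. -/
noncomputable def Lev (N k : ℕ) : ℕ → ℝ
  | 0 => (N / 2 : ℝ) * Real.log (1 + 15 * pk N k)
  | 1 => (N / 4 : ℝ) * Real.log (1 + 2 * c21 * pk N k + c22 * (pk N k) ^ 2)
  | 2 => (N / 8 : ℝ) * Real.log (1 + 4 * d41 * pk N k + 6 * d42 * (pk N k) ^ 2 + 4 * d43 * (pk N k) ^ 3 + d44 * (pk N k) ^ 4)
  | _ + 3 => (N / 2 : ℝ) * Real.log (1 + 8 * pk N k)

theorem Wstar_pos : 0 < Wstar := by
  unfold Wstar
  have : 0 < Real.log 9 := Real.log_pos (by norm_num)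
  positivity

theorem thetaL_pos (t : ℕ) : 0 < thetaL t := by
  match t with
  | 0 => norm_num [thetaL]
  | 1 => norm_num [thetaL]
  | 2 => norm_num [thetaL]
  | t + 3 =>
    have h := wlev_pos (t + 4) (by omega)
    have h2 := Wstar_pos
    simp only [thetaL]
    positivity

theorem c21_nonneg : 0 ≤ c21 := by norm_num [c21]
theorem c22_nonneg : 0 ≤ c22 := by norm_num [c22]
theorem d41_nonneg : 0 ≤ d41 := by norm_num [d41]
theorem d42_nonneg : 0 ≤ d42 := by norm_num [d42]
theorem d43_nonneg : 0 ≤ d43 := by norm_num [d43]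
theorem d44_nonneg : 0 ≤ d44 := by norm_num [d44]

/-- Exponential of a natural power. -/
theorem le_exp_of_pow_le {a b : ℝ} {n : ℕ} (hb : 0 < b) (h : a ≤ b ^ n) (c : ℝ) (hc : c = n) :
    a ≤ Real.exp (c * Real.log b) := by
  refine h.trans (le_of_eq ?_)
  rw [hc, mul_comm, Real.exp_mul, Real.exp_log hb, Real.rpow_natCast]

/-- Level `s = 1`. -/
theorem level0 (hk : k ≤ 2 ^ Fintype.card I) (i : I) :
    (avg fun x : Fin k ↪ (I → Bool) =>
        Real.exp (lam i [] (dblG i (x : Fin k → I → Bool)) / thetaL 0)) ≤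
      Real.exp (Lev (2 ^ Fintype.card I) k 0) := by
  have hp := pk_nonneg (2 ^ Fintype.card I) k
  have h := mgf_single k hk i 16 (by norm_num)
  norm_num at h
  have h2 := le_exp_of_pow_le (by positivity : 0 < 1 + 15 * pk (2 ^ Fintype.card I) k) h
    ((2 ^ Fintype.card I : ℕ) / 2) (card_side1 i).symm
  refine le_trans (le_of_eq ?_) h2
  refine avg_congr fun x => ?_
  simp only [lam, thetaL]
  have : Real.log 2 * ((dblG i (x : Fin k → I → Bool)).card : ℝ) / (1 / 4) =
      ((dblG i (x : Fin k → I → Bool)).card : ℝ) * Real.log 16 := by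
    have : Real.log 16 = 4 * Real.log 2 := by
      rw [show (16 : ℝ) = 2 ^ 4 by norm_num, Real.log_pow]; norm_num
    rw [this]; ring
  rw [this, mul_comm, Real.exp_mul, Real.exp_log (by norm_num), Real.rpow_natCast]

/-- Levels `s ≥ 4`. -/
theorem levelBig (hk : k ≤ 2 ^ Fintype.card I) (i : I) (t : ℕ) (l : List I) (hl : l.length = t + 3) :
    (avg fun x : Fin k ↪ (I → Bool) =>
        Real.exp (lam i l (dblG i (x : Fin k → I → Bool)) / thetaL (t + 3))) ≤
      Real.exp (Lev (2 ^ Fintype.card I) k (t + 3)) := by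
  have hp := pk_nonneg (2 ^ Fintype.card I) k
  have h := mgf_single k hk i 9 (by norm_num)
  norm_num at h
  have h2 := le_exp_of_pow_le (by positivity : 0 < 1 + 8 * pk (2 ^ Fintype.card I) k) h
    ((2 ^ Fintype.card I : ℕ) / 2) (card_side1 i).symm
  refine le_trans (le_of_eq ?_) h2
  refine avg_congr fun x => ?_
  have hlam : lam i l (dblG i (x : Fin k → I → Bool)) =
      wlev (t + 4) * ((dblG i (x : Fin k → I → Bool)).card : ℝ) := by
    match l, hl with
    | a :: b :: c :: r, hl =>
      simp only [List.length_cons] at hl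
      have : r.length = t := by omega
      simp [lam, this]
  rw [hlam]
  have hw := wlev_pos (t + 4) (by omega)
  have hW := Wstar_pos
  have : wlev (t + 4) * ((dblG i (x : Fin k → I → Bool)).card : ℝ) / thetaL (t + 3) =
      ((dblG i (x : Fin k → I → Bool)).card : ℝ) * Real.log 9 := by
    simp only [thetaL, Wstar]
    have hlog : 0 < Real.log 9 := Real.log_pos (by norm_num)
    field_simp
  rw [this, mul_comm, Real.exp_mul, Real.exp_log (by norm_num), Real.rpow_natCast]

/-- Level `s = 2`. -/
theorem level1 (hk : k ≤ 2 ^ Fintype.card I) (i j : I) (hij : j ≠ i) :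
    (avg fun x : Fin k ↪ (I → Bool) =>
        Real.exp (lam i [j] (dblG i (x : Fin k → I → Bool)) / thetaL 1)) ≤
      Real.exp (Lev (2 ^ Fintype.card I) k 1) := by
  have hp := pk_nonneg (2 ^ Fintype.card I) k
  have hc21 := c21_nonneg
  have hc22 := c22_nonneg
  have h := mgf_nodes_indexed k hk i 2
    (fun b => if b = 0 then 1 else if b = 1 then c21 else if b = 2 then c22 else 0)
    (fun b => by split_ifs <;> first | assumption | norm_num) (fun g => (yhat1 g) ^ 5)
    (fun g hg => by
      interval_cases g <;> simp [Finset.sum_range_succ, yhat1, c21, c22] <;> norm_num)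
    (univ.filter fun w : I → Bool => w i = false ∧ w j = false) (pairN j)
    (fun w hw => pairN_side i j hij w (by simpa using (mem_filter.1 hw).2.1))
    (fun w hw => pairN_card j w (by simpa using (mem_filter.1 hw).2.2))
    (fun u => Function.update u j false)
    (fun w hw u hu => pairN_clear j w u (by simpa using (mem_filter.1 hw).2.2) hu)
    (fun w _ => ⟨w, by simp [pairN]⟩)
  have hsum : ∑ b ∈ Finset.range (2 + 1), ((2 : ℕ).choose b : ℝ) *
      (if b = 0 then (1 : ℝ) else if b = 1 then c21 else if b = 2 then c22 else 0) *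
        pk (2 ^ Fintype.card I) k ^ b =
      1 + 2 * c21 * pk (2 ^ Fintype.card I) k + c22 * (pk (2 ^ Fintype.card I) k) ^ 2 := by
    simp [Finset.sum_range_succ]
  rw [hsum] at h
  have h2 := le_exp_of_pow_le (by positivity) h
    ((2 ^ Fintype.card I : ℕ) / 4) (card_side2 i j hij).symm
  refine le_trans (le_of_eq ?_) h2
  refine avg_congr fun x => ?_
  simp only [lam, thetaL]
  have e : ∀ z : ℝ, z / (1 / 5) = 5 * z := by intro z; ring
  rw [e]
  refine (exp_sum_eq_prod _ 5 _ (fun w _ => ?_) 5 (by norm_num))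
  have : ∀ g : ℕ, 0 < yhat1 g := by
    intro g
    match g with
    | 0 => norm_num [yhat1]
    | 1 => norm_num [yhat1]
    | g + 2 =>
      show (0 : ℝ) < 3
      norm_num
  exact this _

/-- Level `s = 3`. -/
theorem level2 (hk : k ≤ 2 ^ Fintype.card I) (i j j' : I) (hij : j ≠ i) (hij' : j' ≠ i) (hjj' : j' ≠ j) :
    (avg fun x : Fin k ↪ (I → Bool) =>
        Real.exp (lam i [j, j'] (dblG i (x : Fin k → I → Bool)) / thetaL 2)) ≤
      Real.exp (Lev (2 ^ Fintype.card I) k 2) := by
  have hp := pk_nonneg (2 ^ Fintype.card I) k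
  have hd1 := d41_nonneg
  have hd2 := d42_nonneg
  have hd3 := d43_nonneg
  have hd4 := d44_nonneg
  have h := mgf_nodes_indexed k hk i 4
    (fun b => if b = 0 then 1 else if b = 1 then d41 else if b = 2 then d42 else if b = 3 then d43
      else if b = 4 then d44 else 0)
    (fun b => by split_ifs <;> first | assumption | norm_num) (fun g => (yhat2 g) ^ 7)
    (fun g hg => by
      interval_cases g <;> simp [Finset.sum_range_succ, yhat2, d41, d42, d43, d44, Nat.choose] <;> norm_num)
    (univ.filter fun w : I → Bool => w i = false ∧ w j = false ∧ w j' = false) (colN j j')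
    (fun w hw => colN_side i j j' hij hij' w (by simpa using (mem_filter.1 hw).2.1))
    (fun w hw => colN_card j j' hjj' w (by simpa using (mem_filter.1 hw).2.2.1)
      (by simpa using (mem_filter.1 hw).2.2.2))
    (fun u => Function.update (Function.update u j false) j' false)
    (fun w hw u hu => colN_clear j j' hjj' w u (by simpa using (mem_filter.1 hw).2.2.1)
      (by simpa using (mem_filter.1 hw).2.2.2) hu)
    (fun w _ => ⟨w, by simp [colN]⟩)
  have hsum : ∑ b ∈ Finset.range (4 + 1), ((4 : ℕ).choose b : ℝ) *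
      (if b = 0 then (1 : ℝ) else if b = 1 then d41 else if b = 2 then d42 else if b = 3 then d43
        else if b = 4 then d44 else 0) * pk (2 ^ Fintype.card I) k ^ b =
      1 + 4 * d41 * pk (2 ^ Fintype.card I) k + 6 * d42 * (pk (2 ^ Fintype.card I) k) ^ 2 +
        4 * d43 * (pk (2 ^ Fintype.card I) k) ^ 3 + d44 * (pk (2 ^ Fintype.card I) k) ^ 4 := by
    simp [Finset.sum_range_succ, Nat.choose]
  rw [hsum] at h
  have h2 := le_exp_of_pow_le (by positivity) h
    ((2 ^ Fintype.card I : ℕ) / 8) (card_side3 i j j' hij hij' hjj').symm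
  refine le_trans (le_of_eq ?_) h2
  refine avg_congr fun x => ?_
  simp only [lam, thetaL]
  have e : ∀ z : ℝ, z / (1 / 7) = 7 * z := by intro z; ring
  rw [e]
  refine (exp_sum_eq_prod _ 7 _ (fun w _ => ?_) 7 (by norm_num))
  have : ∀ g : ℕ, 0 < yhat2 g := by
    intro g
    match g with
    | 0 => norm_num [yhat2]
    | 1 => norm_num [yhat2]
    | 2 => norm_num [yhat2]
    | 3 => norm_num [yhat2]
    | g + 4 =>
      show (0 : ℝ) < 21 / 4
      norm_num
  exact this _

/-- Any level. -/
theorem level_all (hk : k ≤ 2 ^ Fintype.card I) (i : I) (l : List I) (hl : (i :: l).Nodup) :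
    (avg fun x : Fin k ↪ (I → Bool) =>
        Real.exp (lam i l (dblG i (x : Fin k → I → Bool)) / thetaL l.length)) ≤
      Real.exp (Lev (2 ^ Fintype.card I) k l.length) := by
  match l, hl with
  | [], _ => exact level0 k hk i
  | [j], hl =>
    have : j ≠ i := by
      intro h; subst h; simp at hl
    exact level1 k hk i j this
  | [j, j'], hl =>
    have h1 : j ≠ i := by
      intro h; subst h; simp at hl
    have h2 : j' ≠ i := by
      intro h; subst h; simp at hl
    have h3 : j' ≠ j := by
      intro h; subst h; simp at hl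
    exact level2 k hk i j j' h1 h2 h3
  | a :: b :: c :: r, _ =>
    exact levelBig k hk i r.length _ (by simp)

/-! ### Sums over the levels -/

theorem sum_levels (g : ℕ → ℝ) (T : ℕ) (hT : 3 ≤ T) :
    ∑ t ∈ Finset.range T, g t = g 0 + g 1 + g 2 + ∑ t ∈ Finset.range (T - 3), g (t + 3) := by
  obtain ⟨T', rfl⟩ : ∃ T', T = T' + 3 := ⟨T - 3, by omega⟩
  have : T' + 3 - 3 = T' := by omega
  rw [this, Finset.sum_range_succ', Finset.sum_range_succ', Finset.sum_range_succ']
  ring

theorem wlev_partial (T : ℕ) (hT : 3 ≤ T) :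
    ∑ t ∈ Finset.range (T - 3), wlev (t + 4) ≤ Wstar := by
  refine le_trans (le_of_eq ?_) (wlev_sum_le T)
  have : Finset.Icc 4 T = Finset.Ico 4 (T + 1) := by
    ext s; simp only [Finset.mem_Icc, Finset.mem_Ico]; omega
  rw [this, Finset.sum_Ico_eq_sum_range]
  have e : T + 1 - 4 = T - 3 := by omega
  rw [e]
  refine Finset.sum_congr rfl fun t _ => ?_
  congr 1
  omega

theorem thetaL_big_sum (T : ℕ) (hT : 3 ≤ T) :
    ∑ t ∈ Finset.range (T - 3), thetaL (t + 3) ≤ 57 / 140 := by
  have hW := Wstar_pos
  have h := wlev_partial T hT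
  have e : ∑ t ∈ Finset.range (T - 3), thetaL (t + 3) =
      (57 / 140) * (∑ t ∈ Finset.range (T - 3), wlev (t + 4)) / Wstar := by
    rw [Finset.mul_sum, Finset.sum_div]
    rfl
  rw [e, div_le_iff₀ hW]
  linarith

theorem thetaL_sum_le (T : ℕ) (hT : 3 ≤ T) : ∑ t ∈ Finset.range T, thetaL t ≤ 1 := by
  rw [sum_levels _ T hT]
  have := thetaL_big_sum T hT
  simp only [thetaL]
  simp only [thetaL] at this
  linarith

theorem sum_theta_Lev_le (N k T : ℕ) (hT : 3 ≤ T) :
    ∑ t ∈ Finset.range T, thetaL t * Lev N k t ≤ Rmgf N k := by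
  rw [sum_levels _ T hT]
  have hbig : ∑ t ∈ Finset.range (T - 3), thetaL (t + 3) * Lev N k (t + 3) =
      (∑ t ∈ Finset.range (T - 3), thetaL (t + 3)) * ((N / 2 : ℝ) * Real.log (1 + 8 * pk N k)) := by
    rw [Finset.sum_mul]
    rfl
  rw [hbig]
  have hp := pk_nonneg N k
  have hL : 0 ≤ (N / 2 : ℝ) * Real.log (1 + 8 * pk N k) := by
    apply mul_nonneg (by positivity)
    exact Real.log_nonneg (by linarith)
  have hle := mul_le_mul_of_nonneg_right (thetaL_big_sum T hT) hL
  simp only [Rmgf, thetaL, Lev]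
  simp only [thetaL] at hle
  have e1 : (1 / 4 : ℝ) * ((N : ℝ) / 2 * Real.log (1 + 15 * pk N k)) =
      (N : ℝ) / 8 * Real.log (1 + 15 * pk N k) := by ring
  have e2 : ∀ z : ℝ, (1 / 5 : ℝ) * ((N : ℝ) / 4 * z) = (N : ℝ) / 20 * z := by intro z; ring
  have e3 : ∀ z : ℝ, (1 / 7 : ℝ) * ((N : ℝ) / 8 * z) = (N : ℝ) / 56 * z := by intro z; ring
  have e4 : (57 / 140 : ℝ) * ((N : ℝ) / 2 * Real.log (1 + 8 * pk N k)) =
      57 * (N : ℝ) / 280 * Real.log (1 + 8 * pk N k) := by ring
  rw [e1, e2, e3]
  rw [e4] at hle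
  linarith

/-- One level, over tuples and tables. -/
theorem level_avg (hk : k ≤ 2 ^ Fintype.card I) (l : List I) (hl : l.Nodup) (t : ℕ) (ht : t < l.length) :
    (avg fun ω : (Fin k ↪ (I → Bool)) × Tab I =>
        Real.exp (levVal l t ω.2 (ω.1 : Fin k → I → Bool) / thetaL t)) ≤
      Real.exp (Lev (2 ^ Fintype.card I) k t) := by
  obtain ⟨i, l', π, hs, hlen, hv⟩ := levVal_spec (A := Fin k) l t ht
  have hnd : (i :: l').Nodup := hl.sublist hs.sublist
  have hb := level_all k hk i l' hnd
  rw [hlen] at hb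
  rw [avg_prod, avg_comm]
  have h1 : ∀ a : Tab I, (avg fun x : Fin k ↪ (I → Bool) =>
      Real.exp (levVal l t a (x : Fin k → I → Bool) / thetaL t)) =
      avg fun x : Fin k ↪ (I → Bool) =>
        Real.exp (lam i l' (dblG i (x : Fin k → I → Bool)) / thetaL t) := by
    intro a
    simp only [hv]
    exact avg_tuple_perm k (π a) (fun y => Real.exp (lam i l' (dblG i y) / thetaL t))
  simp only [h1]
  rw [avg_const]
  exact hb

/-- The moment generating function bound. Here `l` enumerates all the bits. -/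
theorem mgf_low (l : List I) (hl : l.Nodup) (hall : ∀ i, i ∈ l) (hT : 3 ≤ l.length) (k : ℕ)
    (hk : k ≤ 2 ^ Fintype.card I) :
    (avg fun x : Fin k ↪ (I → Bool) => avg fun a : Tab I => Real.exp (Wsum l a (x : Fin k → I → Bool))) ≤
      Real.exp (Rmgf (2 ^ Fintype.card I) k) := by
  classical
  have hne : Nonempty (Fin k ↪ (I → Bool)) := by
    have : Fintype.card (Fin k) ≤ Fintype.card (I → Bool) := by
      simpa using hk
    exact Function.Embedding.nonempty_of_card_le this
  set T := l.length with hTdef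
  set Sθ := ∑ t ∈ Finset.range T, thetaL t with hSθ
  have hSθle : Sθ ≤ 1 := thetaL_sum_le T hT
  let w : ℕ → ℝ := fun t => if t < T then thetaL t else 1 - Sθ
  let f : ℕ → (Fin k ↪ (I → Bool)) × Tab I → ℝ := fun t ω =>
    if t < T then Real.exp (levVal l t ω.2 (ω.1 : Fin k → I → Bool) / thetaL t) else 1
  have hw : ∀ j ∈ Finset.range (T + 1), 0 ≤ w j := by
    intro j _
    simp only [w]
    split_ifs
    · exact (thetaL_pos j).le
    · linarith
  have hs : ∑ j ∈ Finset.range (T + 1), w j = 1 := by
    rw [Finset.sum_range_succ]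
    have h1 : ∑ j ∈ Finset.range T, w j = Sθ := by
      refine Finset.sum_congr rfl fun j hj => ?_
      simp [w, Finset.mem_range.1 hj]
    rw [h1]
    simp [w]
  have hf : ∀ j ∈ Finset.range (T + 1), ∀ ω, 0 ≤ f j ω := by
    intro j _ ω
    simp only [f]
    split_ifs
    · exact (Real.exp_pos _).le
    · norm_num
  have hm : ∀ j ∈ Finset.range (T + 1), 0 < avg (f j) := by
    intro j _
    have hpos : ∀ ω, 0 < f j ω := by
      intro ω
      simp only [f]
      split_ifs
      · exact Real.exp_pos _
      · norm_num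
    unfold avg
    apply div_pos
    · exact Finset.sum_pos (fun ω _ => hpos ω) Finset.univ_nonempty
    · exact_mod_cast Fintype.card_pos
  have hH := avg_prod_rpow_le (Finset.range (T + 1)) w hw hs f hf hm
  have hL : (avg fun x : Fin k ↪ (I → Bool) => avg fun a : Tab I => Real.exp (Wsum l a (x : Fin k → I → Bool))) =
      avg fun ω : (Fin k ↪ (I → Bool)) × Tab I => ∏ j ∈ Finset.range (T + 1), f j ω ^ w j := by
    rw [avg_prod]
    refine avg_congr fun x => avg_congr fun a => ?_
    rw [Finset.prod_range_succ]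
    have h1 : f T (x, a) ^ w T = 1 := by
      simp [f]
    rw [h1, mul_one, Wsum_eq_sum_levVal, Real.exp_sum]
    refine Finset.prod_congr rfl fun t ht => ?_
    have htT : t < T := Finset.mem_range.1 ht
    simp only [f, w, htT, if_true]
    rw [← Real.exp_mul, div_mul_cancel₀ _ (thetaL_pos t).ne']
  rw [hL]
  refine hH.trans ?_
  rw [Finset.prod_range_succ]
  have h1 : (avg (f T)) ^ w T = 1 := by
    have : f T = fun _ => 1 := by
      funext ω
      simp [f]
    rw [this, avg_const]
    simp
  rw [h1, mul_one]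
  have h2 : ∏ j ∈ Finset.range T, (avg (f j)) ^ w j ≤
      ∏ j ∈ Finset.range T, Real.exp (thetaL j * Lev (2 ^ Fintype.card I) k j) := by
    refine Finset.prod_le_prod (fun j hj => ?_) (fun j hj => ?_)
    · exact Real.rpow_nonneg (avg_nonneg (hf j (Finset.mem_range.2 (by have := Finset.mem_range.1 hj; omega)))) _
    · have hjT : j < T := Finset.mem_range.1 hj
      simp only [w, hjT, if_true]
      have h3 : avg (f j) ≤ Real.exp (Lev (2 ^ Fintype.card I) k j) := by
        have : f j = fun ω => Real.exp (levVal l j ω.2 (ω.1 : Fin k → I → Bool) / thetaL j) := by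
          funext ω
          simp [f, hjT]
        rw [this]
        exact level_avg k hk l hl j hjT
      calc avg (f j) ^ thetaL j ≤ (Real.exp (Lev (2 ^ Fintype.card I) k j)) ^ thetaL j :=
            Real.rpow_le_rpow (avg_nonneg (hf j (Finset.mem_range.2 (by omega)))) h3 (thetaL_pos j).le
        _ = Real.exp (thetaL j * Lev (2 ^ Fintype.card I) k j) := by
            rw [← Real.exp_mul, mul_comm]
  refine h2.trans ?_
  rw [← Real.exp_sum]
  exact Real.exp_le_exp.2 (sum_theta_Lev_le _ k T hT)

/-- The value of a level on the full side. -/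
noncomputable def Full (N : ℕ) : ℕ → ℝ
  | 0 => (N / 2 : ℝ) * Real.log 2
  | 1 => (N / 4 : ℝ) * Real.log 3
  | 2 => (N / 8 : ℝ) * Real.log (21 / 4)
  | t + 3 => wlev (t + 4) * (N / 2 : ℝ)

theorem lam_side (i : I) (l : List I) (hl : (i :: l).Nodup) :
    lam i l (univ.filter fun w : I → Bool => w i = false) = Full (2 ^ Fintype.card I) l.length := by
  match l, hl with
  | [], _ =>
    simp only [lam, Full, List.length_nil]
    rw [card_side1]
    ring
  | [j], hl =>
    have hij : j ≠ i := by
      intro h; subst h; simp at hl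
    simp only [lam, Full, List.length_cons, List.length_nil]
    have hv : ∀ w ∈ (univ.filter fun w : I → Bool => w i = false ∧ w j = false),
        Real.log (yhat1 ((univ.filter fun w : I → Bool => w i = false) ∩ pairN j w).card) = Real.log 3 := by
      intro w hw
      have hw' := (mem_filter.1 hw).2
      have : (univ.filter fun w : I → Bool => w i = false) ∩ pairN j w = pairN j w := by
        rw [Finset.inter_eq_right]
        intro u hu
        simp only [mem_filter, mem_univ, true_and]
        exact pairN_side i j hij w hw'.1 u hu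
      rw [this, pairN_card j w hw'.2]
      rfl
    rw [Finset.sum_congr rfl hv, Finset.sum_const, nsmul_eq_mul, card_side2 i j hij]
  | [j, j'], hl =>
    have h1 : j ≠ i := by
      intro h; subst h; simp at hl
    have h2 : j' ≠ i := by
      intro h; subst h; simp at hl
    have h3 : j' ≠ j := by
      intro h; subst h; simp at hl
    simp only [lam, Full, List.length_cons, List.length_nil]
    have hv : ∀ w ∈ (univ.filter fun w : I → Bool => w i = false ∧ w j = false ∧ w j' = false),
        Real.log (yhat2 ((univ.filter fun w : I → Bool => w i = false) ∩ colN j j' w).card) = Real.log (21 / 4) := by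
      intro w hw
      have hw' := (mem_filter.1 hw).2
      have : (univ.filter fun w : I → Bool => w i = false) ∩ colN j j' w = colN j j' w := by
        rw [Finset.inter_eq_right]
        intro u hu
        simp only [mem_filter, mem_univ, true_and]
        exact colN_side i j j' h1 h2 w hw'.1 u hu
      rw [this, colN_card j j' h3 w hw'.2.1 hw'.2.2]
      rfl
    rw [Finset.sum_congr rfl hv, Finset.sum_const, nsmul_eq_mul, card_side3 i j j' h1 h2 h3]
  | a :: b :: c :: r, _ =>
    simp only [lam, Full, List.length_cons]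
    rw [card_side1]

/-- All the wires occupied: the costs are deterministic. -/
theorem Wsum_full (l : List I) (hl : l.Nodup) (hall : ∀ i, i ∈ l) (hT : 3 ≤ l.length)
    (x : (I → Bool) ↪ (I → Bool)) (a : Tab I) :
    Wsum l a (x : (I → Bool) → (I → Bool)) ≤
      (2 ^ Fintype.card I : ℝ) *
        (Real.log 2 / 2 + Real.log 3 / 4 + Real.log (21 / 4) / 8 + Wstar / 2) := by
  have hsurj : Function.Surjective x := Finite.surjective_of_injective x.injective
  have hlev : ∀ t ∈ Finset.range l.length, levVal l t a (x : (I → Bool) → (I → Bool)) =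
      Full (2 ^ Fintype.card I) t := by
    intro t ht
    obtain ⟨i, l', π, hs, hlen, hv⟩ := levVal_spec (A := I → Bool) l t (Finset.mem_range.1 ht)
    rw [hv]
    have hnd : (i :: l').Nodup := hl.sublist hs.sublist
    have hG : dblG i (fun r => π a (x r)) = univ.filter fun w : I → Bool => w i = false := by
      have hg : univ.image (fun r => π a (x r)) = (univ : Finset (I → Bool)) := by
        ext w
        simp only [mem_image, mem_univ, true_and, iff_true]
        obtain ⟨r, hr⟩ := hsurj ((π a).symm w)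
        exact ⟨r, by simp [hr]⟩
      ext w
      simp [dblG, hg]
    rw [hG, lam_side i l' hnd, hlen]
  rw [Wsum_eq_sum_levVal, Finset.sum_congr rfl hlev, sum_levels _ _ hT]
  have hbig : ∑ t ∈ Finset.range (l.length - 3), Full (2 ^ Fintype.card I) (t + 3) =
      (∑ t ∈ Finset.range (l.length - 3), wlev (t + 4)) * (((2 ^ Fintype.card I : ℕ) : ℝ) / 2) := by
    rw [Finset.sum_mul]
    rfl
  rw [hbig]
  have hle := wlev_partial l.length hT
  have hN : (0 : ℝ) ≤ ((2 ^ Fintype.card I : ℕ) : ℝ) / 2 := by positivity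
  have := mul_le_mul_of_nonneg_right hle hN
  simp only [Full]
  push_cast at this ⊢
  nlinarith

end Crest.Agent.Thorp
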