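import Crest.Agent.Lib.Thorp.MGFw

/-!
# Thorp: occupation probabilities and the node expansion.

For `x` uniform in `Fin k ↪ I → Bool`, `N = 2^card I`, and a set `B` of wires of side `w i = false`,
`E ∏_{w∈B} 1(w ∈ range x) 1(phi i w ∈ range x) = (k)_{2|B|}/(N)_{2|B|} ≤ p^|B|`, `p = k(k-1)/(N(N-1))`: `(k-m)/(N-m)` decreases in `m`.

`mgf_nodes`: let `V` be pairwise disjoint sets of `n` wires of side false and `F g = ∑_{b ≤ g} C(g,b) c_b` with `c_b ≥ 0`.  Then
`E_x ∏_{v∈V} F(|dblG i x ∩ v|) ≤ (∑_{b≤n} C(n,b) c_b p^b)^|V|`.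
Proof: `F(|G∩v|) = ∑_{T⊂v} c_|T| ∏_{w∈T} 1(w∈G)`, expand the product over `v`, take expectations; or induction on `V` with a prefactor `∏_{w∈T₀} 1(w∈G)`.
-/

set_option autoImplicit false

namespace Crest.Agent.Thorp

open Finset

section Generic

variable {W : Type*} [Fintype W] [DecidableEq W]

/-- The probability that a uniform injective `k`-tuple covers `S`. -/
noncomputable def qOcc (k : ℕ) (S : Finset W) : ℝ :=
  avg fun x : Fin k ↪ W => if S ⊆ univ.image (x : Fin k → W) then (1 : ℝ) else 0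

theorem qOcc_nonneg (k : ℕ) (S : Finset W) : 0 ≤ qOcc k S :=
  avg_nonneg fun _ => by split_ifs <;> norm_num

theorem qOcc_image (k : ℕ) (S : Finset W) (g : Equiv.Perm W) :
    qOcc k (S.image g) = qOcc k S := by
  unfold qOcc
  have h := avg_equiv ((Equiv.refl (Fin k)).embeddingCongr g)
    (fun x : Fin k ↪ W => if S.image g ⊆ univ.image (x : Fin k → W) then (1 : ℝ) else 0)
  rw [← h]
  refine avg_congr fun x => ?_
  have e : (S.image g ⊆ univ.image (((Equiv.refl (Fin k)).embeddingCongr g x : Fin k ↪ W) : Fin k → W))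
      ↔ S ⊆ univ.image (x : Fin k → W) := by
    constructor
    · intro h w hw
      have := h (mem_image_of_mem g hw)
      simp only [mem_image, mem_univ, true_and] at this ⊢
      obtain ⟨a, ha⟩ := this
      refine ⟨a, ?_⟩
      simpa [Equiv.embeddingCongr] using ha
    · intro h w hw
      simp only [mem_image, mem_univ, true_and] at hw ⊢
      obtain ⟨s, hs, rfl⟩ := mem_image.1 (by simpa using hw : w ∈ S.image g)
      have := h hs
      simp only [mem_image, mem_univ, true_and] at this
      obtain ⟨a, ha⟩ := this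
      refine ⟨a, ?_⟩
      simp [Equiv.embeddingCongr, ha]
  simp only [e]

theorem qOcc_insert_swap (k : ℕ) (S : Finset W) (t t' : W) (ht : t ∉ S) (ht' : t' ∉ S) :
    qOcc k (insert t' S) = qOcc k (insert t S) := by
  have : (insert t S).image (Equiv.swap t t') = insert t' S := by
    rw [image_insert]
    have h1 : S.image (Equiv.swap t t') = S := by
      ext w
      simp only [mem_image]
      constructor
      · rintro ⟨a, ha, rfl⟩
        rw [Equiv.swap_apply_of_ne_of_ne]
        · exact ha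
        · rintro rfl; exact ht ha
        · rintro rfl; exact ht' ha
      · intro hw
        refine ⟨w, hw, ?_⟩
        rw [Equiv.swap_apply_of_ne_of_ne]
        · rintro rfl; exact ht hw
        · rintro rfl; exact ht' hw
    rw [h1]; simp
  rw [← this, qOcc_image]

/-- The counting step: `(N - m) q(S + t) = (k - m) q(S)`. -/
theorem qOcc_step (k : ℕ) (S : Finset W) (t : W) (ht : t ∉ S) :
    ((Fintype.card W - S.card : ℕ) : ℝ) * qOcc k (insert t S) = ((k - S.card : ℕ) : ℝ) * qOcc k S := by
  have hsum : ∑ t' ∈ Sᶜ, qOcc k (insert t' S) = ((Fintype.card W - S.card : ℕ) : ℝ) * qOcc k (insert t S) := by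
    rw [sum_congr rfl (fun t' ht' => qOcc_insert_swap k S t t' ht (by simpa using ht'))]
    rw [sum_const, card_compl, nsmul_eq_mul]
  rw [← hsum]
  have hpt : ∀ x : Fin k ↪ W,
      (∑ t' ∈ Sᶜ, (if insert t' S ⊆ univ.image (x : Fin k → W) then (1 : ℝ) else 0)) =
        ((k - S.card : ℕ) : ℝ) * (if S ⊆ univ.image (x : Fin k → W) then (1 : ℝ) else 0) := by
    intro x
    by_cases hS : S ⊆ univ.image (x : Fin k → W)
    · rw [if_pos hS, mul_one]
      have : ∀ t' : W, (insert t' S ⊆ univ.image (x : Fin k → W)) ↔ t' ∈ univ.image (x : Fin k → W) := by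
        intro t'
        rw [insert_subset_iff]
        exact ⟨fun h => h.1, fun h => ⟨h, hS⟩⟩
      simp only [this]
      rw [← Finset.sum_filter, sum_const, nsmul_eq_mul, mul_one]
      congr 1
      have hcard : (univ.image (x : Fin k → W)).card = k := by
        rw [card_image_of_injective _ x.injective]; simp
      have hf : (Sᶜ.filter fun t' => t' ∈ univ.image (x : Fin k → W)) = univ.image (x : Fin k → W) \ S := by
        ext w; simp only [mem_filter, mem_compl, mem_sdiff]; tauto
      rw [hf, card_sdiff_of_subset hS, hcard]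
    · rw [if_neg hS, mul_zero]
      refine sum_eq_zero fun t' _ => ?_
      rw [if_neg]
      intro h
      exact hS ((subset_insert _ _).trans h)
  unfold qOcc
  unfold avg
  rw [mul_div_assoc', ← sum_div, mul_sum, sum_comm]
  congr 1
  refine sum_congr rfl fun x _ => ?_
  exact hpt x

end Generic

variable {I : Type*} [Fintype I] [DecidableEq I]

theorem ratio_le (k N m : ℕ) (hk : k ≤ N) (hm : m < N) :
    ((k - m : ℕ) : ℝ) / ((N - m : ℕ) : ℝ) ≤ (k : ℝ) / (N : ℝ) := by
  have h0 : (0 : ℝ) < ((N - m : ℕ) : ℝ) := by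
    exact_mod_cast Nat.sub_pos_of_lt hm
  have h1 : (0 : ℝ) < (N : ℝ) := by exact_mod_cast (by omega : 0 < N)
  rw [div_le_div_iff₀ h0 h1]
  by_cases hkm : m ≤ k
  · have e1 : ((k - m : ℕ) : ℝ) = (k : ℝ) - m := by push_cast [hkm]; ring
    have e2 : ((N - m : ℕ) : ℝ) = (N : ℝ) - m := by
      rw [Nat.cast_sub hm.le]
    rw [e1, e2]
    have : (k : ℝ) ≤ N := by exact_mod_cast hk
    have hm0 : (0 : ℝ) ≤ m := Nat.cast_nonneg _
    nlinarith
  · have : k - m = 0 := by omega
    rw [this]
    simp only [Nat.cast_zero, zero_mul]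
    positivity

/-- The pair ratio. -/
theorem pair_ratio_le (k N m : ℕ) (hk : k ≤ N) (hm : m + 2 ≤ N) :
    ((k - (m + 1) : ℕ) : ℝ) / ((N - (m + 1) : ℕ) : ℝ) * (((k - m : ℕ) : ℝ) / ((N - m : ℕ) : ℝ)) ≤ pk N k := by
  unfold pk
  by_cases hk0 : k = 0
  · subst hk0
    simp
  have hk1 : 1 ≤ k := by omega
  have h1 := ratio_le k N m hk (by omega)
  have h2 := ratio_le (k - 1) (N - 1) m (by omega) (by omega)
  have e1 : k - 1 - m = k - (m + 1) := by omega
  have e2 : N - 1 - m = N - (m + 1) := by omega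
  rw [e1, e2] at h2
  have hN1 : 1 ≤ N := by omega
  have ek : ((k - 1 : ℕ) : ℝ) = (k : ℝ) - 1 := by rw [Nat.cast_sub hk1]; simp
  have eN : ((N - 1 : ℕ) : ℝ) = (N : ℝ) - 1 := by rw [Nat.cast_sub hN1]; simp
  rw [ek, eN] at h2
  have h3 : ((k : ℝ) * ((k : ℝ) - 1)) / ((N : ℝ) * ((N : ℝ) - 1)) =
      ((k : ℝ) - 1) / ((N : ℝ) - 1) * ((k : ℝ) / (N : ℝ)) := by
    rw [div_mul_div_comm, mul_comm ((k : ℝ) - 1), mul_comm ((N : ℝ) - 1)]
  rw [h3]
  have hp1 : (0 : ℝ) ≤ ((k - m : ℕ) : ℝ) / ((N - m : ℕ) : ℝ) := by positivity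
  have hp2 : (0 : ℝ) ≤ ((k : ℝ) - 1) / ((N : ℝ) - 1) := le_trans (by positivity) h2
  exact mul_le_mul h2 h1 hp1 hp2

theorem pk_nonneg (N k : ℕ) : 0 ≤ pk N k := by
  unfold pk
  rcases Nat.eq_zero_or_pos k with rfl | hk
  · simp
  rcases Nat.eq_zero_or_pos N with rfl | hN
  · simp
  have h1 : (1 : ℝ) ≤ k := by exact_mod_cast hk
  have h2 : (1 : ℝ) ≤ N := by exact_mod_cast hN
  apply div_nonneg
  · apply mul_nonneg <;> linarith
  · apply mul_nonneg <;> linarith

/-- `B ∪ φ B`. -/
def dblSet (i : I) (B : Finset (I → Bool)) : Finset (I → Bool) := B ∪ B.image (phi i)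

theorem qOcc_dbl_le (k : ℕ) (hk : k ≤ 2 ^ Fintype.card I) (i : I) (B : Finset (I → Bool))
    (hB : ∀ w ∈ B, w i = false) :
    qOcc k (dblSet i B) ≤ (pk (2 ^ Fintype.card I) k) ^ B.card := by
  classical
  induction B using Finset.induction_on with
  | empty =>
    simp only [dblSet, image_empty, empty_union, card_empty, pow_zero]
    unfold qOcc
    simp only [empty_subset, if_true]
    have : Nonempty (Fin k ↪ (I → Bool)) := by
      have : Fintype.card (Fin k) ≤ Fintype.card (I → Bool) := by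
        simpa using hk
      exact Function.Embedding.nonempty_of_card_le this
    rw [avg_const]
  | insert w B hw ih =>
    have hB' : ∀ w ∈ B, w i = false := fun u hu => hB u (mem_insert_of_mem hu)
    have hwi : w i = false := hB w (mem_insert_self _ _)
    have ih' := ih hB'
    set S := dblSet i B with hS
    have hφw : phi i w ∉ S := by
      rw [hS, dblSet, mem_union, mem_image]
      rintro (h | ⟨u, hu, he⟩)
      · have := hB' _ h
        rw [phi_same, hwi] at this
        simp at this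
      · have : u = w := (phi i).injective he
        subst this
        exact hw hu
    have hwS : w ∉ insert (phi i w) S := by
      rw [mem_insert, not_or]
      constructor
      · intro h
        have := congrFun h i
        rw [phi_same, hwi] at this
        simp at this
      · rw [hS, dblSet, mem_union, mem_image]
        rintro (h | ⟨u, hu, he⟩)
        · exact hw h
        · have h1 := hB' u hu
          have := congrFun he i
          rw [phi_same, h1, hwi] at this
          simp at this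
    have hset : dblSet i (insert w B) = insert w (insert (phi i w) S) := by
      ext u
      simp only [dblSet, mem_union, mem_insert, mem_image, hS]
      constructor
      · rintro ((h | h) | ⟨a, (h | h), rfl⟩)
        · exact Or.inl h
        · exact Or.inr (Or.inr (Or.inl h))
        · subst h; exact Or.inr (Or.inl rfl)
        · exact Or.inr (Or.inr (Or.inr ⟨a, h, rfl⟩))
      · rintro (h | h | h | ⟨a, h, rfl⟩)
        · exact Or.inl (Or.inl h)
        · exact Or.inr ⟨w, Or.inl rfl, h.symm⟩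
        · exact Or.inl (Or.inr h)
        · exact Or.inr ⟨a, Or.inr h, rfl⟩
    rw [hset, card_insert_of_notMem hw, pow_succ']
    set N := 2 ^ Fintype.card I with hN
    have hcardW : Fintype.card (I → Bool) = N := by simp [hN]
    set m := S.card with hm
    have hcm : (insert w (insert (phi i w) S)).card = m + 2 := by
      rw [card_insert_of_notMem hwS, card_insert_of_notMem hφw]
    have hm2 : m + 2 ≤ N := by
      rw [← hcm, ← hcardW]
      exact card_le_univ _
    have s1 := qOcc_step k S (phi i w) hφw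
    have s2 := qOcc_step k (insert (phi i w) S) w hwS
    rw [card_insert_of_notMem hφw, hcardW] at s2
    rw [hcardW] at s1
    rw [← hm] at s1 s2
    have hpos1 : (0 : ℝ) < ((N - m : ℕ) : ℝ) := by
      exact_mod_cast (by omega : 0 < N - m)
    have hpos2 : (0 : ℝ) < ((N - (m + 1) : ℕ) : ℝ) := by
      exact_mod_cast (by omega : 0 < N - (m + 1))
    have e1 : qOcc k (insert (phi i w) S) = ((k - m : ℕ) : ℝ) / ((N - m : ℕ) : ℝ) * qOcc k S := by
      field_simp
      linarith
    have e2 : qOcc k (insert w (insert (phi i w) S)) =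
        ((k - (m + 1) : ℕ) : ℝ) / ((N - (m + 1) : ℕ) : ℝ) * qOcc k (insert (phi i w) S) := by
      field_simp
      linarith
    rw [e2, e1, ← mul_assoc]
    have := pair_ratio_le k N m hk hm2
    exact mul_le_mul this ih' (qOcc_nonneg _ _) (pk_nonneg _ _)

theorem phi_ne_side (i : I) (w : I → Bool) (hw : w i = false) : (phi i w) i = true := by
  rw [phi_same, hw]; rfl

theorem prod_occ_eq (k : ℕ) (i : I) (B : Finset (I → Bool)) (x : Fin k ↪ (I → Bool)) :
    (∏ w ∈ B,
      (if w ∈ univ.image (x : Fin k → I → Bool) ∧ phi i w ∈ univ.image (x : Fin k → I → Bool) then (1 : ℝ) else 0)) =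
      if dblSet i B ⊆ univ.image (x : Fin k → I → Bool) then (1 : ℝ) else 0 := by
  rw [Finset.prod_ite_zero]
  simp only [prod_const_one]
  have : (∀ w ∈ B, w ∈ univ.image (x : Fin k → I → Bool) ∧ phi i w ∈ univ.image (x : Fin k → I → Bool)) ↔
      dblSet i B ⊆ univ.image (x : Fin k → I → Bool) := by
    constructor
    · intro h u hu
      rw [dblSet, mem_union, mem_image] at hu
      rcases hu with hu | ⟨a, ha, rfl⟩
      · exact (h u hu).1
      · exact (h a ha).2
    · intro h w hw
      refine ⟨h ?_, h ?_⟩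
      · rw [dblSet]; exact mem_union_left _ hw
      · rw [dblSet]; exact mem_union_right _ (mem_image_of_mem _ hw)
  simp only [this]

/-- Occupation probabilities. -/
theorem Ex_occ (k : ℕ) (hk : k ≤ 2 ^ Fintype.card I) (i : I) (B : Finset (I → Bool))
    (hB : ∀ w ∈ B, w i = false) :
    (avg fun x : Fin k ↪ (I → Bool) => ∏ w ∈ B,
      (if w ∈ univ.image (x : Fin k → I → Bool) ∧ phi i w ∈ univ.image (x : Fin k → I → Bool) then (1 : ℝ) else 0)) ≤
      (pk (2 ^ Fintype.card I) k) ^ B.card := by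
  have := qOcc_dbl_le k hk i B hB
  unfold qOcc at this
  simp only [prod_occ_eq]
  exact this

/-- Occupation in the form of subsets of `dblG`. -/
theorem Ex_occ' (k : ℕ) (hk : k ≤ 2 ^ Fintype.card I) (i : I) (T : Finset (I → Bool))
    (hT : ∀ w ∈ T, w i = false) :
    (avg fun x : Fin k ↪ (I → Bool) =>
      if T ⊆ dblG i (x : Fin k → I → Bool) then (1 : ℝ) else 0) ≤
      (pk (2 ^ Fintype.card I) k) ^ T.card := by
  refine le_trans (le_of_eq ?_) (Ex_occ k hk i T hT)
  refine avg_congr fun x => ?_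
  rw [Finset.prod_ite_zero]
  simp only [prod_const_one]
  have : (T ⊆ dblG i (x : Fin k → I → Bool)) ↔
      ∀ w ∈ T, w ∈ univ.image (x : Fin k → I → Bool) ∧ phi i w ∈ univ.image (x : Fin k → I → Bool) := by
    constructor
    · intro h w hw
      have := h hw
      simp only [dblG, mem_filter] at this
      exact ⟨this.1, this.2.2⟩
    · intro h w hw
      simp only [dblG, mem_filter]
      exact ⟨(h w hw).1, hT w hw, (h w hw).2⟩
  simp only [this]

omit [DecidableEq I] in
/-- The expansion of a node. -/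
theorem node_expand (n : ℕ) (c : ℕ → ℝ) (F : ℕ → ℝ)
    (hF : ∀ g ≤ n, F g = ∑ b ∈ Finset.range (g + 1), (g.choose b : ℝ) * c b)
    (G v : Finset (I → Bool)) (hv : v.card = n) :
    F (G ∩ v).card = ∑ T ∈ v.powerset, c T.card * (if T ⊆ G then (1 : ℝ) else 0) := by
  have hle : (G ∩ v).card ≤ n := hv ▸ card_le_card inter_subset_right
  rw [hF _ hle]
  have h1 : ∑ T ∈ v.powerset, c T.card * (if T ⊆ G then (1 : ℝ) else 0) =
      ∑ T ∈ (G ∩ v).powerset, c T.card := by
    simp only [mul_ite, mul_one, mul_zero]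
    rw [← sum_filter]
    apply sum_congr _ (fun _ _ => rfl)
    ext T
    simp only [mem_filter, mem_powerset, subset_inter_iff]
    tauto
  rw [h1, sum_powerset_apply_card]
  simp

theorem mgf_aux (k : ℕ) (hk : k ≤ 2 ^ Fintype.card I) (i : I) (n : ℕ) (c : ℕ → ℝ) (hc : ∀ b, 0 ≤ c b)
    (F : ℕ → ℝ) (hF : ∀ g ≤ n, F g = ∑ b ∈ Finset.range (g + 1), (g.choose b : ℝ) * c b)
    (V : Finset (Finset (I → Bool))) (hVside : ∀ v ∈ V, ∀ w ∈ v, w i = false) (hVcard : ∀ v ∈ V, v.card = n)
    (hVdisj : ∀ v ∈ V, ∀ v' ∈ V, v ≠ v' → Disjoint v v') (T₀ : Finset (I → Bool))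
    (hT₀ : ∀ w ∈ T₀, w i = false) (hT₀V : ∀ v ∈ V, Disjoint T₀ v) :
    (avg fun x : Fin k ↪ (I → Bool) =>
      (if T₀ ⊆ dblG i (x : Fin k → I → Bool) then (1 : ℝ) else 0) *
        ∏ v ∈ V, F (dblG i (x : Fin k → I → Bool) ∩ v).card) ≤
      (pk (2 ^ Fintype.card I) k) ^ T₀.card *
      (∑ b ∈ Finset.range (n + 1), (n.choose b : ℝ) * c b * (pk (2 ^ Fintype.card I) k) ^ b) ^ V.card := by
  classical
  induction V using Finset.induction_on generalizing T₀ with
  | empty =>
    simp only [prod_empty, mul_one, card_empty, pow_zero]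
    exact Ex_occ' k hk i T₀ hT₀
  | insert v V hv ih =>
    have hp := pk_nonneg (2 ^ Fintype.card I) k
    set p := pk (2 ^ Fintype.card I) k with hpdef
    set A := ∑ b ∈ Finset.range (n + 1), (n.choose b : ℝ) * c b * p ^ b with hA
    have hvc : v.card = n := hVcard v (mem_insert_self _ _)
    have hVs' : ∀ v' ∈ V, ∀ w ∈ v', w i = false := fun v' hv' => hVside v' (mem_insert_of_mem hv')
    have hVc' : ∀ v' ∈ V, v'.card = n := fun v' hv' => hVcard v' (mem_insert_of_mem hv')
    have hVd' : ∀ u ∈ V, ∀ u' ∈ V, u ≠ u' → Disjoint u u' := fun u hu u' hu' =>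
      hVdisj u (mem_insert_of_mem hu) u' (mem_insert_of_mem hu')
    have hstep : ∀ T ∈ v.powerset,
        (avg fun x : Fin k ↪ (I → Bool) =>
          (if T₀ ∪ T ⊆ dblG i (x : Fin k → I → Bool) then (1 : ℝ) else 0) *
            ∏ v ∈ V, F (dblG i (x : Fin k → I → Bool) ∩ v).card) ≤
          p ^ (T₀ ∪ T).card * A ^ V.card := by
      intro T hT
      rw [mem_powerset] at hT
      refine ih hVs' hVc' hVd' (T₀ ∪ T) ?_ ?_
      · intro w hw
        rcases mem_union.1 hw with hw | hw
        · exact hT₀ w hw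
        · exact hVside v (mem_insert_self _ _) w (hT hw)
      · intro u hu
        rw [disjoint_union_left]
        refine ⟨hT₀V u (mem_insert_of_mem hu), ?_⟩
        have hne : v ≠ u := by rintro rfl; exact hv hu
        exact (hVdisj v (mem_insert_self _ _) u (mem_insert_of_mem hu) hne).mono_left hT
    have hpt : ∀ x : Fin k ↪ (I → Bool),
        (if T₀ ⊆ dblG i (x : Fin k → I → Bool) then (1 : ℝ) else 0) *
          ∏ u ∈ insert v V, F (dblG i (x : Fin k → I → Bool) ∩ u).card =
        ∑ T ∈ v.powerset, c T.card *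
          ((if T₀ ∪ T ⊆ dblG i (x : Fin k → I → Bool) then (1 : ℝ) else 0) *
            ∏ u ∈ V, F (dblG i (x : Fin k → I → Bool) ∩ u).card) := by
      intro x
      rw [prod_insert hv, node_expand n c F hF _ v hvc, mul_comm (∑ T ∈ v.powerset, _), ← mul_assoc,
        mul_comm _ (∏ u ∈ V, _), mul_assoc, mul_sum, mul_sum]
      refine sum_congr rfl fun T _ => ?_
      have : (if T₀ ∪ T ⊆ dblG i (x : Fin k → I → Bool) then (1 : ℝ) else 0) =
          (if T₀ ⊆ dblG i (x : Fin k → I → Bool) then (1 : ℝ) else 0) *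
            (if T ⊆ dblG i (x : Fin k → I → Bool) then (1 : ℝ) else 0) := by
        by_cases h1 : T₀ ⊆ dblG i (x : Fin k → I → Bool) <;>
          by_cases h2 : T ⊆ dblG i (x : Fin k → I → Bool) <;>
          simp [h1, h2, union_subset_iff]
      rw [this]
      ring
    rw [avg_congr hpt]
    have hsumavg : (avg fun x : Fin k ↪ (I → Bool) => ∑ T ∈ v.powerset, c T.card *
          ((if T₀ ∪ T ⊆ dblG i (x : Fin k → I → Bool) then (1 : ℝ) else 0) *
            ∏ u ∈ V, F (dblG i (x : Fin k → I → Bool) ∩ u).card)) =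
        ∑ T ∈ v.powerset, c T.card * (avg fun x : Fin k ↪ (I → Bool) =>
          ((if T₀ ∪ T ⊆ dblG i (x : Fin k → I → Bool) then (1 : ℝ) else 0) *
            ∏ u ∈ V, F (dblG i (x : Fin k → I → Bool) ∩ u).card)) := by
      simp only [avg, mul_div_assoc', mul_sum]
      rw [← sum_div, sum_comm]
    rw [hsumavg]
    have hbound : ∑ T ∈ v.powerset, c T.card * (avg fun x : Fin k ↪ (I → Bool) =>
          ((if T₀ ∪ T ⊆ dblG i (x : Fin k → I → Bool) then (1 : ℝ) else 0) *
            ∏ u ∈ V, F (dblG i (x : Fin k → I → Bool) ∩ u).card)) ≤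
        ∑ T ∈ v.powerset, c T.card * (p ^ T₀.card * p ^ T.card * A ^ V.card) := by
      refine sum_le_sum fun T hT => mul_le_mul_of_nonneg_left ?_ (hc _)
      refine (hstep T hT).trans (le_of_eq ?_)
      rw [card_union_of_disjoint, pow_add]
      exact (hT₀V v (mem_insert_self _ _)).mono_right (mem_powerset.1 hT)
    refine hbound.trans (le_of_eq ?_)
    have hcount : ∑ T ∈ v.powerset, c T.card * p ^ T.card = A := by
      rw [hA, sum_powerset_apply_card (fun b => c b * p ^ b), hvc]
      refine sum_congr rfl fun b _ => ?_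
      simp only [nsmul_eq_mul]
      ring
    rw [card_insert_of_notMem hv, pow_succ']
    have : ∑ T ∈ v.powerset, c T.card * (p ^ T₀.card * p ^ T.card * A ^ V.card) =
        p ^ T₀.card * A ^ V.card * ∑ T ∈ v.powerset, c T.card * p ^ T.card := by
      rw [mul_sum]
      refine sum_congr rfl fun T _ => ?_
      ring
    rw [this, hcount]
    ring

/-- The node expansion. -/
theorem mgf_nodes (k : ℕ) (hk : k ≤ 2 ^ Fintype.card I) (i : I) (n : ℕ) (c : ℕ → ℝ) (hc : ∀ b, 0 ≤ c b)
    (F : ℕ → ℝ) (hF : ∀ g ≤ n, F g = ∑ b ∈ Finset.range (g + 1), (g.choose b : ℝ) * c b)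
    (V : Finset (Finset (I → Bool))) (hVside : ∀ v ∈ V, ∀ w ∈ v, w i = false) (hVcard : ∀ v ∈ V, v.card = n)
    (hVdisj : ∀ v ∈ V, ∀ v' ∈ V, v ≠ v' → Disjoint v v') :
    (avg fun x : Fin k ↪ (I → Bool) => ∏ v ∈ V, F (dblG i (x : Fin k → I → Bool) ∩ v).card) ≤
      (∑ b ∈ Finset.range (n + 1), (n.choose b : ℝ) * c b * (pk (2 ^ Fintype.card I) k) ^ b) ^ V.card := by
  have h := mgf_aux k hk i n c hc F hF V hVside hVcard hVdisj ∅ (by simp) (by simp)
  simpa using h

end Crest.Agent.Thorp
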