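import Crest.Agent.Lib.Thorp.Cost

/-!
# Thorp: the numeric sum of the level weights.

`wlev s = ψ_{s-1}(1)` for `4 ≤ s ≤ 32`, where `ψ_t(1) = .71 (5/8)^(t-2) - 1.16·2^(-t)`, sum over `t = 3..31` at most `.8934 - tail`; `ψ_31(1) ≤ 9·10⁻⁷` so the levels `32 < s ≤ 256` contribute at most `2.1·10⁻⁴`;
`s > 256`: with `m = bigM s = 2^(a-2)`, `a = clog₂ s ≥ 9`, there are at most `2^(a-1) = 2m` levels with this `m` and `wlev s = (2^(m/4) - 1)(3/4)^(m-1)(4/m) ≤ (16/(3m)) (2^(1/4)·3/4)^m`, `2^(1/4)·3/4 ≤ .892`, so the block sum is at most `(32/3) (.892)^m`, `m ≥ 128`: total `≤ 10⁻⁵`.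
Total `≤ .8936 < Wstar = (57/140) log 9 ≥ .8945` (use `log 9 = 2 log 3`, `log 3 ≥ 1.098`).
-/

set_option autoImplicit false

namespace Crest.Agent.Thorp

open Finset

variable {I : Type*} [Fintype I] [DecidableEq I]

/-- The pair probability. -/
noncomputable def pk (N k : ℕ) : ℝ := ((k : ℝ) * ((k : ℝ) - 1)) / ((N : ℝ) * ((N : ℝ) - 1))

/-- Budget of the levels `s ≥ 4`. -/
noncomputable def Wstar : ℝ := (57 / 140) * Real.log 9

/-- `1.098 ≤ log 3`. -/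
theorem log_three_ge : (1.098 : ℝ) ≤ Real.log 3 := by
  have h0 : (67 / 61 : ℝ) ≤ Real.log 3 := by
    rw [Real.le_log_iff_exp_le (by norm_num : (0 : ℝ) < 3)]
    have h1 : (Real.exp (67 / 61)) ^ 61 = (Real.exp 1) ^ 67 := by
      rw [← Real.exp_nat_mul, ← Real.exp_nat_mul]
      norm_num
    have h2 : (Real.exp 1) ^ 67 ≤ (2.7182818286 : ℝ) ^ 67 :=
      pow_le_pow_left₀ (Real.exp_pos 1).le Real.exp_one_lt_d9.le 67
    have h3 : (2.7182818286 : ℝ) ^ 67 ≤ (3 : ℝ) ^ 61 := by norm_num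
    exact (pow_le_pow_iff_left₀ (Real.exp_pos _).le (by norm_num) (by norm_num)).1
      (h1.le.trans (h2.trans h3))
  have h4 : (1.098 : ℝ) ≤ 67 / 61 := by norm_num
  linarith

theorem Wstar_ge : (0.894 : ℝ) ≤ Wstar := by
  have h : Real.log 9 = 2 * Real.log 3 := by
    rw [show (9 : ℝ) = 3 ^ 2 by norm_num, Real.log_pow]; norm_num
  unfold Wstar
  rw [h]
  have := log_three_ge
  nlinarith

theorem psiQ_one (t : ℕ) : psiQ t 1 = alphaQ t + gammaQ t := by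
  simp [psiQ]

theorem psiQ_one_eq (t : ℕ) :
    psiQ (t + 2) 1 = 0.71 * (5 / 8 : ℝ) ^ t - 1.16 * (1 / 2 : ℝ) ^ (t + 2) := by
  rw [psiQ_one]
  unfold alphaQ gammaQ
  simp only [Nat.add_sub_cancel]
  ring

theorem psiQ_one_pos (t : ℕ) (_ht : 1 ≤ t) : 0 < psiQ (t + 2) 1 := by
  rw [psiQ_one_eq]
  have h1 : (1 / 2 : ℝ) ^ (t + 2) = (1 / 2 : ℝ) ^ t * (1 / 4) := by
    rw [pow_add]; norm_num
  have h2 : (1 / 2 : ℝ) ^ t ≤ (5 / 8 : ℝ) ^ t :=
    pow_le_pow_left₀ (by norm_num) (by norm_num) t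
  have h3 : (0 : ℝ) < (5 / 8 : ℝ) ^ t := by positivity
  rw [h1]
  nlinarith

theorem bigM_ge (s : ℕ) (hs : 256 < s) : 128 ≤ bigM s := by
  unfold bigM
  have h : 9 ≤ Nat.clog 2 s := by
    have : 8 < Nat.clog 2 s := (Nat.lt_clog_iff_pow_lt (by norm_num)).2 (by simpa using hs)
    omega
  calc 128 = 2 ^ (9 - 2) := by norm_num
    _ ≤ 2 ^ (Nat.clog 2 s - 2) := Nat.pow_le_pow_right (by norm_num) (by omega)

/-- The numeric sum of the level weights. -/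
theorem wlev_pos (s : ℕ) (hs : 4 ≤ s) : 0 < wlev s := by
  unfold wlev
  split_ifs with h1 h2
  · obtain ⟨t, rfl⟩ : ∃ t, s = t + 3 := ⟨s - 3, by omega⟩
    have : t + 3 - 1 = (t) + 2 := by omega
    rw [this]
    exact psiQ_one_pos t (by omega)
  · exact psiQ_one_pos 29 (by norm_num)
  · have hm := bigM_ge s (by omega)
    have hm4 : 1 ≤ bigM s / 4 := by omega
    have h2m : (1 : ℝ) < 2 ^ (bigM s / 4) := one_lt_pow₀ (by norm_num) (by omega)
    have hmpos : (0 : ℝ) < (bigM s : ℝ) := by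
      exact_mod_cast (by omega : 0 < bigM s)
    have : (0 : ℝ) < (2 : ℝ) ^ (bigM s / 4) - 1 := by linarith
    positivity

theorem wlev_nonneg (s : ℕ) (hs : 4 ≤ s) : 0 ≤ wlev s := (wlev_pos s hs).le

theorem sum_low : ∑ s ∈ Finset.Icc 4 32, wlev s ≤ 0.8934 := by
  have h : Finset.Icc 4 32 = Finset.Ico 4 33 := by
    ext x
    simp only [Finset.mem_Icc, Finset.mem_Ico]
    omega
  rw [h, Finset.sum_Ico_eq_sum_range]
  have h2 : ∀ t ∈ Finset.range (33 - 4), wlev (4 + t) =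
      0.71 * (5 / 8 : ℝ) ^ (t + 1) - 1.16 * (1 / 2 : ℝ) ^ (t + 1 + 2) := by
    intro t ht
    have ht' : t < 33 - 4 := Finset.mem_range.1 ht
    unfold wlev
    rw [if_pos (by omega)]
    have : 4 + t - 1 = (t + 1) + 2 := by omega
    rw [this, psiQ_one_eq]
  rw [Finset.sum_congr rfl h2]
  norm_num [Finset.sum_range_succ]

theorem psi31_le : psiQ 31 1 ≤ 0.0000009 := by
  have := psiQ_one_eq 29
  norm_num at this ⊢
  rw [this]
  norm_num

theorem sum_mid : ∑ s ∈ Finset.Ioc 32 256, wlev s ≤ 0.00021 := by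
  have h2 : ∀ s ∈ Finset.Ioc 32 256, wlev s = psiQ 31 1 := by
    intro s hs
    have hs' := Finset.mem_Ioc.1 hs
    unfold wlev
    rw [if_neg (by omega), if_pos (by omega)]
  rw [Finset.sum_congr rfl h2, Finset.sum_const]
  have := psi31_le
  simp only [Nat.card_Ioc, nsmul_eq_mul]
  norm_num
  linarith

/-- The level `s` in the dyadic block `j`. -/
theorem bigM_block (j s : ℕ) (h1 : 2 ^ (j + 8) < s) (h2 : s ≤ 2 ^ (j + 9)) :
    bigM s = 2 ^ (j + 7) := by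
  unfold bigM
  have h3 : Nat.clog 2 s = j + 9 := by
    apply le_antisymm
    · exact Nat.clog_le_of_le_pow h2
    · exact Nat.succ_le_of_lt ((Nat.lt_clog_iff_pow_lt (by norm_num)).2 h1)
  rw [h3]
  congr 1

theorem wlev_block_le (j s : ℕ) (h1 : 2 ^ (j + 8) < s) (h2 : s ≤ 2 ^ (j + 9)) :
    wlev s ≤ (4 / 3) * (81 / 128 : ℝ) ^ (2 ^ (j + 5)) / ((2 : ℝ) ^ (j + 5)) := by
  have h256 : 256 < s := lt_of_le_of_lt (by
    calc 256 = 2 ^ 8 := by norm_num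
      _ ≤ 2 ^ (j + 8) := Nat.pow_le_pow_right (by norm_num) (by omega)) h1
  unfold wlev
  rw [if_neg (by omega), if_neg (by omega), bigM_block j s h1 h2]
  set u : ℕ := 2 ^ (j + 5) with hu
  have hm : 2 ^ (j + 7) = 4 * u := by rw [hu]; ring
  have hupos : 0 < u := by positivity
  have hu4 : (4 * u) / 4 = u := by omega
  rw [hm, hu4]
  have hm1 : 4 * u = (4 * u - 1) + 1 := by omega
  have h3 : (3 / 4 : ℝ) ^ (4 * u - 1) = (3 / 4 : ℝ) ^ (4 * u) * (4 / 3) := by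
    have : (3 / 4 : ℝ) ^ (4 * u) = (3 / 4 : ℝ) ^ (4 * u - 1) * (3 / 4) := by
      conv_lhs => rw [hm1]
      rw [pow_succ]
    rw [this]
    ring
  rw [h3]
  have hcast : ((4 * u : ℕ) : ℝ) = 4 * (u : ℝ) := by push_cast; ring
  rw [hcast]
  have hur : (0 : ℝ) < (u : ℝ) := by exact_mod_cast hupos
  have h4 : ((u : ℕ) : ℝ) = (2 : ℝ) ^ (j + 5) := by rw [hu]; push_cast; ring
  rw [← h4]
  have h5 : (81 / 128 : ℝ) ^ u = (2 : ℝ) ^ u * (3 / 4 : ℝ) ^ (4 * u) := by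
    rw [pow_mul, ← mul_pow]
    norm_num
  rw [h5]
  have h6 : (0 : ℝ) ≤ (3 / 4 : ℝ) ^ (4 * u) := by positivity
  have h7 : (0 : ℝ) ≤ (2 : ℝ) ^ u := by positivity
  have h8 : ((2 : ℝ) ^ u - 1) * ((3 / 4 : ℝ) ^ (4 * u) * (4 / 3)) * (4 / (4 * (u : ℝ))) =
      ((2 : ℝ) ^ u - 1) * (3 / 4 : ℝ) ^ (4 * u) * (4 / 3) / (u : ℝ) := by
    field_simp
  rw [h8, div_le_div_iff_of_pos_right hur]
  nlinarith [mul_nonneg h6 h7]

theorem block_sum_le (j : ℕ) :
    ∑ s ∈ Finset.Ioc (2 ^ (j + 8)) (2 ^ (j + 9)), wlev s ≤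
      (32 / 3) * (81 / 128 : ℝ) ^ (32 + j) := by
  have h1 : ∑ s ∈ Finset.Ioc (2 ^ (j + 8)) (2 ^ (j + 9)), wlev s ≤
      ∑ _s ∈ Finset.Ioc (2 ^ (j + 8)) (2 ^ (j + 9)),
        (4 / 3) * (81 / 128 : ℝ) ^ (2 ^ (j + 5)) / ((2 : ℝ) ^ (j + 5)) := by
    apply Finset.sum_le_sum
    intro s hs
    have hs' := Finset.mem_Ioc.1 hs
    exact wlev_block_le j s hs'.1 hs'.2
  refine h1.trans ?_
  rw [Finset.sum_const, Nat.card_Ioc]
  have h2 : 2 ^ (j + 9) - 2 ^ (j + 8) = 2 ^ (j + 8) := by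
    rw [pow_succ 2 (j + 8)]; omega
  rw [h2, nsmul_eq_mul]
  push_cast
  have h3 : (2 : ℝ) ^ (j + 8) * ((4 / 3) * (81 / 128 : ℝ) ^ (2 ^ (j + 5)) / ((2 : ℝ) ^ (j + 5))) =
      (32 / 3) * (81 / 128 : ℝ) ^ (2 ^ (j + 5)) := by
    have : (2 : ℝ) ^ (j + 8) = 8 * (2 : ℝ) ^ (j + 5) := by ring
    rw [this]
    field_simp
    ring
  rw [h3]
  apply mul_le_mul_of_nonneg_left _ (by norm_num)
  apply pow_le_pow_of_le_one (by norm_num) (by norm_num)
  have h4 : ∀ j : ℕ, 32 + j ≤ 2 ^ (j + 5) := by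
    intro j
    induction j with
    | zero => norm_num
    | succ n ih =>
      have : 2 ^ (n + 1 + 5) = 2 * 2 ^ (n + 5) := by ring
      omega
  exact h4 j

theorem sum_big_dyadic (J : ℕ) :
    ∑ s ∈ Finset.Ioc 256 (2 ^ (J + 8)), wlev s ≤
      (32 / 3) * (128 / 47) * (81 / 128 : ℝ) ^ 32 * (1 - (81 / 128 : ℝ) ^ J) := by
  induction J with
  | zero => norm_num
  | succ n ih =>
    have h0 : 256 ≤ 2 ^ (n + 8) := by
      calc 256 = 2 ^ 8 := by norm_num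
        _ ≤ 2 ^ (n + 8) := Nat.pow_le_pow_right (by norm_num) (by omega)
    have h1 : 2 ^ (n + 8) ≤ 2 ^ (n + 1 + 8) := Nat.pow_le_pow_right (by norm_num) (by omega)
    rw [← Finset.sum_Ioc_consecutive _ h0 h1]
    have h2 := block_sum_le n
    have h3 : n + 1 + 8 = n + 9 := by omega
    rw [h3]
    refine (add_le_add ih h2).trans (le_of_eq ?_)
    rw [pow_add, pow_succ]
    ring

theorem sum_big (T : ℕ) : ∑ s ∈ Finset.Ioc 256 T, wlev s ≤ 0.00002 := by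
  have h1 : T ≤ 2 ^ (T + 8) := by
    have h := Nat.lt_two_pow_self (n := T + 8)
    omega
  have h2 : Finset.Ioc 256 T ⊆ Finset.Ioc 256 (2 ^ (T + 8)) :=
    Finset.Ioc_subset_Ioc_right h1
  have h3 : ∑ s ∈ Finset.Ioc 256 T, wlev s ≤ ∑ s ∈ Finset.Ioc 256 (2 ^ (T + 8)), wlev s := by
    apply Finset.sum_le_sum_of_subset_of_nonneg h2
    intro s hs _
    have := (Finset.mem_Ioc.1 hs).1
    exact wlev_nonneg s (by omega)
  refine h3.trans ((sum_big_dyadic T).trans ?_)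
  have h4 : (0 : ℝ) ≤ (81 / 128 : ℝ) ^ T := by positivity
  have h5 : (32 / 3) * (128 / 47) * (81 / 128 : ℝ) ^ 32 ≤ 0.00002 := by norm_num
  have h6 : (0 : ℝ) ≤ (32 / 3) * (128 / 47) * (81 / 128 : ℝ) ^ 32 := by norm_num
  nlinarith

theorem wlev_sum_le (T : ℕ) : ∑ s ∈ Finset.Icc 4 T, wlev s ≤ Wstar := by
  have h1 : Finset.Icc 4 T ⊆ Finset.Icc 4 32 ∪ (Finset.Ioc 32 256 ∪ Finset.Ioc 256 T) := by
    intro s hs
    have := Finset.mem_Icc.1 hs
    simp only [Finset.mem_union, Finset.mem_Icc, Finset.mem_Ioc]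
    omega
  have hnn : ∀ s ∈ Finset.Icc 4 32 ∪ (Finset.Ioc 32 256 ∪ Finset.Ioc 256 T), 0 ≤ wlev s := by
    intro s hs
    simp only [Finset.mem_union, Finset.mem_Icc, Finset.mem_Ioc] at hs
    exact wlev_nonneg s (by omega)
  have h2 := Finset.sum_le_sum_of_subset_of_nonneg (f := wlev) h1 (fun s hs _ => hnn s hs)
  refine h2.trans ?_
  have hd1 : Disjoint (Finset.Icc 4 32) (Finset.Ioc 32 256 ∪ Finset.Ioc 256 T) := by
    rw [Finset.disjoint_left]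
    intro s hs hs'
    simp only [Finset.mem_union, Finset.mem_Icc, Finset.mem_Ioc] at hs hs'
    omega
  have hd2 : Disjoint (Finset.Ioc 32 256) (Finset.Ioc 256 T) := by
    rw [Finset.disjoint_left]
    intro s hs hs'
    simp only [Finset.mem_Ioc] at hs hs'
    omega
  rw [Finset.sum_union hd1, Finset.sum_union hd2]
  have := sum_low
  have := sum_mid
  have := sum_big T
  have := Wstar_ge
  linarith

end Crest.Agent.Thorp
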