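import Crest.Agent.Lib.Thorp.MGF

/-!
# Thorp: the numerics.

`Rk N k = -k(k-1)/(2N) + Rmgf N k` bounds `log tr(M_{Fin k}^41)`.

Write `ρ = k/N`; `pk N k ≤ ρ²`, `-k(k-1)/(2N) = -N ρ²/2 + ρ/2`. So `Rk N k ≤ N * Rhat (ρ²) + 1/2`, where
`Rhat p = -p/2 + (1/8) log(1+15p) + (1/20) log(1+2 c21 p + c22 p²) + (1/56) log(1 + 4 d41 p + 6 d42 p² + 4 d43 p³ + d44 p⁴) + (57/280) log(1+8p)`.
`Rhat p ≤ 3.94 p` for `0 ≤ p ≤ .021`, `Rhat p ≤ 3.8 p` for `.0137 ≤ p ≤ .021`.  (`Rhat p / p` decreases from `3.932` at `0` to `3.79` at `.0137` and `3.72` at `.02`; use `log(1+z) ≤ z - z²/2 + z³/3`, or tangent lines.)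

Regime I: `2 ≤ j ≤ N/256`, `k = √(j (N/8)) + 1`: `k² ≤ j N/8 + 2√(jN/8) + 1`, `4 k²/N ≤ j/2 + 1 ≤ j`, `C(k,j) ≥ (k/j)^j ≥ (N/(8j))^(j/2)`.  The term is at most `(e N/j)^j e^(24 j + 12) (8j/N)^(12 j) ≤ (e^31 8^12 (j/N)^11)^j`, `e^31 8^12 ≤ 2^81`, `(j/N)^11 ≤ 2^(-88)`.
For `j ≤ √N`: `≤ (2^81 N^(-11/2))^j`; for `j > √N`: `≤ 2^(-7 √N)`.  The sum tends to zero.

Regime II: `N/256 < j ≤ 3N/32`, `k = ⌈3j/2⌉`, `i = ⌊j/2⌋`: `C(k,j) ≥ C(3i,2i) ≥ (27/4)^i/(3i+1)` (by `choose_mode`), `C(N,j) ≤ (eN/j)^j`.  With `α = j/N`, `ρ ≤ 3α/2 + 1/N`: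
log(term)/N ≤ `α log(e/α) + 24 Rhat(ρ²) - 12 α log(27/4) + o(1)`, `12 log(27/4) ≥ 22.91`.  Split: `α ∈ [1/256, 1/32]`: `α(6.55 - 22.91 + 212.8 α + o(1)) ≤ -9α`; `[1/32, 1/16]`: `α(4.47 - 22.91 + 212.8α) ≤ -5α`;  `[1/16, 5/64]`: `α(3.78 - 22.91 + 212.8 α) ≤ -2α`;
`[5/64, 3/32]`: `α(3.55 - 22.91 + 205.2 α + o(1)) ≤ -.01`.  So each term is at most `exp(-N/200)` for `N` large.

High part: `N = 64u`: `24 (Bfull - 1) - 23·19/64 < -.2`, `Bfull = log 2/2 + log 3/4 + log(21/4)/8 + Wstar/2 ≤ 1.2759`, `N!/N^N ≤ e N e^(-N)`.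
-/

set_option autoImplicit false

namespace Crest.Agent.Thorp

open Finset Filter Topology

/-- Bound for `log tr(M_{Fin k}^41)`. -/
noncomputable def Rk (N k : ℕ) : ℝ := -((k : ℝ) * ((k : ℝ) - 1)) / (2 * N) + Rmgf N k

/-- The tuple length used at level `j`. -/
def kOf (N j : ℕ) : ℕ := if j ≤ N / 256 then Nat.sqrt (j * (N / 8)) + 1 else (3 * j + 1) / 2

theorem kOf_add_le (N j : ℕ) (hN : 2 ^ 12 ≤ N) (hj : 32 * j ≤ 3 * N) : kOf N j + j ≤ N := by
  unfold kOf
  split_ifs with h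
  · have hs := Nat.sqrt_le (j * (N / 8))
    set s := Nat.sqrt (j * (N / 8)) with hsdef
    have h1 : 256 * j ≤ N := by omega
    have h2 : 8 * (N / 8) ≤ N := Nat.mul_div_le N 8
    have h3 : 4 * s ≤ N := by
      by_contra hc
      have hc' : N < 4 * s := by omega
      have h4 : N * N < (4 * s) * (4 * s) := Nat.mul_self_lt_mul_self hc'
      have h5 : (256 * j) * (8 * (N / 8)) ≤ N * N := Nat.mul_le_mul h1 h2
      nlinarith
    omega
  · omega

/-- The mode of the binomial distribution: each term of the expansion of `(r + (n-r))^n` is at most the term of index `r`. -/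
theorem choose_mode (n r : ℕ) (hr : r ≤ n) :
    (n : ℝ) ^ n ≤ ((n : ℝ) + 1) * (n.choose r : ℝ) * (r : ℝ) ^ r * ((n - r : ℕ) : ℝ) ^ (n - r) := by
  obtain ⟨s, rfl⟩ : ∃ s, n = r + s := ⟨n - r, by omega⟩
  have hsub : r + s - r = s := by omega
  rw [hsub]
  -- the terms of the binomial expansion
  set t : ℕ → ℕ := fun k => (r + s).choose k * r ^ k * s ^ (r + s - k) with ht
  have hstep : ∀ k, k < r + s → t (k + 1) * ((k + 1) * s) = t k * ((r + s - k) * r) := by
    intro k hk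
    have h1 : (r + s - k) = (r + s - (k + 1)) + 1 := by omega
    have h2 := Nat.choose_succ_right_eq (r + s) k
    simp only [ht]
    rw [h1]
    have h3 : (r + s - (k + 1) + 1 - 1) = r + s - (k + 1) := by omega
    calc (r + s).choose (k + 1) * r ^ (k + 1) * s ^ (r + s - (k + 1)) * ((k + 1) * s)
        = ((r + s).choose (k + 1) * (k + 1)) * r ^ (k + 1) * s ^ (r + s - (k + 1) + 1) := by ring
      _ = ((r + s).choose k * (r + s - k)) * r ^ (k + 1) * s ^ (r + s - (k + 1) + 1) := by rw [h2]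
      _ = (r + s).choose k * r ^ k * s ^ (r + s - (k + 1) + 1) * ((r + s - (k + 1) + 1) * r) := by
          rw [← h1]; ring
  have hup : ∀ k, k < r → t k ≤ t (k + 1) := by
    intro k hk
    have h := hstep k (by omega)
    have h1 : (k + 1) * s ≤ (r + s - k) * r := by
      obtain ⟨d, rfl⟩ : ∃ d, r = k + 1 + d := ⟨r - (k + 1), by omega⟩
      have : k + 1 + d + s - k = 1 + d + s := by omega
      rw [this]
      nlinarith
    have hpos : 0 < (r + s - k) * r := Nat.mul_pos (by omega) (by omega)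
    have h2 : t k * ((r + s - k) * r) ≤ t (k + 1) * ((r + s - k) * r) := by
      rw [← h]
      exact Nat.mul_le_mul_left _ h1
    exact Nat.le_of_mul_le_mul_right h2 hpos
  have hdown : ∀ k, r ≤ k → k < r + s → t (k + 1) ≤ t k := by
    intro k hk hk2
    have h := hstep k hk2
    have hs : 0 < s := by omega
    have h1 : (r + s - k) * r ≤ (k + 1) * s := by
      obtain ⟨d, rfl⟩ : ∃ d, k = r + d := ⟨k - r, by omega⟩
      have hd : r + s - (r + d) = s - d := by omega
      rw [hd]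
      have : (s - d) * r ≤ s * r := Nat.mul_le_mul_right _ (by omega)
      nlinarith
    have hpos : 0 < (k + 1) * s := Nat.mul_pos (by omega) hs
    have h2 : t (k + 1) * ((k + 1) * s) ≤ t k * ((k + 1) * s) := by
      rw [h]
      exact Nat.mul_le_mul_left _ h1
    exact Nat.le_of_mul_le_mul_right h2 hpos
  have hbelow : ∀ d, d ≤ r → t (r - d) ≤ t r := by
    intro d
    induction d with
    | zero => intro _; simp
    | succ d ih =>
      intro hd
      have h1 := ih (by omega)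
      have h2 := hup (r - (d + 1)) (by omega)
      have h3 : r - (d + 1) + 1 = r - d := by omega
      rw [h3] at h2
      exact h2.trans h1
  have habove : ∀ d, d ≤ s → t (r + d) ≤ t r := by
    intro d
    induction d with
    | zero => intro _; simp
    | succ d ih =>
      intro hd
      have h1 := ih (by omega)
      have h2 := hdown (r + d) (by omega) (by omega)
      have h3 : r + d + 1 = r + (d + 1) := by omega
      rw [h3] at h2
      exact h2.trans h1
  have hall : ∀ k ∈ Finset.range (r + s + 1), t k ≤ t r := by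
    intro k hk
    have hk' : k ≤ r + s := by simpa [Nat.lt_succ_iff] using hk
    rcases Nat.le_total k r with h | h
    · have := hbelow (r - k) (by omega)
      have h2 : r - (r - k) = k := by omega
      rwa [h2] at this
    · have := habove (k - r) (by omega)
      have h2 : r + (k - r) = k := by omega
      rwa [h2] at this
  have hsum : (r + s) ^ (r + s) = ∑ k ∈ Finset.range (r + s + 1), t k := by
    rw [add_pow]
    refine Finset.sum_congr rfl (fun k _ => ?_)
    simp only [ht, Nat.cast_id]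
    ring
  have hle : (r + s) ^ (r + s) ≤ (r + s + 1) * t r := by
    rw [hsum]
    calc ∑ k ∈ Finset.range (r + s + 1), t k ≤ ∑ _k ∈ Finset.range (r + s + 1), t r :=
          Finset.sum_le_sum hall
      _ = (r + s + 1) * t r := by simp
  have hrr : t r = (r + s).choose r * r ^ r * s ^ s := by
    simp only [ht, hsub]
  rw [hrr] at hle
  have hcast : (((r + s) ^ (r + s) : ℕ) : ℝ) ≤ (((r + s + 1) * ((r + s).choose r * r ^ r * s ^ s) : ℕ) : ℝ) := by
    exact_mod_cast hle
  push_cast at hcast ⊢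
  linarith

/-- `Rhat`. -/
noncomputable def Rhat (p : ℝ) : ℝ :=
  -p / 2 + (1 / 8) * Real.log (1 + 15 * p) + (1 / 20) * Real.log (1 + 2 * c21 * p + c22 * p ^ 2) +
    (1 / 56) * Real.log (1 + 4 * d41 * p + 6 * d42 * p ^ 2 + 4 * d43 * p ^ 3 + d44 * p ^ 4) +
    (57 / 280) * Real.log (1 + 8 * p)

/-- `Rk` in terms of `Rhat`. -/
theorem Rk_le (N k : ℕ) (hN : 2 ≤ N) (hk : k ≤ N) :
    Rk N k ≤ N * Rhat (((k : ℝ) / N) ^ 2) + 1 / 2 := by
  have hN0 : (0 : ℝ) < N := by positivity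
  have hN2 : (2 : ℝ) ≤ N := by exact_mod_cast hN
  have hk' : (k : ℝ) ≤ N := by exact_mod_cast hk
  have hk0 : (0 : ℝ) ≤ k := by positivity
  set ρ : ℝ := (k : ℝ) / N with hρ
  have hρ0 : 0 ≤ ρ := by positivity
  have hρ1 : ρ ≤ 1 := by rw [hρ, div_le_one hN0]; exact hk'
  have hkρ : (k : ℝ) = ρ * N := by rw [hρ]; field_simp
  have hp0 : 0 ≤ pk N k := by
    unfold pk
    apply div_nonneg
    · rcases Nat.eq_zero_or_pos k with h | h
      · simp [h]
      · have : (1 : ℝ) ≤ k := by exact_mod_cast h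
        exact mul_nonneg hk0 (by linarith)
    · exact mul_nonneg hN0.le (by linarith)
  have hp1 : pk N k ≤ ρ ^ 2 := by
    unfold pk
    have hN1 : (0 : ℝ) < (N : ℝ) * ((N : ℝ) - 1) := mul_pos hN0 (by linarith)
    rw [div_le_iff₀ hN1, hρ, div_pow]
    have : (k : ℝ) ^ 2 / (N : ℝ) ^ 2 * ((N : ℝ) * ((N : ℝ) - 1)) = (k : ℝ) ^ 2 * ((N : ℝ) - 1) / N := by
      field_simp
    rw [this, le_div_iff₀ hN0]
    nlinarith
  set p := pk N k with hpdef
  set P := ρ ^ 2 with hP
  have hP0 : 0 ≤ P := by positivity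
  have hc21 : c21 = 211 / 32 := by norm_num [c21]
  have hc22 : c22 = 3661 / 16 := by norm_num [c22]
  have hd41 : d41 = 61741 / 16384 := by norm_num [d41]
  have hd42 : d42 = 683677 / 16384 := by norm_num [d42]
  have hd43 : d43 = 1512750877 / 2097152 := by norm_num [d43]
  have hd44 : d44 = 55982389315 / 524288 := by norm_num [d44]
  have l1 : Real.log (1 + 15 * p) ≤ Real.log (1 + 15 * P) :=
    Real.log_le_log (by positivity) (by gcongr)
  have l2 : Real.log (1 + 2 * c21 * p + c22 * p ^ 2) ≤ Real.log (1 + 2 * c21 * P + c22 * P ^ 2) := by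
    rw [hc21, hc22]
    exact Real.log_le_log (by positivity) (by gcongr)
  have l3 : Real.log (1 + 4 * d41 * p + 6 * d42 * p ^ 2 + 4 * d43 * p ^ 3 + d44 * p ^ 4) ≤
      Real.log (1 + 4 * d41 * P + 6 * d42 * P ^ 2 + 4 * d43 * P ^ 3 + d44 * P ^ 4) := by
    rw [hd41, hd42, hd43, hd44]
    exact Real.log_le_log (by positivity) (by gcongr)
  have l4 : Real.log (1 + 8 * p) ≤ Real.log (1 + 8 * P) :=
    Real.log_le_log (by positivity) (by gcongr)
  have hfirst : -((k : ℝ) * ((k : ℝ) - 1)) / (2 * N) = -((N : ℝ) * P) / 2 + ρ / 2 := by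
    rw [hP, hkρ]
    field_simp
    ring
  have hRm : Rmgf N k = (N / 8 : ℝ) * Real.log (1 + 15 * p) +
      (N / 20 : ℝ) * Real.log (1 + 2 * c21 * p + c22 * p ^ 2) +
      (N / 56 : ℝ) * Real.log (1 + 4 * d41 * p + 6 * d42 * p ^ 2 + 4 * d43 * p ^ 3 + d44 * p ^ 4) +
      (57 * N / 280 : ℝ) * Real.log (1 + 8 * p) := rfl
  unfold Rk Rhat
  rw [hfirst, hRm]
  have m1 := mul_le_mul_of_nonneg_left l1 (by positivity : (0 : ℝ) ≤ N / 8)
  have m2 := mul_le_mul_of_nonneg_left l2 (by positivity : (0 : ℝ) ≤ N / 20)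
  have m3 := mul_le_mul_of_nonneg_left l3 (by positivity : (0 : ℝ) ≤ N / 56)
  have m4 := mul_le_mul_of_nonneg_left l4 (by positivity : (0 : ℝ) ≤ 57 * N / 280)
  have : (N : ℝ) * (-P / 2 + (1 / 8) * Real.log (1 + 15 * P) +
      (1 / 20) * Real.log (1 + 2 * c21 * P + c22 * P ^ 2) +
      (1 / 56) * Real.log (1 + 4 * d41 * P + 6 * d42 * P ^ 2 + 4 * d43 * P ^ 3 + d44 * P ^ 4) +
      (57 / 280) * Real.log (1 + 8 * P)) = -((N : ℝ) * P) / 2 + (N / 8 : ℝ) * Real.log (1 + 15 * P) +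
      (N / 20 : ℝ) * Real.log (1 + 2 * c21 * P + c22 * P ^ 2) +
      (N / 56 : ℝ) * Real.log (1 + 4 * d41 * P + 6 * d42 * P ^ 2 + 4 * d43 * P ^ 3 + d44 * P ^ 4) +
      (57 * N / 280 : ℝ) * Real.log (1 + 8 * P) := by ring
  rw [this]
  linarith

/-- Third-order alternating bound for the logarithm. -/
private theorem log_one_add_le_T3 (z : ℝ) (hz : 0 ≤ z) :
    Real.log (1 + z) ≤ z - z ^ 2 / 2 + z ^ 3 / 3 := by
  have hmono : MonotoneOn (fun x : ℝ => x - x ^ 2 / 2 + x ^ 3 / 3 - Real.log (1 + x)) (Set.Ici 0) := by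
    apply monotoneOn_of_deriv_nonneg (convex_Ici 0)
    · apply ContinuousOn.sub (by fun_prop)
      apply ContinuousOn.log (by fun_prop)
      intro x hx
      have : (0 : ℝ) ≤ x := hx
      positivity
    · intro x hx
      rw [interior_Ici] at hx
      have hx0 : (0 : ℝ) < x := hx
      have h1 : (1 : ℝ) + x ≠ 0 := by positivity
      apply DifferentiableAt.differentiableWithinAt
      apply DifferentiableAt.sub (by fun_prop)
      exact DifferentiableAt.log (by fun_prop) h1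
    · intro x hx
      rw [interior_Ici] at hx
      have hx0 : (0 : ℝ) < x := hx
      have h1 : (1 : ℝ) + x ≠ 0 := by positivity
      have hd : HasDerivAt (fun x : ℝ => x - x ^ 2 / 2 + x ^ 3 / 3 - Real.log (1 + x))
          (1 - (2 * x ^ 1 * 1) / 2 + (3 * x ^ 2 * 1) / 3 - (0 + 1) / (1 + x)) x := by
        apply HasDerivAt.sub
        · apply HasDerivAt.add
          · apply HasDerivAt.sub (hasDerivAt_id' x)
            exact ((hasDerivAt_id' x).pow 2).div_const 2
          · exact ((hasDerivAt_id' x).pow 3).div_const 3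
        · exact ((hasDerivAt_const x (1 : ℝ)).add (hasDerivAt_id' x)).log h1
      rw [hd.deriv]
      have : 1 - (2 * x ^ 1 * 1) / 2 + (3 * x ^ 2 * 1) / 3 - (0 + 1) / (1 + x) = x ^ 3 / (1 + x) := by
        field_simp
        ring
      rw [this]
      positivity
  have h := hmono (Set.mem_Ici.2 le_rfl) (Set.mem_Ici.2 hz) hz
  simp only [zero_pow, ne_eq, OfNat.ofNat_ne_zero, not_false_eq_true, zero_div, sub_zero, add_zero, Real.log_one] at h
  linarith

/-- Fifth-order alternating bound for the logarithm. -/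
private theorem log_one_add_le_T5 (z : ℝ) (hz : 0 ≤ z) :
    Real.log (1 + z) ≤ z - z ^ 2 / 2 + z ^ 3 / 3 - z ^ 4 / 4 + z ^ 5 / 5 := by
  have hmono : MonotoneOn (fun x : ℝ => x - x ^ 2 / 2 + x ^ 3 / 3 - x ^ 4 / 4 + x ^ 5 / 5 - Real.log (1 + x))
      (Set.Ici 0) := by
    apply monotoneOn_of_deriv_nonneg (convex_Ici 0)
    · apply ContinuousOn.sub (by fun_prop)
      apply ContinuousOn.log (by fun_prop)
      intro x hx
      have : (0 : ℝ) ≤ x := hx
      positivity
    · intro x hx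
      rw [interior_Ici] at hx
      have hx0 : (0 : ℝ) < x := hx
      have h1 : (1 : ℝ) + x ≠ 0 := by positivity
      apply DifferentiableAt.differentiableWithinAt
      apply DifferentiableAt.sub (by fun_prop)
      exact DifferentiableAt.log (by fun_prop) h1
    · intro x hx
      rw [interior_Ici] at hx
      have hx0 : (0 : ℝ) < x := hx
      have h1 : (1 : ℝ) + x ≠ 0 := by positivity
      have hd : HasDerivAt (fun x : ℝ => x - x ^ 2 / 2 + x ^ 3 / 3 - x ^ 4 / 4 + x ^ 5 / 5 - Real.log (1 + x))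
          (1 - (2 * x ^ 1 * 1) / 2 + (3 * x ^ 2 * 1) / 3 - (4 * x ^ 3 * 1) / 4 + (5 * x ^ 4 * 1) / 5
            - (0 + 1) / (1 + x)) x := by
        apply HasDerivAt.sub
        · apply HasDerivAt.add
          · apply HasDerivAt.sub
            · apply HasDerivAt.add
              · apply HasDerivAt.sub (hasDerivAt_id' x)
                exact ((hasDerivAt_id' x).pow 2).div_const 2
              · exact ((hasDerivAt_id' x).pow 3).div_const 3
            · exact ((hasDerivAt_id' x).pow 4).div_const 4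
          · exact ((hasDerivAt_id' x).pow 5).div_const 5
        · exact ((hasDerivAt_const x (1 : ℝ)).add (hasDerivAt_id' x)).log h1
      rw [hd.deriv]
      have : 1 - (2 * x ^ 1 * 1) / 2 + (3 * x ^ 2 * 1) / 3 - (4 * x ^ 3 * 1) / 4 + (5 * x ^ 4 * 1) / 5
            - (0 + 1) / (1 + x) = x ^ 5 / (1 + x) := by
        field_simp
        ring
      rw [this]
      positivity
  have h := hmono (Set.mem_Ici.2 le_rfl) (Set.mem_Ici.2 hz) hz
  simp only [zero_pow, ne_eq, OfNat.ofNat_ne_zero, not_false_eq_true, zero_div, sub_zero, add_zero, Real.log_one] at h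
  linarith

/-- The tangent bound: `log(1+z) ≤ L + (z - z₀)/(1+z₀)` when `log(1+z₀) ≤ L`. -/
private theorem log_tangent (z z0 L : ℝ) (hz : 0 ≤ z) (hz0 : 0 ≤ z0) (hL : Real.log (1 + z0) ≤ L) :
    Real.log (1 + z) ≤ L + (z - z0) / (1 + z0) := by
  have h1 : 0 < 1 + z := by positivity
  have h2 : 0 < 1 + z0 := by positivity
  have h3 : Real.log ((1 + z) / (1 + z0)) ≤ (1 + z) / (1 + z0) - 1 :=
    Real.log_le_sub_one_of_pos (by positivity)
  rw [Real.log_div h1.ne' h2.ne'] at h3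
  have h4 : (1 + z) / (1 + z0) - 1 = (z - z0) / (1 + z0) := by
    field_simp
    ring
  rw [h4] at h3
  linarith

private theorem Rhat_eq (p : ℝ) : Rhat p =
    -p / 2 + (1 / 8) * Real.log (1 + 15 * p) +
      (1 / 20) * Real.log (1 + 2 * (211 / 32) * p + (3661 / 16) * p ^ 2) +
    (1 / 56) * Real.log (1 + 4 * (61741 / 16384) * p + 6 * (683677 / 16384) * p ^ 2 +
      4 * (1512750877 / 2097152) * p ^ 3 + (55982389315 / 524288) * p ^ 4) +
    (57 / 280) * Real.log (1 + 8 * p) := by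
  have hc21 : c21 = 211 / 32 := by norm_num [c21]
  have hc22 : c22 = 3661 / 16 := by norm_num [c22]
  have hd41 : d41 = 61741 / 16384 := by norm_num [d41]
  have hd42 : d42 = 683677 / 16384 := by norm_num [d42]
  have hd43 : d43 = 1512750877 / 2097152 := by norm_num [d43]
  have hd44 : d44 = 55982389315 / 524288 := by norm_num [d44]
  unfold Rhat
  rw [hc21, hc22, hd41, hd42, hd43, hd44]

theorem Rhat_le_b (p : ℝ) (h0 : 0.0137 ≤ p) (h1 : p ≤ 0.021) : Rhat p ≤ 3.8 * p := by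
  have hp : 0 ≤ p := by linarith [show (0 : ℝ) ≤ 0.0137 by norm_num]
  rw [Rhat_eq]
  have e1 : Real.log (1 + (21 / 100 : ℝ)) ≤ 19065 / 100000 :=
    (log_one_add_le_T5 _ (by norm_num)).trans (by norm_num)
  have e2 : Real.log (1 + (23 / 100 : ℝ)) ≤ 20704 / 100000 :=
    (log_one_add_le_T5 _ (by norm_num)).trans (by norm_num)
  have e3 : Real.log (1 + (27 / 100 : ℝ)) ≤ 23907 / 100000 :=
    (log_one_add_le_T5 _ (by norm_num)).trans (by norm_num)
  have e4 : Real.log (1 + (11 / 100 : ℝ)) ≤ 10437 / 100000 :=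
    (log_one_add_le_T5 _ (by norm_num)).trans (by norm_num)
  have t1 := log_tangent (15 * p) (21 / 100) _ (by positivity) (by norm_num) e1
  have t2 := log_tangent (2 * (211 / 32) * p + (3661 / 16) * p ^ 2) (23 / 100) _ (by positivity) (by norm_num) e2
  have t3 := log_tangent (4 * (61741 / 16384) * p + 6 * (683677 / 16384) * p ^ 2 +
      4 * (1512750877 / 2097152) * p ^ 3 + (55982389315 / 524288) * p ^ 4) (27 / 100) _ (by positivity) (by norm_num) e3
  have t4 := log_tangent (8 * p) (11 / 100) _ (by positivity) (by norm_num) e4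
  have a2 : 1 + 2 * (211 / 32) * p + (3661 / 16) * p ^ 2 = 1 + (2 * (211 / 32) * p + (3661 / 16) * p ^ 2) := by ring
  have a3 : 1 + 4 * (61741 / 16384) * p + 6 * (683677 / 16384) * p ^ 2 +
      4 * (1512750877 / 2097152) * p ^ 3 + (55982389315 / 524288) * p ^ 4 =
      1 + (4 * (61741 / 16384) * p + 6 * (683677 / 16384) * p ^ 2 +
      4 * (1512750877 / 2097152) * p ^ 3 + (55982389315 / 524288) * p ^ 4) := by ring
  rw [a2, a3]
  -- the polynomial inequality
  have q1 : p ^ 2 ≤ (0.0137 + 0.021) * p - 0.0137 * 0.021 := by nlinarith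
  have q2 : p ^ 3 ≤ 0.021 * p ^ 2 := by
    have : 0 ≤ p ^ 2 * (0.021 - p) := mul_nonneg (by positivity) (by linarith)
    nlinarith
  have q3 : p ^ 4 ≤ 0.021 ^ 2 * p ^ 2 := by
    have h2 : p ^ 2 ≤ 0.021 ^ 2 := by nlinarith
    have : 0 ≤ p ^ 2 * (0.021 ^ 2 - p ^ 2) := mul_nonneg (by positivity) (by linarith)
    nlinarith
  norm_num at t1 t2 t3 t4 q1 q2 q3 h0 h1 ⊢
  nlinarith

theorem Rhat_le_a (p : ℝ) (h0 : 0 ≤ p) (h1 : p ≤ 0.021) : Rhat p ≤ 3.94 * p := by
  by_cases hp : 0.0137 ≤ p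
  · have := Rhat_le_b p hp h1
    linarith
  · have hp' : p ≤ 0.0137 := le_of_lt (not_le.1 hp)
    rw [Rhat_eq]
    have t1 := log_one_add_le_T3 (15 * p) (by positivity)
    have t2 := Real.log_le_sub_one_of_pos
      (by positivity : 0 < 1 + 2 * (211 / 32) * p + (3661 / 16) * p ^ 2)
    have t3 := Real.log_le_sub_one_of_pos
      (by positivity : 0 < 1 + 4 * (61741 / 16384) * p + 6 * (683677 / 16384) * p ^ 2 +
      4 * (1512750877 / 2097152) * p ^ 3 + (55982389315 / 524288) * p ^ 4)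
    have t4 := log_one_add_le_T3 (8 * p) (by positivity)
    have q2 : p ^ 2 ≤ 0.0137 * p := by nlinarith
    have q3 : p ^ 3 ≤ 0.0137 * p ^ 2 := by
      have : 0 ≤ p ^ 2 * (0.0137 - p) := mul_nonneg (by positivity) (by linarith)
      nlinarith
    have q4 : p ^ 4 ≤ 0.0137 * p ^ 3 := by
      have : 0 ≤ p ^ 3 * (0.0137 - p) := mul_nonneg (by positivity) (by linarith)
      nlinarith
    norm_num at t1 t2 t3 t4 q2 q3 q4 h1 ⊢
    nlinarith

end Crest.Agent.Thorp
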